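import Crest.Agent.R214.Defs

/-!
# R214/Basic1

`cen`, `tri`, integrals over the cell, partial derivatives.
-/

set_option autoImplicit false

open MeasureTheory Set Filter Real
open scoped Topology

noncomputable section

namespace Crest.Agent.R214

theorem cen_mem (t : ℝ) : cen t ∈ I0 := by
  have h : round (t - round t) = 0 := by rw [round_sub_intCast, sub_self]
  have h2 := round_eq_zero_iff.1 h
  rwa [← neg_div] at h2
theorem cen_of_mem {t : ℝ} (h : t ∈ I0) : cen t = t := by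
  have h2 : round t = 0 := round_eq_zero_iff.2 (by rwa [← neg_div])
  rw [cen, h2, Int.cast_zero, sub_zero]
theorem cen_add_int (t : ℝ) (n : ℤ) : cen (t + n) = cen t := by
  rw [cen, cen, round_add_intCast]
  push_cast
  ring
theorem measurable_cen : Measurable cen := by
  have h : cen = fun t : ℝ => t - (⌊t + 1 / 2⌋ : ℤ) := funext fun t => by rw [cen, round_eq]
  rw [h]
  exact measurable_id.sub (measurable_from_top.comp (measurable_id.add_const _).floor)
theorem tri_nonneg (t : ℝ) : 0 ≤ tri t := abs_nonneg _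
theorem tri_le_half (t : ℝ) : tri t ≤ 1 / 2 := abs_sub_round t
theorem tri_add_int (t : ℝ) (n : ℤ) : tri (t + n) = tri t := by rw [tri, cen_add_int, tri]
/-- `round_le` -/
theorem tri_le_abs_sub (t : ℝ) (n : ℤ) : tri t ≤ |t - n| := round_le t n
theorem tri_neg (t : ℝ) : tri (-t) = tri t := by
  have h : ∀ t : ℝ, tri (-t) ≤ tri t := fun t => (tri_le_abs_sub (-t) (-round t)).trans_eq (by
    rw [tri, cen, ← abs_neg]
    congr 1
    push_cast
    ring)
  exact le_antisymm (h t) (by simpa using h (-t))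
theorem tri_of_abs_le {t : ℝ} (h : |t| ≤ 1 / 2) : tri t = |t| := by
  have key : ∀ t : ℝ, |t| ≤ 1 / 2 → t ≤ 0 → tri t = |t| := fun t h h0 => by
    rw [tri, cen_of_mem ⟨by linarith [(abs_le.1 h).1], by linarith⟩]
  rcases le_total t 0 with h0 | h0
  · exact key t h h0
  · rw [← tri_neg, key (-t) (by rwa [abs_neg]) (by linarith), abs_neg]
theorem tri_tri (t : ℝ) : tri (tri t) = tri t := by
  rw [tri_of_abs_le ((abs_of_nonneg (tri_nonneg t)).trans_le (tri_le_half t)), abs_of_nonneg (tri_nonneg t)]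
/-- `tri` is `1`-Lipschitz -/
theorem continuous_tri : Continuous tri := by
  refine (LipschitzWith.of_le_add fun x y => (tri_le_abs_sub x (round y)).trans ?_).continuous
  rw [Real.dist_eq, add_comm]
  exact abs_sub_le _ _ _

theorem measurableSet_I0 : MeasurableSet I0 := measurableSet_Ico
theorem measurableSet_cell : MeasurableSet cell :=
  measurableSet_I0.prod (measurableSet_I0.prod measurableSet_I0)
theorem measurableSet_cell2 : MeasurableSet cell2 := measurableSet_I0.prod measurableSet_I0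
theorem volume_I0 : volume I0 = 1 := by
  rw [I0, Real.volume_Ico]
  norm_num
theorem volume_cell : volume cell = 1 := by
  rw [cell, Measure.volume_eq_prod, Measure.prod_prod, Measure.volume_eq_prod, Measure.prod_prod, volume_I0]
  simp
theorem volume_cell2 : volume cell2 = 1 := by
  rw [cell2, Measure.volume_eq_prod, Measure.prod_prod, volume_I0]
  simp
instance : IsFiniteMeasure (volume.restrict I0) := ⟨by simp [volume_I0]⟩
instance : IsFiniteMeasure (volume.restrict cell) := ⟨by simp [volume_cell]⟩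
instance : IsFiniteMeasure (volume.restrict cell2) := ⟨by simp [volume_cell2]⟩

theorem integral_I0 (g : ℝ → ℝ) : ∫ x in I0, g x = ∫ x in (-1 / 2 : ℝ)..(1 / 2), g x := by
  rw [intervalIntegral.integral_of_le (by norm_num), I0, integral_Ico_eq_integral_Ioc]

section fd

variable {G Z : Type} [AddCommGroup G] [MeasurableSpace G] [MeasurableAdd G] [AddCommGroup Z] [Countable Z]
  {μ : Measure G} [μ.IsAddLeftInvariant] (ψ : Z →+ G) {s : Set G}

omit [MeasurableAdd G] [Countable Z] [μ.IsAddLeftInvariant] in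
theorem basic1_fd (hs : MeasurableSet s) (h : ∀ x, ∃! z, ψ z + x ∈ s) :
    IsAddFundamentalDomain ψ.range s μ := by
  refine IsAddFundamentalDomain.mk' hs.nullMeasurableSet fun x => ?_
  obtain ⟨z, hz, hu⟩ := h x
  refine ⟨⟨ψ z, z, rfl⟩, hz, ?_⟩
  rintro ⟨_, z', rfl⟩ hz'
  rw [hu z' hz']

theorem basic1_int (hs : MeasurableSet s) (h : ∀ x, ∃! z, ψ z + x ∈ s) {f : G → ℝ}
    (hf : ∀ z x, f (x + ψ z) = f x) (c : G) : ∫ p in s, f (p + c) ∂μ = ∫ p in s, f p ∂μ := by
  have : Countable ψ.range := (countable_range ψ).to_subtype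
  have h1 := basic1_fd (μ := μ) ψ hs h
  have h2 := (measurePreserving_add_left μ c).setIntegral_image_emb (measurableEmbedding_addLeft c) f s
  simp only [add_comm _ c]
  rw [← h2]
  refine (h1.vadd_of_comm c).setIntegral_eq h1 ?_
  rintro ⟨_, z, rfl⟩ x
  exact (congrArg f (add_comm _ _)).trans (hf z x)

theorem basic1_ae (hs : MeasurableSet s) (h : ∀ x, ∃! z, ψ z + x ∈ s) {Q : G → Prop}
    (hQ : ∀ z x, Q (x + ψ z) ↔ Q x) (hae : ∀ᵐ x ∂(μ.restrict s), Q x) : ∀ᵐ x ∂μ, Q x := by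
  have : Countable ψ.range := (countable_range ψ).to_subtype
  rw [ae_iff, Measure.restrict_apply' hs] at hae
  refine (basic1_fd (μ := μ) ψ hs h).measure_zero_of_invariant _ ?_ hae
  rintro ⟨_, z, rfl⟩
  ext x
  rw [mem_vadd_set_iff_neg_vadd_mem]
  refine not_congr ?_
  change Q (-ψ z + x) ↔ Q x
  rw [add_comm, ← map_neg, hQ]

end fd

instance basic1_inv2 : (volume : Measure Y).IsAddLeftInvariant :=
  inferInstanceAs ((volume : Measure ℝ).prod volume).IsAddLeftInvariant

instance basic1_inv3 : (volume : Measure X).IsAddLeftInvariant :=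
  inferInstanceAs ((volume : Measure ℝ).prod (volume : Measure Y)).IsAddLeftInvariant

theorem basic1_I0 (x : ℝ) (n : ℤ) : (n : ℝ) + x ∈ I0 ↔ n = -round x := by
  rw [I0, neg_div, ← round_eq_zero_iff, round_intCast_add, add_eq_zero_iff_eq_neg]

theorem basic1_u1 (x : ℝ) : ∃! z : ℤ, Int.castAddHom ℝ z + x ∈ I0 :=
  ⟨-round x, (basic1_I0 x _).2 rfl, fun z hz => (basic1_I0 x z).1 hz⟩

theorem basic1_u2 (x : Y) : ∃! z : ℤ × ℤ, (Int.castAddHom ℝ).prodMap (Int.castAddHom ℝ) z + x ∈ cell2 :=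
  ⟨(-round x.1, -round x.2), ⟨(basic1_I0 _ _).2 rfl, (basic1_I0 _ _).2 rfl⟩, fun _ hz =>
    Prod.ext ((basic1_I0 _ _).1 hz.1) ((basic1_I0 _ _).1 hz.2)⟩

theorem basic1_u3 (x : X) : ∃! z : ℤ × ℤ × ℤ,
    (Int.castAddHom ℝ).prodMap ((Int.castAddHom ℝ).prodMap (Int.castAddHom ℝ)) z + x ∈ cell :=
  ⟨(-round x.1, -round x.2.1, -round x.2.2),
    ⟨(basic1_I0 _ _).2 rfl, (basic1_I0 _ _).2 rfl, (basic1_I0 _ _).2 rfl⟩, fun _ hz =>
    Prod.ext ((basic1_I0 _ _).1 hz.1) (Prod.ext ((basic1_I0 _ _).1 hz.2.1) ((basic1_I0 _ _).1 hz.2.2))⟩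

theorem integral_I0_add {g : ℝ → ℝ} (hg : Function.Periodic g 1) (c : ℝ) :
    ∫ x in I0, g (x + c) = ∫ x in I0, g x :=
  basic1_int _ measurableSet_I0 basic1_u1 (fun z x => by simpa using hg.int_mul z x) c
/-- `cell` and `cell + c` are fundamental domains of the lattice (e.g. `IsAddFundamentalDomain` for the action of
`ℤ × ℤ × ℤ` or of `AddSubgroup.zmultiples 1` products, `IsAddFundamentalDomain.setIntegral_eq`); no integrability
is needed. -/
theorem integral_cell_add {f : X → ℝ} (hf : Pd f) (c : X) :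
    ∫ p in cell, f (p + c) = ∫ p in cell, f p :=
  basic1_int _ measurableSet_cell basic1_u3 (fun z x => hf z.1 z.2.1 z.2.2 x) c
theorem integral_cell2_add {f : Y → ℝ} (hf : Pd2 f) (c : Y) :
    ∫ q in cell2, f (q + c) = ∫ q in cell2, f q :=
  basic1_int _ measurableSet_cell2 basic1_u2 (fun z x => hf z.1 z.2 x) c
/-- the translates of the cell cover the space -/
theorem ae_of_cell {Q : X → Prop} (hQ : Pd Q) (h : ∀ᵐ p ∂(volume.restrict cell), Q p) :
    ∀ᵐ p, Q p :=
  basic1_ae _ measurableSet_cell basic1_u3 (fun z x => (hQ z.1 z.2.1 z.2.2 x).to_iff) h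
theorem ae_of_cell2 {Q : Y → Prop} (hQ : Pd2 Q) (h : ∀ᵐ q ∂(volume.restrict cell2), Q q) :
    ∀ᵐ q, Q q :=
  basic1_ae _ measurableSet_cell2 basic1_u2 (fun z x => (hQ z.1 z.2 x).to_iff) h
theorem ae_of_I0 {Q : ℝ → Prop} (hQ : ∀ (n : ℤ) x, Q (x + n) ↔ Q x)
    (h : ∀ᵐ x ∂(volume.restrict I0), Q x) : ∀ᵐ x, Q x :=
  basic1_ae _ measurableSet_I0 basic1_u1 hQ h

theorem integrableOn_cell_of_bdd {f : X → ℝ} (hf : Measurable f) {C : ℝ} (h : ∀ p, |f p| ≤ C) :
    IntegrableOn f cell :=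
  Integrable.of_bound hf.aestronglyMeasurable C (Eventually.of_forall h)
theorem integrableOn_cell2_of_bdd {f : Y → ℝ} (hf : Measurable f) {C : ℝ} (h : ∀ p, |f p| ≤ C) :
    IntegrableOn f cell2 :=
  Integrable.of_bound hf.aestronglyMeasurable C (Eventually.of_forall h)

theorem basic1_cell_sub : cell ⊆ Icc (-1 / 2 : ℝ) (1 / 2) ×ˢ Icc (-1 / 2 : ℝ) (1 / 2) ×ˢ Icc (-1 / 2 : ℝ) (1 / 2) :=
  prod_mono Ico_subset_Icc_self (prod_mono Ico_subset_Icc_self Ico_subset_Icc_self)

theorem integrableOn_cell_of_cont {f : X → ℝ} (hf : Continuous f) : IntegrableOn f cell :=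
  (hf.continuousOn.integrableOn_compact (isCompact_Icc.prod (isCompact_Icc.prod isCompact_Icc))).mono_set
    basic1_cell_sub
theorem integrableOn_cell2_of_cont {f : Y → ℝ} (hf : Continuous f) : IntegrableOn f cell2 :=
  (hf.continuousOn.integrableOn_compact (isCompact_Icc.prod isCompact_Icc)).mono_set
    (prod_mono Ico_subset_Icc_self Ico_subset_Icc_self)
theorem integrableOn_I0_of_cont {f : ℝ → ℝ} (hf : Continuous f) : IntegrableOn f I0 :=
  hf.integrableOn_Icc.mono_set Ico_subset_Icc_self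
/-- Fubini -/
theorem integral_cell_prod {f : X → ℝ} (hf : IntegrableOn f cell) :
    ∫ p in cell, f p = ∫ q in cell2, ∫ x in I0, f (x, q) := by
  have h : volume.restrict cell = (volume.restrict I0).prod (volume.restrict cell2) := by
    rw [Measure.prod_restrict]
    rfl
  rw [IntegrableOn, h] at hf
  rw [h, integral_prod_symm f hf]
theorem Pd.exists_bound {f : X → ℝ} (hp : Pd f) (hf : Continuous f) : ∃ C, 0 ≤ C ∧ ∀ p, |f p| ≤ C := by
  obtain ⟨C, hC⟩ := (isCompact_Icc.prod (isCompact_Icc.prod isCompact_Icc)).exists_bound_of_continuousOn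
    (hf.continuousOn (s := Icc (-1 / 2 : ℝ) (1 / 2) ×ˢ Icc (-1 / 2 : ℝ) (1 / 2) ×ˢ Icc (-1 / 2 : ℝ) (1 / 2)))
  have h : ∀ p, |f p| ≤ C := fun p => by
    obtain ⟨z, hz, -⟩ := basic1_u3 p
    rw [← hp z.1 z.2.1 z.2.2 p, add_comm]
    exact hC _ (basic1_cell_sub hz)
  exact ⟨C, (abs_nonneg _).trans (h 0), h⟩
theorem Pd.periodic1 {α : Type*} {f : X → α} (hp : Pd f) (q : Y) :
    Function.Periodic (fun x => f (x, q)) 1 := fun x => by
  simpa [Prod.mk_zero_zero] using hp 1 0 0 (x, q)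

theorem continuous_d1 {f : X → ℝ} (hf : ContDiff ℝ 1 f) : Continuous (d1 f) :=
  (hf.continuous_fderiv one_ne_zero).clm_apply continuous_const
theorem continuous_d2 {f : X → ℝ} (hf : ContDiff ℝ 1 f) : Continuous (d2 f) :=
  (hf.continuous_fderiv one_ne_zero).clm_apply continuous_const
theorem continuous_d3 {f : X → ℝ} (hf : ContDiff ℝ 1 f) : Continuous (d3 f) :=
  (hf.continuous_fderiv one_ne_zero).clm_apply continuous_const
theorem continuous_dx {f : Y → ℝ} (hf : ContDiff ℝ 1 f) : Continuous (dx f) :=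
  (hf.continuous_fderiv one_ne_zero).clm_apply continuous_const
theorem continuous_dy {f : Y → ℝ} (hf : ContDiff ℝ 1 f) : Continuous (dy f) :=
  (hf.continuous_fderiv one_ne_zero).clm_apply continuous_const

theorem basic1_fderiv {f : X → ℝ} (hp : Pd f) : Pd (fderiv ℝ f) := fun a b c p => by
  rw [← fderiv_comp_add_right, funext (hp a b c)]

theorem Pd.d1 {f : X → ℝ} (hp : Pd f) : Pd (d1 f) :=
  fun a b c p => congrArg (fun L : X →L[ℝ] ℝ => L (1, 0, 0)) (basic1_fderiv hp a b c p)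
theorem Pd.d2 {f : X → ℝ} (hp : Pd f) : Pd (d2 f) :=
  fun a b c p => congrArg (fun L : X →L[ℝ] ℝ => L (0, 1, 0)) (basic1_fderiv hp a b c p)
theorem Pd.d3 {f : X → ℝ} (hp : Pd f) : Pd (d3 f) :=
  fun a b c p => congrArg (fun L : X →L[ℝ] ℝ => L (0, 0, 1)) (basic1_fderiv hp a b c p)
theorem hasDerivAt_d1 {f : X → ℝ} {x y z : ℝ} (hf : DifferentiableAt ℝ f (x, y, z)) :
    HasDerivAt (fun t => f (t, y, z)) (d1 f (x, y, z)) x :=
  hf.hasFDerivAt.comp_hasDerivAt x ((hasDerivAt_id x).prodMk (hasDerivAt_const x (y, z)))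
theorem hasDerivAt_d2 {f : X → ℝ} {x y z : ℝ} (hf : DifferentiableAt ℝ f (x, y, z)) :
    HasDerivAt (fun t => f (x, t, z)) (d2 f (x, y, z)) y :=
  hf.hasFDerivAt.comp_hasDerivAt y
    ((hasDerivAt_const y x).prodMk ((hasDerivAt_id y).prodMk (hasDerivAt_const y z)))
theorem hasDerivAt_d3 {f : X → ℝ} {x y z : ℝ} (hf : DifferentiableAt ℝ f (x, y, z)) :
    HasDerivAt (fun t => f (x, y, t)) (d3 f (x, y, z)) z :=
  hf.hasFDerivAt.comp_hasDerivAt z
    ((hasDerivAt_const z x).prodMk ((hasDerivAt_const z y).prodMk (hasDerivAt_id z)))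
theorem hasDerivAt_dx {f : Y → ℝ} {y z : ℝ} (hf : DifferentiableAt ℝ f (y, z)) :
    HasDerivAt (fun t => f (t, z)) (dx f (y, z)) y :=
  hf.hasFDerivAt.comp_hasDerivAt y ((hasDerivAt_id y).prodMk (hasDerivAt_const y z))
theorem hasDerivAt_dy {f : Y → ℝ} {y z : ℝ} (hf : DifferentiableAt ℝ f (y, z)) :
    HasDerivAt (fun t => f (y, t)) (dy f (y, z)) z :=
  hf.hasFDerivAt.comp_hasDerivAt z ((hasDerivAt_const z y).prodMk (hasDerivAt_id z))

theorem basic1_ftc {G G' : ℝ → ℝ} (h : ∀ t, HasDerivAt G (G' t) t) (hc : Continuous G')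
    (he : G (1 / 2) = G (-1 / 2)) : ∫ t in I0, G' t = 0 := by
  rw [integral_I0, intervalIntegral.integral_eq_sub_of_hasDerivAt (fun t _ => h t) (hc.intervalIntegrable _ _),
    he, sub_self]

theorem basic1_fst {F : Y → ℝ} (hF : Continuous F) (h : ∀ z, ∫ y in I0, F (y, z) = 0) :
    ∫ q in cell2, F q = 0 := by
  have h1 : volume.restrict cell2 = (volume.restrict I0).prod (volume.restrict I0) := by
    rw [Measure.prod_restrict]
    rfl
  have hf := integrableOn_cell2_of_cont hF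
  rw [IntegrableOn, h1] at hf
  rw [h1, integral_prod_symm F hf]
  simp [h]

theorem basic1_snd {F : Y → ℝ} (hF : Continuous F) (h : ∀ y, ∫ z in I0, F (y, z) = 0) :
    ∫ q in cell2, F q = 0 := by
  have h1 := setIntegral_prod (μ := volume) (ν := volume) F (integrableOn_cell2_of_cont hF)
  refine h1.trans ?_
  simp [h]

theorem basic1_snd3 {F : X → ℝ} (hF : Continuous F) (h : ∀ x, ∫ q in cell2, F (x, q) = 0) :
    ∫ p in cell, F p = 0 := by
  have h1 := setIntegral_prod (μ := volume) (ν := volume) (s := I0) (t := cell2) F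
    (integrableOn_cell_of_cont hF)
  refine h1.trans ?_
  simp [h]

/-- Fubini and the fundamental theorem of calculus -/
theorem integral_cell_d1 {g : X → ℝ} (hg : ContDiff ℝ 1 g)
    (h : ∀ y z, g (1 / 2, y, z) = g (-1 / 2, y, z)) : ∫ p in cell, d1 g p = 0 := by
  have hc := continuous_d1 hg
  have h1 : ∀ q : Y, ∫ x in I0, d1 g (x, q) = 0 := fun q =>
    basic1_ftc (fun t => hasDerivAt_d1 (hg.differentiable one_ne_zero _)) (by fun_prop) (h q.1 q.2)
  rw [integral_cell_prod (integrableOn_cell_of_cont hc)]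
  simp [h1]
theorem integral_cell_d2 {g : X → ℝ} (hg : ContDiff ℝ 1 g)
    (h : ∀ x z, g (x, 1 / 2, z) = g (x, -1 / 2, z)) : ∫ p in cell, d2 g p = 0 := by
  have hc := continuous_d2 hg
  exact basic1_snd3 hc fun x => basic1_fst (by fun_prop) fun z =>
    basic1_ftc (fun t => hasDerivAt_d2 (hg.differentiable one_ne_zero _)) (by fun_prop) (h x z)
theorem integral_cell_d3 {g : X → ℝ} (hg : ContDiff ℝ 1 g)
    (h : ∀ x y, g (x, y, 1 / 2) = g (x, y, -1 / 2)) : ∫ p in cell, d3 g p = 0 := by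
  have hc := continuous_d3 hg
  exact basic1_snd3 hc fun x => basic1_snd (by fun_prop) fun y =>
    basic1_ftc (fun t => hasDerivAt_d3 (hg.differentiable one_ne_zero _)) (by fun_prop) (h x y)
theorem integral_cell2_dx {g : Y → ℝ} (hg : ContDiff ℝ 1 g)
    (h : ∀ z, g (1 / 2, z) = g (-1 / 2, z)) : ∫ q in cell2, dx g q = 0 := by
  have hc := continuous_dx hg
  exact basic1_fst hc fun z =>
    basic1_ftc (fun t => hasDerivAt_dx (hg.differentiable one_ne_zero _)) (by fun_prop) (h z)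
theorem integral_cell2_dy {g : Y → ℝ} (hg : ContDiff ℝ 1 g)
    (h : ∀ y, g (y, 1 / 2) = g (y, -1 / 2)) : ∫ q in cell2, dy g q = 0 := by
  have hc := continuous_dy hg
  exact basic1_snd hc fun y =>
    basic1_ftc (fun t => hasDerivAt_dy (hg.differentiable one_ne_zero _)) (by fun_prop) (h y)

end Crest.Agent.R214
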