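import Crest.Agent.R214.Basic1

/-!
# R214/Basic2

Symmetries of `Good`.
-/

set_option autoImplicit false

open MeasureTheory Set Filter Real
open scoped Topology

noncomputable section

namespace Crest.Agent.R214

theorem sw12_sw12 (p : X) : sw12 (sw12 p) = p := rfl
theorem sw13_sw13 (p : X) : sw13 (sw13 p) = p := rfl
theorem measurePreserving_sw12 : MeasurePreserving sw12 volume volume := by
  have h1 := volume_preserving_prodAssoc (α₁ := ℝ) (β₁ := ℝ) (γ₁ := ℝ)
  have h2 : MeasurePreserving (Prod.map (Prod.swap : ℝ × ℝ → ℝ × ℝ) (id : ℝ → ℝ)) volume volume :=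
    Measure.measurePreserving_swap.prod (MeasurePreserving.id _)
  exact h1.comp (h2.comp h1.symm)
theorem measurePreserving_sw13 : MeasurePreserving sw13 volume volume := by
  have h2 : MeasurePreserving (Prod.map (id : ℝ → ℝ) (Prod.swap : ℝ × ℝ → ℝ × ℝ)) volume volume :=
    (MeasurePreserving.id _).prod Measure.measurePreserving_swap
  exact measurePreserving_sw12.comp (h2.comp measurePreserving_sw12)
theorem measurableEmbedding_sw12 : MeasurableEmbedding sw12 := by
  exact (MeasurableEquiv.ofInvolutive sw12 sw12_sw12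
    measurePreserving_sw12.measurable).measurableEmbedding
theorem measurableEmbedding_sw13 : MeasurableEmbedding sw13 := by
  exact (MeasurableEquiv.ofInvolutive sw13 sw13_sw13
    measurePreserving_sw13.measurable).measurableEmbedding
theorem sw12_cell : sw12 ⁻¹' cell = cell := by
  ext p
  simp only [cell, sw12, mem_preimage, mem_prod]
  tauto
theorem sw13_cell : sw13 ⁻¹' cell = cell := by
  ext p
  simp only [cell, sw13, mem_preimage, mem_prod]
  tauto
theorem ae_eq_sw12 {E F : Set X} (h : E =ᵐ[volume] F) : sw12 ⁻¹' E =ᵐ[volume] sw12 ⁻¹' F := by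
  exact measurePreserving_sw12.quasiMeasurePreserving.preimage_ae_eq h
theorem ae_eq_sw13 {E F : Set X} (h : E =ᵐ[volume] F) : sw13 ⁻¹' E =ᵐ[volume] sw13 ⁻¹' F := by
  exact measurePreserving_sw13.quasiMeasurePreserving.preimage_ae_eq h
theorem ae_eq_transl {E F : Set X} (h : E =ᵐ[volume] F) (c : X) :
    (fun p => p + c) ⁻¹' E =ᵐ[volume] (fun p => p + c) ⁻¹' F := by
  have h1 : (volume : Measure Y).IsAddRightInvariant := Measure.prod.instIsAddRightInvariant
  have h2 : (volume : Measure X).IsAddRightInvariant := Measure.prod.instIsAddRightInvariant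
  exact (measurePreserving_add_right volume c).quasiMeasurePreserving.preimage_ae_eq h

theorem Adm.continuous_dvg {φ₁ φ₂ φ₃ : X → ℝ} (h : Adm φ₁ φ₂ φ₃) : Continuous (dvg φ₁ φ₂ φ₃) := by
  exact ((continuous_d1 h.c1).add (continuous_d2 h.c2)).add (continuous_d3 h.c3)
theorem Adm.pd_dvg {φ₁ φ₂ φ₃ : X → ℝ} (h : Adm φ₁ φ₂ φ₃) : Pd (dvg φ₁ φ₂ φ₃) := by
  intro a b c p
  unfold dvg
  rw [h.p1.d1 a b c p, h.p2.d2 a b c p, h.p3.d3 a b c p]
theorem Adm.integral_dvg {φ₁ φ₂ φ₃ : X → ℝ} (h : Adm φ₁ φ₂ φ₃) : ∫ p in cell, dvg φ₁ φ₂ φ₃ p = 0 := by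
  have h1 := integrableOn_cell_of_cont (continuous_d1 h.c1)
  have h2 := integrableOn_cell_of_cont (continuous_d2 h.c2)
  have h3 := integrableOn_cell_of_cont (continuous_d3 h.c3)
  unfold dvg
  rw [integral_add (f := fun p => d1 φ₁ p + d2 φ₂ p) (h1.add h2) h3, integral_add h1 h2, integral_cell_d1 h.c1, integral_cell_d2 h.c2,
    integral_cell_d3 h.c3]
  · simp
  · intro x y
    rw [← h.p3 0 0 1 (x, y, -1 / 2)]
    congr 1
    ext <;> norm_num
  · intro x z
    rw [← h.p2 0 1 0 (x, -1 / 2, z)]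
    congr 1
    ext <;> norm_num
  · intro y z
    rw [← h.p1 1 0 0 (-1 / 2, y, z)]
    congr 1
    ext <;> norm_num
theorem PerLe.nonneg {E : Set X} {P : ℝ} (h : PerLe E P) : 0 ≤ P := by
  have := h (fun _ => 0) (fun _ => 0) (fun _ => 0)
    ⟨contDiff_const, contDiff_const, contDiff_const, fun _ _ _ _ => rfl, fun _ _ _ _ => rfl,
      fun _ _ _ _ => rfl, fun _ => by norm_num⟩
  simpa [dvg, d1, d2, d3] using this
theorem Good.mono {E : Set X} {V P P' : ℝ} (h : Good E V P) (hP : P ≤ P') : Good E V P' :=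
  ⟨h.meas, h.per, h.vol, fun _ _ _ hφ => (h.le _ _ _ hφ).trans hP⟩
theorem Good.congr {E F : Set X} {V P : ℝ} (h : Good E V P) (hF : MeasurableSet F) (hp : PdS F)
    (e : E =ᵐ[volume] F) : Good F V P := by
  have e' : (E ∩ cell : Set X) =ᵐ[volume] (F ∩ cell : Set X) := e.inter (ae_eq_refl _)
  refine ⟨hF, hp, ?_, fun φ₁ φ₂ φ₃ hφ => ?_⟩
  · rw [← h.vol, measureReal_congr e']
  · rw [← setIntegral_congr_set e']
    exact h.le _ _ _ hφ
/-- test with `-φ` and use `Adm.integral_dvg` -/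
theorem Good.compl {E : Set X} {V P : ℝ} (h : Good E V P) : Good Eᶜ (1 - V) P := by
  have e : Eᶜ ∩ cell = cell \ E := by rw [inter_comm]; rfl
  refine ⟨h.meas.compl, fun a b c p => not_congr (h.per a b c p), ?_, fun φ₁ φ₂ φ₃ hφ => ?_⟩
  · have h1 := measureReal_inter_add_sdiff (μ := volume) (s := cell) h.meas (by simp [volume_cell])
    rw [inter_comm, h.vol] at h1
    have h2 : volume.real cell = 1 := by simp [Measure.real, volume_cell]
    rw [e]
    linarith
  · have h1 := integral_inter_add_sdiff h.meas (integrableOn_cell_of_cont hφ.continuous_dvg)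
    rw [hφ.integral_dvg, inter_comm] at h1
    have h2 := h.le (fun p => -φ₁ p) (fun p => -φ₂ p) (fun p => -φ₃ p)
      ⟨hφ.c1.neg, hφ.c2.neg, hφ.c3.neg, fun a b c p => congrArg Neg.neg (hφ.p1 a b c p),
        fun a b c p => congrArg Neg.neg (hφ.p2 a b c p),
        fun a b c p => congrArg Neg.neg (hφ.p3 a b c p), fun p => by simpa using hφ.le p⟩
    have h3 : ∀ p, dvg (fun p => -φ₁ p) (fun p => -φ₂ p) (fun p => -φ₃ p) p = -dvg φ₁ φ₂ φ₃ p := by
      intro p
      simp only [dvg, d1, d2, d3, fderiv_fun_neg, neg_apply]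
      ring
    simp only [h3, integral_neg] at h2
    rw [e]
    linarith
theorem bas2_fderiv (L : X →L[ℝ] X) {φ : X → ℝ} (hφ : ContDiff ℝ 1 φ) (p v : X) :
    fderiv ℝ (fun p => φ (L p)) p v = fderiv ℝ φ (L p) (L v) := by
  have h1 : HasFDerivAt (fun p => φ (L p)) ((fderiv ℝ φ (L p)).comp L) p :=
    (hφ.differentiable one_ne_zero (L p)).hasFDerivAt.comp p L.hasFDerivAt
  rw [h1.fderiv]
  rfl

/-- `sw12` as a continuous linear map -/
def bas2L12 : X →L[ℝ] X :=
  ((ContinuousLinearMap.fst ℝ ℝ ℝ).comp (ContinuousLinearMap.snd ℝ ℝ Y)).prod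
    ((ContinuousLinearMap.fst ℝ ℝ Y).prod
      ((ContinuousLinearMap.snd ℝ ℝ ℝ).comp (ContinuousLinearMap.snd ℝ ℝ Y)))

/-- `sw13` as a continuous linear map -/
def bas2L13 : X →L[ℝ] X :=
  ((ContinuousLinearMap.snd ℝ ℝ ℝ).comp (ContinuousLinearMap.snd ℝ ℝ Y)).prod
    (((ContinuousLinearMap.fst ℝ ℝ ℝ).comp (ContinuousLinearMap.snd ℝ ℝ Y)).prod
      (ContinuousLinearMap.fst ℝ ℝ Y))

/-- test with `(φ₂ ∘ sw12, φ₁ ∘ sw12, φ₃ ∘ sw12)` -/
theorem Good.sw12 {E : Set X} {V P : ℝ} (h : Good E V P) : Good (sw12 ⁻¹' E) V P := by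
  have e : R214.sw12 ⁻¹' E ∩ cell = R214.sw12 ⁻¹' (E ∩ cell) := by rw [preimage_inter, sw12_cell]
  refine ⟨measurePreserving_sw12.measurable h.meas, fun a b c p => h.per b a c (R214.sw12 p), ?_,
    fun φ₁ φ₂ φ₃ hφ => ?_⟩
  · rw [e, ← h.vol]
    exact measurePreserving_sw12.measureReal_preimage
      (h.meas.inter measurableSet_cell).nullMeasurableSet
  · have h2 := h.le (fun p => φ₂ (bas2L12 p)) (fun p => φ₁ (bas2L12 p)) (fun p => φ₃ (bas2L12 p))
      ⟨hφ.c2.comp bas2L12.contDiff, hφ.c1.comp bas2L12.contDiff, hφ.c3.comp bas2L12.contDiff,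
        fun a b c p => hφ.p2 b a c (R214.sw12 p), fun a b c p => hφ.p1 b a c (R214.sw12 p),
        fun a b c p => hφ.p3 b a c (R214.sw12 p), fun p => by linarith [hφ.le (bas2L12 p)]⟩
    have h3 : ∀ p, dvg (fun p => φ₂ (bas2L12 p)) (fun p => φ₁ (bas2L12 p)) (fun p => φ₃ (bas2L12 p)) p =
        dvg φ₁ φ₂ φ₃ (R214.sw12 p) := by
      intro p
      simp only [dvg, d1, d2, d3, bas2_fderiv _ hφ.c1, bas2_fderiv _ hφ.c2, bas2_fderiv _ hφ.c3]
      rw [add_comm (fderiv ℝ φ₂ _ _)]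
      rfl
    rw [← measurePreserving_sw12.setIntegral_preimage_emb measurableEmbedding_sw12] at h2
    rw [e]
    simpa only [h3, sw12_sw12] using h2
theorem Good.sw13 {E : Set X} {V P : ℝ} (h : Good E V P) : Good (sw13 ⁻¹' E) V P := by
  have e : R214.sw13 ⁻¹' E ∩ cell = R214.sw13 ⁻¹' (E ∩ cell) := by rw [preimage_inter, sw13_cell]
  refine ⟨measurePreserving_sw13.measurable h.meas, fun a b c p => h.per c b a (R214.sw13 p), ?_,
    fun φ₁ φ₂ φ₃ hφ => ?_⟩
  · rw [e, ← h.vol]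
    exact measurePreserving_sw13.measureReal_preimage
      (h.meas.inter measurableSet_cell).nullMeasurableSet
  · have h2 := h.le (fun p => φ₃ (bas2L13 p)) (fun p => φ₂ (bas2L13 p)) (fun p => φ₁ (bas2L13 p))
      ⟨hφ.c3.comp bas2L13.contDiff, hφ.c2.comp bas2L13.contDiff, hφ.c1.comp bas2L13.contDiff,
        fun a b c p => hφ.p3 c b a (R214.sw13 p), fun a b c p => hφ.p2 c b a (R214.sw13 p),
        fun a b c p => hφ.p1 c b a (R214.sw13 p), fun p => by linarith [hφ.le (bas2L13 p)]⟩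
    have h3 : ∀ p, dvg (fun p => φ₃ (bas2L13 p)) (fun p => φ₂ (bas2L13 p)) (fun p => φ₁ (bas2L13 p)) p =
        dvg φ₁ φ₂ φ₃ (R214.sw13 p) := by
      intro p
      simp only [dvg, d1, d2, d3, bas2_fderiv _ hφ.c1, bas2_fderiv _ hφ.c2, bas2_fderiv _ hφ.c3]
      rw [add_comm (fderiv ℝ φ₃ _ _), add_comm, add_comm (fderiv ℝ φ₂ _ _), add_comm (fderiv ℝ φ₃ _ _),
        ← add_assoc]
      rfl
    rw [← measurePreserving_sw13.setIntegral_preimage_emb measurableEmbedding_sw13] at h2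
    rw [e]
    simpa only [h3, sw13_sw13] using h2
theorem bas2_transl {E : Set X} (hE : MeasurableSet E) (hp : PdS E) {g : X → ℝ} (hg : Pd g) (c : X) :
    ∫ p in (fun p => p + c) ⁻¹' E ∩ cell, g (p + c) = ∫ p in E ∩ cell, g p := by
  classical
  have h1 : Pd (E.indicator g) := fun a b d p => by
    simp only [indicator_apply, hp a b d p, hg a b d p]
  rw [inter_comm, inter_comm E, ← setIntegral_indicator hE,
    ← setIntegral_indicator (measurable_add_const c hE), ← integral_cell_add h1 c]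
  rfl

/-- `integral_cell_add` applied to indicators -/
theorem Good.transl {E : Set X} {V P : ℝ} (h : Good E V P) (c : X) :
    Good ((fun p => p + c) ⁻¹' E) V P := by
  refine ⟨measurable_add_const c h.meas, fun a b d p => ?_, ?_, fun φ₁ φ₂ φ₃ hφ => ?_⟩
  · simp only [mem_preimage]
    rw [add_right_comm]
    exact h.per a b d _
  · have := bas2_transl h.meas h.per (g := fun _ => 1) (fun _ _ _ _ => rfl) c
    simp only [integral_const, measureReal_restrict_apply_univ, smul_eq_mul, mul_one] at this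
    rw [this, h.vol]
  · have hc : ContDiff ℝ 1 fun p : X => p - c := contDiff_id.sub contDiff_const
    have hA : Adm (fun p => φ₁ (p - c)) (fun p => φ₂ (p - c)) (fun p => φ₃ (p - c)) :=
      ⟨hφ.c1.comp hc, hφ.c2.comp hc, hφ.c3.comp hc,
        fun a b d p => by simp only [add_sub_right_comm p, hφ.p1 a b d],
        fun a b d p => by simp only [add_sub_right_comm p, hφ.p2 a b d],
        fun a b d p => by simp only [add_sub_right_comm p, hφ.p3 a b d], fun p => hφ.le _⟩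
    have h2 := h.le _ _ _ hA
    rw [← bas2_transl h.meas h.per hA.pd_dvg c] at h2
    simpa only [dvg, d1, d2, d3, fderiv_comp_sub, add_sub_cancel_right] using h2

theorem Mon1.sw12 {E : Set X} (h : Mon1 E) : Mon2 (sw12 ⁻¹' E) := fun x y y' z => h y y' x z
theorem Mon2.sw12 {E : Set X} (h : Mon2 E) : Mon1 (sw12 ⁻¹' E) := fun x x' y z => h y x x' z
theorem Mon1.sw13 {E : Set X} (h : Mon1 E) : Mon3 (sw13 ⁻¹' E) := fun x y z z' => h z z' y x
theorem Mon2.sw13 {E : Set X} (h : Mon2 E) : Mon2 (sw13 ⁻¹' E) := fun x y y' z => h z y y' x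
theorem Mon3.sw13 {E : Set X} (h : Mon3 E) : Mon1 (sw13 ⁻¹' E) := fun x x' y z => h z y x x'

theorem mdl_sw12 (e : X) (r : ℝ) (c : X) : sw12 ⁻¹' mdl e r c = mdl (sw12 e) r (sw12 c) := by
  ext p
  simp only [mdl, sw12, mem_preimage, mem_ofPred_eq]
  constructor <;> intro h <;> linarith
theorem mdl_sw13 (e : X) (r : ℝ) (c : X) : sw13 ⁻¹' mdl e r c = mdl (sw13 e) r (sw13 c) := by
  ext p
  simp only [mdl, sw13, mem_preimage, mem_ofPred_eq]
  constructor <;> intro h <;> linarith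
theorem mdl_transl (e : X) (r : ℝ) (c c' : X) :
    (fun p => p + c') ⁻¹' mdl e r c = mdl e r (c - c') := by
  ext p
  simp only [mdl, mem_preimage, mem_ofPred_eq, Prod.fst_add, Prod.snd_add, Prod.fst_sub, Prod.snd_sub,
    sub_sub_eq_add_sub]
theorem cmdl_sw12 (e : X) (R : ℝ) : sw12 ⁻¹' cmdl e R = cmdl (sw12 e) R := by
  ext p
  simp only [cmdl, cube, sw12, mem_preimage, mem_ofPred_eq, mem_prod]
  constructor <;> rintro ⟨⟨h1, h2, h3⟩, h⟩ <;> exact ⟨⟨h2, h1, h3⟩, by linarith⟩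
theorem cmdl_sw13 (e : X) (R : ℝ) : sw13 ⁻¹' cmdl e R = cmdl (sw13 e) R := by
  ext p
  simp only [cmdl, cube, sw13, mem_preimage, mem_ofPred_eq, mem_prod]
  constructor <;> rintro ⟨⟨h1, h2, h3⟩, h⟩ <;> exact ⟨⟨h3, h2, h1⟩, by linarith⟩
theorem mdl_meas (e : X) (r : ℝ) (c : X) : MeasurableSet (mdl e r c) := by
  have := continuous_tri
  exact (isOpen_lt (by fun_prop) continuous_const).measurableSet
theorem mdl_per (e : X) (r : ℝ) (c : X) : PdS (mdl e r c) := by
  intro a b d p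
  simp only [mdl, mem_ofPred_eq, Prod.fst_add, Prod.snd_add, add_sub_right_comm, tri_add_int]
theorem cmdl_meas (e : X) (R : ℝ) : MeasurableSet (cmdl e R) := by
  have h : MeasurableSet {p : X | e.1 * p.1 ^ 2 + e.2.1 * p.2.1 ^ 2 + e.2.2 * p.2.2 ^ 2 < R ^ 2} :=
    (isOpen_lt (by fun_prop) continuous_const).measurableSet
  exact (measurableSet_Ioo.prod (measurableSet_Ioo.prod measurableSet_Ioo)).inter h

end Crest.Agent.R214
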