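import Crest.Agent.R214.Defs

/-!
# R214/Borel

From continuous to Borel fields. Apply `Integrable.exists_boundedContinuous_integral_sub_le` to each `φ i` for
`μ = μ₁ + μ₂ + μ₃`, get continuous `g i`; put `N = max 1 √(∑ g i²)`, `g' i = g i / N`. Then
`|g' i - g i| ≤ (√(∑ g²) - 1)₊ ≤ ∑ |g j - φ j|`.
-/

set_option autoImplicit false

open MeasureTheory Set Filter Real
open scoped Topology

noncomputable section

namespace Crest.Agent.R214

theorem Borel_proj {E : Type*} [NormedAddCommGroup E] [NormedSpace ℝ E] (g f : E) (hf : ‖f‖ ≤ 1) :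
    ‖(max 1 ‖g‖)⁻¹ • g‖ ≤ 1 ∧ ‖f - (max 1 ‖g‖)⁻¹ • g‖ ≤ 2 * ‖f - g‖ := by
  rcases le_total ‖g‖ 1 with h | h
  · rw [max_eq_left h, inv_one, one_smul]
    exact ⟨h, by linarith [norm_nonneg (f - g)]⟩
  · have h0 : 0 < ‖g‖ := by linarith
    rw [max_eq_right h]
    refine ⟨by rw [norm_smul, norm_inv, norm_norm, inv_mul_cancel₀ h0.ne'], ?_⟩
    have h1 : g - ‖g‖⁻¹ • g = (1 - ‖g‖⁻¹) • g := by rw [sub_smul, one_smul]
    have h2 : ‖g - ‖g‖⁻¹ • g‖ = ‖g‖ - 1 := by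
      rw [h1, norm_smul, Real.norm_eq_abs, abs_of_nonneg (by simpa using inv_le_one_of_one_le₀ h), sub_mul,
        inv_mul_cancel₀ h0.ne', one_mul]
    have h3 : ‖g‖ ≤ ‖f‖ + ‖f - g‖ := by
      simpa using norm_sub_le f (f - g)
    have h4 : ‖f - ‖g‖⁻¹ • g‖ ≤ ‖f - g‖ + ‖g - ‖g‖⁻¹ • g‖ := by
      simpa using norm_add_le (f - g) (g - ‖g‖⁻¹ • g)
    linarith

theorem Borel_norm (v : EuclideanSpace ℝ (Fin 3)) : ‖v‖ ≤ 1 ↔ v 0 ^ 2 + v 1 ^ 2 + v 2 ^ 2 ≤ 1 := by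
  rw [← sq_le_one_iff₀ (norm_nonneg _), EuclideanSpace.real_norm_sq_eq, Fin.sum_univ_three]

theorem borel_of_continuous (μ₁ μ₂ μ₃ : Measure X) [IsFiniteMeasure μ₁] [IsFiniteMeasure μ₂]
    [IsFiniteMeasure μ₃] {A : ℝ}
    (h : ∀ φ₁ φ₂ φ₃ : X → ℝ, Continuous φ₁ → Continuous φ₂ → Continuous φ₃ →
      (∀ p, φ₁ p ^ 2 + φ₂ p ^ 2 + φ₃ p ^ 2 ≤ 1) →
      (∫ p, φ₁ p ∂μ₁) + (∫ p, φ₂ p ∂μ₂) + ∫ p, φ₃ p ∂μ₃ ≤ A)
    (φ₁ φ₂ φ₃ : X → ℝ) (m1 : Measurable φ₁) (m2 : Measurable φ₂) (m3 : Measurable φ₃)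
    (le : ∀ p, φ₁ p ^ 2 + φ₂ p ^ 2 + φ₃ p ^ 2 ≤ 1) :
    (∫ p, φ₁ p ∂μ₁) + (∫ p, φ₂ p ∂μ₂) + ∫ p, φ₃ p ∂μ₃ ≤ A := by
  set Φ : X → EuclideanSpace ℝ (Fin 3) := fun p => WithLp.toLp 2 ![φ₁ p, φ₂ p, φ₃ p] with hΦ
  have hΦm : Measurable Φ := by
    refine (PiLp.continuous_toLp 2 _).measurable.comp (measurable_pi_lambda _ fun i => ?_)
    fin_cases i <;> simpa
  have hΦ1 : ∀ p, ‖Φ p‖ ≤ 1 := fun p => (Borel_norm _).2 (by simpa [hΦ] using le p)
  set μ := μ₁ + μ₂ + μ₃ with hμ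
  have hI : Integrable Φ μ := Integrable.of_bound hΦm.aestronglyMeasurable 1 (ae_of_all _ hΦ1)
  refine le_of_forall_pos_le_add fun ε hε => ?_
  obtain ⟨g, hg, hgI⟩ := hI.exists_boundedContinuous_integral_sub_le (ε := ε / 6) (by positivity)
  set g' : X → EuclideanSpace ℝ (Fin 3) := fun p => (max 1 ‖g p‖)⁻¹ • g p with hg'
  have hc : Continuous g' := by
    refine Continuous.smul (Continuous.inv₀ (continuous_const.max g.continuous.norm) fun p => ?_) g.continuous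
    exact (lt_of_lt_of_le one_pos (le_max_left _ _)).ne'
  have h1 : ∀ p, ‖g' p‖ ≤ 1 := fun p => (Borel_proj (g p) (Φ p) (hΦ1 p)).1
  have h2 : ∀ p, ‖Φ p - g' p‖ ≤ 2 * ‖Φ p - g p‖ := fun p => (Borel_proj (g p) (Φ p) (hΦ1 p)).2
  have hci : ∀ i, Continuous fun p => g' p i := fun i => by fun_prop
  have key : ∀ (ν : Measure X) [IsFiniteMeasure ν], ν ≤ μ → ∀ i, ∫ p, Φ p i ∂ν ≤ ∫ p, g' p i ∂ν + ε / 3 := by
    intro ν _ hν i
    have hb : ∀ v : EuclideanSpace ℝ (Fin 3), ‖v i‖ ≤ ‖v‖ := fun v => PiLp.norm_apply_le v i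
    have i1 : Integrable (fun p => Φ p i) ν := Integrable.of_bound
      (((PiLp.continuous_apply 2 _ i).measurable.comp hΦm).aestronglyMeasurable) 1
      (ae_of_all _ fun p => (hb _).trans (hΦ1 p))
    have i2 : Integrable (fun p => g' p i) ν := Integrable.of_bound (hci i).aestronglyMeasurable 1
      (ae_of_all _ fun p => (hb _).trans (h1 p))
    have i3 : Integrable (fun p => ‖Φ p - g p‖) μ := (hI.sub hgI).norm
    have e1 : ∫ p, (Φ p i - g' p i) ∂ν ≤ ∫ p, 2 * ‖Φ p - g p‖ ∂ν := by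
      refine integral_mono (i1.sub i2) ((i3.mono_measure hν).const_mul 2) fun p => ?_
      exact (le_abs_self _).trans ((hb (Φ p - g' p)).trans (h2 p))
    have e2 : ∫ p, ‖Φ p - g p‖ ∂ν ≤ ∫ p, ‖Φ p - g p‖ ∂μ :=
      integral_mono_measure hν (ae_of_all _ fun p => norm_nonneg _) i3
    rw [integral_sub i1 i2, integral_const_mul] at e1
    linarith
  have k1 := key μ₁ (by rw [hμ, add_assoc]; exact Measure.le_add_right le_rfl) 0
  have k2 := key μ₂ (Measure.le_add_right (Measure.le_add_left le_rfl)) 1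
  have k3 := key μ₃ (Measure.le_add_left le_rfl) 2
  have k4 := h _ _ _ (hci 0) (hci 1) (hci 2) fun p => (Borel_norm _).1 (h1 p)
  simp only [hΦ, Matrix.cons_val_zero, Matrix.cons_val_one, Matrix.cons_val_two, Matrix.head_cons,
    Matrix.tail_cons] at k1 k2 k3
  linarith

theorem measurable_ind : Measurable ind :=
  Measurable.ite (measurableSet_Ioo (a := (0 : ℝ)) (b := 1)) measurable_const measurable_const
theorem ind_mem (u : ℝ) : ind u ∈ Icc (0 : ℝ) 1 := by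
  unfold ind
  split_ifs <;> simp
theorem Borel_fib {D : Set X} (hD : MeasurableSet D) {F : Y × ℝ → X} (hF : Measurable F) :
    Measurable fun q : Y => volume.real {x | F (q, x) ∈ D} :=
  (measurable_measure_prodMk_left (ν := volume) (hF hD)).ennreal_toReal
theorem measurable_u1 {D : Set X} (hD : MeasurableSet D) : Measurable (u1 D) :=
  Borel_fib hD (F := fun z => (z.2, z.1.1, z.1.2)) (by fun_prop)
theorem measurable_u2 {D : Set X} (hD : MeasurableSet D) : Measurable (u2 D) :=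
  Borel_fib hD (F := fun z => (z.1.1, z.2, z.1.2)) (by fun_prop)
theorem measurable_u3 {D : Set X} (hD : MeasurableSet D) : Measurable (u3 D) :=
  Borel_fib hD (F := fun z => (z.1.1, z.1.2, z.2)) (by fun_prop)

theorem Borel_sq : MeasurableSet sq := measurableSet_Ioo.prod measurableSet_Ioo

theorem Borel_fin (S : Set Y) : IsFiniteMeasure (volume.restrict (sq ∩ S)) := by
  refine ⟨?_⟩
  rw [Measure.restrict_apply_univ]
  refine (measure_mono inter_subset_left).trans_lt ?_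
  rw [sq, Measure.volume_eq_prod, Measure.prod_prod]
  simp

theorem Borel_map {u : Y → ℝ} (hu : Measurable u) {F : Y → X} (hF : Measurable F) {φ : X → ℝ} (hφ : Measurable φ) :
    ∫ p, φ p ∂((volume.restrict (sq ∩ u ⁻¹' Ioo 0 1)).map F) = ∫ q in sq, ind (u q) * φ (F q) := by
  rw [integral_map hF.aemeasurable hφ.aestronglyMeasurable, ← setIntegral_indicator (hu measurableSet_Ioo)]
  refine integral_congr_ae (ae_of_all _ fun q => ?_)
  by_cases hq : 0 < u q ∧ u q < 1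
  · simp [ind, hq]
  · have : q ∉ u ⁻¹' Ioo 0 1 := hq
    simp only [ind, if_neg hq, zero_mul, indicator_of_notMem this]

/-- `borel_of_continuous` for the push-forwards of `volume.restrict {q ∈ sq | 0 < u i q < 1}` under the graph maps -/
theorem flux_of_continuous {D : Set X} (hD : MeasurableSet D) {A : ℝ}
    (h : ∀ φ₁ φ₂ φ₃ : X → ℝ, Continuous φ₁ → Continuous φ₂ → Continuous φ₃ →
      (∀ p, φ₁ p ^ 2 + φ₂ p ^ 2 + φ₃ p ^ 2 ≤ 1) → Flux D φ₁ φ₂ φ₃ ≤ A)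
    (φ₁ φ₂ φ₃ : X → ℝ) (m1 : Measurable φ₁) (m2 : Measurable φ₂) (m3 : Measurable φ₃)
    (le : ∀ p, φ₁ p ^ 2 + φ₂ p ^ 2 + φ₃ p ^ 2 ≤ 1) : Flux D φ₁ φ₂ φ₃ ≤ A := by
  have h1 := measurable_u1 hD
  have h2 := measurable_u2 hD
  have h3 := measurable_u3 hD
  have f1 : Measurable fun q : Y => ((u1 D q, q.1, q.2) : X) := by fun_prop
  have f2 : Measurable fun q : Y => ((q.1, u2 D q, q.2) : X) := by fun_prop
  have f3 : Measurable fun q : Y => ((q.1, q.2, u3 D q) : X) := by fun_prop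
  have := Borel_fin (u1 D ⁻¹' Ioo 0 1)
  have := Borel_fin (u2 D ⁻¹' Ioo 0 1)
  have := Borel_fin (u3 D ⁻¹' Ioo 0 1)
  have key := borel_of_continuous ((volume.restrict (sq ∩ u1 D ⁻¹' Ioo 0 1)).map _)
    ((volume.restrict (sq ∩ u2 D ⁻¹' Ioo 0 1)).map _) ((volume.restrict (sq ∩ u3 D ⁻¹' Ioo 0 1)).map _) (A := A)
    (fun ψ₁ ψ₂ ψ₃ c1 c2 c3 hψ => by
      rw [Borel_map h1 f1 c1.measurable, Borel_map h2 f2 c2.measurable, Borel_map h3 f3 c3.measurable]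
      exact h ψ₁ ψ₂ ψ₃ c1 c2 c3 hψ) φ₁ φ₂ φ₃ m1 m2 m3 le
  rwa [Borel_map h1 f1 m1, Borel_map h2 f2 m2, Borel_map h3 f3 m3] at key

end Crest.Agent.R214
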