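import Crest.Agent.R214.Defs

/-!
# R214/JApi

The profile: elementary real inequalities.
-/

set_option autoImplicit false

open MeasureTheory Set Filter Real
open scoped Topology

noncomputable section

namespace Crest.Agent.R214

theorem two_J (v : ℝ) : 2 * J v =
    min (min ((36 * π) ^ ((1 : ℝ) / 3) * v ^ ((2 : ℝ) / 3)) (2 * √(π * v))) 2 := by
  have h8 : (8 : ℝ) ^ ((1 : ℝ) / 3) = 2 := by
    rw [show (8 : ℝ) = 2 ^ (3 : ℕ) by norm_num, show (1 : ℝ) / 3 = ((3 : ℕ) : ℝ)⁻¹ by norm_num]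
    exact Real.pow_rpow_inv_natCast (by norm_num) (by norm_num)
  have h : (36 * π) ^ ((1 : ℝ) / 3) = 2 * (9 * π / 2) ^ ((1 : ℝ) / 3) := by
    rw [← h8, ← Real.mul_rpow (by norm_num) (by positivity)]
    congr 1; ring
  rw [J, mul_min_of_nonneg _ _ (by norm_num : (0 : ℝ) ≤ 2),
    mul_min_of_nonneg _ _ (by norm_num : (0 : ℝ) ≤ 2), h, sph, mul_one, mul_assoc]
theorem sph_eq {R : ℝ} (hR : 0 ≤ R) : sph (π / 6 * R ^ 3) = π / 2 * R ^ 2 := by
  have h1 : (π / 6 * R ^ 3) ^ ((2 : ℝ) / 3) = ((π / 6 * R ^ 3) ^ 2) ^ ((1 : ℝ) / 3) := by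
    rw [← Real.rpow_natCast _ 2, ← Real.rpow_mul (by positivity)]
    norm_num
  rw [sph, h1, ← Real.mul_rpow (by positivity) (by positivity),
    show 9 * π / 2 * (π / 6 * R ^ 3) ^ 2 = (π / 2 * R ^ 2) ^ (3 : ℕ) by ring,
    show (1 : ℝ) / 3 = ((3 : ℕ) : ℝ)⁻¹ by norm_num]
  exact Real.pow_rpow_inv_natCast (by positivity) (by norm_num)
theorem exists_cube_root {v : ℝ} (hv : 0 < v) : ∃ R, 0 < R ∧ v = π / 6 * R ^ 3 := by
  refine ⟨(6 * v / π) ^ (((3 : ℕ) : ℝ)⁻¹), by positivity, ?_⟩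
  rw [Real.rpow_inv_natCast_pow (by positivity) (by norm_num)]
  field_simp
/-- write `v = π/6 R³`; `π/2 R² ≤ √(π²R³/6) ↔ R ≤ 2/3` -/
theorem sph_le_iff {v : ℝ} (hv : 0 < v) : sph v ≤ √(π * v) ↔ v ≤ 4 * π / 81 := by
  obtain ⟨R, hR, rfl⟩ := exists_cube_root hv
  have hp := Real.pi_pos
  rw [sph_eq hR.le, Real.le_sqrt (by positivity) (by positivity)]
  have e1 : (π / 2 * R ^ 2) ^ 2 = π ^ 2 * R ^ 3 / 4 * R := by ring
  have e2 : π * (π / 6 * R ^ 3) = π ^ 2 * R ^ 3 / 4 * (2 / 3) := by ring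
  have e3 : 4 * π / 81 = π / 6 * (2 / 3) ^ 3 := by ring
  rw [e1, e2, e3, mul_le_mul_iff_right₀ (by positivity), mul_le_mul_iff_right₀ (by positivity),
    pow_le_pow_iff_left₀ hR.le (by norm_num) (by norm_num)]
theorem le_sph_iff {v : ℝ} (hv : 0 < v) : √(π * v) ≤ sph v ↔ 4 * π / 81 ≤ v := by
  obtain ⟨R, hR, rfl⟩ := exists_cube_root hv
  have hp := Real.pi_pos
  rw [sph_eq hR.le, Real.sqrt_le_left (by positivity)]
  have e1 : (π / 2 * R ^ 2) ^ 2 = π ^ 2 * R ^ 3 / 4 * R := by ring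
  have e2 : π * (π / 6 * R ^ 3) = π ^ 2 * R ^ 3 / 4 * (2 / 3) := by ring
  have e3 : 4 * π / 81 = π / 6 * (2 / 3) ^ 3 := by ring
  rw [e1, e2, e3, mul_le_mul_iff_right₀ (by positivity), mul_le_mul_iff_right₀ (by positivity),
    pow_le_pow_iff_left₀ (by norm_num) hR.le (by norm_num)]
theorem sqrt_le_one_iff' {v : ℝ} : √(π * v) ≤ 1 ↔ v ≤ 1 / π := by
  rw [Real.sqrt_le_one, le_div_iff₀ Real.pi_pos, mul_comm]
theorem one_le_sqrt_iff' {v : ℝ} : 1 ≤ √(π * v) ↔ 1 / π ≤ v := by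
  rw [Real.one_le_sqrt, div_le_iff₀ Real.pi_pos, mul_comm]
/-- tangent lines of `sph` (AM-GM), with the case of equality -/
theorem sph_le_tangent {v T : ℝ} (hv : 0 < v) (hT : 0 < T) :
    sph v ≤ π / 2 * (4 * v / π / T + T ^ 2 / 3) ∧
      (π / 2 * (4 * v / π / T + T ^ 2 / 3) ≤ sph v → v = π / 6 * T ^ 3) := by
  obtain ⟨R, hR, rfl⟩ := exists_cube_root hv
  have hp := Real.pi_pos
  have e : π / 2 * (4 * (π / 6 * R ^ 3) / π / T + T ^ 2 / 3) =
      π / 2 * R ^ 2 + π / (6 * T) * (2 * R + T) * (R - T) ^ 2 := by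
    field_simp; ring
  have h0 : 0 < π / (6 * T) * (2 * R + T) := by positivity
  rw [sph_eq hR.le, e]
  refine ⟨le_add_of_nonneg_right (by positivity), fun h => ?_⟩
  have h1 : (R - T) ^ 2 ≤ 0 := by
    by_contra h2
    have := mul_pos h0 (not_le.1 h2)
    linarith
  rw [show R = T by nlinarith [sq_nonneg (R - T), pow_eq_zero_iff (a := R - T) (n := 2) two_ne_zero]]
theorem J_pos {v : ℝ} (hv : 0 < v) : 0 < J v := by
  have hp := Real.pi_pos
  unfold J sph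
  positivity
theorem Rng.le_third {V r : ℝ} {e : X} (h : Rng V e r) (hV : V ≤ 1 / 2) : r ≤ 1 / 3 := by
  obtain ⟨-, hr, h | h | h⟩ := h
  · obtain ⟨-, h1, h2⟩ := h
    have hp := Real.pi_pos
    have : r ^ 3 ≤ (1 / 3) ^ 3 := by
      rw [← mul_le_mul_iff_right₀ (show 0 < 4 / 3 * π by positivity)]
      linarith
    exact (pow_le_pow_iff_left₀ hr.le (by norm_num) (by norm_num)).1 this
  · obtain ⟨-, -, h1, h2⟩ := h
    have hp := Real.pi_gt_three
    rw [h2, le_div_iff₀ (by linarith)] at h1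
    by_contra h3
    have h4 : 1 < π * r := by nlinarith
    nlinarith
  · linarith [h.2.2]
theorem Rng.pos {V r : ℝ} {e : X} (h : Rng V e r) : 0 < V := by
  have hp := Real.pi_pos
  obtain ⟨-, hr, h | h | h⟩ := h
  · rw [h.2.2]; positivity
  · rw [h.2.2.2]; positivity
  · rw [h.2.2]; positivity
theorem Rng.J_eq {V r : ℝ} {e : X} (h : Rng V e r) : 2 * J V = nn e * V / r := by
  have hV := h.pos
  have hp := Real.pi_pos
  have h81 : 4 * π / 81 ≤ 1 / π := by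
    rw [le_div_iff₀ hp]; nlinarith [Real.pi_le_four]
  obtain ⟨-, hr, h | h | h⟩ := h
  · obtain ⟨h0, h1, h2⟩ := h
    have a1 := (sph_le_iff hV).2 h1
    have a2 := sqrt_le_one_iff'.2 (h1.trans h81)
    rw [J, min_eq_left a1, min_eq_left (a1.trans a2), h0, h2,
      show 4 / 3 * π * r ^ 3 = π / 6 * (2 * r) ^ 3 by ring, sph_eq (by positivity)]
    field_simp; ring
  · obtain ⟨h0, h1, h2, h3⟩ := h
    rw [J, min_eq_right ((le_sph_iff hV).2 h1), min_eq_left (sqrt_le_one_iff'.2 h2), h0, h3,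
      show π * (π * r ^ 2) = (π * r) ^ 2 by ring, Real.sqrt_sq (by positivity)]
    field_simp
  · obtain ⟨h0, h1, h2⟩ := h
    rw [J, min_eq_right ((le_sph_iff hV).2 (h81.trans h1)), min_eq_right (one_le_sqrt_iff'.2 h1),
      h0, h2]
    field_simp
theorem exists_rng {V : ℝ} (h0 : 0 < V) : ∃ e r, Rng V e r := by
  have hp := Real.pi_pos
  rcases le_total V (4 * π / 81) with h1 | h1
  · obtain ⟨R, hR, h⟩ := exists_cube_root h0
    exact ⟨(1, 1, 1), R / 2, by simp [Bin], by positivity,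
      Or.inl ⟨by norm_num [nn], h1, by rw [h]; ring⟩⟩
  rcases le_total V (1 / π) with h2 | h2
  · refine ⟨(1, 1, 0), √(V / π), by simp [Bin], by positivity,
      Or.inr (Or.inl ⟨by norm_num [nn], h1, h2, ?_⟩)⟩
    rw [Real.sq_sqrt (by positivity)]
    field_simp
  · exact ⟨(1, 0, 0), V / 2, by simp [Bin], by positivity,
      Or.inr (Or.inr ⟨by norm_num [nn], h2, by ring⟩)⟩
theorem Rng.sw12 {V r : ℝ} {e : X} (h : Rng V e r) : Rng V (sw12 e) r := by
  have e1 : nn (R214.sw12 e) = nn e := by simp only [nn, R214.sw12]; ring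
  obtain ⟨⟨b1, b2, b3⟩, h⟩ := h
  exact ⟨⟨b2, b1, b3⟩, e1 ▸ h⟩
theorem Rng.sw13 {V r : ℝ} {e : X} (h : Rng V e r) : Rng V (sw13 e) r := by
  have e1 : nn (R214.sw13 e) = nn e := by simp only [nn, R214.sw13]; ring
  obtain ⟨⟨b1, b2, b3⟩, h⟩ := h
  exact ⟨⟨b3, b2, b1⟩, e1 ▸ h⟩
theorem sqrt_le_amgm {x w : ℝ} (hx : 0 ≤ x) (hw : 0 < w) : √(π * x) ≤ x / w + π * w / 4 := by
  have hp := Real.pi_pos
  rw [Real.sqrt_le_left (by positivity)]
  have e : x / w * (π * w / 4) = π * x / 4 := by field_simp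
  nlinarith [sq_nonneg (x / w - π * w / 4)]
theorem eq_of_amgm {x w : ℝ} (hx : 0 ≤ x) (hw : 0 < w) (h : x / w + π * w / 4 ≤ √(π * x)) :
    x = π * w ^ 2 / 4 := by
  have hp := Real.pi_pos
  rw [Real.le_sqrt (by positivity) (by positivity)] at h
  have e : x / w * (π * w / 4) = π * x / 4 := by field_simp
  have h1 : (x / w - π * w / 4) ^ 2 = 0 := le_antisymm (by nlinarith) (sq_nonneg _)
  have h2 : x / w = π * w / 4 := sub_eq_zero.1 (pow_eq_zero_iff two_ne_zero |>.1 h1)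
  rw [div_eq_iff hw.ne'] at h2
  rw [h2]; ring
theorem lc_le {x w H : ℝ} (hx : 0 ≤ x) (hw : 0 < w) (h : w ≤ H) : lc x H ≤ x / w + π * w / 4 := by
  have hp := Real.pi_pos
  have hH : 0 < H := hw.trans_le h
  unfold lc
  split_ifs with h1
  · exact sqrt_le_amgm hx hw
  have e : x / w + π * w / 4 - (x / H + π * H / 4) = (H - w) / (w * H) * (x - π * (w * H) / 4) := by
    field_simp; ring
  have h2 : π * (w * H) / 4 ≤ π * H ^ 2 / 4 := by rw [_root_.sq]; gcongr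
  have h3 : 0 ≤ (H - w) / (w * H) * (x - π * (w * H) / 4) :=
    mul_nonneg (div_nonneg (by linarith) (by positivity)) (by linarith)
  linarith
theorem sqrt_le_lc {x H : ℝ} (hx : 0 ≤ x) (hH : 0 < H) : √(π * x) ≤ lc x H := by
  unfold lc
  split_ifs
  · exact le_rfl
  · exact sqrt_le_amgm hx hH
theorem lc_zero (H : ℝ) : lc 0 H = 0 := by
  have hp := Real.pi_pos
  rw [lc, if_pos (by positivity)]
  simp
theorem Ek_zero : Ek 0 = 1 := by
  simp [Ek]
/-- `integral_sqrt_one_sub_sq` and a substitution -/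
theorem integral_quarter {w : ℝ} (hw : 0 < w) :
    ∫ y in Ioo 0 w, √(1 - (y / w) ^ 2) = π * w / 4 := by
  have hc : Continuous fun x : ℝ => √(1 - x ^ 2) := by fun_prop
  have h1 := intervalIntegral.integral_add_adjacent_intervals (μ := volume)
    (hc.intervalIntegrable (-1) 0) (hc.intervalIntegrable 0 1)
  have h2 := intervalIntegral.integral_comp_neg (a := 0) (b := 1) fun x : ℝ => √(1 - x ^ 2)
  simp only [neg_sq, neg_zero] at h2
  rw [integral_sqrt_one_sub_sq, ← h2] at h1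
  rw [← integral_Ioc_eq_integral_Ioo, ← intervalIntegral.integral_of_le hw.le,
    intervalIntegral.integral_comp_div (fun x : ℝ => √(1 - x ^ 2)) hw.ne', zero_div,
    div_self hw.ne', smul_eq_mul]
  rw [show ∫ x in (0 : ℝ)..1, √(1 - x ^ 2) = π / 4 by linarith]
  ring

end Crest.Agent.R214
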