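import Crest.Agent.R214.Borel
import Crest.Agent.R214.JApi

/-!
# R214/Plan

Planar down-sets. The fibre `{z | (y, z) ∈ G}` lies between `Ioo 0 (pf G y)` and `Ioc 0 (pf G y)`; `pf G` is antitone on `(0,1)` and vanishes elsewhere.
Everything for `pg, wz, tz` follows from `pf, wy, ty` by `DS2.swap`.
-/

set_option autoImplicit false

open MeasureTheory Set Filter Real
open scoped Topology

noncomputable section

namespace Crest.Agent.R214

theorem Plan_fin {S : Set ℝ} (h1 : S ⊆ Ioo 0 1) : volume S ≠ ⊤ :=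
  ne_top_of_le_ne_top (by simp) (measure_mono h1)
theorem Plan_le_one {S : Set ℝ} (h1 : S ⊆ Ioo 0 1) : volume.real S ≤ 1 := by
  simpa using measureReal_mono (μ := volume) h1 (by simp)
theorem Plan_le {S : Set ℝ} (h1 : S ⊆ Ioo 0 1) (h2 : ∀ a ∈ S, ∀ b, 0 < b → b ≤ a → b ∈ S) {a : ℝ}
    (ha : a ∈ S) : a ≤ volume.real S := by
  have := measureReal_mono (μ := volume) (s₁ := Ioc 0 a) (fun b hb => h2 a ha b hb.1 hb.2) (Plan_fin h1)
  rwa [Real.volume_real_Ioc_of_le (h1 ha).1.le, sub_zero] at this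
theorem Plan_mem {S : Set ℝ} (h1 : S ⊆ Ioo 0 1) (h2 : ∀ a ∈ S, ∀ b, 0 < b → b ≤ a → b ∈ S) {z : ℝ}
    (h0 : 0 < z) (hz : z < volume.real S) : z ∈ S := by
  by_contra hc
  have := measureReal_mono (μ := volume) (s₁ := S) (s₂ := Ioo 0 z)
    (fun a ha => ⟨(h1 ha).1, not_le.1 fun h => hc (h2 a ha z h0 h)⟩) (by simp)
  rw [Real.volume_real_Ioo_of_le h0.le, sub_zero] at this
  exact absurd hz (not_lt.2 this)
theorem DS2.Plan_sub {G : Set Y} (h : DS2 G) (y : ℝ) : {z | (y, z) ∈ G} ⊆ Ioo 0 1 :=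
  fun _ hz => (h.sub hz).2
theorem DS2.Plan_down {G : Set Y} (h : DS2 G) (y : ℝ) :
    ∀ a ∈ {z | (y, z) ∈ G}, ∀ b, 0 < b → b ≤ a → b ∈ {z | (y, z) ∈ G} := fun a ha b h0 hb =>
  h.down (y, a) ha (y, b) ⟨(h.sub ha).1, h0, hb.trans_lt (h.sub ha).2.2⟩ ⟨le_rfl, hb⟩
theorem DS2.Plan_pos {G : Set Y} (h : DS2 G) {y : ℝ} (hy : 0 < pf G y) : y ∈ Ioo (0 : ℝ) 1 := by
  obtain ⟨z, hz⟩ := nonempty_of_measureReal_ne_zero hy.ne'
  exact (h.sub hz).1
theorem Plan_vol_sq : volume sq = 1 := by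
  rw [sq, Measure.volume_eq_prod, Measure.prod_prod]
  simp
theorem DS2.Plan_fin2 {G : Set Y} (h : DS2 G) : volume G ≠ ⊤ :=
  ne_top_of_le_ne_top (by simp [Plan_vol_sq]) (measure_mono h.sub)

theorem DS2.swap {G : Set Y} (h : DS2 G) : DS2 (Prod.swap ⁻¹' G) := by
  exact ⟨measurable_swap h.meas, fun q hq => ⟨(h.sub hq).2, (h.sub hq).1⟩,
    fun q hq q' hq' hle => h.down q.swap hq q'.swap ⟨hq'.2, hq'.1⟩ ⟨hle.2, hle.1⟩⟩
theorem pf_swap (G : Set Y) : pf (Prod.swap ⁻¹' G) = pg G := rfl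
theorem pg_swap (G : Set Y) : pg (Prod.swap ⁻¹' G) = pf G := rfl
theorem Fl_swap (G : Set Y) (σ₂ σ₃ : Y → ℝ) :
    Fl (Prod.swap ⁻¹' G) (fun q => σ₃ q.swap) (fun q => σ₂ q.swap) = Fl G σ₂ σ₃ := add_comm _ _
theorem volume_swap (G : Set Y) : volume.real (Prod.swap ⁻¹' G) = volume.real G := by
  have h : MeasurePreserving (MeasurableEquiv.prodComm : Y ≃ᵐ Y) volume volume :=
    Measure.measurePreserving_swap
  exact congrArg ENNReal.toReal (h.measure_preimage_equiv G)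
theorem DS2.pf_mem {G : Set Y} (h : DS2 G) (y : ℝ) : pf G y ∈ Icc (0 : ℝ) 1 := by
  exact ⟨measureReal_nonneg, Plan_le_one (h.Plan_sub y)⟩
theorem DS2.measurable_pf {G : Set Y} (h : DS2 G) : Measurable (pf G) := by
  exact (measurable_measure_prodMk_left h.meas).ennreal_toReal
theorem DS2.mem_of_lt {G : Set Y} (h : DS2 G) {y z : ℝ} (h0 : 0 < z) (hz : z < pf G y) : (y, z) ∈ G := by
  exact Plan_mem (h.Plan_sub y) (h.Plan_down y) h0 hz
theorem DS2.le_of_mem {G : Set Y} (h : DS2 G) {y z : ℝ} (hz : (y, z) ∈ G) : z ≤ pf G y := by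
  exact Plan_le (h.Plan_sub y) (h.Plan_down y) hz
theorem DS2.pf_anti {G : Set Y} (h : DS2 G) : AntitoneOn (pf G) (Ioi 0) := by
  intro y hy y' _ hle
  exact measureReal_mono (fun z hz => h.down (y', z) hz (y, z)
    ⟨⟨hy, hle.trans_lt (h.sub hz).1.2⟩, (h.sub hz).2⟩ ⟨hle, le_rfl⟩) (Plan_fin (h.Plan_sub y))
theorem DS2.integral_pf {G : Set Y} (h : DS2 G) :
    ∫ y in Ioo (0 : ℝ) 1, pf G y = volume.real G := by
  rw [setIntegral_eq_integral_of_forall_compl_eq_zero fun y hy =>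
    (h.pf_mem y).1.eq_or_lt.resolve_right (fun h' => hy (h.Plan_pos h')) |>.symm]
  rw [Measure.real, Measure.volume_eq_prod, Measure.prod_apply h.meas,
    ← integral_toReal (measurable_measure_prodMk_left h.meas).aemeasurable
      (Eventually.of_forall fun y => (Plan_fin (h.Plan_sub y)).lt_top)]
  rfl
theorem DS2.Plan_W {G : Set Y} (h : DS2 G) : {y | 0 < pf G y} ⊆ Ioo 0 1 := fun _ hy => h.Plan_pos hy
theorem DS2.Plan_T {G : Set Y} (h : DS2 G) : {y | 1 ≤ pf G y} ⊆ Ioo 0 1 :=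
  fun _ hy => h.Plan_pos (zero_lt_one.trans_le hy)
theorem DS2.Plan_Wd {G : Set Y} (h : DS2 G) :
    ∀ a ∈ {y | 0 < pf G y}, ∀ b, 0 < b → b ≤ a → b ∈ {y | 0 < pf G y} := fun _ ha _ h0 hb =>
  lt_of_lt_of_le ha (h.pf_anti h0 (h0.trans_le hb) hb)
theorem DS2.Plan_Td {G : Set Y} (h : DS2 G) :
    ∀ a ∈ {y | 1 ≤ pf G y}, ∀ b, 0 < b → b ≤ a → b ∈ {y | 1 ≤ pf G y} := fun _ ha _ h0 hb =>
  le_trans ha (h.pf_anti h0 (h0.trans_le hb) hb)
theorem DS2.ext_mem {G : Set Y} (h : DS2 G) : 0 ≤ ty G ∧ ty G ≤ wy G ∧ wy G ≤ 1 := by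
  exact ⟨measureReal_nonneg, measureReal_mono (fun y (hy : 1 ≤ pf G y) => (zero_lt_one.trans_le hy : 0 < pf G y))
    (Plan_fin h.Plan_W),
    Plan_le_one h.Plan_W⟩
theorem DS2.area_mem {G : Set Y} (h : DS2 G) : volume.real G ∈ Icc (0 : ℝ) 1 := by
  refine ⟨measureReal_nonneg, ?_⟩
  have := measureReal_mono (μ := volume) h.sub (by simp [Plan_vol_sq])
  rwa [Measure.real, Measure.real, Plan_vol_sq] at this
/-- position of `y ∈ (0,1)` relative to `ty`, `wy` -/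
theorem DS2.pf_cases {G : Set Y} (h : DS2 G) {y : ℝ} (hy : y ∈ Ioo (0 : ℝ) 1) :
    (y < ty G → pf G y = 1) ∧ (ty G < y → pf G y < 1) ∧ (y < wy G → 0 < pf G y) ∧
      (wy G < y → pf G y = 0) := by
  exact ⟨fun a => le_antisymm (h.pf_mem y).2 (Plan_mem h.Plan_T h.Plan_Td hy.1 a),
    fun a => not_le.1 fun b => absurd a (not_lt.2 (Plan_le h.Plan_T h.Plan_Td b)),
    fun a => Plan_mem h.Plan_W h.Plan_Wd hy.1 a,
    fun a => le_antisymm (not_lt.1 fun b => absurd a (not_lt.2 (Plan_le h.Plan_W h.Plan_Wd b)))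
      (h.pf_mem y).1⟩
theorem DS2.pg_le_wy {G : Set Y} (h : DS2 G) (z : ℝ) : pg G z ≤ wy G := by
  exact measureReal_mono (fun y hy => (h.sub hy).2.1.trans_le (h.le_of_mem hy)) (Plan_fin h.Plan_W)
theorem DS2.ty_le_pg {G : Set Y} (h : DS2 G) {z : ℝ} (hz : z ∈ Ioo (0 : ℝ) 1) : ty G ≤ pg G z := by
  exact measureReal_mono (fun y hy => h.mem_of_lt hz.1 (hz.2.trans_le hy)) (Plan_fin (h.swap.Plan_sub z))
theorem DS2.wy_eq_one {G : Set Y} (h : DS2 G) (ht : 0 < tz G) : wy G = 1 := by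
  obtain ⟨z, hz⟩ := nonempty_of_measureReal_ne_zero ht.ne'
  exact le_antisymm h.ext_mem.2.2 (le_trans hz (h.pg_le_wy z))
theorem DS2.one_le_pf_iff {G : Set Y} (h : DS2 G) (y : ℝ) :
    1 ≤ pf G y ↔ ∀ z ∈ Ioo (0 : ℝ) 1, (y, z) ∈ G := by
  refine ⟨fun a z hz => h.mem_of_lt hz.1 (hz.2.trans_le a), fun a => ?_⟩
  simpa [pf] using measureReal_mono (μ := volume) (s₁ := Ioo 0 1) (s₂ := {z | (y, z) ∈ G}) a
    (Plan_fin (h.Plan_sub y))
theorem DS2.ty_pos_iff {G : Set Y} (h : DS2 G) :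
    0 < ty G ↔ ∃ y, ∀ z ∈ Ioo (0 : ℝ) 1, (y, z) ∈ G := by
  refine ⟨fun a => ?_, fun ⟨y, hy⟩ => ?_⟩
  · obtain ⟨y, hy⟩ := nonempty_of_measureReal_ne_zero a.ne'
    exact ⟨y, (h.one_le_pf_iff y).1 hy⟩
  · have := (h.one_le_pf_iff y).2 hy
    exact (h.Plan_T this).1.trans_le (Plan_le h.Plan_T h.Plan_Td this)
theorem DS2.ty_mono {G G' : Set Y} (h : DS2 G) (h' : DS2 G') (hs : G ⊆ G') : ty G ≤ ty G' := by
  exact measureReal_mono (fun y hy => (h'.one_le_pf_iff y).2 fun z hz => hs ((h.one_le_pf_iff y).1 hy z hz))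
    (Plan_fin h'.Plan_T)
theorem DS2.ae_eq_sq {G : Set Y} (h : DS2 G) (h1 : volume.real G = 1) : G =ᵐ[volume] sq := by
  refine ae_eq_of_subset_of_measure_ge h.sub ?_ h.meas.nullMeasurableSet (by simp [Plan_vol_sq])
  rw [Plan_vol_sq, ← ENNReal.ofReal_toReal h.Plan_fin2, ← Measure.real, h1, ENNReal.ofReal_one]
theorem DS2.ae_eq_empty {G : Set Y} (h : DS2 G) (h1 : volume.real G = 0) :
    G =ᵐ[volume] (∅ : Set Y) := by
  exact MeasureTheory.ae_eq_empty.2 ((measureReal_eq_zero_iff h.Plan_fin2).1 h1)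

theorem Fl_nonneg (G : Set Y) {σ₂ σ₃ : Y → ℝ} (h2 : ∀ q, 0 ≤ σ₂ q) (h3 : ∀ q, 0 ≤ σ₃ q) :
    0 ≤ Fl G σ₂ σ₃ := by
  exact add_nonneg (integral_nonneg fun z => mul_nonneg (ind_mem _).1 (h2 _))
    (integral_nonneg fun z => mul_nonneg (ind_mem _).1 (h3 _))
theorem DS2.Plan_ind {G : Set Y} (h : DS2 G) (f : ℝ → ℝ) :
    ∫ y in Ioo (0 : ℝ) 1, ind (pf G y) * f y = ∫ y in Ioo (ty G) (wy G), f y := by
  rw [← integral_indicator measurableSet_Ioo, ← integral_indicator measurableSet_Ioo]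
  refine integral_congr_ae ?_
  obtain ⟨e1, -, e3⟩ := h.ext_mem
  filter_upwards [(Set.toFinite {ty G, wy G}).countable.ae_notMem volume] with y hy
  simp only [mem_insert_iff, mem_singleton_iff, not_or] at hy
  by_cases h1 : y ∈ Ioo (ty G) (wy G)
  · have h2 : y ∈ Ioo (0 : ℝ) 1 := ⟨e1.trans_lt h1.1, h1.2.trans_le e3⟩
    obtain ⟨-, a2, a3, -⟩ := h.pf_cases h2
    rw [indicator_of_mem h1, indicator_of_mem h2, ind, if_pos ⟨a3 h1.2, a2 h1.1⟩, one_mul]
  · rw [indicator_of_notMem h1]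
    by_cases h2 : y ∈ Ioo (0 : ℝ) 1
    · obtain ⟨a1, -, -, a4⟩ := h.pf_cases h2
      rw [indicator_of_mem h2, ind, if_neg, zero_mul]
      rintro ⟨b1, b2⟩
      exact h1 ⟨(lt_or_gt_of_ne hy.1).resolve_left fun c => b2.ne (a1 c),
        (lt_or_gt_of_ne hy.2).resolve_right fun c => b1.ne' (a4 c)⟩
    · exact indicator_of_notMem h2 _
theorem DS2.Plan_int {G : Set Y} (h : DS2 G) (a b : ℝ) : IntegrableOn (pf G) (Ioo a b) := by
  refine Measure.integrableOn_of_bounded (M := 1) (by simp) h.measurable_pf.aestronglyMeasurable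
    (Eventually.of_forall fun y => ?_)
  rw [Real.norm_of_nonneg (h.pf_mem y).1]
  exact (h.pf_mem y).2
theorem DS2.Plan_area {G : Set Y} (h : DS2 G) :
    ∫ y in Ioo (ty G) (wy G), pf G y = volume.real G - ty G := by
  have m1 : MeasurableSet {y | 1 ≤ pf G y} := measurableSet_le measurable_const h.measurable_pf
  have e : ∀ y, ind (pf G y) * pf G y = pf G y - {y | 1 ≤ pf G y}.indicator 1 y := fun y => by
    obtain ⟨a1, a2⟩ := h.pf_mem y
    by_cases h1 : 1 ≤ pf G y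
    · rw [indicator_of_mem (by exact h1), ind, if_neg fun c => absurd c.2 (not_lt.2 h1), le_antisymm a2 h1]
      simp
    · rw [indicator_of_notMem (by exact h1), ind]
      split_ifs with h2
      · simp
      · rw [le_antisymm (not_lt.1 fun c => h2 ⟨c, not_le.1 h1⟩) a1]
        simp
  rw [← h.Plan_ind, ← h.integral_pf]
  simp only [e]
  have i1 : Integrable ({y | 1 ≤ pf G y}.indicator (1 : ℝ → ℝ)) (volume.restrict (Ioo 0 1)) :=
    (integrable_const 1).indicator m1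
  rw [integral_sub (h.Plan_int 0 1) i1, integral_indicator_one m1,
    measureReal_restrict_apply m1, inter_eq_left.2 h.Plan_T, ty]
theorem DS2.Plan_area' {G : Set Y} (h : DS2 G) :
    ∫ z in Ioo (tz G) (wz G), pg G z = volume.real G - tz G := by
  rw [← volume_swap G]
  exact h.swap.Plan_area
/-- fields depending only on `y` -/
theorem DS2.fl_beta {G : Set Y} (h : DS2 G) (β γ : ℝ → ℝ) :
    Fl G (fun q => β q.1) (fun q => γ q.1) =
      (∫ z in Ioo (tz G) (wz G), β (pg G z)) + ∫ y in Ioo (ty G) (wy G), γ y := by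
  exact congrArg₂ (· + ·) (h.swap.Plan_ind fun z => β (pg G z)) (h.Plan_ind γ)

/-- clamp to `[0, 1]` -/
def cl (x : ℝ) : ℝ := max 0 (min 1 x)
theorem cl_mem (x : ℝ) : cl x ∈ Icc (0 : ℝ) 1 := by
  exact ⟨le_max_left _ _, max_le zero_le_one (min_le_left _ _)⟩
theorem measurable_cl : Measurable cl := by
  unfold cl
  fun_prop

theorem Plan_cl {x : ℝ} (h0 : 0 ≤ x) (h1 : x ≤ 1) : cl x = x := by
  rw [cl, min_eq_right h1, max_eq_right h0]

/-- corner: `integral_quarter`, `∫_{(0, wz)} pg = area` -/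
theorem DS2.fl_corner {G : Set Y} (h : DS2 G) (h1 : ty G = 0) (h2 : tz G = 0) (h0 : 0 < volume.real G) :
    0 < wy G ∧ Fl G (fun q => cl (q.1 / wy G)) (fun q => √(1 - cl (q.1 / wy G) ^ 2)) =
      volume.real G / wy G + π * wy G / 4 := by
  have hw : 0 < wy G := by
    by_contra hc
    have := h.Plan_area
    rw [h1, Ioo_eq_empty hc, setIntegral_empty] at this
    linarith
  refine ⟨hw, ?_⟩
  rw [h.fl_beta (fun y => cl (y / wy G)) fun y => √(1 - cl (y / wy G) ^ 2), h1, ← integral_quarter hw]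
  congr 1
  · have e : ∀ z, cl (pg G z / wy G) = pg G z / wy G := fun z =>
      Plan_cl (div_nonneg (h.swap.pf_mem z).1 hw.le) ((div_le_one hw).2 (h.pg_le_wy z))
    simp only [e]
    rw [integral_div, h.Plan_area', h2, sub_zero]
  · refine setIntegral_congr_fun measurableSet_Ioo fun y hy => ?_
    simp only [Plan_cl (div_nonneg hy.1.le hw.le) ((div_le_one hw).2 hy.2.le)]
/-- hole: `wy = wz = 1`, `∫_{(tz, 1)} (1 - pg) = 1 - area` -/
theorem DS2.fl_hole {G : Set Y} (h : DS2 G) (h1 : 0 < ty G) (h2 : 0 < tz G) (h0 : volume.real G < 1) :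
    ty G < 1 ∧ Fl G (fun q => cl ((1 - q.1) / (1 - ty G)))
        (fun q => √(1 - cl ((1 - q.1) / (1 - ty G)) ^ 2)) =
      (1 - volume.real G) / (1 - ty G) + π * (1 - ty G) / 4 := by
  have hy1 : wy G = 1 := h.wy_eq_one h2
  have hz1 : wz G = 1 := h.swap.wy_eq_one h1
  have ht : ty G < 1 := by
    refine (h.ext_mem.2.1.trans h.ext_mem.2.2).eq_or_lt.resolve_left fun hc => ?_
    have := h.Plan_area
    rw [hy1, hc, Ioo_self, setIntegral_empty] at this
    linarith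
  have hw : 0 < 1 - ty G := sub_pos.2 ht
  have hz : tz G ≤ 1 := h.swap.ext_mem.2.1.trans h.swap.ext_mem.2.2
  refine ⟨ht, ?_⟩
  rw [h.fl_beta (fun y => cl ((1 - y) / (1 - ty G))) fun y => √(1 - cl ((1 - y) / (1 - ty G)) ^ 2), hy1,
    ← integral_quarter hw]
  congr 1
  · have ha := h.Plan_area'
    have hi : IntegrableOn (pg G) (Ioo (tz G) 1) := h.swap.Plan_int _ _
    rw [hz1] at ha ⊢
    rw [setIntegral_congr_fun (g := fun z => (1 - pg G z) / (1 - ty G)) measurableSet_Ioo fun z hz =>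
      Plan_cl (div_nonneg (sub_nonneg.2 (h.swap.pf_mem z).2) hw.le)
        ((div_le_one hw).2 (sub_le_sub_left (h.ty_le_pg ⟨h2.trans hz.1, hz.2⟩) 1)),
      integral_div, integral_sub (integrable_const 1) hi, ha]
    simp [hz]
  · rw [setIntegral_congr_fun (g := fun y => √(1 - ((1 - y) / (1 - ty G)) ^ 2)) measurableSet_Ioo
      fun y hy => by
        simp only [Plan_cl (div_nonneg (sub_nonneg.2 hy.2.le) hw.le)
          ((div_le_one hw).2 (sub_le_sub_left hy.1.le 1))],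
      ← integral_Ioc_eq_integral_Ioo, ← integral_Ioc_eq_integral_Ioo,
      ← intervalIntegral.integral_of_le ht.le, ← intervalIntegral.integral_of_le hw.le,
      intervalIntegral.integral_comp_sub_left (fun y => √(1 - (y / (1 - ty G)) ^ 2)) 1, sub_self]
/-- strip touching the side `y = 1` only: `∫_{(tz, wz)} pg = area - tz` -/
theorem DS2.fl_strip {G : Set Y} (h : DS2 G) (h1 : ty G = 0) (h2 : 0 < tz G) {k : ℝ}
    (hk : k ∈ Icc (0 : ℝ) 1) :
    Fl G (fun q => cl (k * q.1)) (fun q => √(1 - cl (k * q.1) ^ 2)) =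
      Ek k + k * (volume.real G - tz G) := by
  rw [h.fl_beta (fun y => cl (k * y)) fun y => √(1 - cl (k * y) ^ 2), h1, h.wy_eq_one h2, add_comm]
  congr 1
  · rw [Ek, intervalIntegral.integral_of_le zero_le_one, integral_Ioc_eq_integral_Ioo]
    refine setIntegral_congr_fun measurableSet_Ioo fun y hy => ?_
    simp only [Plan_cl (mul_nonneg hk.1 hy.1.le) (mul_le_one₀ hk.2 hy.1.le hy.2.le), mul_pow]
  · have e : ∀ z, cl (k * pg G z) = k * pg G z := fun z =>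
      Plan_cl (mul_nonneg hk.1 (h.swap.pf_mem z).1)
        (mul_le_one₀ hk.2 (h.swap.pf_mem z).1 (h.swap.pf_mem z).2)
    simp only [e]
    rw [integral_const_mul, h.Plan_area']

end Crest.Agent.R214
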