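import Crest.Agent.R214.Slice
import Crest.Agent.R214.Plan

/-!
# R214/Cases

The dichotomy and the two models. For `s ∈ (0,1)`: `0 < tz (sl D s)` if `s < L12 D`, `tz = 0` if `L12 D < s`; the same for `ty` and `L13`
(`ty_pos_iff`, the sets are down-intervals); `tz (sl D s) ≤ L32 D`. So if `L13 ≤ L12`, for `s ∉ {L12, L13}` the slice is a hole (`s < L13`), a strip
(`L13 < s < L12`) or a corner (`L12 < s`). `Λ` is the maximum (`Av.max`) of the corner field (`av_beta`), the hole field in the `z` variable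
(`av_beta'` with `β = cl ((1 - z)/(1 - tz))`, `fl_hole` for the swapped slice, `Fl_swap`), the strip fields for `k ∈ insert 0 KS` (induction on the finset). All fields are nonnegative
(`Fl_nonneg` covers area `0` and `1`).
-/

set_option autoImplicit false

open MeasureTheory Set Filter Real
open scoped Topology

noncomputable section

namespace Crest.Agent.R214

/-- permutations of the coordinates -/
def Prm : Set X → Set X → Prop :=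
  Relation.ReflTransGen (fun A B => B = sw12 ⁻¹' A ∨ B = sw13 ⁻¹' A)

/-- For the six permutations the triple `(L12, L13, L32)` becomes `(L_ij, L_ik, L_kj)`. If no row has both entries `> p`, some
`(i,j,k)` has `L_ik ≤ L_ij`, `L_kj ≤ p` (pure case analysis on six reals). -/
theorem exists_prm (D : Set X) (p : ℝ) :
    ∃ D', Prm D D' ∧ L13 D' ≤ L12 D' ∧ (L32 D' ≤ p ∨ p < L13 D') := by
  by_contra hc
  have H : ∀ D', Prm D D' → L13 D' ≤ L12 D' → p < L32 D' ∧ L13 D' ≤ p := fun D' h1 h2 => by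
    by_contra h3
    refine hc ⟨D', h1, h2, ?_⟩
    rcases not_and_or.1 h3 with h | h
    · exact Or.inl (not_lt.1 h)
    · exact Or.inr (not_le.1 h)
  have p0 : Prm D D := Relation.ReflTransGen.refl
  have a : ∀ {A}, Prm D A → Prm D (sw12 ⁻¹' A) := fun hA => hA.tail (Or.inl rfl)
  have b : ∀ {A}, Prm D A → Prm D (sw13 ⁻¹' A) := fun hA => hA.tail (Or.inr rfl)
  have h1 := H _ p0
  have h2 := H _ (a p0)
  have h3 : L32 (sw12 ⁻¹' D) ≤ L32 D → p < L12 D ∧ L32 (sw12 ⁻¹' D) ≤ p := H _ (b p0)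
  have h4 : L32 D ≤ L32 (sw12 ⁻¹' D) → p < L12 (sw12 ⁻¹' D) ∧ L32 D ≤ p := H _ (b (a p0))
  have h5 : L12 (sw12 ⁻¹' D) ≤ L13 (sw12 ⁻¹' D) → p < L13 D ∧ L12 (sw12 ⁻¹' D) ≤ p :=
    H _ (a (b p0))
  have h6 : L12 D ≤ L13 D → p < L13 (sw12 ⁻¹' D) ∧ L12 D ≤ p := H _ (a (b (a p0)))
  rcases le_total (L13 D) (L12 D) with e1 | e1 <;>
    rcases le_total (L13 (sw12 ⁻¹' D)) (L12 (sw12 ⁻¹' D)) with e2 | e2 <;>
    rcases le_total (L32 (sw12 ⁻¹' D)) (L32 D) with e3 | e3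
  · exact (h2 e2).1.not_ge (h3 e3).2
  · exact (h1 e1).1.not_ge (h4 e3).2
  · exact (h5 e2).1.not_ge (h1 e1).2
  · exact (h5 e2).1.not_ge (h1 e1).2
  · exact (h6 e1).1.not_ge (h2 e2).2
  · exact (h6 e1).1.not_ge (h2 e2).2
  · exact (h3 e3).1.not_ge (h6 e1).2
  · exact (h4 e3).1.not_ge (h5 e2).2

theorem cases_fin (S : Set ℝ) (hS : S ⊆ Ioo 0 1) : volume S ≠ ⊤ :=
  ne_top_of_le_ne_top measure_Ioo_lt_top.ne (measure_mono hS)

/-- down-intervals -/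
theorem cases_down {S : Set ℝ} (hS : S ⊆ Ioo 0 1) (hd : ∀ s ∈ S, ∀ s', 0 < s' → s' ≤ s → s' ∈ S)
    {s : ℝ} (h0 : 0 < s) : (s ∈ S → s ≤ volume.real S) ∧ (s < volume.real S → s ∈ S) := by
  refine ⟨fun hs => ?_, fun hs => ?_⟩
  · have := measureReal_mono (μ := volume) (fun x (hx : x ∈ Ioc 0 s) => hd s hs x hx.1 hx.2)
      (cases_fin S hS)
    rwa [Real.volume_real_Ioc_of_le h0.le, sub_zero] at this
  · by_contra hn
    have := measureReal_mono (μ := volume) (s₂ := Ioo 0 s)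
      (fun x (hx : x ∈ S) => ⟨(hS hx).1, not_le.1 fun h => hn (hd x hx s h0 h)⟩)
      measure_Ioo_lt_top.ne
    rw [Real.volume_real_Ioo_of_le h0.le, sub_zero] at this
    exact hs.not_ge this

theorem cases_half : (1 / 2 : ℝ) ∈ Ioo (0 : ℝ) 1 := ⟨by norm_num, by norm_num⟩

theorem cases_ty {D : Set X} (h : Dn D) {s : ℝ} (h0 : 0 < s) :
    (0 < ty (sl D s) → s ≤ L13 D) ∧ (s < L13 D → 0 < ty (sl D s)) := by
  rw [(h.sl s).ty_pos_iff]
  exact cases_down (S := {x | ∃ y, ∀ z ∈ Ioo (0 : ℝ) 1, (x, y, z) ∈ D})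
    (fun _ ⟨_, hy⟩ => (h.sub (hy _ cases_half)).1)
    (fun _ ⟨y, hy⟩ _ a b => ⟨y, fun z hz => h.sl_anti a b (hy z hz)⟩) h0

theorem cases_tz {D : Set X} (h : Dn D) {s : ℝ} (h0 : 0 < s) (hs : s < L12 D) :
    0 < tz (sl D s) :=
  (h.sl s).swap.ty_pos_iff.2 ((cases_down (S := {x | ∃ z, ∀ y ∈ Ioo (0 : ℝ) 1, (x, y, z) ∈ D})
    (fun _ ⟨_, hy⟩ => (h.sub (hy _ cases_half)).1)
    (fun _ ⟨y, hy⟩ _ a b => ⟨y, fun z hz => h.sl_anti a b (hy z hz)⟩) h0).2 hs)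

theorem cases_tz_le {D : Set X} (h : Dn D) (s : ℝ) : tz (sl D s) ≤ L32 D :=
  measureReal_mono (fun z hz => ⟨s, ((h.sl s).swap.one_le_pf_iff z).1 hz⟩)
    (cases_fin _ fun _ ⟨_, hy⟩ => (h.sub (hy _ cases_half)).2.2)

theorem cases_tz_mem {D : Set X} (h : Dn D) (s : ℝ) : 0 ≤ tz (sl D s) ∧ tz (sl D s) ≤ 1 :=
  ⟨(h.sl s).swap.ext_mem.1, (h.sl s).swap.ext_mem.2.1.trans (h.sl s).swap.ext_mem.2.2⟩

theorem cases_max {D : Set X} (h : Dn D) {Λ₀ : ℝ → ℝ} (h0 : Av D Λ₀) {F : ℝ → ℝ → ℝ}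
    (hF : ∀ k, Av D (F k)) (KS : Finset ℝ) :
    ∃ Λ, Av D Λ ∧ ∀ s, Λ₀ s ≤ Λ s ∧ ∀ k ∈ KS, F k s ≤ Λ s := by
  classical
  induction KS using Finset.induction_on with
  | empty => exact ⟨Λ₀, h0, fun s => ⟨le_rfl, by simp⟩⟩
  | insert a S _ ih =>
    obtain ⟨Λ, h1, h2⟩ := ih
    refine ⟨_, Av.max h h1 (hF a), fun s => ⟨(h2 s).1.trans (le_max_left _ _), fun k hk => ?_⟩⟩
    rcases Finset.mem_insert.1 hk with rfl | hk
    · exact le_max_right _ _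
    · exact ((h2 s).2 k hk).trans (le_max_left _ _)

theorem cases_cl (x : ℝ) : |cl x| ≤ 1 := abs_le.2 ⟨by linarith [(cl_mem x).1], (cl_mem x).2⟩

/-- one field for all three kinds of slices -/
theorem cases_master {D : Set X} (h : Dn D) {KS : Finset ℝ} (hK : ∀ k ∈ KS, k ∈ Icc (0 : ℝ) 1) :
    ∃ Λ, Av D Λ ∧ ∀ s, (ty (sl D s) = 0 → tz (sl D s) = 0 → √(π * ms D s) ≤ Λ s) ∧
      (0 < ty (sl D s) → 0 < tz (sl D s) →
        √(π * (1 - ms D s)) ≤ Λ s ∧ ∀ t, t ≤ tz (sl D s) → Hole t (ms D s) (Λ s)) ∧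
      (ty (sl D s) = 0 → 0 < tz (sl D s) →
        1 ≤ Λ s ∧ ∀ t, tz (sl D s) ≤ t → ∀ k ∈ KS, Ek k + k * (ms D s - t) ≤ Λ s) := by
  classical
  have a1 := av_beta D (β := fun q => cl (q.2 / wy (sl D q.1)))
    (measurable_cl.comp (measurable_snd.div (h.measurable_wy.comp measurable_fst)))
    fun _ => cases_cl _
  have a2 := av_beta' D (β := fun q => cl ((1 - q.2) / (1 - tz (sl D q.1))))
    (measurable_cl.comp ((measurable_snd.const_sub 1).div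
      ((h.measurable_tz.comp measurable_fst).const_sub 1))) fun _ => cases_cl _
  have a3 := fun k : ℝ => av_beta D (β := fun q => cl (k * q.2))
    (measurable_cl.comp (measurable_snd.const_mul k)) fun _ => cases_cl _
  obtain ⟨Λ, hΛ, H⟩ := cases_max h (Av.max h a1 a2) a3 (insert 0 KS)
  refine ⟨Λ, hΛ, fun s => ?_⟩
  have b1 := (le_max_left _ _).trans (H s).1
  have b2 := (le_max_right _ _).trans (H s).1
  have b0 : 0 ≤ Λ s := (Fl_nonneg _ (fun _ => (cl_mem _).1) fun _ => sqrt_nonneg _).trans b1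
  have hG := h.sl s
  have hm : 0 ≤ ms D s ∧ ms D s ≤ 1 := hG.area_mem
  refine ⟨fun e1 e2 => ?_, fun e1 e2 => ?_, fun e1 e2 => ⟨?_, fun t ht k hk => ?_⟩⟩
  · rcases hm.1.eq_or_lt with e | e
    · rwa [← e, mul_zero, sqrt_zero]
    · obtain ⟨c1, c2⟩ := hG.fl_corner e1 e2 e
      exact (sqrt_le_amgm hm.1 c1).trans (c2.ge.trans b1)
  · have key : Hole (tz (sl D s)) (ms D s) (Λ s) := fun W _ hW => by
      rcases hm.2.eq_or_lt with e | e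
      · rwa [e, sub_self, lc_zero]
      · obtain ⟨c1, c2⟩ := hG.swap.fl_hole e2 e1 ((volume_swap _).trans_lt e)
        rw [volume_swap] at c2
        exact (lc_le (sub_nonneg.2 hm.2) (sub_pos.2 c1) hW).trans
          (c2.ge.trans ((Fl_swap _ _ _).le.trans b2))
    exact ⟨(sqrt_le_lc (sub_nonneg.2 hm.2) one_pos).trans (key 1 one_pos (by linarith)),
      fun t ht W h1 h2 => key W h1 (by linarith)⟩
  · have c := (hG.fl_strip e1 e2 (k := 0) ⟨le_rfl, zero_le_one⟩).ge.trans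
      ((H s).2 0 (Finset.mem_insert_self _ _))
    rwa [Ek_zero, zero_mul, add_zero] at c
  · refine le_trans ?_ ((hG.fl_strip e1 e2 (hK k hk)).ge.trans
      ((H s).2 k (Finset.mem_insert_of_mem hk)))
    exact add_le_add le_rfl (mul_le_mul_of_nonneg_left (sub_le_sub_left ht _) (hK k hk).1)

theorem cases_ae {a b : ℝ} (c d : ℝ) {P : ℝ → Prop} (h : ∀ s ∈ Ioo a b, s ≠ c → s ≠ d → P s) :
    ∀ᵐ s ∂(volume.restrict (Ioo a b)), P s := by
  filter_upwards [ae_restrict_mem measurableSet_Ioo, ae_restrict_of_ae (Measure.ae_ne volume c),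
    ae_restrict_of_ae (Measure.ae_ne volume d)] with s h1 h2 h3 using h s h1 h2 h3

/-- the trichotomy corner / hole / strip -/
theorem cases_tri {D : Set X} (h : Dn D) (h1 : L13 D ≤ L12 D) {s : ℝ} (h0 : 0 < s) (hs : s ≠ L12 D) :
    (ty (sl D s) = 0 ∧ tz (sl D s) = 0) ∨ (0 < ty (sl D s) ∧ 0 < tz (sl D s)) ∨
      (ty (sl D s) = 0 ∧ 0 < tz (sl D s)) := by
  rcases (h.sl s).ext_mem.1.eq_or_lt with e | e
  · rcases (cases_tz_mem h s).1.eq_or_lt with e' | e'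
    · exact Or.inl ⟨e.symm, e'.symm⟩
    · exact Or.inr (Or.inr ⟨e.symm, e'⟩)
  · exact Or.inr (Or.inl ⟨e, cases_tz h h0 ((((cases_ty h h0).1 e).trans h1).lt_of_ne hs)⟩)

theorem Dn.case2 {D : Set X} (h : Dn D) {p : ℝ} (h1 : L13 D ≤ L12 D) (h2 : L32 D ≤ p)
    {KS : Finset ℝ} (hK : ∀ k ∈ KS, k ∈ Icc (0 : ℝ) 1) :
    ∃ Λ, Av D Λ ∧ ∀ᵐ s ∂(volume.restrict (Ioo (0 : ℝ) 1)),
      (ty (R214.sl D s) = 0 ∧ tz (R214.sl D s) = 0 ∧ √(π * ms D s) ≤ Λ s) ∨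
        √(π * (1 - ms D s)) ≤ Λ s ∨ ∀ k ∈ KS, Ek k + k * (ms D s - p) ≤ Λ s := by
  obtain ⟨Λ, hΛ, H⟩ := cases_master h hK
  refine ⟨Λ, hΛ, cases_ae (L12 D) (L12 D) fun s hs e _ => ?_⟩
  rcases cases_tri h h1 hs.1 e with ⟨a, b⟩ | ⟨a, b⟩ | ⟨a, b⟩
  · exact Or.inl ⟨a, b, (H s).1 a b⟩
  · exact Or.inr (Or.inl ((H s).2.1 a b).1)
  · exact Or.inr (Or.inr (((H s).2.2 a b).2 p ((cases_tz_le h s).trans h2)))

/-- `h = sSup ({0} ∪ {tz (sl D s) | L13 D < s})`; holes have `h ≤ tz`, strips `tz ≤ h`; `lc_le` -/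
theorem Dn.case1 {D : Set X} (h : Dn D) {p : ℝ} (hp : 0 < p) (h1 : L13 D ≤ L12 D) (h2 : p < L13 D)
    {KS : Finset ℝ} (hK : ∀ k ∈ KS, k ∈ Icc (0 : ℝ) 1) :
    ∃ t ∈ Icc (0 : ℝ) 1, ∃ Λ, Av D Λ ∧
      (∀ᵐ s ∂(volume.restrict (Ioo (0 : ℝ) p)), Hole t (ms D s) (Λ s)) ∧
      (∀ᵐ s ∂(volume.restrict (Ioo p 1)), √(π * ms D s) ≤ Λ s ∨ Hole t (ms D s) (Λ s) ∨
        ∀ k ∈ KS, Ek k + k * (ms D s - t) ≤ Λ s) ∧
      ∀ᵐ s ∂(volume.restrict (Ioo (0 : ℝ) 1)),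
        min 1 (min √(π * ms D s) √(π * (1 - ms D s))) ≤ Λ s := by
  obtain ⟨Λ, hΛ, H⟩ := cases_master h hK
  obtain ⟨T, hT⟩ : ∃ T : Set ℝ, T = insert 0 ((fun s => tz (R214.sl D s)) '' Ioi (L13 D)) := ⟨_, rfl⟩
  have hle : ∀ c, 0 ≤ c → (∀ s, L13 D < s → tz (R214.sl D s) ≤ c) → ∀ x ∈ T, x ≤ c := by
    rintro c hc h' x hx
    rcases hT ▸ hx with rfl | ⟨s, hs, rfl⟩
    · exact hc
    · exact h' s hs
  have h0 : (0 : ℝ) ∈ T := hT ▸ mem_insert _ _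
  have hb : BddAbove T := ⟨1, hle 1 zero_le_one fun s _ => (cases_tz_mem h s).2⟩
  have hh : ∀ s, 0 < s → s ≤ L13 D → sSup T ≤ tz (R214.sl D s) := fun s a b =>
    csSup_le ⟨0, h0⟩ (hle _ (cases_tz_mem h s).1 fun s' hs' =>
      (h.sl s').swap.ty_mono (h.sl s).swap (preimage_mono (h.sl_anti a (b.trans hs'.le))))
  refine ⟨sSup T, ⟨le_csSup hb h0, csSup_le ⟨0, h0⟩
    (hle 1 zero_le_one fun s _ => (cases_tz_mem h s).2)⟩, Λ, hΛ,
    cases_ae 0 0 fun s hs _ _ => ?_, cases_ae (L12 D) (L13 D) fun s hs e e' => ?_,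
    cases_ae (L12 D) (L12 D) fun s hs e _ => ?_⟩
  · have a := hs.2.trans h2
    exact ((H s).2.1 ((cases_ty h hs.1).2 a) (cases_tz h hs.1 (a.trans_le h1))).2 _
      (hh s hs.1 a.le)
  · have s0 := hp.trans hs.1
    rcases cases_tri h h1 s0 e with ⟨a, b⟩ | ⟨a, b⟩ | ⟨a, b⟩
    · exact Or.inl ((H s).1 a b)
    · exact Or.inr (Or.inl (((H s).2.1 a b).2 _ (hh s s0 ((cases_ty h s0).1 a))))
    · refine Or.inr (Or.inr (((H s).2.2 a b).2 _ (le_csSup hb (hT ▸ Or.inr ⟨s, ?_, rfl⟩))))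
      exact (not_lt.1 fun c => ((cases_ty h s0).2 c).ne' a).lt_of_ne e'.symm
  · rcases cases_tri h h1 hs.1 e with ⟨a, b⟩ | ⟨a, b⟩ | ⟨a, b⟩
    · exact (min_le_right _ _).trans ((min_le_left _ _).trans ((H s).1 a b))
    · exact (min_le_right _ _).trans ((min_le_right _ _).trans ((H s).2.1 a b).1)
    · exact (min_le_left _ _).trans ((H s).2.2 a b).1

end Crest.Agent.R214
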