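import Crest.Agent.R214.JApi

/-!
# R214/TB

The exact model. Write `a = π R²/4`, `b = π r²/4`, `ρ μ = √(4μ/π)`, so `√(π μ) = π/2 ρ`; `T = r + R > 0`.
`S μ = (r R + ρ²)/(T ρ)` for `μ ∈ [b, a]`, `μ > 0` (else `0`); `0 ≤ S ≤ 1`, `1 - S² = (R² - ρ²)(ρ² - r²)/(T ρ)²`. Use `α = S ∘ m`, `κ = √(1 - S²)`.
`α √(π m) = π/2 (rR + 4m/π)/T` (also if `m = 0`, then `r = 0`). Substituting `μ = π/4 (r + (R-r)τ)²`:
`∫_b^a κ = π/(2T) (R-r)² ∫_0^1 √(τ(1-τ)) √((A+c)(B+c))`, `A = (R-r)(1+τ)`, `B = (R-r)τ`, `c = 2r`; `√((A+c)(B+c)) ≥ √(AB) + c`,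
`∫ τ√(1-τ²) = 1/3`, `√x ≥ 3x - 4x²` on `[0,1/4]` gives `∫ √(τ(1-τ)) ≥ 11/30`.
-/

set_option autoImplicit false

open MeasureTheory Set Filter Real
open scoped Topology

noncomputable section

namespace Crest.Agent.R214

theorem tb_int {f : ℝ → ℝ} {a b : ℝ} (hf : Measurable f) (C : ℝ) (h : ∀ s ∈ Ioo a b, |f s| ≤ C) :
    IntegrableOn f (Ioo a b) :=
  Measure.integrableOn_of_bounded (M := C) (by simp) hf.aestronglyMeasurable
    ((ae_restrict_iff' measurableSet_Ioo).2 (Eventually.of_forall h))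

theorem tb_sqrt {μ : ℝ} (hμ : 0 ≤ μ) : √(π * μ) = π / 2 * √(4 * μ / π) := by
  have hp := Real.pi_pos
  rw [Real.sqrt_eq_iff_mul_self_eq (by positivity) (by positivity), mul_mul_mul_comm,
    Real.mul_self_sqrt (by positivity)]
  field_simp
  ring

theorem tb_rho {ρ : ℝ} (hρ : 0 ≤ ρ) : √(4 * (π * ρ ^ 2 / 4) / π) = ρ := by
  have hp := Real.pi_pos
  rw [show 4 * (π * ρ ^ 2 / 4) / π = ρ ^ 2 by field_simp, Real.sqrt_sq hρ]

theorem tb_rho_mem {r R μ : ℝ} (hr : 0 ≤ r) (hR : 0 ≤ R) (h1 : π * r ^ 2 / 4 ≤ μ) (h2 : μ ≤ π * R ^ 2 / 4) :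
    r ≤ √(4 * μ / π) ∧ √(4 * μ / π) ≤ R := by
  have hp := Real.pi_pos
  constructor
  · rw [← tb_rho hr]
    gcongr
  · rw [← tb_rho hR]
    gcongr

open Classical in
/-- the calibration -/
def tbS (r R μ : ℝ) : ℝ :=
  if π * r ^ 2 / 4 ≤ μ ∧ μ ≤ π * R ^ 2 / 4 ∧ 0 < μ then (r * R + 4 * μ / π) / ((r + R) * √(4 * μ / π)) else 0

theorem tbS_meas (r R : ℝ) : Measurable (tbS r R) := by
  unfold tbS
  refine Measurable.ite ?_ (by fun_prop) measurable_const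
  exact measurableSet_Ici.inter (measurableSet_Iic.inter measurableSet_Ioi)

theorem tbS_mem {r R : ℝ} (hr : 0 ≤ r) (hR : 0 < R) (μ : ℝ) : tbS r R μ ∈ Icc (0 : ℝ) 1 := by
  have hp := Real.pi_pos
  unfold tbS
  split_ifs with h
  · obtain ⟨h1, h2, h3⟩ := h
    obtain ⟨a1, a2⟩ := tb_rho_mem hr hR.le h1 h2
    have e : √(4 * μ / π) ^ 2 = 4 * μ / π := Real.sq_sqrt (by positivity)
    refine ⟨by positivity, (div_le_one (by positivity)).2 ?_⟩
    nlinarith [mul_nonneg (sub_nonneg.2 a1) (sub_nonneg.2 a2)]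
  · exact ⟨le_rfl, zero_le_one⟩

theorem tbS_pos {r R μ : ℝ} (hr : 0 ≤ r) (hR : 0 < R) (h1 : π * r ^ 2 / 4 ≤ μ) (h2 : μ ≤ π * R ^ 2 / 4)
    (h3 : 0 < μ) : 0 < tbS r R μ := by
  have hp := Real.pi_pos
  rw [tbS, if_pos ⟨h1, h2, h3⟩]
  positivity

theorem tbS_mul {r R μ : ℝ} (hr : 0 ≤ r) (hR : 0 < R) (h1 : π * r ^ 2 / 4 ≤ μ) (h2 : μ ≤ π * R ^ 2 / 4) :
    tbS r R μ * √(π * μ) = π / 2 * ((r * R + 4 * μ / π) / (r + R)) := by
  have hp := Real.pi_pos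
  have h0 : 0 ≤ μ := le_trans (by positivity) h1
  rcases h0.eq_or_lt with rfl | h3
  · have : r = 0 := by
      by_contra h
      have : 0 < π * r ^ 2 / 4 := by positivity
      linarith
    simp [this]
  · rw [tbS, if_pos ⟨h1, h2, h3⟩, tb_sqrt h0]
    have : 0 < √(4 * μ / π) := by positivity
    field_simp

theorem tb_i1 : ∫ τ in Ioo (0 : ℝ) 1, τ * √(1 - τ ^ 2) = 1 / 3 := by
  rw [← integral_Ioc_eq_integral_Ioo, ← intervalIntegral.integral_of_le zero_le_one]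
  have h : ∀ τ ∈ uIcc (0 : ℝ) 1, HasDerivAt (fun τ : ℝ => -((1 - τ ^ 2) ^ (3 / 2 : ℝ)) / 3) (τ * √(1 - τ ^ 2)) τ := by
    intro τ _
    have h1 : HasDerivAt (fun τ : ℝ => 1 - τ ^ 2) (-(2 * τ)) τ := by
      simpa using (hasDerivAt_pow 2 τ).const_sub 1
    have h2 := ((h1.rpow_const (p := 3 / 2) (Or.inr (by norm_num))).neg).div_const 3
    refine h2.congr_deriv ?_
    rw [Real.sqrt_eq_rpow, show (3 / 2 - 1 : ℝ) = 1 / 2 by norm_num]
    ring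
  rw [intervalIntegral.integral_eq_sub_of_hasDerivAt h ((by fun_prop : Continuous _).intervalIntegrable _ _)]
  norm_num

theorem tb_i2 : ∫ τ in Ioo (0 : ℝ) 1, (3 * (τ * (1 - τ)) - 4 * (τ * (1 - τ)) ^ 2) = 11 / 30 := by
  rw [← integral_Ioc_eq_integral_Ioo, ← intervalIntegral.integral_of_le zero_le_one]
  have h : ∀ τ ∈ uIcc (0 : ℝ) 1, HasDerivAt
      (fun τ : ℝ => 3 / 2 * τ ^ 2 - 7 / 3 * τ ^ 3 + 2 * τ ^ 4 - 4 / 5 * τ ^ 5)
      (3 * (τ * (1 - τ)) - 4 * (τ * (1 - τ)) ^ 2) τ := by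
    intro τ _
    have h2 := ((((hasDerivAt_pow 2 τ).const_mul (3 / 2)).sub ((hasDerivAt_pow 3 τ).const_mul (7 / 3))).add
      ((hasDerivAt_pow 4 τ).const_mul 2)).sub ((hasDerivAt_pow 5 τ).const_mul (4 / 5))
    refine h2.congr_deriv ?_
    norm_num
    ring
  rw [intervalIntegral.integral_eq_sub_of_hasDerivAt h ((by fun_prop : Continuous _).intervalIntegrable _ _)]
  norm_num

theorem tb_pt {r d τ : ℝ} (hr : 0 ≤ r) (hd : 0 ≤ d) (h0 : 0 ≤ τ) (h1 : τ ≤ 1) :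
    d * (d * (τ * √(1 - τ ^ 2)) + 2 * r * (3 * (τ * (1 - τ)) - 4 * (τ * (1 - τ)) ^ 2)) ≤
      √(((r + d) ^ 2 - (r + d * τ) ^ 2) * ((r + d * τ) ^ 2 - r ^ 2)) := by
  have hx : 0 ≤ τ * (1 - τ) := mul_nonneg h0 (sub_nonneg.2 h1)
  obtain ⟨u, hu0, hu⟩ : ∃ u, 0 ≤ u ∧ u ^ 2 = τ * (1 - τ) := ⟨√_, Real.sqrt_nonneg _, Real.sq_sqrt hx⟩
  have hw0 := Real.sqrt_nonneg (1 - τ ^ 2)
  have hw : √(1 - τ ^ 2) ^ 2 = 1 - τ ^ 2 := Real.sq_sqrt (by nlinarith)
  set w := √(1 - τ ^ 2)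
  have a1 : 3 * (τ * (1 - τ)) - 4 * (τ * (1 - τ)) ^ 2 ≤ u := by
    rw [← hu]
    nlinarith [mul_nonneg (mul_nonneg hu0 (by linarith : 0 ≤ u + 1)) (sq_nonneg (2 * u - 1))]
  have a2 : 2 * (τ * w) * u ≤ τ * (1 - τ) * (1 + 2 * τ) := by
    refine abs_le_of_sq_le_sq' ?_ (by positivity) |>.2
    have e : (2 * (τ * w) * u) ^ 2 = 4 * τ ^ 2 * w ^ 2 * u ^ 2 := by ring
    rw [e, hw, hu]
    nlinarith [sq_nonneg (τ * (1 - τ))]
  refine le_trans (b := d * (d * (τ * w) + 2 * r * u)) (by gcongr) (Real.le_sqrt_of_sq_le ?_)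
  have e : (d * (d * (τ * w) + 2 * r * u)) ^ 2 =
      d ^ 2 * (d ^ 2 * τ ^ 2 * w ^ 2 + 2 * r * d * (2 * (τ * w) * u) + 4 * r ^ 2 * u ^ 2) := by ring
  have e' : ((r + d) ^ 2 - (r + d * τ) ^ 2) * ((r + d * τ) ^ 2 - r ^ 2) =
      d ^ 2 * (d ^ 2 * τ ^ 2 * (1 - τ ^ 2) + 2 * r * d * (τ * (1 - τ) * (1 + 2 * τ)) + 4 * r ^ 2 * (τ * (1 - τ))) := by
    ring
  rw [e, e', hw, hu]
  gcongr

theorem tb_kap {r R ρ : ℝ} (hr : 0 ≤ r) (hR : 0 < R) (h0 : 0 < ρ) (h1 : r ≤ ρ) (h2 : ρ ≤ R) :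
    ρ * √(1 - tbS r R (π * ρ ^ 2 / 4) ^ 2) = √((R ^ 2 - ρ ^ 2) * (ρ ^ 2 - r ^ 2)) / (r + R) := by
  have hp := Real.pi_pos
  have hT : 0 < r + R := by positivity
  rw [tbS, if_pos ⟨by gcongr, by gcongr, by positivity⟩, tb_rho h0.le,
    show 4 * (π * ρ ^ 2 / 4) / π = ρ ^ 2 by field_simp,
    show 1 - ((r * R + ρ ^ 2) / ((r + R) * ρ)) ^ 2 = (R ^ 2 - ρ ^ 2) * (ρ ^ 2 - r ^ 2) / ((r + R) * ρ) ^ 2 by
      field_simp; ring,
    Real.sqrt_div' _ (by positivity), Real.sqrt_sq (by positivity)]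
  field_simp

theorem tb_kap_le (x : ℝ) : |√(1 - x ^ 2)| ≤ 1 := by
  rw [abs_of_nonneg (Real.sqrt_nonneg _), Real.sqrt_le_one]
  nlinarith [sq_nonneg x]

theorem tb_area {r R : ℝ} (hr : 0 ≤ r) (hR : 0 < R) (hrR : r ≤ R) :
    π / 2 * ((R - r) ^ 2 / 3 + (R - r) ^ 2 * r / (15 * (r + R))) ≤
      ∫ μ in Ioo (π * r ^ 2 / 4) (π * R ^ 2 / 4), √(1 - tbS r R μ ^ 2) := by
  have hp := Real.pi_pos
  have hT : 0 < r + R := by positivity
  rcases hrR.eq_or_lt with rfl | hlt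
  · simp
  obtain ⟨d, hd, rfl⟩ : ∃ d, 0 < d ∧ R = r + d := ⟨R - r, by linarith, by ring⟩
  have hm : Measurable fun μ => √(1 - tbS r (r + d) μ ^ 2) := by
    have := tbS_meas r (r + d)
    fun_prop
  have hf' : ∀ τ ∈ Ioo (0 : ℝ) 1, HasDerivWithinAt (fun τ => π * (r + d * τ) ^ 2 / 4)
      (π / 2 * d * (r + d * τ)) (Ioo 0 1) τ := fun τ _ => by
    have h1 : HasDerivAt (fun τ : ℝ => r + d * τ) d τ := by
      simpa using ((hasDerivAt_id τ).const_mul d).const_add r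
    have h2 := ((h1.pow 2).const_mul π).div_const 4
    refine (h2.congr_deriv ?_).hasDerivWithinAt
    norm_num
    ring
  have hinj : InjOn (fun τ => π * (r + d * τ) ^ 2 / 4) (Ioo (0 : ℝ) 1) := by
    refine StrictMonoOn.injOn fun x hx y _ hxy => ?_
    have := hx.1
    gcongr
  have hsub : (fun τ => π * (r + d * τ) ^ 2 / 4) '' Ioo (0 : ℝ) 1 ⊆ Ioo (π * r ^ 2 / 4) (π * (r + d) ^ 2 / 4) := by
    rintro _ ⟨τ, ⟨h0, h1⟩, rfl⟩
    have a1 : 0 < d * τ := by positivity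
    have a2 : d * τ < d := by nlinarith
    constructor
    · beta_reduce
      gcongr
      linarith
    · beta_reduce
      gcongr
  refine le_trans ?_ (setIntegral_mono_set (tb_int hm 1 fun s _ => tb_kap_le _)
    (Eventually.of_forall fun _ => Real.sqrt_nonneg _) hsub.eventuallyLE)
  rw [integral_image_eq_integral_abs_deriv_smul measurableSet_Ioo hf' hinj]
  have e1 : ∀ τ ∈ Ioo (0 : ℝ) 1, |π / 2 * d * (r + d * τ)| • √(1 - tbS r (r + d) (π * (r + d * τ) ^ 2 / 4) ^ 2) =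
      π / 2 * d / (r + (r + d)) * √(((r + d) ^ 2 - (r + d * τ) ^ 2) * ((r + d * τ) ^ 2 - r ^ 2)) := by
    rintro τ ⟨h0, h1⟩
    have a1 : 0 < d * τ := by positivity
    have a2 : d * τ < d := by nlinarith
    rw [abs_of_pos (by positivity), smul_eq_mul, mul_assoc, tb_kap hr hR (by positivity) (by linarith) (by linarith)]
    ring
  rw [setIntegral_congr_fun measurableSet_Ioo e1, integral_const_mul]
  have hI : ∀ g : ℝ → ℝ, Continuous g → IntegrableOn g (Ioo (0 : ℝ) 1) := fun g hg =>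
    (hg.integrableOn_Icc).mono_set Ioo_subset_Icc_self
  have e2 := setIntegral_mono_on (hI _ (by fun_prop)) (hI _ (by fun_prop)) measurableSet_Ioo
    fun τ (hτ : τ ∈ Ioo (0 : ℝ) 1) => tb_pt hr hd.le hτ.1.le hτ.2.le
  rw [integral_const_mul, integral_add (hI _ (by fun_prop)) (hI _ (by fun_prop)), integral_const_mul,
    integral_const_mul, tb_i1, tb_i2] at e2
  refine le_trans (le_of_eq ?_) (mul_le_mul_of_nonneg_left e2 (by positivity))
  field_simp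
  ring

theorem Sl.tb_m {A v a b : ℝ} {m Λ : ℝ → ℝ} (h : Sl A v a b m Λ) : IntegrableOn m (Ioo (0 : ℝ) 1) :=
  tb_int h.mm 1 fun s hs => abs_le.2 ⟨by linarith [h.b0, (h.mem s hs).1], (h.mem s hs).2.trans h.a1⟩

theorem Sl.tb_sq {A v a b : ℝ} {m Λ : ℝ → ℝ} (h : Sl A v a b m Λ) {s : ℝ} (hs : s ∈ Ioo (0 : ℝ) 1) :
    √(π * m s) ≤ 2 := by
  have := (h.mem s hs).2.trans h.a1
  rw [Real.sqrt_le_left (by norm_num)]
  nlinarith [Real.pi_pos, Real.pi_le_four]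

theorem Sl.tb_def {A v a b : ℝ} {m Λ : ℝ → ℝ} (h : Sl A v a b m Λ) {α : ℝ → ℝ} (hα : Measurable α)
    (h1 : ∀ s, α s ∈ Icc (0 : ℝ) 1) : IntegrableOn (fun s => α s * (Λ s - √(π * m s))) (Ioo (0 : ℝ) 1) := by
  have := h.mm
  have := h.Lm
  refine tb_int (by fun_prop) 4 fun s hs => ?_
  have a1 := abs_le.1 (h.Lb s)
  have a2 := h.tb_sq hs
  have a3 := Real.sqrt_nonneg (π * m s)
  rw [abs_mul, abs_of_nonneg (h1 s).1]
  calc α s * |Λ s - √(π * m s)| ≤ 1 * 4 :=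
        mul_le_mul (h1 s).2 (abs_le.2 ⟨by linarith, by linarith⟩) (abs_nonneg _) zero_le_one
    _ = 4 := one_mul _

theorem Sl.tb_v {A v a b : ℝ} {m Λ : ℝ → ℝ} (h : Sl A v a b m Λ) : b ≤ v ∧ v ≤ a := by
  rw [← h.vol]
  constructor
  · simpa using setIntegral_mono_on (μ := volume) (f := fun _ => b) (by simp) h.tb_m measurableSet_Ioo
      fun s hs => (h.mem s hs).1
  · simpa using setIntegral_mono_on (μ := volume) (g := fun _ => a) h.tb_m (by simp) measurableSet_Ioo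
      fun s hs => (h.mem s hs).2

theorem Sl.tb_rR {A v a b : ℝ} {m Λ : ℝ → ℝ} (h : Sl A v a b m Λ) (hv : 0 < v) :
    ∃ r R, 0 ≤ r ∧ 0 < R ∧ a = π * R ^ 2 / 4 ∧ b = π * r ^ 2 / 4 := by
  have hp := Real.pi_pos
  have ha : 0 < a := hv.trans_le h.tb_v.2
  have hb := h.b0
  refine ⟨√(4 * b / π), √(4 * a / π), Real.sqrt_nonneg _, by positivity, ?_, ?_⟩
  · rw [Real.sq_sqrt (by positivity)]
    field_simp
  · rw [Real.sq_sqrt (by positivity)]
    field_simp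

/-- the basic bound, keeping the deficit -/
theorem Sl.tb_core {A v a b : ℝ} {m Λ : ℝ → ℝ} (h : Sl A v a b m Λ) {r R : ℝ} (hr : 0 ≤ r) (hR : 0 < R)
    (ha : a = π * R ^ 2 / 4) (hb : b = π * r ^ 2 / 4) :
    ∃ α : ℝ → ℝ, Measurable α ∧ (∀ s, α s ∈ Icc (0 : ℝ) 1) ∧ (∀ s ∈ Ioo (0 : ℝ) 1, 0 < m s → 0 < α s) ∧
      π / 2 * ((r * R + 4 * v / π) / (r + R) + (R - r) ^ 2 / 3 + (R - r) ^ 2 * r / (15 * (r + R))) +
        ∫ s in Ioo (0 : ℝ) 1, α s * (Λ s - √(π * m s)) ≤ A := by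
  have hp := Real.pi_pos
  subst ha hb
  have hm := h.mm
  have hS := tbS_meas r R
  have hrR : r ≤ R := by
    have h1 := h.tb_v.1.trans h.tb_v.2
    refine abs_le_of_sq_le_sq' ?_ hR.le |>.2
    nlinarith
  refine ⟨fun s => tbS r R (m s), by fun_prop, fun s => tbS_mem hr hR _,
    fun s hs => tbS_pos hr hR (h.mem s hs).1 (h.mem s hs).2, ?_⟩
  have h1 := h.model (fun μ => √(1 - tbS r R μ ^ 2)) (fun s => tbS r R (m s)) (by fun_prop) (by fun_prop)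
    (fun μ => tb_kap_le _) fun s _ => by
      have := tbS_mem hr hR (m s)
      rw [Real.sq_sqrt (by nlinarith [this.1, this.2])]
      linarith
  have h2 := tb_area hr hR hrR
  have e : ∀ s ∈ Ioo (0 : ℝ) 1, tbS r R (m s) * Λ s = tbS r R (m s) * (Λ s - √(π * m s)) +
      (π / 2 * (r * R / (r + R)) + 2 / (r + R) * m s) := fun s hs => by
    rw [mul_sub, tbS_mul hr hR (h.mem s hs).1 (h.mem s hs).2]
    field_simp
    ring
  have i1 : IntegrableOn (fun s => tbS r R (m s) * (Λ s - √(π * m s))) (Ioo (0 : ℝ) 1) :=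
    h.tb_def (α := fun s => tbS r R (m s)) (by fun_prop) fun s => tbS_mem hr hR _
  have i2 : IntegrableOn (fun s => π / 2 * (r * R / (r + R)) + 2 / (r + R) * m s) (Ioo (0 : ℝ) 1) :=
    Integrable.add (integrable_const _) (h.tb_m.const_mul _)
  rw [setIntegral_congr_fun measurableSet_Ioo e, integral_add i1 i2, integral_add (integrable_const _) (h.tb_m.const_mul _),
    integral_const_mul (2 / (r + R)), h.vol] at h1
  simp only [integral_const, MeasurableSet.univ, measureReal_restrict_apply, univ_inter, Real.volume_real_Ioo,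
    smul_eq_mul] at h1
  norm_num at h1
  have e2 : π / 2 * ((r * R + 4 * v / π) / (r + R)) = π / 2 * (r * R / (r + R)) + 2 / (r + R) * v := by
    field_simp
    ring
  linarith

/-- With `ρ² = 4v/π ∈ [r², R²]`, `T = r + R`: `(rR + ρ²)/T + (R-r)²/3 = ρ²/T + T²/3 + rR(1/T - 4/3)`. If `T ≤ 3/4` use `sph_le_tangent`,
otherwise `(rR + ρ²)/T - ρ = -(R-ρ)(ρ-r)/T ≥ -(R-r)²/(4T) ≥ -(R-r)²/3`. -/
theorem tb_alg {v r R : ℝ} (hv : 0 < v) (hr : 0 ≤ r) (hR : 0 < R) (h1 : π * r ^ 2 / 4 ≤ v)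
    (h2 : v ≤ π * R ^ 2 / 4) :
    min (sph v) √(π * v) ≤ π / 2 * ((r * R + 4 * v / π) / (r + R) + (R - r) ^ 2 / 3) := by
  have hp := Real.pi_pos
  have hT : 0 < r + R := by positivity
  rcases le_total (r + R) (3 / 4) with h | h
  · refine (min_le_left _ _).trans ((sph_le_tangent hv hT).1.trans ?_)
    have e : (r * R + 4 * v / π) / (r + R) + (R - r) ^ 2 / 3 =
        4 * v / π / (r + R) + (r + R) ^ 2 / 3 + r * R * (3 - 4 * (r + R)) / (3 * (r + R)) := by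
      field_simp
      ring
    have : 0 ≤ r * R * (3 - 4 * (r + R)) / (3 * (r + R)) :=
      div_nonneg (mul_nonneg (by positivity) (by linarith)) (by positivity)
    rw [e]
    exact mul_le_mul_of_nonneg_left (le_add_of_nonneg_right this) (by positivity)
  · refine (min_le_right _ _).trans ?_
    obtain ⟨a1, a2⟩ := tb_rho_mem hr hR.le h1 h2
    have e : √(4 * v / π) ^ 2 = 4 * v / π := Real.sq_sqrt (by positivity)
    rw [tb_sqrt hv.le]
    set ρ := √(4 * v / π)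
    rw [← e]
    gcongr
    rw [← sub_le_iff_le_add, le_div_iff₀ hT]
    nlinarith [sq_nonneg (R + r - 2 * ρ), mul_nonneg (sq_nonneg (R - r)) (sub_nonneg.2 h)]

theorem Sl.tb {A v a b : ℝ} {m Λ : ℝ → ℝ} (h : Sl A v a b m Λ) (hv : 0 < v)
    (hΛ : ∀ᵐ s ∂(volume.restrict (Ioo (0 : ℝ) 1)), √(π * m s) ≤ Λ s) : min (sph v) √(π * v) ≤ A := by
  have hp := Real.pi_pos
  obtain ⟨r, R, hr, hR, ha, hb⟩ := h.tb_rR hv
  obtain ⟨α, -, h1, -, h2⟩ := h.tb_core hr hR ha hb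
  have h3 := tb_alg hv hr hR (hb ▸ h.tb_v.1) (ha ▸ h.tb_v.2)
  have h4 : 0 ≤ ∫ s in Ioo (0 : ℝ) 1, α s * (Λ s - √(π * m s)) :=
    integral_nonneg_of_ae (hΛ.mono fun s hs => mul_nonneg (h1 s).1 (sub_nonneg.2 hs))
  have h5 : 0 ≤ π / 2 * ((R - r) ^ 2 * r / (15 * (r + R))) := by positivity
  linarith

/-- equality forces `(R - r)² r = 0` and a vanishing deficit -/
theorem Sl.tb_eq {A v a b : ℝ} {m Λ : ℝ → ℝ} (h : Sl A v a b m Λ) (hv : 0 < v)
    (hΛ : ∀ᵐ s ∂(volume.restrict (Ioo (0 : ℝ) 1)), √(π * m s) ≤ Λ s)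
    (hA : A ≤ min (sph v) √(π * v)) :
    (∀ᵐ s ∂(volume.restrict (Ioo (0 : ℝ) 1)), 0 < m s → Λ s = √(π * m s)) ∧
      (((∀ s ∈ Ioo (0 : ℝ) 1, m s = v) ∧ √(π * v) ≤ A) ∨
        ∃ R, 0 < R ∧ b = 0 ∧ a = π * R ^ 2 / 4 ∧ v = π / 6 * R ^ 3 ∧ sph v ≤ A) := by
  have hp := Real.pi_pos
  obtain ⟨r, R, hr, hR, ha, hb⟩ := h.tb_rR hv
  obtain ⟨α, hα, h1, h0, h2⟩ := h.tb_core hr hR ha hb
  have h3 := tb_alg hv hr hR (hb ▸ h.tb_v.1) (ha ▸ h.tb_v.2)
  have h4' : 0 ≤ᵐ[volume.restrict (Ioo (0 : ℝ) 1)] fun s => α s * (Λ s - √(π * m s)) :=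
    hΛ.mono fun s hs => mul_nonneg (h1 s).1 (sub_nonneg.2 hs)
  have h4 := integral_nonneg_of_ae h4'
  have h5 : 0 ≤ π / 2 * ((R - r) ^ 2 * r / (15 * (r + R))) := by positivity
  have h6 := (integral_eq_zero_iff_of_nonneg_ae h4' (h.tb_def hα h1)).1 (le_antisymm (by linarith) h4)
  have h7 : π / 2 * ((R - r) ^ 2 * r / (15 * (r + R))) = 0 := le_antisymm (by linarith) h5
  have h8 : π / 2 * ((r * R + 4 * v / π) / (r + R) + (R - r) ^ 2 / 3) ≤ A := by linarith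
  refine ⟨?_, ?_⟩
  · filter_upwards [h6, ae_restrict_mem measurableSet_Ioo] with s hs hs' hm
    exact sub_eq_zero.1 ((mul_eq_zero.1 hs).resolve_left (h0 s hs' hm).ne')
  have h9 : R = r ∨ r = 0 := by
    by_contra hc
    push Not at hc
    have := sub_ne_zero.2 hc.1
    have := hc.2
    have : 0 < π / 2 * ((R - r) ^ 2 * r / (15 * (r + R))) := by positivity
    linarith
  rcases h9 with rfl | rfl
  · have e : v = π * R ^ 2 / 4 := le_antisymm (ha ▸ h.tb_v.2) (hb ▸ h.tb_v.1)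
    refine Or.inl ⟨fun s hs => ?_, le_trans (le_of_eq ?_) h8⟩
    · rw [e]
      exact le_antisymm (ha ▸ (h.mem s hs).2) (hb ▸ (h.mem s hs).1)
    · rw [tb_sqrt hv.le, e, tb_rho hr]
      field_simp
      ring
  · simp only [zero_mul, zero_add, sub_zero] at h8
    exact Or.inr ⟨R, hR, by simpa using hb, ha,
      (sph_le_tangent hv hR).2 (h8.trans (hA.trans (min_le_left _ _))), (sph_le_tangent hv hR).1.trans h8⟩

/-- `κ = 1, α = 0`; then `κ = √(1 - t²)`, `α = t`, `t → 0` gives `∫ Λ ≤ 0`, so `m ∈ {0, 1}` a.e.; `m` is antitone with integral `v`. -/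
theorem Sl.slab {A v : ℝ} {m Λ : ℝ → ℝ} (h : Sl A v 1 0 m Λ) :
    1 ≤ A ∧ (A ≤ 1 → (∀ᵐ s ∂(volume.restrict (Ioo (0 : ℝ) 1)),
      min 1 (min √(π * m s) √(π * (1 - m s))) ≤ Λ s) →
      ∀ᵐ s ∂(volume.restrict (Ioo (0 : ℝ) 1)), m s = if s < v then 1 else 0) := by
  have hp := Real.pi_pos
  have key : ∀ t ∈ Icc (0 : ℝ) 1, √(1 - t ^ 2) + t * ∫ s in Ioo (0 : ℝ) 1, Λ s ≤ A := fun t ht => by
    have := h.model (fun _ => √(1 - t ^ 2)) (fun _ => t) measurable_const measurable_const (fun _ => tb_kap_le t)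
      fun s _ => by
        rw [Real.sq_sqrt (by nlinarith [ht.1, ht.2])]
        linarith
    rw [integral_const_mul] at this
    simpa using this
  refine ⟨by simpa using key 0 ⟨le_rfl, zero_le_one⟩, fun hA hΛ => ?_⟩
  have h1 : ∫ s in Ioo (0 : ℝ) 1, Λ s ≤ 0 := by
    refine le_of_forall_pos_le_add fun ε hε => ?_
    have ht : 0 < min ε 1 := lt_min hε one_pos
    have ht1 : min ε 1 ≤ 1 := min_le_right _ _
    have a1 := key (min ε 1) ⟨ht.le, ht1⟩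
    have a2 : 1 - min ε 1 ^ 2 ≤ √(1 - min ε 1 ^ 2) := by
      refine Real.le_sqrt_of_sq_le ?_
      nlinarith [mul_nonneg (sq_nonneg (min ε 1)) (by nlinarith : 0 ≤ 1 - min ε 1 ^ 2)]
    have a3 : ∫ s in Ioo (0 : ℝ) 1, Λ s ≤ min ε 1 := le_of_mul_le_mul_left (by nlinarith) ht
    linarith [min_le_left ε 1]
  have h2 : 0 ≤ᵐ[volume.restrict (Ioo (0 : ℝ) 1)] Λ := hΛ.mono fun s hs => le_trans (by positivity) hs
  have h3 := (integral_eq_zero_iff_of_nonneg_ae h2 (tb_int h.Lm 2 fun s _ => h.Lb s)).1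
    (le_antisymm h1 (integral_nonneg_of_ae h2))
  have hi : ∀ s ∈ Ioo (0 : ℝ) 1, ∫ x in Ioo (0 : ℝ) 1, (Iio s).indicator (fun _ => (1 : ℝ)) x = s := fun s hs => by
    rw [setIntegral_indicator measurableSet_Iio, Ioo_inter_Iio, min_eq_right hs.2.le]
    simp [hs.1.le]
  have hi' : ∀ s : ℝ, IntegrableOn ((Iio s).indicator (fun _ => (1 : ℝ))) (Ioo (0 : ℝ) 1) := fun s =>
    Integrable.indicator (by simp) measurableSet_Iio
  filter_upwards [h3, hΛ, ae_restrict_mem measurableSet_Ioo, ae_restrict_of_ae (Measure.ae_ne volume v)]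
    with s e1 e2 hs hsv
  rw [e1, Pi.zero_apply, min_le_iff, min_le_iff] at e2
  obtain ⟨b1, b2⟩ := h.mem s hs
  rcases e2 with e2 | e2 | e2
  · linarith
  · have e3 : m s = 0 := by
      have := Real.sqrt_eq_zero'.1 (le_antisymm e2 (Real.sqrt_nonneg _))
      nlinarith
    have : v ≤ s := by
      rw [← h.vol, ← hi s hs]
      refine setIntegral_mono_on h.tb_m (hi' s) measurableSet_Ioo fun x hx => ?_
      by_cases hxs : x < s
      · rw [indicator_of_mem (show x ∈ Iio s from hxs)]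
        exact (h.mem x hx).2
      · rw [indicator_of_notMem (show x ∉ Iio s from hxs), ← e3]
        exact h.anti hs hx (not_lt.1 hxs)
    rw [if_neg this.not_gt, e3]
  · have e3 : m s = 1 := by
      have := Real.sqrt_eq_zero'.1 (le_antisymm e2 (Real.sqrt_nonneg _))
      nlinarith
    have : s ≤ v := by
      rw [← h.vol]
      refine (hi s hs).ge.trans (setIntegral_mono_on (hi' s) h.tb_m measurableSet_Ioo fun x hx => ?_)
      by_cases hxs : x < s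
      · rw [indicator_of_mem (show x ∈ Iio s from hxs), ← e3]
        exact h.anti hx hs hxs.le
      · rw [indicator_of_notMem (show x ∉ Iio s from hxs)]
        exact (h.mem x hx).1
    rw [if_pos (lt_of_le_of_ne this hsv), e3]

end Crest.Agent.R214
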