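import Crest.Agent.R214.PDisc

/-!
# R214/TBeq

The profile of the ball. For `0 < μ₀ < μ₁ < a` use `S t μ = √(4μ/π)/R + t 1_{(μ₀, μ₁]} μ / √(π μ)` on `[0, a]` (`0` elsewhere), `α = S t ∘ m`, `κ = √(1 - S t²)`.
At `t = 0` the bound is `∫_0^a √(1 - 4μ/(πR²)) + 2v/R = π/2 R²`. By `sqrt_expand` and `t → 0±`:
`|{s | μ₀ < m s ≤ μ₁}| = ∫_{μ₀}^{μ₁} (2/π)/√(R² - 4μ/π) = √(R² - 4μ₀/π) - √(R² - 4μ₁/π)`. So `N μ = |{s ∈ (0,1) | μ < m s}| = √(R² - 4μ/π) + τ` on `(0,a)`, and the layer cake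
formula `v = ∫_0^a N` gives `τ = 0`. If `μ < m s` then `s ≤ N μ`; if `m s ≤ μ` then `N μ ≤ s`.
-/

set_option autoImplicit false

open MeasureTheory Set Filter Real
open scoped Topology

noncomputable section

namespace Crest.Agent.R214

theorem TBeq_zero {x C δ : ℝ} (hδ : 0 < δ) (h : ∀ t, |t| ≤ δ → t * x ≤ C * t ^ 2) : x = 0 := by
  by_contra hx
  have hx' : 0 < |x| := abs_pos.2 hx
  set e : ℝ := min (δ / |x|) (1 / (|C| + 1)) with he
  have e0 : 0 < e := lt_min (by positivity) (by positivity)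
  have e1 : e * |x| ≤ δ := (le_div_iff₀ hx').1 (min_le_left _ _)
  have e2 : e * (|C| + 1) ≤ 1 := (le_div_iff₀ (by positivity)).1 (min_le_right _ _)
  have h1 := h (e * x) (by rwa [abs_mul, abs_of_pos e0])
  have h2 : 0 < e * x ^ 2 := by positivity
  have h3 : C * e < 1 := by nlinarith [le_abs_self C]
  have h4 := mul_lt_mul_of_pos_right h3 h2
  nlinarith

theorem TBeq_pos {R μ : ℝ} (h : μ < π * R ^ 2 / 4) : 0 < R ^ 2 - 4 * μ / π := by
  have := pi_pos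
  rw [sub_pos, div_lt_iff₀ this]
  linarith

theorem TBeq_deriv {R μ : ℝ} (h : μ < π * R ^ 2 / 4) :
    HasDerivAt (fun μ => √(R ^ 2 - 4 * μ / π)) (-(2 / π / √(R ^ 2 - 4 * μ / π))) μ := by
  have h1 : HasDerivAt (fun μ : ℝ => R ^ 2 - 4 * μ / π) (-(4 / π)) μ := by
    simpa using (((hasDerivAt_id μ).const_mul 4).div_const π).const_sub (R ^ 2)
  have h2 := h1.sqrt (TBeq_pos h).ne'
  convert h2 using 1
  have := sqrt_pos.2 (TBeq_pos h)
  field_simp
  norm_num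

theorem TBeq_int_g {R : ℝ} (hR : 0 < R) :
    ∫ μ in Ioo 0 (π * R ^ 2 / 4), √(R ^ 2 - 4 * μ / π) = π / 6 * R ^ 3 := by
  have hp := pi_pos
  have ha : 0 ≤ π * R ^ 2 / 4 := by positivity
  have hc : Continuous fun μ : ℝ => √(R ^ 2 - 4 * μ / π) := by fun_prop
  rw [← integral_Ioc_eq_integral_Ioo, ← intervalIntegral.integral_of_le ha,
    intervalIntegral.integral_eq_sub_of_hasDerivAt_of_le ha
      (f := fun μ => -(π / 6) * ((R ^ 2 - 4 * μ / π) * √(R ^ 2 - 4 * μ / π)))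
      (by fun_prop) (fun μ hμ => ?_) (hc.intervalIntegrable _ _)]
  · have e : R ^ 2 - 4 * (π * R ^ 2 / 4) / π = 0 := by field_simp; ring
    simp only [e, mul_zero, zero_div, sub_zero, sqrt_sq hR.le, zero_mul]
    ring
  · have h1 : HasDerivAt (fun μ : ℝ => R ^ 2 - 4 * μ / π) (-(4 / π)) μ := by
      simpa using (((hasDerivAt_id μ).const_mul 4).div_const π).const_sub (R ^ 2)
    refine ((h1.fun_mul (TBeq_deriv hμ.2)).const_mul (-(π / 6))).congr_deriv ?_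
    have h3 := sqrt_pos.2 (TBeq_pos hμ.2)
    have h4 := sq_sqrt (TBeq_pos hμ.2).le
    generalize √(R ^ 2 - 4 * μ / π) = w at h3 h4
    rw [← h4]
    field_simp
    norm_num

theorem TBeq_int_inv {R μ0 μ1 : ℝ} (h01 : μ0 ≤ μ1) (h1 : μ1 < π * R ^ 2 / 4) :
    IntegrableOn (fun μ => 2 / π / √(R ^ 2 - 4 * μ / π)) (Ioc μ0 μ1) ∧
      ∫ μ in Ioc μ0 μ1, 2 / π / √(R ^ 2 - 4 * μ / π) =
        √(R ^ 2 - 4 * μ0 / π) - √(R ^ 2 - 4 * μ1 / π) := by
  have hc : ContinuousOn (fun μ => 2 / π / √(R ^ 2 - 4 * μ / π)) (Icc μ0 μ1) :=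
    continuousOn_const.div (by fun_prop) fun μ hμ => (sqrt_pos.2 (TBeq_pos (hμ.2.trans_lt h1))).ne'
  refine ⟨hc.integrableOn_Icc.mono_set Ioc_subset_Icc_self, ?_⟩
  rw [← intervalIntegral.integral_of_le h01,
    intervalIntegral.integral_eq_sub_of_hasDerivAt (f := fun μ => -√(R ^ 2 - 4 * μ / π))
      (fun μ hμ => ?_) (hc.intervalIntegrable_of_Icc h01)]
  · ring
  · rw [uIcc_of_le h01] at hμ
    exact (TBeq_deriv (hμ.2.trans_lt h1)).fun_neg.congr_deriv (neg_neg _)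

/-- the optimal slope -/
def TBeq_B (R μ : ℝ) : ℝ := 2 * √(π * μ) / (π * R)

theorem TBeq_B_sq {R μ : ℝ} (hR : 0 < R) (h : 0 ≤ μ) :
    1 - TBeq_B R μ ^ 2 = (R ^ 2 - 4 * μ / π) / R ^ 2 := by
  have hp := pi_pos
  rw [TBeq_B, div_pow, mul_pow, sq_sqrt (by positivity)]
  field_simp
  ring

theorem TBeq_B_sqrt {R μ : ℝ} (hR : 0 < R) (h : 0 ≤ μ) :
    √(1 - TBeq_B R μ ^ 2) = √(R ^ 2 - 4 * μ / π) / R := by
  rw [TBeq_B_sq hR h, sqrt_div' _ (by positivity), sqrt_sq hR.le]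

theorem TBeq_B_nonneg {R μ : ℝ} (hR : 0 < R) : 0 ≤ TBeq_B R μ := by
  have hp := pi_pos
  unfold TBeq_B
  positivity

theorem TBeq_B_mono {R μ μ' : ℝ} (hR : 0 < R) (h : μ ≤ μ') : TBeq_B R μ ≤ TBeq_B R μ' := by
  have hp := pi_pos
  unfold TBeq_B
  gcongr

theorem TBeq_step {A v : ℝ} {m Λ : ℝ → ℝ} {R : ℝ} (hR : 0 < R)
    (h : Sl A v (π * R ^ 2 / 4) 0 m Λ) (hv : v = π / 6 * R ^ 3) (hA : A ≤ π / 2 * R ^ 2)
    (hΛ : ∀ᵐ s ∂(volume.restrict (Ioo (0 : ℝ) 1)), 0 < m s → Λ s = √(π * m s)) {μ0 μ1 : ℝ}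
    (h0 : 0 < μ0) (h01 : μ0 ≤ μ1) (h1 : μ1 < π * R ^ 2 / 4) :
    (volume.restrict (Ioo (0 : ℝ) 1)).real (m ⁻¹' Ioc μ0 μ1) =
      √(R ^ 2 - 4 * μ0 / π) - √(R ^ 2 - 4 * μ1 / π) := by
  have hp := pi_pos
  have hθ : TBeq_B R μ1 < 1 := by
    have a1 := TBeq_B_sq hR (h0.le.trans h01)
    have a2 : 0 < (R ^ 2 - 4 * μ1 / π) / R ^ 2 := div_pos (TBeq_pos h1) (by positivity)
    have a3 := TBeq_B_nonneg (μ := μ1) hR
    nlinarith
  obtain ⟨C, hC, hexp⟩ := sqrt_expand hθ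
  have hs0 : 0 < √(π * μ0) := sqrt_pos.2 (by positivity)
  obtain ⟨iI, eI⟩ := TBeq_int_inv h01 h1
  rw [← sub_eq_zero]
  refine TBeq_zero (C := C / (π * μ0) * (μ1 - μ0)) (δ := (1 - TBeq_B R μ1) / 2 * √(π * μ0))
    (mul_pos (by linarith) hs0) fun t ht => ?_
  set S : ℝ → ℝ := fun μ => (Icc 0 (π * R ^ 2 / 4)).indicator (TBeq_B R) μ +
    (Ioc μ0 μ1).indicator (fun μ => t / √(π * μ)) μ with hS
  have mS : Measurable S :=
    (Measurable.indicator (by unfold TBeq_B; fun_prop) measurableSet_Icc).add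
      (Measurable.indicator (by fun_prop) measurableSet_Ioc)
  have hin : ∀ μ ∈ Ioc μ0 μ1, S μ = TBeq_B R μ + t / √(π * μ) ∧ |TBeq_B R μ| ≤ TBeq_B R μ1 ∧
      |t / √(π * μ)| ≤ (1 - TBeq_B R μ1) / 2 := fun μ hμ => by
    have a1 : μ ∈ Icc 0 (π * R ^ 2 / 4) := ⟨by linarith [hμ.1], by linarith [hμ.2]⟩
    have a2 : √(π * μ0) ≤ √(π * μ) := sqrt_le_sqrt (mul_le_mul_of_nonneg_left hμ.1.le hp.le)
    refine ⟨by simp only [hS, indicator_of_mem a1, indicator_of_mem hμ], ?_, ?_⟩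
    · rw [abs_of_nonneg (TBeq_B_nonneg hR)]; exact TBeq_B_mono hR hμ.2
    · rw [abs_div, abs_of_pos (hs0.trans_le a2), div_le_iff₀ (hs0.trans_le a2)]
      exact ht.trans (mul_le_mul_of_nonneg_left a2 (by linarith))
  have hout : ∀ μ ∈ Icc 0 (π * R ^ 2 / 4), μ ∉ Ioc μ0 μ1 → S μ = TBeq_B R μ := fun μ a1 a2 => by
    simp only [hS, indicator_of_mem a1, indicator_of_notMem a2, add_zero]
  have hS1 : ∀ μ ∈ Icc 0 (π * R ^ 2 / 4), S μ ^ 2 ≤ 1 := fun μ hμ => by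
    by_cases hm : μ ∈ Ioc μ0 μ1
    · obtain ⟨a1, a2, a3⟩ := hin μ hm
      rw [sq_le_one_iff_abs_le_one, a1]
      linarith [abs_add_le (TBeq_B R μ) (t / √(π * μ))]
    · rw [hout μ hμ hm]
      have a1 := TBeq_B_sq hR hμ.1
      have a2 : 0 ≤ (R ^ 2 - 4 * μ / π) / R ^ 2 := by
        refine div_nonneg ?_ (by positivity)
        rw [sub_nonneg, div_le_iff₀ hp]
        linarith [hμ.2]
      linarith
  have hκ : ∀ μ, |√(1 - S μ ^ 2)| ≤ 1 := fun μ => by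
    rw [abs_of_nonneg (sqrt_nonneg _)]
    exact sqrt_le_one.2 (by linarith [sq_nonneg (S μ)])
  have mκ : Measurable fun μ => √(1 - S μ ^ 2) := by fun_prop
  have hmod := h.model (fun μ => √(1 - S μ ^ 2)) (fun s => S (m s)) mκ (mS.comp h.mm) hκ
    fun s hs => by
      have := hS1 _ (h.mem s hs)
      rw [sq_sqrt (by linarith)]
      linarith
  have hsub : Ioc μ0 μ1 ⊆ Ioo 0 (π * R ^ 2 / 4) := fun μ hμ => ⟨h0.trans hμ.1, hμ.2.trans_lt h1⟩
  have iI2 : IntegrableOn (fun μ => t * (2 / π / √(R ^ 2 - 4 * μ / π)) + C / (π * μ0) * t ^ 2)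
      (Ioc μ0 μ1) := (iI.const_mul t).add (integrableOn_const (by simp))
  have ig : IntegrableOn (fun μ => √(R ^ 2 - 4 * μ / π) / R) (Ioo 0 (π * R ^ 2 / 4)) :=
    ((by fun_prop : Continuous fun μ : ℝ => √(R ^ 2 - 4 * μ / π) / R).integrableOn_Icc).mono_set
      Ioo_subset_Icc_self
  have iJ := (iI2.integrable_indicator measurableSet_Ioc).integrableOn (s := Ioo 0 (π * R ^ 2 / 4))
  have e1 : π / 6 * R ^ 2 - (t * (√(R ^ 2 - 4 * μ0 / π) - √(R ^ 2 - 4 * μ1 / π)) +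
      C / (π * μ0) * (μ1 - μ0) * t ^ 2) ≤ ∫ μ in Ioo 0 (π * R ^ 2 / 4), √(1 - S μ ^ 2) := by
    have a1 : ∫ μ in Ioo 0 (π * R ^ 2 / 4), (√(R ^ 2 - 4 * μ / π) / R - (Ioc μ0 μ1).indicator
        (fun μ => t * (2 / π / √(R ^ 2 - 4 * μ / π)) + C / (π * μ0) * t ^ 2) μ) ≤
        ∫ μ in Ioo 0 (π * R ^ 2 / 4), √(1 - S μ ^ 2) := by
      refine setIntegral_mono_on (ig.sub iJ) (Measure.integrableOn_of_bounded (M := 1) (by simp)
        mκ.aestronglyMeasurable (ae_of_all _ hκ)) measurableSet_Ioo fun μ hμ => ?_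
      by_cases hm : μ ∈ Ioc μ0 μ1
      · obtain ⟨a1, a2, a3⟩ := hin μ hm
        have a4 := hexp _ _ a2 a3
        rw [indicator_of_mem hm, a1]
        rw [TBeq_B_sqrt hR hμ.1.le] at a4
        have b1 := sqrt_pos.2 (TBeq_pos hμ.2)
        have b2 : 0 < √(π * μ) := sqrt_pos.2 (mul_pos hp hμ.1)
        have b3 : t / √(π * μ) * (TBeq_B R μ / (√(R ^ 2 - 4 * μ / π) / R)) =
            t * (2 / π / √(R ^ 2 - 4 * μ / π)) := by
          unfold TBeq_B; field_simp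
        have b4 : C * (t / √(π * μ)) ^ 2 ≤ C / (π * μ0) * t ^ 2 := by
          rw [div_pow, sq_sqrt (mul_pos hp hμ.1).le, div_mul_eq_mul_div, mul_div_assoc]
          gcongr
          exact hm.1.le
        linarith
      · rw [indicator_of_notMem hm, hout μ (Ioo_subset_Icc_self hμ) hm, TBeq_B_sqrt hR hμ.1.le,
          sub_zero]
    rw [integral_sub ig iJ, setIntegral_indicator measurableSet_Ioc, inter_eq_right.2 hsub,
      integral_div, TBeq_int_g hR, integral_add (iI.const_mul t) (integrableOn_const (by simp)),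
      integral_const_mul, eI, setIntegral_const, Real.volume_real_Ioc_of_le h01] at a1
    have a2 : π / 6 * R ^ 3 / R = π / 6 * R ^ 2 := by field_simp
    rw [a2, smul_eq_mul] at a1
    linarith
  have im : IntegrableOn m (Ioo 0 1) :=
    Measure.integrableOn_of_bounded (M := π * R ^ 2 / 4) (by simp) h.mm.aestronglyMeasurable
      ((ae_restrict_iff' measurableSet_Ioo).2 (ae_of_all _ fun s hs => by
        rw [Real.norm_eq_abs, abs_of_nonneg (h.mem s hs).1]; exact (h.mem s hs).2))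
  have mE : MeasurableSet (m ⁻¹' Ioc μ0 μ1) := h.mm measurableSet_Ioc
  have e2 : ∫ s in Ioo (0 : ℝ) 1, S (m s) * Λ s = π / 3 * R ^ 2 +
      t * (volume.restrict (Ioo (0 : ℝ) 1)).real (m ⁻¹' Ioc μ0 μ1) := by
    have a1 : ∫ s in Ioo (0 : ℝ) 1, S (m s) * Λ s =
        ∫ s in Ioo (0 : ℝ) 1, (2 / R * m s + (m ⁻¹' Ioc μ0 μ1).indicator (fun _ => t) s) := by
      refine integral_congr_ae ?_
      filter_upwards [hΛ, ae_restrict_mem measurableSet_Ioo] with s h1 h2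
      have b0 := h.mem s h2
      have b1 : TBeq_B R (m s) * √(π * m s) = 2 / R * m s := by
        have := mul_self_sqrt (mul_nonneg hp.le b0.1)
        unfold TBeq_B
        rw [div_mul_eq_mul_div, mul_assoc, this]
        field_simp
      by_cases hm : m s ∈ Ioc μ0 μ1
      · have b2 : 0 < m s := h0.trans hm.1
        have b3 : 0 < √(π * m s) := sqrt_pos.2 (mul_pos hp b2)
        rw [indicator_of_mem (show s ∈ m ⁻¹' Ioc μ0 μ1 from hm), (hin _ hm).1, h1 b2, add_mul, b1,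
          div_mul_cancel₀ _ b3.ne']
      · rw [indicator_of_notMem (show s ∉ m ⁻¹' Ioc μ0 μ1 from hm), hout _ b0 hm, add_zero]
        rcases b0.1.eq_or_lt with b2 | b2
        · rw [← b2]; simp [TBeq_B]
        · rw [h1 b2, b1]
    rw [a1, integral_add (im.const_mul _) ((integrable_const t).indicator mE), integral_const_mul,
      h.vol, hv, integral_indicator_const _ mE, smul_eq_mul]
    field_simp
    ring
  linarith

theorem Sl.ball_profile {A v : ℝ} {m Λ : ℝ → ℝ} {R : ℝ} (hR : 0 < R)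
    (h : Sl A v (π * R ^ 2 / 4) 0 m Λ) (hv : v = π / 6 * R ^ 3) (hA : A ≤ π / 2 * R ^ 2)
    (hΛ : ∀ᵐ s ∂(volume.restrict (Ioo (0 : ℝ) 1)), 0 < m s → Λ s = √(π * m s)) :
    ∀ s ∈ Ioo (0 : ℝ) 1, m s = π / 4 * max (R ^ 2 - s ^ 2) 0 := by
  have hp := pi_pos
  have ha : 0 < π * R ^ 2 / 4 := by positivity
  set ν := volume.restrict (Ioo (0 : ℝ) 1) with hν
  have mN : ∀ μ, MeasurableSet {s | μ < m s} := fun μ => measurableSet_lt measurable_const h.mm
  have d1 : ∀ μ0 μ1, 0 < μ0 → μ0 ≤ μ1 → μ1 < π * R ^ 2 / 4 →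
      ν.real {s | μ0 < m s} - √(R ^ 2 - 4 * μ0 / π) =
        ν.real {s | μ1 < m s} - √(R ^ 2 - 4 * μ1 / π) := fun μ0 μ1 h0 h01 h1 => by
    have a1 := TBeq_step hR h hv hA hΛ h0 h01 h1
    have a2 : {s | μ0 < m s} = m ⁻¹' Ioc μ0 μ1 ∪ {s | μ1 < m s} := by
      ext s
      simp only [mem_setOf_eq, mem_union, mem_preimage, mem_Ioc]
      constructor
      · intro h'
        rcases le_or_gt (m s) μ1 with h'' | h''
        exacts [Or.inl ⟨h', h''⟩, Or.inr h'']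
      · rintro (h' | h')
        exacts [h'.1, h01.trans_lt h']
    have a3 : Disjoint (m ⁻¹' Ioc μ0 μ1) {s | μ1 < m s} :=
      disjoint_left.2 fun s h1 h2 => absurd h1.2 (not_le.2 h2)
    rw [a2, measureReal_union a3 (mN _)]
    linarith
  set τ := ν.real {s | π * R ^ 2 / 8 < m s} - √(R ^ 2 - 4 * (π * R ^ 2 / 8) / π) with hτ
  have d2 : ∀ μ ∈ Ioo 0 (π * R ^ 2 / 4), ν.real {s | μ < m s} = √(R ^ 2 - 4 * μ / π) + τ := by
    intro μ hμ
    rcases le_total μ (π * R ^ 2 / 8) with h' | h'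
    · have := d1 μ _ hμ.1 h' (by linarith)
      linarith
    · have := d1 _ μ (by linarith) h' hμ.2
      linarith
  have hmem : ∀ᵐ s ∂ν, 0 ≤ m s ∧ m s ≤ π * R ^ 2 / 4 :=
    (ae_restrict_iff' measurableSet_Ioo).2 (ae_of_all _ h.mem)
  have im : Integrable m ν :=
    Integrable.of_bound h.mm.aestronglyMeasurable (π * R ^ 2 / 4)
      (hmem.mono fun s hs => by rw [Real.norm_eq_abs, abs_of_nonneg hs.1]; exact hs.2)
  have d3 : τ = 0 := by
    have a1 := im.integral_eq_integral_meas_lt (hmem.mono fun s hs => hs.1)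
    have a2 : ∫ μ in Ioi 0, ν.real {s | μ < m s} =
        ∫ μ in Ioo 0 (π * R ^ 2 / 4), ν.real {s | μ < m s} := by
      refine setIntegral_eq_of_subset_of_forall_diff_eq_zero measurableSet_Ioi
        Ioo_subset_Ioi_self fun μ hμ => ?_
      have b1 : π * R ^ 2 / 4 ≤ μ := not_lt.1 fun h' => hμ.2 ⟨hμ.1, h'⟩
      have b2 : ν {s | μ < m s} = 0 :=
        measure_mono_null (t := {s | ¬ (0 ≤ m s ∧ m s ≤ π * R ^ 2 / 4)})
          (fun s (hs : μ < m s) h' => absurd (h'.2.trans b1) (not_le.2 hs)) (ae_iff.1 hmem)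
      rw [measureReal_def, b2, ENNReal.toReal_zero]
    have ig : IntegrableOn (fun μ => √(R ^ 2 - 4 * μ / π)) (Ioo 0 (π * R ^ 2 / 4)) :=
      ((by fun_prop : Continuous fun μ : ℝ => √(R ^ 2 - 4 * μ / π)).integrableOn_Icc).mono_set
        Ioo_subset_Icc_self
    rw [a2, setIntegral_congr_fun measurableSet_Ioo d2,
      integral_add ig (integrableOn_const (by simp)), TBeq_int_g hR, setIntegral_const,
      Real.volume_real_Ioo_of_le ha.le, h.vol, hv, smul_eq_mul] at a1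
    have a3 : (π * R ^ 2 / 4 - 0) * τ = 0 := by linarith
    exact (mul_eq_zero.1 a3).resolve_left (by linarith)
  simp only [d3, add_zero] at d2
  intro s hs
  have hνs : ν.real (Ioo 0 s) = s := by
    rw [hν, measureReal_restrict_apply measurableSet_Ioo,
      inter_eq_left.2 (Ioo_subset_Ioo_right hs.2.le), Real.volume_real_Ioo_of_le hs.1.le, sub_zero]
  have hb := h.mem s hs
  have k1 : ∀ μ, 4 * μ / π * (π / 4) = μ := fun μ => by field_simp
  rcases lt_trichotomy (m s) (π / 4 * max (R ^ 2 - s ^ 2) 0) with c | c | c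
  · exfalso
    have c1 : 0 < R ^ 2 - s ^ 2 := by
      by_contra hc
      rw [max_eq_right (not_lt.1 hc)] at c
      linarith [hb.1]
    rw [max_eq_left c1.le] at c
    have c2 : 0 < π / 4 * s ^ 2 := by have := hs.1; positivity
    have hμ : (m s + π / 4 * (R ^ 2 - s ^ 2)) / 2 ∈ Ioo 0 (π * R ^ 2 / 4) :=
      ⟨by linarith [hb.1], by linarith⟩
    have c3 : m s < (m s + π / 4 * (R ^ 2 - s ^ 2)) / 2 := by linarith
    have c4 : (m s + π / 4 * (R ^ 2 - s ^ 2)) / 2 < π / 4 * (R ^ 2 - s ^ 2) := by linarith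
    generalize (m s + π / 4 * (R ^ 2 - s ^ 2)) / 2 = μ at hμ c3 c4
    have a1 : ν.real {s | μ < m s} ≤ ν.real (Ioo 0 s) := by
      refine ENNReal.toReal_mono (measure_ne_top _ _) (measure_mono_ae ?_)
      filter_upwards [ae_restrict_mem (μ := volume) (measurableSet_Ioo (a := (0 : ℝ)) (b := 1))]
        with x hx hx'
      refine ⟨hx.1, not_le.1 fun h' => ?_⟩
      have := h.anti hs hx h'
      have hx'' : μ < m x := hx'
      linarith
    rw [d2 μ hμ, hνs, sqrt_le_left hs.1.le] at a1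
    have := mul_le_mul_of_nonneg_right a1 (show 0 ≤ π / 4 by positivity)
    linarith [k1 μ]
  · exact c
  · exfalso
    have c1 : 0 ≤ π / 4 * max (R ^ 2 - s ^ 2) 0 := by positivity
    have c2 : π / 4 * (R ^ 2 - s ^ 2) ≤ π / 4 * max (R ^ 2 - s ^ 2) 0 :=
      mul_le_mul_of_nonneg_left (le_max_left _ _) (by positivity)
    generalize π / 4 * max (R ^ 2 - s ^ 2) 0 = M at c c1 c2
    have hμ : (m s + M) / 2 ∈ Ioo 0 (π * R ^ 2 / 4) := ⟨by linarith, by linarith [hb.2]⟩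
    have c3 : (m s + M) / 2 < m s := by linarith
    have c4 : M < (m s + M) / 2 := by linarith
    generalize (m s + M) / 2 = μ at hμ c3 c4
    have a1 : ν.real (Ioo 0 s) ≤ ν.real {s | μ < m s} :=
      measureReal_mono fun x hx => c3.trans_le (h.anti ⟨hx.1, hx.2.trans hs.2⟩ hs hx.2.le)
    rw [d2 μ hμ, hνs, le_sqrt hs.1.le (TBeq_pos hμ.2).le] at a1
    have := mul_le_mul_of_nonneg_right a1 (show 0 ≤ π / 4 by positivity)
    linarith [k1 μ]

end Crest.Agent.R214
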