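import Crest.Agent.R214.Cases
import Crest.Agent.R214.TB
import Crest.Agent.R214.TBeq

/-!
# R214/Class

The isoperimetric inequality for down-sets of the cube, with the cases of equality.
-/

set_option autoImplicit false

open MeasureTheory Set Filter Real
open scoped Topology

noncomputable section

namespace Crest.Agent.R214

/-- `D` is a model of volume `v` -/
def CStd (v : ℝ) (D : Set X) : Prop := ∃ e r, Rng v e r ∧ D =ᵐ[volume] cmdl e (2 * r)

theorem Prm.ds {D D' : Set X} (h : Prm D D') {v A : ℝ} (hD : DS D v A) : DS D' v A := by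
  induction h with
  | refl => exact hD
  | tail _ h2 ih =>
    rcases h2 with rfl | rfl
    · exact ih.sw12
    · exact ih.sw13

theorem Prm.back {D D' : Set X} (h : Prm D D') {v : ℝ} (hD : CStd v D') : CStd v D := by
  induction h with
  | refl => exact hD
  | tail _ h2 ih =>
    apply ih
    obtain ⟨e, r, h1, h3⟩ := hD
    rcases h2 with rfl | rfl
    · refine ⟨sw12 e, r, h1.sw12, ?_⟩
      have := ae_eq_sw12 h3
      rwa [cmdl_sw12] at this
    · refine ⟨sw13 e, r, h1.sw13, ?_⟩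
      have := ae_eq_sw13 h3
      rwa [cmdl_sw13] at this

theorem cmdl_sub (e : X) (R : ℝ) : cmdl e R ⊆ cube := fun _ hp => hp.1

theorem J_le_one (v : ℝ) : J v ≤ 1 := min_le_right _ _
theorem J_le_min (v : ℝ) : J v ≤ min (sph v) √(π * v) := min_le_left _ _
theorem J_le_sph (v : ℝ) : J v ≤ sph v := (J_le_min v).trans (min_le_left _ _)
theorem J_le_sqrt (v : ℝ) : J v ≤ √(π * v) := (J_le_min v).trans (min_le_right _ _)

theorem DS.slab {D : Set X} {v A : ℝ} (h : DS D v A) (hv : 0 < v) {Λ : ℝ → ℝ} (hΛ : Av D Λ)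
    (ha : aD D = 1) (hb : bD D = 0) (hA : A ≤ J v)
    (hL : ∀ᵐ s ∂(volume.restrict (Ioo (0 : ℝ) 1)),
      min 1 (min √(π * ms D s) √(π * (1 - ms D s))) ≤ Λ s) : CStd v D := by
  have hs := h.slice hΛ
  rw [ha, hb] at hs
  obtain ⟨h1, h2⟩ := hs.slab
  have h3 := h2 (hA.trans (J_le_one v)) hL
  have h4 : 1 / π ≤ v := one_le_sqrt_iff'.1 (h1.trans (hA.trans (J_le_sqrt v)))
  refine ⟨(1, 0, 0), v / 2, ⟨⟨Or.inr rfl, Or.inl rfl, Or.inl rfl⟩, by positivity,
    Or.inr (Or.inr ⟨by simp [nn], h4, by ring⟩)⟩, ?_⟩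
  refine h.dn.ae_eq_of_slices (cmdl_meas _ _) (cmdl_sub _ _) ?_
  filter_upwards [h3, ae_restrict_mem measurableSet_Ioo] with s hs1 hs2
  by_cases hsv : s < v
  · rw [if_pos hsv] at hs1
    have : sl (cmdl (1, 0, 0) (2 * (v / 2))) s = sq := by
      ext q
      simp only [sl, cmdl, cube, sq, mem_setOf_eq, mem_prod]
      constructor
      · rintro ⟨⟨_, h5⟩, _⟩; exact h5
      · intro h5; exact ⟨⟨hs2, h5⟩, by nlinarith [hs2.1]⟩
    rw [this]; exact (h.dn.sl s).ae_eq_sq hs1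
  · rw [if_neg hsv] at hs1
    have : sl (cmdl (1, 0, 0) (2 * (v / 2))) s = ∅ := by
      ext q
      simp only [sl, cmdl, cube, sq, mem_setOf_eq, mem_prod, mem_empty_iff_false, iff_false]
      rintro ⟨_, h5⟩
      nlinarith [not_lt.1 hsv]
    rw [this]; exact (h.dn.sl s).ae_eq_empty hs1

theorem qd_zero : qd 0 = ∅ := by
  ext q
  simp only [qd, mem_setOf_eq, mem_empty_iff_false, iff_false]
  rintro ⟨_, h⟩
  nlinarith [sq_nonneg q.1, sq_nonneg q.2]

theorem DS.discs {D : Set X} {v A : ℝ} (h : DS D v A) (hv : 0 < v) {Λ : ℝ → ℝ} (hΛ : Av D Λ)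
    (hA : A ≤ J v)
    (hL : ∀ᵐ s ∂(volume.restrict (Ioo (0 : ℝ) 1)),
      (ty (sl D s) = 0 ∧ tz (sl D s) = 0 ∧ √(π * ms D s) ≤ Λ s) ∨ √(π * ms D s) < Λ s) :
    ∀ᵐ s ∂(volume.restrict (Ioo (0 : ℝ) 1)), sl D s =ᵐ[volume] qd √(4 * ms D s / π) := by
  have hL' : ∀ᵐ s ∂(volume.restrict (Ioo (0 : ℝ) 1)), √(π * ms D s) ≤ Λ s := by
    filter_upwards [hL] with s hs
    rcases hs with hs | hs
    · exact hs.2.2
    · exact hs.le
  have h0 := ((h.slice hΛ).tb_eq hv hL' (hA.trans (J_le_min v))).1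
  have h1 : ∀ θt : ℚ × ℚ, ∀ᵐ s ∂(volume.restrict (Ioo (0 : ℝ) 1)), 0 < ms D s →
      Fl (sl D s) (fun q => bet (wy (sl D s)) θt.1 θt.2 q.1)
        (fun q => √(1 - bet (wy (sl D s)) θt.1 θt.2 q.1 ^ 2)) ≤ √(π * ms D s) := by
    intro θt
    have a1 := av_beta D (measurable_bet h.dn.measurable_wy (θt.1 : ℝ) (θt.2 : ℝ))
      (fun q => abs_bet_le _ _ _ _)
    have a2 := Av.max h.dn hΛ a1
    have a3 := ((h.slice a2).tb_eq hv (by
      filter_upwards [hL'] with s hs using hs.trans (le_max_left _ _)) (hA.trans (J_le_min v))).1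
    filter_upwards [a3] with s hs hm
    exact (le_max_right _ _).trans (hs hm).le
  rw [← ae_all_iff] at h1
  filter_upwards [hL, h0, h1] with s a1 a2 a3
  rcases ((h.dn.sl s).area_mem.1).eq_or_lt with hm | hm
  · have : ms D s = 0 := hm.symm
    rw [this]; simp only [mul_zero, zero_div, sqrt_zero, qd_zero]
    exact (h.dn.sl s).ae_eq_empty this
  · rcases a1 with a1 | a1
    · exact (h.dn.sl s).disc a1.1 a1.2.1 hm (fun θ t => a3 (θ, t) hm)
    · exact absurd (a2 hm) a1.ne'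

theorem DS.round {D : Set X} {v A : ℝ} (h : DS D v A) (hv : 0 < v) {Λ : ℝ → ℝ} (hΛ : Av D Λ)
    (hA : A ≤ J v)
    (hL : ∀ᵐ s ∂(volume.restrict (Ioo (0 : ℝ) 1)),
      (ty (sl D s) = 0 ∧ tz (sl D s) = 0 ∧ √(π * ms D s) ≤ Λ s) ∨ √(π * ms D s) < Λ s) :
    CStd v D := by
  have hL' : ∀ᵐ s ∂(volume.restrict (Ioo (0 : ℝ) 1)), √(π * ms D s) ≤ Λ s := by
    filter_upwards [hL] with s hs
    rcases hs with hs | hs
    · exact hs.2.2
    · exact hs.le
  have hd := h.discs hv hΛ hA hL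
  have hs := h.slice hΛ
  obtain ⟨h0, h1 | ⟨R, hR, hb, ha, hvR, hsph⟩⟩ := hs.tb_eq hv hL' (hA.trans (J_le_min v))
  · have a1 : 4 * π / 81 ≤ v := (le_sph_iff hv).1 (h1.2.trans (hA.trans (J_le_sph v)))
    have a2 : v ≤ 1 / π := sqrt_le_one_iff'.1 (h1.2.trans (hA.trans (J_le_one v)))
    have a3 : √(v / π) ^ 2 = v / π := sq_sqrt (by positivity)
    refine ⟨(0, 1, 1), √(v / π), ⟨⟨Or.inl rfl, Or.inr rfl, Or.inr rfl⟩, by positivity,
      Or.inr (Or.inl ⟨by norm_num [nn], a1, a2, by rw [a3]; field_simp⟩)⟩, ?_⟩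
    refine h.dn.ae_eq_of_slices (cmdl_meas _ _) (cmdl_sub _ _) ?_
    filter_upwards [hd, ae_restrict_mem measurableSet_Ioo] with s hs1 hs2
    have : sl (cmdl (0, 1, 1) (2 * √(v / π))) s = qd √(4 * ms D s / π) := by
      ext q
      have b1 : √(4 * v / π) ^ 2 = 4 * v / π := sq_sqrt (by positivity)
      have b2 : (2 * √(v / π)) ^ 2 = 4 * v / π := by rw [mul_pow, a3]; ring
      simp only [sl, cmdl, cube, sq, qd, mem_setOf_eq, mem_prod, h1.1 s hs2, b1, b2]
      constructor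
      · rintro ⟨⟨_, h5⟩, h6⟩; exact ⟨h5, by linarith⟩
      · rintro ⟨h5, h6⟩; exact ⟨⟨hs2, h5⟩, by linarith⟩
    rwa [this]
  · have a1 : v ≤ 4 * π / 81 := (sph_le_iff hv).1 (hsph.trans (hA.trans (J_le_sqrt v)))
    have a2 : A ≤ π / 2 * R ^ 2 := by
      rw [← sph_eq hR.le, ← hvR]; exact hA.trans (J_le_sph v)
    rw [ha, hb] at hs
    have a3 := hs.ball_profile hR hvR a2 h0
    refine ⟨(1, 1, 1), R / 2, ⟨⟨Or.inr rfl, Or.inr rfl, Or.inr rfl⟩, by positivity,
      Or.inl ⟨by norm_num [nn], a1, by rw [hvR]; ring⟩⟩, ?_⟩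
    refine h.dn.ae_eq_of_slices (cmdl_meas _ _) (cmdl_sub _ _) ?_
    filter_upwards [hd, ae_restrict_mem measurableSet_Ioo] with s hs1 hs2
    have : sl (cmdl (1, 1, 1) (2 * (R / 2))) s = qd √(4 * ms D s / π) := by
      ext q
      have b1 : √(4 * (π / 4 * max (R ^ 2 - s ^ 2) 0) / π) ^ 2 = max (R ^ 2 - s ^ 2) 0 := by
        rw [sq_sqrt (by have := le_max_right (R ^ 2 - s ^ 2) 0; positivity)]; field_simp
      simp only [sl, cmdl, cube, sq, qd, mem_setOf_eq, mem_prod, a3 s hs2, b1, lt_max_iff]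
      constructor
      · rintro ⟨⟨_, h5⟩, h6⟩; exact ⟨h5, Or.inl (by linarith)⟩
      · rintro ⟨h5, h6 | h6⟩
        · exact ⟨⟨hs2, h5⟩, by linarith⟩
        · nlinarith [sq_nonneg q.1, sq_nonneg q.2]
    rwa [this]

theorem classify (hC : CertStmt) {D : Set X} {v A : ℝ} (h : DS D v A) (hv : 0 < v) (hv' : v ≤ 1 / 2) :
    J v ≤ A ∧ (A ≤ J v → CStd v D) := by
  obtain ⟨p, m₀, KS, hp0, hp1, hm₀, hK, hlt, hM2, hM1⟩ := hC
  obtain ⟨D', hP, h1, h2⟩ := exists_prm D p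
  have h' := hP.ds h
  suffices H : J v ≤ A ∧ (A ≤ J v → CStd v D') from ⟨H.1, fun hA => hP.back (H.2 hA)⟩
  clear hP h
  rcases h2 with h2 | h2
  · obtain ⟨Λ, hΛ, hL⟩ := h'.dn.case2 h1 h2 (KS := insert 0 KS) (by
      intro k hk
      rcases Finset.mem_insert.1 hk with rfl | hk
      · exact ⟨le_rfl, zero_le_one⟩
      · exact hK k hk)
    have hs := h'.slice hΛ
    by_cases ha : m₀ ≤ aD D'
    · obtain ⟨a1, a2⟩ := hM2 A v _ _ _ Λ hs hv hv' ha (by
        filter_upwards [hL] with s hs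
        rcases hs with hs | hs | hs
        · exact Or.inl hs.2.2
        · exact Or.inr (Or.inl hs)
        · exact Or.inr (Or.inr fun k hk => hs k (Finset.mem_insert_of_mem hk)))
      refine ⟨a1, fun hA => h'.slab hv hΛ (a2 hA).1 (a2 hA).2 hA ?_⟩
      filter_upwards [hL] with s hs
      rcases hs with hs | hs | hs
      · exact (min_le_right _ _).trans ((min_le_left _ _).trans hs.2.2)
      · exact (min_le_right _ _).trans ((min_le_right _ _).trans hs)
      · have := hs 0 (Finset.mem_insert_self _ _)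
        rw [Ek_zero, zero_mul, add_zero] at this
        exact (min_le_left _ _).trans this
    · have hL2 : ∀ᵐ s ∂(volume.restrict (Ioo (0 : ℝ) 1)),
          (ty (sl D' s) = 0 ∧ tz (sl D' s) = 0 ∧ √(π * ms D' s) ≤ Λ s) ∨ √(π * ms D' s) < Λ s := by
        filter_upwards [hL, ae_restrict_mem measurableSet_Ioo] with s h3 h4
        have h5 := hs.mem s h4
        have h6 : ms D' s < m₀ := h5.2.trans_lt (not_le.1 ha)
        have h7 : 0 ≤ ms D' s := hs.b0.trans h5.1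
        rcases h3 with h3 | h3 | h3
        · exact Or.inl h3
        · refine Or.inr (lt_of_lt_of_le ?_ h3)
          exact sqrt_lt_sqrt (by positivity) (by nlinarith [pi_pos])
        · obtain ⟨k, hk, h8⟩ := hlt _ ⟨h7, h6.le⟩
          exact Or.inr (h8.trans_le (h3 k (Finset.mem_insert_of_mem hk)))
      refine ⟨(J_le_min v).trans (hs.tb hv ?_), fun hA => h'.round hv hΛ hA hL2⟩
      filter_upwards [hL2] with s h3
      rcases h3 with h3 | h3
      · exact h3.2.2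
      · exact h3.le
  · obtain ⟨t, ht, Λ, hΛ, a1, a2, a3⟩ := h'.dn.case1 hp0 h1 h2 hK
    obtain ⟨b1, b2⟩ := hM1 t ht A v _ _ _ Λ (h'.slice hΛ) hv hv' a1 a2
    exact ⟨b1, fun hA => h'.slab hv hΛ (b2 hA).1 (b2 hA).2 hA a3⟩

end Crest.Agent.R214
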