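import Mathlib
import Crest.Prelude.Def_PeriodicPerimeter

/-!
# R214 (S0332, S0333): isoperimetric profile of the cubic three-torus. Definitions.

ROUTE. Work on `X = ℝ × ℝ × ℝ` with the centred cell. `PerLe E P` = "perimeter `≤ P`".
Three Steiner symmetrisations (`St`) give a set that is monotone in `tri x, tri y, tri z`, i.e. a down-set `D` of
the unit cube which satisfies the *flux inequality* (`DS`) with `A = P/2`. Slicing `D` gives a one-dimensional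
model (`Sl`). The models are solved exactly (ball / tube, `TB`) or by a certificate (`CertStmt`).
Rigidity: equality in the models, then undo the three symmetrisations (`Undo`).
-/

set_option autoImplicit false

open MeasureTheory Set Filter Real
open scoped Topology

noncomputable section

namespace Crest.Agent.R214

abbrev X := ℝ × ℝ × ℝ
abbrev Y := ℝ × ℝ

/-! ## The torus -/

def I0 : Set ℝ := Ico (-1 / 2) (1 / 2)
def cell : Set X := I0 ×ˢ I0 ×ˢ I0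
def cell2 : Set Y := I0 ×ˢ I0

/-- representative in `[-1/2, 1/2)` -/
def cen (t : ℝ) : ℝ := t - round t
/-- distance to the nearest integer -/
def tri (t : ℝ) : ℝ := |cen t|

def Pd {α : Type*} (f : X → α) : Prop := ∀ (a b c : ℤ) (p : X), f (p + ((a : ℝ), (b : ℝ), (c : ℝ))) = f p
def Pd2 {α : Type*} (f : Y → α) : Prop := ∀ (a b : ℤ) (q : Y), f (q + ((a : ℝ), (b : ℝ))) = f q
def PdS (E : Set X) : Prop := ∀ (a b c : ℤ) (p : X), p + ((a : ℝ), (b : ℝ), (c : ℝ)) ∈ E ↔ p ∈ E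

def d1 (f : X → ℝ) (p : X) : ℝ := fderiv ℝ f p (1, 0, 0)
def d2 (f : X → ℝ) (p : X) : ℝ := fderiv ℝ f p (0, 1, 0)
def d3 (f : X → ℝ) (p : X) : ℝ := fderiv ℝ f p (0, 0, 1)
def dx (f : Y → ℝ) (q : Y) : ℝ := fderiv ℝ f q (1, 0)
def dy (f : Y → ℝ) (q : Y) : ℝ := fderiv ℝ f q (0, 1)

/-- admissible fields -/
structure Adm (φ₁ φ₂ φ₃ : X → ℝ) : Prop where
  c1 : ContDiff ℝ 1 φ₁
  c2 : ContDiff ℝ 1 φ₂
  c3 : ContDiff ℝ 1 φ₃
  p1 : Pd φ₁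
  p2 : Pd φ₂
  p3 : Pd φ₃
  le : ∀ p, φ₁ p ^ 2 + φ₂ p ^ 2 + φ₃ p ^ 2 ≤ 1

def dvg (φ₁ φ₂ φ₃ : X → ℝ) (p : X) : ℝ := d1 φ₁ p + d2 φ₂ p + d3 φ₃ p

/-- perimeter at most `P` -/
def PerLe (E : Set X) (P : ℝ) : Prop :=
  ∀ φ₁ φ₂ φ₃, Adm φ₁ φ₂ φ₃ → ∫ p in E ∩ cell, dvg φ₁ φ₂ φ₃ p ≤ P

/-- measurable periodic set of volume `V` and perimeter at most `P` -/
structure Good (E : Set X) (V P : ℝ) : Prop where
  meas : MeasurableSet E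
  per : PdS E
  vol : volume.real (E ∩ cell) = V
  le : PerLe E P

def sw12 (p : X) : X := (p.2.1, p.1, p.2.2)
def sw13 (p : X) : X := (p.2.2, p.2.1, p.1)

/-- mollifications of `1_E` -/
structure Moll (E : Set X) (P : ℝ) (f : ℕ → X → ℝ) : Prop where
  sm : ∀ n, ContDiff ℝ 1 (f n)
  pd : ∀ n, Pd (f n)
  mem : ∀ n p, f n p ∈ Icc (0 : ℝ) 1
  lim : ∀ᵐ p : X, Tendsto (fun n => f n p) atTop (𝓝 (E.indicator 1 p))
  dual : ∀ (n : ℕ) (V₁ V₂ V₃ : X → ℝ), Measurable V₁ → Measurable V₂ → Measurable V₃ →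
    (∀ p, V₁ p ^ 2 + V₂ p ^ 2 + V₃ p ^ 2 ≤ 1) →
    ∫ p in cell, (V₁ p * d1 (f n) p + V₂ p * d2 (f n) p + V₃ p * d3 (f n) p) ≤ P

/-- length of the fibre in the first direction -/
def fl (E : Set X) (q : Y) : ℝ := volume.real {x | x ∈ I0 ∧ (x, q) ∈ E}
/-- Steiner symmetral in the first direction -/
def St (E : Set X) : Set X := {p | tri p.1 < fl E p.2 / 2}

def Mon1 (E : Set X) : Prop := ∀ x x' y z, tri x' ≤ tri x → (x, y, z) ∈ E → (x', y, z) ∈ E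
def Mon2 (E : Set X) : Prop := ∀ x y y' z, tri y' ≤ tri y → (x, y, z) ∈ E → (x, y', z) ∈ E
def Mon3 (E : Set X) : Prop := ∀ x y z z', tri z' ≤ tri z → (x, y, z) ∈ E → (x, y, z') ∈ E

/-- fibre average and fibre total variation -/
def av1 (f : X → ℝ) (q : Y) : ℝ := ∫ x in I0, f (x, q)
def tv1 (f : X → ℝ) (q : Y) : ℝ := ∫ x in I0, |d1 f (x, q)|

/-! ## Models -/

/-- ball (`e = (1,1,1)`), tubes (two ones), slabs (one one) centred at `c` -/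
def mdl (e : X) (r : ℝ) (c : X) : Set X :=
  {p | e.1 * tri (p.1 - c.1) ^ 2 + e.2.1 * tri (p.2.1 - c.2.1) ^ 2 + e.2.2 * tri (p.2.2 - c.2.2) ^ 2
    < r ^ 2}
def Bin (e : X) : Prop := (e.1 = 0 ∨ e.1 = 1) ∧ (e.2.1 = 0 ∨ e.2.1 = 1) ∧ (e.2.2 = 0 ∨ e.2.2 = 1)
def nn (e : X) : ℝ := e.1 + e.2.1 + e.2.2
/-- the model `(e, r)` has volume `V` and `V` is in its range -/
def Rng (V : ℝ) (e : X) (r : ℝ) : Prop :=
  Bin e ∧ 0 < r ∧ ((nn e = 3 ∧ V ≤ 4 * π / 81 ∧ V = 4 / 3 * π * r ^ 3) ∨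
    (nn e = 2 ∧ 4 * π / 81 ≤ V ∧ V ≤ 1 / π ∧ V = π * r ^ 2) ∨ (nn e = 1 ∧ 1 / π ≤ V ∧ V = 2 * r))
def Std (V : ℝ) (E : Set X) : Prop := ∃ e r c, Rng V e r ∧ E =ᵐ[volume] mdl e r c

/-- area of the corner ball of volume `v` in the unit cube -/
def sph (v : ℝ) : ℝ := (9 * π / 2) ^ ((1 : ℝ) / 3) * v ^ ((2 : ℝ) / 3)
/-- the profile of the unit cube for `v ≤ 1/2` (half of the profile of the torus) -/
def J (v : ℝ) : ℝ := min (min (sph v) √(π * v)) 1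

/-! ## Down-sets of the unit square and cube -/

def sq : Set Y := Ioo 0 1 ×ˢ Ioo 0 1
def cube : Set X := Ioo 0 1 ×ˢ Ioo 0 1 ×ˢ Ioo 0 1
def ind (u : ℝ) : ℝ := if 0 < u ∧ u < 1 then 1 else 0

structure DS2 (G : Set Y) : Prop where
  meas : MeasurableSet G
  sub : G ⊆ sq
  down : ∀ q ∈ G, ∀ q' ∈ sq, q' ≤ q → q' ∈ G

/-- height over `y` -/
def pf (G : Set Y) (y : ℝ) : ℝ := volume.real {z | (y, z) ∈ G}
/-- width at height `z` -/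
def pg (G : Set Y) (z : ℝ) : ℝ := volume.real {y | (y, z) ∈ G}
/-- extent on the side `z = 0` -/
def wy (G : Set Y) : ℝ := volume.real {y | 0 < pf G y}
/-- extent on the side `z = 1` -/
def ty (G : Set Y) : ℝ := volume.real {y | 1 ≤ pf G y}
/-- extent on the side `y = 0` -/
def wz (G : Set Y) : ℝ := volume.real {z | 0 < pg G z}
/-- extent on the side `y = 1` -/
def tz (G : Set Y) : ℝ := volume.real {z | 1 ≤ pg G z}
/-- planar flux -/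
def Fl (G : Set Y) (σ₂ σ₃ : Y → ℝ) : ℝ :=
  (∫ z in Ioo (0 : ℝ) 1, ind (pg G z) * σ₂ (pg G z, z)) +
    ∫ y in Ioo (0 : ℝ) 1, ind (pf G y) * σ₃ (y, pf G y)
/-- quarter disc -/
def qd (w : ℝ) : Set Y := {q | q ∈ sq ∧ q.1 ^ 2 + q.2 ^ 2 < w ^ 2}

def u1 (D : Set X) (q : Y) : ℝ := volume.real {x | (x, q.1, q.2) ∈ D}
def u2 (D : Set X) (q : Y) : ℝ := volume.real {y | (q.1, y, q.2) ∈ D}
def u3 (D : Set X) (q : Y) : ℝ := volume.real {z | (q.1, q.2, z) ∈ D}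
/-- flux of a field through the relative boundary of a down-set -/
def Flux (D : Set X) (φ₁ φ₂ φ₃ : X → ℝ) : ℝ :=
  (∫ q in sq, ind (u1 D q) * φ₁ (u1 D q, q.1, q.2)) + (∫ q in sq, ind (u2 D q) * φ₂ (q.1, u2 D q, q.2)) +
    ∫ q in sq, ind (u3 D q) * φ₃ (q.1, q.2, u3 D q)

/-- down-set of the unit cube -/
structure Dn (D : Set X) : Prop where
  meas : MeasurableSet D
  sub : D ⊆ cube
  down : ∀ p ∈ D, ∀ p' ∈ cube, p' ≤ p → p' ∈ D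

/-- down-set of volume `v` and area at most `A` -/
structure DS (D : Set X) (v A : ℝ) : Prop where
  dn : Dn D
  vol : volume.real D = v
  flux : ∀ φ₁ φ₂ φ₃ : X → ℝ, Measurable φ₁ → Measurable φ₂ → Measurable φ₃ →
    (∀ p, φ₁ p ^ 2 + φ₂ p ^ 2 + φ₃ p ^ 2 ≤ 1) → Flux D φ₁ φ₂ φ₃ ≤ A

/-- the down-set of a monotone periodic set -/
def dn (E : Set X) : Set X := {p | p ∈ cube ∧ (1 / 2 : ℝ) • p ∈ E}
/-- models in the cube -/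
def cmdl (e : X) (R : ℝ) : Set X :=
  {p | p ∈ cube ∧ e.1 * p.1 ^ 2 + e.2.1 * p.2.1 ^ 2 + e.2.2 * p.2.2 ^ 2 < R ^ 2}

def sl (D : Set X) (s : ℝ) : Set Y := {q | (s, q) ∈ D}
/-- area of the slice -/
def ms (D : Set X) (s : ℝ) : ℝ := volume.real (sl D s)
def aD (D : Set X) : ℝ := volume.real {q | q ∈ sq ∧ 0 < u1 D q}
def bD (D : Set X) : ℝ := volume.real {q | q ∈ sq ∧ 1 ≤ u1 D q}
/-- `Λ` is the planar flux of a measurable family of unit fields through the slices -/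
def Av (D : Set X) (Λ : ℝ → ℝ) : Prop :=
  ∃ σ₂ σ₃ : X → ℝ, Measurable σ₂ ∧ Measurable σ₃ ∧ (∀ p, σ₂ p ^ 2 + σ₃ p ^ 2 ≤ 1) ∧
    ∀ s, Λ s = Fl (sl D s) (fun q => σ₂ (s, q)) (fun q => σ₃ (s, q))

/-- extent in direction `1` on the far face `y = 1` (edge from `e₂`); the other five extents are
obtained through `sw12`, `sw13` -/
def L12 (D : Set X) : ℝ := volume.real {x | ∃ z, ∀ y ∈ Ioo (0 : ℝ) 1, (x, y, z) ∈ D}
def L13 (D : Set X) : ℝ := volume.real {x | ∃ y, ∀ z ∈ Ioo (0 : ℝ) 1, (x, y, z) ∈ D}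
def L32 (D : Set X) : ℝ := volume.real {z | ∃ x, ∀ y ∈ Ioo (0 : ℝ) 1, (x, y, z) ∈ D}

/-! ## One-dimensional models -/

/-- `m s` = area of the slice, `Λ s` = a lower bound for its length, `A` = total area -/
structure Sl (A v a b : ℝ) (m Λ : ℝ → ℝ) : Prop where
  anti : AntitoneOn m (Ioo 0 1)
  b0 : 0 ≤ b
  a1 : a ≤ 1
  mem : ∀ s ∈ Ioo (0 : ℝ) 1, b ≤ m s ∧ m s ≤ a
  mm : Measurable m
  vol : ∫ s in Ioo (0 : ℝ) 1, m s = v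
  Lm : Measurable Λ
  Lb : ∀ s, |Λ s| ≤ 2
  model : ∀ κ α : ℝ → ℝ, Measurable κ → Measurable α → (∀ μ, |κ μ| ≤ 1) →
    (∀ s ∈ Ioo (0 : ℝ) 1, α s ^ 2 + κ (m s) ^ 2 ≤ 1) →
    (∫ μ in Ioo b a, κ μ) + ∫ s in Ioo (0 : ℝ) 1, α s * Λ s ≤ A

def Ek (k : ℝ) : ℝ := ∫ x in (0 : ℝ)..1, √(1 - k ^ 2 * x ^ 2)
/-- `inf_{0 < w ≤ H} (x/w + π w/4)` -/
def lc (x H : ℝ) : ℝ := if x ≤ π * H ^ 2 / 4 then √(π * x) else x / H + π * H / 4

/-- length bound for a slice whose hole has width at most `1 - h` -/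
def Hole (h μ L : ℝ) : Prop := ∀ H, 0 < H → 1 - h ≤ H → lc (1 - μ) H ≤ L

/-- strips with a thin far end -/
def M2Stmt (p ms : ℝ) (KS : Finset ℝ) : Prop :=
  ∀ (A v a b : ℝ) (m Λ : ℝ → ℝ), Sl A v a b m Λ → 0 < v → v ≤ 1 / 2 → ms ≤ a →
    (∀ᵐ s ∂(volume.restrict (Ioo (0 : ℝ) 1)), √(π * m s) ≤ Λ s ∨ √(π * (1 - m s)) ≤ Λ s ∨
      ∀ k ∈ KS, Ek k + k * (m s - p) ≤ Λ s) → J v ≤ A ∧ (A ≤ J v → a = 1 ∧ b = 0)

/-- a long phase of holes -/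
def M1Stmt (p : ℝ) (KS : Finset ℝ) : Prop :=
  ∀ h ∈ Icc (0 : ℝ) 1, ∀ (A v a b : ℝ) (m Λ : ℝ → ℝ), Sl A v a b m Λ → 0 < v → v ≤ 1 / 2 →
    (∀ᵐ s ∂(volume.restrict (Ioo (0 : ℝ) p)), Hole h (m s) (Λ s)) →
    (∀ᵐ s ∂(volume.restrict (Ioo p 1)), √(π * m s) ≤ Λ s ∨ Hole h (m s) (Λ s) ∨
      ∀ k ∈ KS, Ek k + k * (m s - h) ≤ Λ s) →
    J v ≤ A ∧ (A ≤ J v → a = 1 ∧ b = 0)

/-- the certificate -/
def CertStmt : Prop :=
  ∃ (p ms : ℝ) (KS : Finset ℝ), 0 < p ∧ p < 1 ∧ ms < 1 / 2 ∧ (∀ k ∈ KS, k ∈ Icc (0 : ℝ) 1) ∧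
    (∀ μ ∈ Icc 0 ms, ∃ k ∈ KS, √(π * μ) < Ek k + k * (μ - p)) ∧ M2Stmt p ms KS ∧ M1Stmt p KS

end Crest.Agent.R214
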