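import Crest.Agent.R214.Basic1

/-!
# R214/Moll

Mollification. `ρ n = (b n).normed volume`, `b n : ContDiffBump (0 : X)` with `rIn = 1/(n+1)`, `rOut = 2/(n+1)`; `ρ n` is even
(`ContDiffBump.normed_neg`), nonnegative, of integral one. For bounded measurable `g`, `ρ ⋆[lsmul ℝ ℝ] g` is smooth
(`HasCompactSupport.contDiff_convolution_left`) with derivative `(∂ρ) ⋆ g` (`HasCompactSupport.hasFDerivAt_convolution_left`), periodic if `g` is.
If `∑ V i² ≤ 1` then `W = ρ ⋆ V` satisfies `∑ W i² ≤ 1` (with `ξ = W p`: `|ξ|² = ρ ⋆ ⟨V, ξ⟩ ≤ |ξ|`).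
-/

set_option autoImplicit false

open MeasureTheory Set Filter Real
open scoped Topology

noncomputable section

namespace Crest.Agent.R214

instance moll_haar2 : (volume : Measure Y).IsAddHaarMeasure := by
  rw [Measure.volume_eq_prod]; infer_instance

instance moll_haar : (volume : Measure X).IsAddHaarMeasure := by
  rw [Measure.volume_eq_prod]; infer_instance

theorem moll_add3 {μ : Measure X} {f g h : X → ℝ} (hf : Integrable f μ) (hg : Integrable g μ)
    (hh : Integrable h μ) :
    ∫ p, (f p + g p + h p) ∂μ = (∫ p, f p ∂μ) + (∫ p, g p ∂μ) + ∫ p, h p ∂μ := by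
  rw [← integral_add hf hg]
  exact integral_add (hf.add hg) hh

/-- convolution -/
def mollC (k g : X → ℝ) (p : X) : ℝ := ∫ t, k t * g (p - t)

open scoped Convolution in
theorem moll_eq (k g : X → ℝ) : (k ⋆[ContinuousLinearMap.lsmul ℝ ℝ, volume] g) = mollC k g := rfl

theorem moll_int {k g : X → ℝ} (hk : Integrable k) (hg : Measurable g) {C : ℝ}
    (bg : ∀ p, |g p| ≤ C) (p : X) : Integrable fun t => k t * g (p - t) :=
  hk.mul_bdd (hg.comp (measurable_const.sub measurable_id)).aestronglyMeasurable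
    (Eventually.of_forall fun _ => bg _)

theorem moll_loc {g : X → ℝ} (hg : Measurable g) {C : ℝ} (bg : ∀ p, |g p| ≤ C) :
    LocallyIntegrable g volume :=
  (locallyIntegrable_const C).mono hg.aestronglyMeasurable
    (Eventually.of_forall fun p => (bg p).trans (le_abs_self C))

theorem moll_cd {k g : X → ℝ} (hk : ContDiff ℝ 1 k) (hc : HasCompactSupport k) (hg : Measurable g)
    {C : ℝ} (bg : ∀ p, |g p| ≤ C) : ContDiff ℝ 1 (mollC k g) := by
  rw [← moll_eq]
  exact hc.contDiff_convolution_left (n := 1) _ hk (moll_loc hg bg)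

theorem moll_fderiv {k g : X → ℝ} (hk : ContDiff ℝ 1 k) (hc : HasCompactSupport k)
    (hg : Measurable g) {C : ℝ} (bg : ∀ p, |g p| ≤ C) (p v : X) :
    fderiv ℝ (mollC k g) p v = mollC (fun t => fderiv ℝ k t v) g p := by
  have hi := ((hc.fderiv ℝ).convolutionExists_left
    (ContinuousLinearMap.precompL X (ContinuousLinearMap.lsmul ℝ ℝ : ℝ →L[ℝ] ℝ →L[ℝ] ℝ))
    (hk.continuous_fderiv one_ne_zero) (moll_loc hg bg) p).integrable
  rw [← moll_eq k g, (hc.hasFDerivAt_convolution_left _ hk (moll_loc hg bg) p).fderiv,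
    convolution_def, ContinuousLinearMap.integral_apply hi]
  rfl

theorem moll_pd (k : X → ℝ) {g : X → ℝ} (hg : Pd g) : Pd (mollC k g) := fun a b c p => by
  unfold mollC
  simp only [add_sub_right_comm p, hg a b c]

theorem moll_abs {V₁ V₂ V₃ : X → ℝ} (h : ∀ p, V₁ p ^ 2 + V₂ p ^ 2 + V₃ p ^ 2 ≤ 1) :
    (∀ p, |V₁ p| ≤ 1) ∧ (∀ p, |V₂ p| ≤ 1) ∧ ∀ p, |V₃ p| ≤ 1 := by
  refine ⟨fun p => ?_, fun p => ?_, fun p => ?_⟩ <;> rw [← sq_le_one_iff_abs_le_one] <;>
    nlinarith [h p, sq_nonneg (V₁ p), sq_nonneg (V₂ p), sq_nonneg (V₃ p)]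

theorem moll_le {k V₁ V₂ V₃ : X → ℝ} (hk : Integrable k) (h0 : ∀ t, 0 ≤ k t) (h1 : ∫ t, k t = 1)
    (m1 : Measurable V₁) (m2 : Measurable V₂) (m3 : Measurable V₃)
    (h : ∀ p, V₁ p ^ 2 + V₂ p ^ 2 + V₃ p ^ 2 ≤ 1) (p : X) :
    mollC k V₁ p ^ 2 + mollC k V₂ p ^ 2 + mollC k V₃ p ^ 2 ≤ 1 := by
  obtain ⟨b1, b2, b3⟩ := moll_abs h
  have i1 := moll_int hk m1 b1 p
  have i2 := moll_int hk m2 b2 p
  have i3 := moll_int hk m3 b3 p
  set a := mollC k V₁ p with ha
  set b := mollC k V₂ p with hb
  set c := mollC k V₃ p with hc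
  have e : a ^ 2 + b ^ 2 + c ^ 2 = ∫ t, (a * (k t * V₁ (p - t)) + b * (k t * V₂ (p - t)) +
      c * (k t * V₃ (p - t))) := by
    rw [moll_add3 (i1.const_mul a) (i2.const_mul b) (i3.const_mul c), integral_const_mul,
      integral_const_mul, integral_const_mul]
    change _ = a * a + b * b + c * c
    ring
  have l : ∫ t, (a * (k t * V₁ (p - t)) + b * (k t * V₂ (p - t)) + c * (k t * V₃ (p - t))) ≤
      ∫ t, (a ^ 2 + b ^ 2 + c ^ 2 + 1) / 2 * k t := by
    refine integral_mono (((i1.const_mul a).add (i2.const_mul b)).add (i3.const_mul c))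
      (hk.const_mul _) fun t => ?_
    have h2 : a * V₁ (p - t) + b * V₂ (p - t) + c * V₃ (p - t) ≤ (a ^ 2 + b ^ 2 + c ^ 2 + 1) / 2 := by
      nlinarith [h (p - t), sq_nonneg (a - V₁ (p - t)), sq_nonneg (b - V₂ (p - t)),
        sq_nonneg (c - V₃ (p - t))]
    have h3 := mul_le_mul_of_nonneg_right h2 (h0 t)
    show _ ≤ _
    nlinarith [h3]
  rw [integral_const_mul, h1, ← e] at l
  linarith

theorem moll_swap {k g h : X → ℝ} (hk : Integrable k) (hg : Measurable g) (hh : Measurable h)
    {C : ℝ} (bg : ∀ p, |g p| ≤ C) (bh : ∀ p, |h p| ≤ C) :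
    ∫ p in cell, g p * ∫ t, k t * h (p - t) = ∫ t, k t * ∫ p in cell, g p * h (p - t) := by
  have hi : Integrable (fun z : X × X => k z.2 * (g z.1 * h (z.1 - z.2)))
      ((volume.restrict cell).prod volume) := by
    refine (hk.comp_snd _).mul_bdd (c := C * C) ((hg.comp measurable_fst).mul
      (hh.comp (measurable_fst.sub measurable_snd))).aestronglyMeasurable
      (Eventually.of_forall fun z => ?_)
    rw [Real.norm_eq_abs, abs_mul]
    exact mul_le_mul (bg _) (bh _) (abs_nonneg _) ((abs_nonneg _).trans (bg 0))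
  have e := integral_integral_swap (f := fun p t => k t * (g p * h (p - t))) hi
  simp only [integral_const_mul] at e
  rw [← e]
  refine integral_congr_ae (Eventually.of_forall fun p => ?_)
  show g p * _ = _
  rw [← integral_const_mul]
  refine integral_congr_ae (Eventually.of_forall fun t => ?_)
  show g p * (k t * h (p - t)) = k t * (g p * h (p - t))
  ring

/-- moving a kernel across a product of periodic functions: substitute, Fubini, `integral_cell_add` -/
theorem integral_cell_conv {k g h : X → ℝ} (hk : Integrable k) (hg : Measurable g) (hh : Measurable h)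
    (pg' : Pd g) (ph : Pd h) {C : ℝ} (bg : ∀ p, |g p| ≤ C) (bh : ∀ p, |h p| ≤ C) :
    ∫ p in cell, g p * ∫ t, k t * h (p - t) = ∫ p in cell, h p * ∫ t, k (-t) * g (p - t) := by
  rw [moll_swap hk hg hh bg bh, moll_swap (k := fun t => k (-t)) hk.comp_neg hh hg bh bg,
    ← integral_neg_eq_self]
  refine integral_congr_ae (Eventually.of_forall fun t => ?_)
  have hF : Pd fun p => g p * h (p - -t) := fun a b c p => by
    show g (p + _) * h (p + _ - -t) = _
    rw [pg', add_sub_right_comm, ph]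
  show k (-t) * _ = k (-t) * _
  rw [← integral_cell_add hF (-t)]
  congr 1
  refine integral_congr_ae (Eventually.of_forall fun p => ?_)
  show g (p + -t) * h (p + -t - -t) = h p * g (p - t)
  rw [add_sub_cancel_right, ← sub_eq_add_neg, mul_comm]

/-- the bumps -/
def mollB (n : ℕ) : ContDiffBump (0 : X) :=
  ⟨1 / ((n : ℝ) + 1), 2 / ((n : ℝ) + 1), by positivity,
    div_lt_div_of_pos_right one_lt_two (by positivity)⟩

/-- the kernels -/
def mollK (n : ℕ) : X → ℝ := (mollB n).normed volume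

theorem mollK_cd (n : ℕ) : ContDiff ℝ 1 (mollK n) := (mollB n).contDiff_normed (n := 1)
theorem mollK_cs (n : ℕ) : HasCompactSupport (mollK n) := (mollB n).hasCompactSupport_normed
theorem mollK_nn (n : ℕ) (t : X) : 0 ≤ mollK n t := (mollB n).nonneg_normed t
theorem mollK_int (n : ℕ) : Integrable (mollK n) := (mollB n).integrable_normed
theorem mollK_one (n : ℕ) : ∫ t, mollK n t = 1 := (mollB n).integral_normed
theorem mollK_neg (n : ℕ) (t : X) : mollK n (-t) = mollK n t := (mollB n).normed_neg t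

theorem mollB_out : Tendsto (fun n => (mollB n).rOut) atTop (𝓝 0) := by
  have := tendsto_one_div_add_atTop_nhds_zero_nat (𝕜 := ℝ) |>.const_mul 2
  rw [mul_zero] at this
  refine this.congr fun n => ?_
  simp only [mollB]
  rw [mul_one_div]

theorem mollK_odd (n : ℕ) (t v : X) :
    fderiv ℝ (mollK n) (-t) v = -fderiv ℝ (mollK n) t v := by
  have h1 : HasFDerivAt (mollK n) (fderiv ℝ (mollK n) (-t)) (-t) :=
    ((mollK_cd n).differentiable one_ne_zero _).hasFDerivAt
  have h2 := h1.comp t (hasFDerivAt_id t).neg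
  have e : (mollK n ∘ Neg.neg) = mollK n := funext (mollK_neg n)
  rw [e] at h2
  rw [h2.fderiv]
  simp

theorem moll_ind_abs (E : Set X) (p : X) : |E.indicator (1 : X → ℝ) p| ≤ 1 := by
  by_cases h : p ∈ E <;> simp [h]

theorem moll_ind_pd {E : Set X} (h : PdS E) : Pd (E.indicator (1 : X → ℝ)) := fun a b c p => by
  by_cases hp : p ∈ E
  · rw [indicator_of_mem hp, indicator_of_mem ((h a b c p).2 hp)]; rfl
  · rw [indicator_of_notMem hp, indicator_of_notMem fun h' => hp ((h a b c p).1 h')]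

theorem moll_adm (n : ℕ) {W₁ W₂ W₃ : X → ℝ} (m1 : Measurable W₁) (m2 : Measurable W₂)
    (m3 : Measurable W₃) (p1 : Pd W₁) (p2 : Pd W₂) (p3 : Pd W₃)
    (le : ∀ p, W₁ p ^ 2 + W₂ p ^ 2 + W₃ p ^ 2 ≤ 1) :
    Adm (mollC (mollK n) W₁) (mollC (mollK n) W₂) (mollC (mollK n) W₃) := by
  obtain ⟨b1, b2, b3⟩ := moll_abs le
  exact ⟨moll_cd (mollK_cd n) (mollK_cs n) m1 b1, moll_cd (mollK_cd n) (mollK_cs n) m2 b2,
    moll_cd (mollK_cd n) (mollK_cs n) m3 b3, moll_pd _ p1, moll_pd _ p2, moll_pd _ p3,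
    moll_le (mollK_int n) (mollK_nn n) (mollK_one n) m1 m2 m3 le⟩

theorem moll_dir (n : ℕ) {E : Set X} (hE : MeasurableSet E) (hp : PdS E) {U : X → ℝ}
    (mU : Measurable U) (pU : Pd U) (bU : ∀ p, |U p| ≤ 1) (v : X) :
    ∫ p in cell, U p * fderiv ℝ (mollC (mollK n) (E.indicator 1)) p v =
      ∫ p in E ∩ cell, fderiv ℝ (mollC (mollK n) fun p => -U p) p v := by
  have hm : Measurable (E.indicator (1 : X → ℝ)) := measurable_const.indicator hE
  have hk : Integrable fun t => fderiv ℝ (mollK n) t v :=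
    (((mollK_cd n).continuous_fderiv one_ne_zero).clm_apply
      continuous_const).integrable_of_hasCompactSupport ((mollK_cs n).fderiv_apply ℝ v)
  have bU' : ∀ p, |-U p| ≤ 1 := fun p => by rw [abs_neg]; exact bU p
  simp only [moll_fderiv (mollK_cd n) (mollK_cs n) hm (moll_ind_abs E),
    moll_fderiv (g := fun p => -U p) (mollK_cd n) (mollK_cs n) mU.neg bU']
  unfold mollC
  rw [integral_cell_conv hk mU hm pU (moll_ind_pd hp) bU (moll_ind_abs E), inter_comm,
    ← setIntegral_indicator hE]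
  refine integral_congr_ae (Eventually.of_forall fun p => ?_)
  by_cases h : p ∈ E
  · simp only [indicator_of_mem h, Pi.one_apply, one_mul, mollK_odd, neg_mul, mul_neg]
  · simp only [indicator_of_notMem h, zero_mul]

/-- `f n = ρ n ⋆ 1_E`; `lim` is `ContDiffBump.ae_convolution_tendsto_right_of_locallyIntegrable`. `dual`: replace `V i` by the periodic
function `V i (cen x, cen y, cen z)`, test `PerLe` with `W i = -(ρ n ⋆ V i)`; `∂ρ` is odd, so `integral_cell_conv` gives
`∫_cell V i ∂_i f = ∫_cell 1_E ∂_i W i`. -/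
theorem exists_moll {E : Set X} {V P : ℝ} (h : Good E V P) : ∃ f, Moll E P f := by
  have hm : Measurable (E.indicator (1 : X → ℝ)) := measurable_const.indicator h.meas
  refine ⟨fun n => mollC (mollK n) (E.indicator 1), fun n => moll_cd (mollK_cd n) (mollK_cs n) hm
    (moll_ind_abs E), fun n => moll_pd _ (moll_ind_pd h.per), fun n p => ⟨?_, ?_⟩, ?_, ?_⟩
  · exact integral_nonneg fun t => mul_nonneg (mollK_nn n t) (indicator_nonneg (fun _ _ => zero_le_one) _)
  · rw [← mollK_one n]
    exact integral_mono (moll_int (mollK_int n) hm (moll_ind_abs E) p) (mollK_int n) fun t =>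
      mul_le_of_le_one_right (mollK_nn n t) ((le_abs_self _).trans (moll_ind_abs E _))
  · exact ContDiffBump.ae_convolution_tendsto_right_of_locallyIntegrable (K := 2) mollB_out
      (Eventually.of_forall fun n => by simp only [mollB]; rw [mul_one_div])
      (moll_loc hm (moll_ind_abs E))
  · intro n V₁ V₂ V₃ m1 m2 m3 le
    have mc : Measurable fun p : X => ((cen p.1, cen p.2.1, cen p.2.2) : X) :=
      (measurable_cen.comp measurable_fst).prodMk ((measurable_cen.comp measurable_snd.fst).prodMk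
        (measurable_cen.comp measurable_snd.snd))
    have pc : ∀ V : X → ℝ, Pd fun p : X => V (cen p.1, cen p.2.1, cen p.2.2) := fun V a b c p => by
      simp only [Prod.fst_add, Prod.snd_add, cen_add_int]
    set U₁ := fun p : X => V₁ (cen p.1, cen p.2.1, cen p.2.2) with hU₁
    set U₂ := fun p : X => V₂ (cen p.1, cen p.2.1, cen p.2.2) with hU₂
    set U₃ := fun p : X => V₃ (cen p.1, cen p.2.1, cen p.2.2) with hU₃
    have n1 : Measurable U₁ := m1.comp mc
    have n2 : Measurable U₂ := m2.comp mc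
    have n3 : Measurable U₃ := m3.comp mc
    have le' : ∀ p, U₁ p ^ 2 + U₂ p ^ 2 + U₃ p ^ 2 ≤ 1 := fun p => le _
    obtain ⟨b1, b2, b3⟩ := moll_abs le'
    have hf := moll_cd (mollK_cd n) (mollK_cs n) hm (moll_ind_abs E)
    have ad : Adm (mollC (mollK n) fun p => -U₁ p) (mollC (mollK n) fun p => -U₂ p)
        (mollC (mollK n) fun p => -U₃ p) :=
      moll_adm n n1.neg n2.neg n3.neg (pc fun p => -V₁ p) (pc fun p => -V₂ p) (pc fun p => -V₃ p)
        fun p => by simpa only [neg_sq] using le' p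
    have key := h.le _ _ _ ad
    have sub : E ∩ cell ⊆ cell := inter_subset_right
    have j1 := (integrableOn_cell_of_cont (continuous_d1 ad.c1)).mono_set sub
    have j2 := (integrableOn_cell_of_cont (continuous_d2 ad.c2)).mono_set sub
    have j3 := (integrableOn_cell_of_cont (continuous_d3 ad.c3)).mono_set sub
    unfold dvg at key
    rw [moll_add3 j1 j2 j3] at key
    have k1 := (integrableOn_cell_of_cont (continuous_d1 hf)).bdd_mul n1.aestronglyMeasurable
      (Eventually.of_forall b1)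
    have k2 := (integrableOn_cell_of_cont (continuous_d2 hf)).bdd_mul n2.aestronglyMeasurable
      (Eventually.of_forall b2)
    have k3 := (integrableOn_cell_of_cont (continuous_d3 hf)).bdd_mul n3.aestronglyMeasurable
      (Eventually.of_forall b3)
    have e : ∫ p in cell, (V₁ p * d1 (mollC (mollK n) (E.indicator 1)) p +
        V₂ p * d2 (mollC (mollK n) (E.indicator 1)) p +
        V₃ p * d3 (mollC (mollK n) (E.indicator 1)) p) =
        ∫ p in cell, (U₁ p * d1 (mollC (mollK n) (E.indicator 1)) p +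
        U₂ p * d2 (mollC (mollK n) (E.indicator 1)) p +
        U₃ p * d3 (mollC (mollK n) (E.indicator 1)) p) := by
      refine setIntegral_congr_fun measurableSet_cell fun p hp => ?_
      simp only [hU₁, hU₂, hU₃, cen_of_mem hp.1, cen_of_mem hp.2.1, cen_of_mem hp.2.2]
    rw [e, moll_add3 k1 k2 k3]
    unfold d1 d2 d3 at key ⊢
    rw [moll_dir n h.meas h.per n1 (pc V₁) b1, moll_dir n h.meas h.per n2 (pc V₂) b2,
      moll_dir n h.meas h.per n3 (pc V₃) b3]
    exact key

/-- dominated convergence -/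
theorem Moll.l1 {E : Set X} {P : ℝ} {f : ℕ → X → ℝ} (h : Moll E P f) (hE : MeasurableSet E) :
    Tendsto (fun n => ∫ p in cell, |f n p - E.indicator 1 p|) atTop (𝓝 0) := by
  have hm : Measurable (E.indicator (1 : X → ℝ)) := measurable_const.indicator hE
  have := tendsto_integral_of_dominated_convergence (μ := volume.restrict cell)
    (F := fun n p => |f n p - E.indicator 1 p|) (f := fun _ => 0) (fun _ => 1)
    (fun n => (continuous_abs.measurable.comp
      ((h.sm n).continuous.measurable.sub hm)).aestronglyMeasurable)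
    (integrable_const _) (fun n => Eventually.of_forall fun p => ?_) ?_
  · simpa using this
  · have := h.mem n p
    rw [Real.norm_eq_abs, abs_abs, abs_le]
    by_cases hp : p ∈ E
    · simp only [indicator_of_mem hp, Pi.one_apply]
      constructor <;> linarith [this.1, this.2]
    · simp only [indicator_of_notMem hp]
      constructor <;> linarith [this.1, this.2]
  · filter_upwards [ae_restrict_of_ae h.lim] with p hp
    have := (hp.sub_const (E.indicator 1 p)).abs
    rwa [sub_self, abs_zero] at this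

/-- `ContDiffBump.convolution_tendsto_right_of_continuous` -/
theorem exists_adm_tendsto {W₁ W₂ W₃ : X → ℝ} (c1 : Continuous W₁) (c2 : Continuous W₂)
    (c3 : Continuous W₃) (p1 : Pd W₁) (p2 : Pd W₂) (p3 : Pd W₃)
    (le : ∀ p, W₁ p ^ 2 + W₂ p ^ 2 + W₃ p ^ 2 ≤ 1) :
    ∃ φ₁ φ₂ φ₃ : ℕ → X → ℝ, (∀ n, Adm (φ₁ n) (φ₂ n) (φ₃ n)) ∧
      ∀ p, Tendsto (fun n => φ₁ n p) atTop (𝓝 (W₁ p)) ∧ Tendsto (fun n => φ₂ n p) atTop (𝓝 (W₂ p)) ∧
        Tendsto (fun n => φ₃ n p) atTop (𝓝 (W₃ p)) := by
  exact ⟨fun n => mollC (mollK n) W₁, fun n => mollC (mollK n) W₂, fun n => mollC (mollK n) W₃,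
    fun n => moll_adm n c1.measurable c2.measurable c3.measurable p1 p2 p3 le, fun p =>
    ⟨ContDiffBump.convolution_tendsto_right_of_continuous mollB_out c1 p,
      ContDiffBump.convolution_tendsto_right_of_continuous mollB_out c2 p,
      ContDiffBump.convolution_tendsto_right_of_continuous mollB_out c3 p⟩⟩

end Crest.Agent.R214
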