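import Crest.Agent.R214.StA
import Crest.Agent.R214.Moll

/-!
# R214/FluxA

The perimeter of a monotone periodic set, tested with continuous fields.
-/

set_option autoImplicit false
set_option linter.unusedVariables false

open MeasureTheory Set Filter Real
open scoped Topology

noncomputable section

namespace Crest.Agent.R214

/-- jump of `W` across the fibres in the first direction -/
def jmp (E : Set X) (W : X → ℝ) : ℝ := ∫ q in cell2, (W (fl E q / 2, q) - W (-(fl E q / 2), q))

theorem fluxA_fibre {E : Set X} (h : Mon1 E) (q : Y) (f : X → ℝ) :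
    ∫ x in I0, E.indicator f (x, q) = ∫ x in (-(fl E q / 2))..(fl E q / 2), f (x, q) := by
  obtain ⟨l0, l1⟩ := fl_mem E q
  rw [intervalIntegral.integral_of_le (by linarith), integral_Ioc_eq_integral_Ioo,
    ← integral_indicator measurableSet_Ioo, ← integral_indicator measurableSet_I0]
  refine integral_congr_ae ?_
  filter_upwards [(Set.toFinite {fl E q / 2, -(fl E q / 2)}).countable.ae_notMem volume] with x hx
  simp only [mem_insert_iff, mem_singleton_iff, not_or] at hx
  by_cases h1 : x ∈ Ioo (-(fl E q / 2)) (fl E q / 2)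
  · have h2 : |x| < fl E q / 2 := abs_lt.2 h1
    have h3 : x ∈ I0 := ⟨by linarith [h1.1], by linarith [h1.2]⟩
    have h4 : (x, q) ∈ E := (h.fibre q x).1 (by rwa [tri_of_abs_le (by linarith)])
    rw [indicator_of_mem h1, indicator_of_mem h3, indicator_of_mem h4]
  · rw [indicator_of_notMem h1]
    by_cases h3 : x ∈ I0
    · rw [indicator_of_mem h3, indicator_of_notMem]
      intro h4
      have h5 := (h.fibre q x).2 h4
      rw [tri_of_abs_le (abs_le.2 ⟨by linarith [h3.1], h3.2.le⟩), abs_le] at h5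
      exact h1 ⟨lt_of_le_of_ne h5.1 (Ne.symm hx.2), lt_of_le_of_ne h5.2 hx.1⟩
    · rw [indicator_of_notMem h3]

/-- Fubini, `Mon1.fibre`, FTC -/
theorem Mon1.integral_d1 {E : Set X} (h : Mon1 E) (hE : MeasurableSet E) {W : X → ℝ}
    (hW : ContDiff ℝ 1 W) : ∫ p in E ∩ cell, d1 W p = jmp E W := by
  rw [inter_comm, ← setIntegral_indicator hE,
    integral_cell_prod ((integrableOn_cell_of_cont (continuous_d1 hW)).indicator hE), jmp]
  refine integral_congr_ae (Eventually.of_forall fun q => ?_)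
  simp only
  rw [fluxA_fibre h]
  refine intervalIntegral.integral_eq_sub_of_hasDerivAt (f := fun x => W (x, q))
    (fun x _ => hasDerivAt_d1 (y := q.1) (z := q.2) (hW.differentiable one_ne_zero _)) ?_
  exact ((continuous_d1 hW).comp (Continuous.prodMk_left q)).intervalIntegrable _ _

theorem fluxA_sw12 : ContDiff ℝ 1 sw12 := by
  unfold sw12
  fun_prop

theorem fluxA_sw13 : ContDiff ℝ 1 sw13 := by
  unfold sw13
  fun_prop

theorem fluxA_d2 {E : Set X} (h : Mon2 E) (hE : MeasurableSet E) {W : X → ℝ}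
    (hW : ContDiff ℝ 1 W) : ∫ p in E ∩ cell, d2 W p = jmp (sw12 ⁻¹' E) (W ∘ sw12) := by
  have hW' := hW.comp fluxA_sw12
  rw [← h.sw12.integral_d1 (measurableEmbedding_sw12.measurable hE) hW',
    ← measurePreserving_sw12.setIntegral_preimage_emb measurableEmbedding_sw12, preimage_inter, sw12_cell]
  refine integral_congr_ae (Eventually.of_forall fun p => ?_)
  obtain ⟨x, y, z⟩ := p
  exact (hasDerivAt_d2 (x := y) (y := x) (z := z) (hW.differentiable one_ne_zero _)).unique
    (hasDerivAt_d1 (hW'.differentiable one_ne_zero _))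

theorem fluxA_d3 {E : Set X} (h : Mon3 E) (hE : MeasurableSet E) {W : X → ℝ}
    (hW : ContDiff ℝ 1 W) : ∫ p in E ∩ cell, d3 W p = jmp (sw13 ⁻¹' E) (W ∘ sw13) := by
  have hW' := hW.comp fluxA_sw13
  rw [← h.sw13.integral_d1 (measurableEmbedding_sw13.measurable hE) hW',
    ← measurePreserving_sw13.setIntegral_preimage_emb measurableEmbedding_sw13, preimage_inter, sw13_cell]
  refine integral_congr_ae (Eventually.of_forall fun p => ?_)
  obtain ⟨x, y, z⟩ := p
  exact (hasDerivAt_d3 (x := z) (y := y) (z := x) (hW.differentiable one_ne_zero _)).unique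
    (hasDerivAt_d1 (hW'.differentiable one_ne_zero _))

theorem fluxA_tendsto {E : Set X} (hE : MeasurableSet E) {φ : ℕ → X → ℝ} {W : X → ℝ}
    (hc : ∀ n, Continuous (φ n)) (hb : ∀ n p, |φ n p| ≤ 1)
    (hl : ∀ p, Tendsto (fun n => φ n p) atTop (𝓝 (W p))) :
    Tendsto (fun n => jmp E (φ n)) atTop (𝓝 (jmp E W)) := by
  have hm := measurable_fl hE
  refine tendsto_integral_of_dominated_convergence (fun _ => 2) (fun n => ?_) (integrable_const _)
    (fun n => Eventually.of_forall fun q => ?_) (Eventually.of_forall fun q => (hl _).sub (hl _))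
  · exact (((hc n).measurable.comp ((hm.div_const 2).prodMk measurable_id)).sub
      ((hc n).measurable.comp ((hm.div_const 2).neg.prodMk measurable_id))).aestronglyMeasurable
  · refine (abs_sub _ _).trans ?_
    linarith [hb n (fl E q / 2, q), hb n (-(fl E q / 2), q)]

/-- For admissible fields this is `Mon1.integral_d1` for `E`, `sw12 ⁻¹' E`, `sw13 ⁻¹' E` (`d2 W = d1 (W ∘ sw12) ∘ sw12`); then
`exists_adm_tendsto` and dominated convergence. -/
theorem Good.jmp_le {E : Set X} {V P : ℝ} (h : Good E V P) (h1 : Mon1 E) (h2 : Mon2 E) (h3 : Mon3 E)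
    {W₁ W₂ W₃ : X → ℝ} (c1 : Continuous W₁) (c2 : Continuous W₂) (c3 : Continuous W₃)
    (p1 : Pd W₁) (p2 : Pd W₂) (p3 : Pd W₃) (le : ∀ p, W₁ p ^ 2 + W₂ p ^ 2 + W₃ p ^ 2 ≤ 1) :
    jmp E W₁ + jmp (R214.sw12 ⁻¹' E) (W₂ ∘ R214.sw12) + jmp (R214.sw13 ⁻¹' E) (W₃ ∘ R214.sw13) ≤ P := by
  obtain ⟨φ₁, φ₂, φ₃, ha, hl⟩ := exists_adm_tendsto c1 c2 c3 p1 p2 p3 le
  have m2 := measurableEmbedding_sw12.measurable h.meas
  have m3 := measurableEmbedding_sw13.measurable h.meas
  have b : ∀ n p, |φ₁ n p| ≤ 1 ∧ |φ₂ n p| ≤ 1 ∧ |φ₃ n p| ≤ 1 := fun n p => by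
    have := (ha n).le p
    refine ⟨?_, ?_, ?_⟩ <;> refine sq_le_one_iff_abs_le_one _ |>.1 ?_ <;>
      nlinarith [sq_nonneg (φ₁ n p), sq_nonneg (φ₂ n p), sq_nonneg (φ₃ n p)]
  have t1 := fluxA_tendsto h.meas (fun n => (ha n).c1.continuous) (fun n p => (b n p).1)
    fun p => (hl p).1
  have t2 := fluxA_tendsto m2 (φ := fun n => φ₂ n ∘ R214.sw12) (W := W₂ ∘ R214.sw12)
    (fun n => (ha n).c2.continuous.comp fluxA_sw12.continuous) (fun n p => (b n _).2.1)
    fun p => (hl _).2.1
  have t3 := fluxA_tendsto m3 (φ := fun n => φ₃ n ∘ R214.sw13) (W := W₃ ∘ R214.sw13)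
    (fun n => (ha n).c3.continuous.comp fluxA_sw13.continuous) (fun n p => (b n _).2.2)
    fun p => (hl _).2.2
  refine le_of_tendsto' ((t1.add t2).add t3) fun n => ?_
  have i : ∀ {g : X → ℝ}, Continuous g → IntegrableOn g (E ∩ cell) := fun hg =>
    (integrableOn_cell_of_cont hg).mono_set inter_subset_right
  have key := h.le _ _ _ (ha n)
  unfold dvg at key
  rwa [integral_add (i ((continuous_d1 (ha n).c1).fun_add (continuous_d2 (ha n).c2)))
    (i (continuous_d3 (ha n).c3)), integral_add (i (continuous_d1 (ha n).c1))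
    (i (continuous_d2 (ha n).c2)), h1.integral_d1 h.meas (ha n).c1,
    fluxA_d2 h2 h.meas (ha n).c2, fluxA_d3 h3 h.meas (ha n).c3] at key

theorem integral_fold1 {F : ℝ → ℝ} (hF : Measurable F) {C : ℝ} (hb : ∀ t, |F t| ≤ C) :
    ∫ t in I0, F (2 * |t|) = ∫ t in Ioo (0 : ℝ) 1, F t := by
  have hm : Measurable fun t : ℝ => F (2 * |t|) := hF.comp (by fun_prop)
  have i : ∀ a b : ℝ, IntervalIntegrable (fun t : ℝ => F (2 * |t|)) volume a b := fun a b =>
    intervalIntegrable_iff.2 (Measure.integrableOn_of_bounded (M := C) measure_Ioc_lt_top.ne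
      hm.aestronglyMeasurable (Eventually.of_forall fun t => hb _))
  have e1 : ∫ t in (-1 / 2 : ℝ)..0, F (2 * |t|) = ∫ t in (0 : ℝ)..(1 / 2), F (2 * |t|) := by
    have := intervalIntegral.integral_comp_neg (a := (0 : ℝ)) (b := 1 / 2) fun t : ℝ => F (2 * |t|)
    simp only [abs_neg, neg_zero] at this
    rw [this, neg_div]
  have e2 : ∫ t in (0 : ℝ)..(1 / 2), F (2 * |t|) = ∫ t in (0 : ℝ)..(1 / 2), F (2 * t) := by
    refine intervalIntegral.integral_congr fun t ht => ?_
    rw [uIcc_of_le (by norm_num)] at ht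
    simp only [abs_of_nonneg ht.1]
  rw [integral_I0, ← intervalIntegral.integral_add_adjacent_intervals (i _ 0) (i 0 _), e1, e2,
    intervalIntegral.integral_comp_mul_left F two_ne_zero, ← integral_Ioc_eq_integral_Ioo,
    ← intervalIntegral.integral_of_le zero_le_one]
  norm_num
  ring

theorem fluxA_mp : MeasurePreserving (fun t : ℝ => 2 * |t|) (volume.restrict I0)
    (volume.restrict (Ioo 0 1)) := by
  have hm : Measurable fun t : ℝ => 2 * |t| := by fun_prop
  refine ⟨hm, Measure.ext fun s hs => ?_⟩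
  rw [Measure.map_apply hm hs, ← ofReal_measureReal (measure_ne_top _ _),
    ← ofReal_measureReal (μ := volume.restrict (Ioo (0 : ℝ) 1)) (measure_ne_top _ _),
    ← integral_indicator_one hs, ← integral_indicator_one (hm hs)]
  congr 1
  refine integral_fold1 (F := s.indicator 1) (measurable_one.indicator hs) (C := 1) fun t => ?_
  by_cases ht : t ∈ s <;> simp [ht]



theorem integral_fold2 {F : Y → ℝ} (hF : Measurable F) {C : ℝ} (hb : ∀ q, |F q| ≤ C) :
    ∫ q in cell2, F (2 * |q.1|, 2 * |q.2|) = ∫ q in sq, F q := by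
  have h := fluxA_mp.prod fluxA_mp
  rw [Measure.prod_restrict, Measure.prod_restrict] at h
  have h2 := integral_map (μ := volume.restrict cell2) h.measurable.aemeasurable hF.aestronglyMeasurable
  rw [show Measure.map _ (volume.restrict cell2) = volume.restrict sq from h.map_eq] at h2
  exact h2.symm
theorem integral_fold3 {F : X → ℝ} (hF : Measurable F) {C : ℝ} (hb : ∀ p, |F p| ≤ C) :
    ∫ p in cell, F (2 * |p.1|, 2 * |p.2.1|, 2 * |p.2.2|) = ∫ p in cube, F p := by
  have h := fluxA_mp.prod (fluxA_mp.prod fluxA_mp)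
  rw [Measure.prod_restrict, Measure.prod_restrict, Measure.prod_restrict, Measure.prod_restrict] at h
  have h2 := integral_map (μ := volume.restrict cell) h.measurable.aemeasurable hF.aestronglyMeasurable
  rw [show Measure.map _ (volume.restrict cell) = volume.restrict cube from h.map_eq] at h2
  exact h2.symm

end Crest.Agent.R214
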