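import Crest.Agent.R214.FluxA
import Crest.Agent.R214.Borel

/-!
# R214/FluxB

The down-set of a monotone periodic set. `p ∈ E ↔ (tri x, tri y, tri z) ∈ E` (`tri_tri`).
Flux: for continuous `φ` put `η n t = max (-1) (min 1 (n sin (2π t)))` (odd, periodic), `W i p = η n (p i) φ i (2 tri x, 2 tri y, 2 tri z)`.
For `q ∈ cell2` with `2|q j| ∈ (0,1)` we have `fl E q = u1 (dn E) (2|q.1|, 2|q.2|)`, so
`jmp E W₁ = ∫_{sq} 2 η n (u1/2) φ₁ (u1, q)` (`integral_fold2`), and `η n (u/2) → ind u` for `u ∈ [0,1]`. The other two terms follow by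
applying this to `sw12 ⁻¹' E`, `sw13 ⁻¹' E` (`dn (sw12 ⁻¹' E) = sw12 ⁻¹' dn E`, `u1 (sw12 ⁻¹' D) = u2 D`,
`u1 (sw13 ⁻¹' D) q = u3 D q.swap`).
-/

set_option autoImplicit false

open MeasureTheory Set Filter Real
open scoped Topology

noncomputable section

namespace Crest.Agent.R214

theorem fb_mono {E : Set X} (h1 : Mon1 E) (h2 : Mon2 E) (h3 : Mon3 E) {p p' : X} (a : tri p'.1 ≤ tri p.1)
    (b : tri p'.2.1 ≤ tri p.2.1) (c : tri p'.2.2 ≤ tri p.2.2) (h : p ∈ E) : p' ∈ E :=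
  h3 p'.1 p'.2.1 p.2.2 p'.2.2 c (h2 p'.1 p.2.1 p'.2.1 p.2.2 b (h1 p.1 p'.1 p.2.1 p.2.2 a h))

theorem fb_iff {E : Set X} (h1 : Mon1 E) (h2 : Mon2 E) (h3 : Mon3 E) {p p' : X} (a : tri p'.1 = tri p.1)
    (b : tri p'.2.1 = tri p.2.1) (c : tri p'.2.2 = tri p.2.2) : p' ∈ E ↔ p ∈ E :=
  ⟨fb_mono h1 h2 h3 a.ge b.ge c.ge, fb_mono h1 h2 h3 a.le b.le c.le⟩

theorem fb_abs {t : ℝ} (h : t ∈ I0) : tri t = |t| := by rw [tri, cen_of_mem h]

theorem fb_half {t : ℝ} (h : t ∈ I0) : tri (1 / 2 * (2 * |t|)) = tri t := by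
  rw [← fb_abs h, show 1 / 2 * (2 * tri t) = tri t by ring, tri_tri]

theorem fb_tri {t : ℝ} (h0 : 0 ≤ t) (h1 : t ≤ 1) : tri (1 / 2 * t) = 1 / 2 * t := by
  have : |1 / 2 * t| = 1 / 2 * t := abs_of_nonneg (by positivity)
  rw [tri_of_abs_le (by linarith), this]

theorem fb_fold {E : Set X} (h1 : Mon1 E) (h2 : Mon2 E) (h3 : Mon3 E) {p : X} (hp : p ∈ cell) :
    (1 / 2 : ℝ) • ((2 * |p.1|, 2 * |p.2.1|, 2 * |p.2.2|) : X) ∈ E ↔ p ∈ E :=
  fb_iff h1 h2 h3 (fb_half hp.1) (fb_half hp.2.1) (fb_half hp.2.2)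

theorem fb_ind {α : Type} [MeasureSpace α] {S T : Set α} (hS : MeasurableSet S) :
    ∫ a in T, S.indicator (1 : α → ℝ) a = volume.real (S ∩ T) := by
  rw [integral_indicator_one hS, measureReal_restrict_apply hS]

theorem fb_ind_le {α : Type} (S : Set α) (a : α) : |S.indicator (1 : α → ℝ) a| ≤ 1 := by
  by_cases h : a ∈ S <;> simp [h]

theorem fb_ind_congr {α β : Type} {S : Set α} {T : Set β} {a : α} {b : β} (h : a ∈ S ↔ b ∈ T) :
    S.indicator (1 : α → ℝ) a = T.indicator 1 b := by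
  by_cases h' : b ∈ T
  · rw [indicator_of_mem h', indicator_of_mem (h.2 h'), Pi.one_apply, Pi.one_apply]
  · rw [indicator_of_notMem h', indicator_of_notMem (mt h.1 h')]

theorem fb_dn {E : Set X} (hE : MeasurableSet E) (h1 : Mon1 E) (h2 : Mon2 E) (h3 : Mon3 E) : Dn (dn E) := by
  have k : ∀ {s t : ℝ}, s ∈ Ioo (0 : ℝ) 1 → t ∈ Ioo (0 : ℝ) 1 → s ≤ t → tri (1 / 2 * s) ≤ tri (1 / 2 * t) :=
    fun hs ht h => by rw [fb_tri hs.1.le hs.2.le, fb_tri ht.1.le ht.2.le]; linarith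
  exact ⟨(measurableSet_Ioo.prod (measurableSet_Ioo.prod measurableSet_Ioo)).inter (measurable_const_smul _ hE),
    fun _ h => h.1, fun p hp p' hp' h => ⟨hp', fb_mono h1 h2 h3 (k hp'.1 hp.1.1 h.1) (k hp'.2.1 hp.1.2.1 h.2.1)
      (k hp'.2.2 hp.1.2.2 h.2.2) hp.2⟩⟩

theorem fb_fl {E : Set X} (hE : MeasurableSet E) (h1 : Mon1 E) {r : Y} (hr : r ∈ sq) :
    fl E ((1 / 2 : ℝ) • r) = u1 (dn E) r := by
  have hS : MeasurableSet {t : ℝ | ((1 / 2 * t, (1 / 2 : ℝ) • r) : X) ∈ E} :=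
    (by fun_prop : Measurable fun t : ℝ => ((1 / 2 * t, (1 / 2 : ℝ) • r) : X)) hE
  have e := integral_fold1 (measurable_one.indicator hS) (fb_ind_le _)
  rw [fb_ind hS] at e
  rw [fl_eq hE, u1, setIntegral_congr_fun measurableSet_I0 (fun x hx => ?_), e]
  · exact congrArg volume.real (Set.ext fun x => ⟨fun h => ⟨⟨h.2, hr⟩, h.1⟩, fun h => ⟨h.2, h.1.1⟩⟩)
  · have : ((1 / 2 * (2 * |x|), (1 / 2 : ℝ) • r) : X) ∈ E ↔ (x, (1 / 2 : ℝ) • r) ∈ E :=
      ⟨h1 _ _ _ _ (fb_half hx).ge, h1 _ _ _ _ (fb_half hx).le⟩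
    exact fb_ind_congr this.symm

/-- folding of the torus onto the cube -/
def fbF (p : X) : X := (2 * tri p.1, 2 * tri p.2.1, 2 * tri p.2.2)

theorem fbF_cont : Continuous fbF := by
  have := continuous_tri
  unfold fbF
  fun_prop

theorem fbF_pd : Pd fbF := fun a b c p => by
  simp only [fbF, Prod.fst_add, Prod.snd_add, tri_add_int]

/-- odd periodic cut-off -/
def fbE (n : ℕ) (t : ℝ) : ℝ := max (-1) (min 1 (n * sin (2 * π * t)))

theorem fbE_cont (n : ℕ) : Continuous (fbE n) := by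
  unfold fbE
  fun_prop

theorem fbE_per (n : ℕ) (t : ℝ) (a : ℤ) : fbE n (t + a) = fbE n t := by
  rw [fbE, mul_add, mul_comm _ (a : ℝ), sin_add_int_mul_two_pi, fbE]

theorem fbE_neg (n : ℕ) (t : ℝ) : fbE n (-t) = -fbE n t := by
  simp only [fbE, mul_neg, sin_neg, max_def, min_def]
  split_ifs <;> linarith

theorem fbE_abs (n : ℕ) (t : ℝ) : |fbE n t| ≤ 1 :=
  abs_le.2 ⟨le_max_left _ _, max_le (by norm_num) (min_le_left _ _)⟩

theorem fbE_mul (n : ℕ) (t : ℝ) {a : ℝ} (h : |a| ≤ 1) : |fbE n t * a| ≤ 1 := by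
  rw [abs_mul]
  exact mul_le_one₀ (fbE_abs n t) (abs_nonneg _) h

theorem fbE_sq (n : ℕ) (t a : ℝ) : (fbE n t * a) ^ 2 ≤ a ^ 2 := by
  rw [mul_pow]
  exact mul_le_of_le_one_left (sq_nonneg a) ((sq_le_one_iff_abs_le_one _).2 (fbE_abs n t))

theorem fbE_lim {u : ℝ} (hu : u ∈ Icc (0 : ℝ) 1) : Tendsto (fun n => fbE n (u / 2)) atTop (𝓝 (ind u)) := by
  simp only [fbE, show 2 * π * (u / 2) = π * u by ring]
  by_cases h : 0 < u ∧ u < 1
  · have hs : 0 < sin (π * u) := sin_pos_of_pos_of_lt_pi (mul_pos pi_pos h.1) (mul_lt_of_lt_one_right pi_pos h.2)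
    refine tendsto_const_nhds.congr' ?_
    filter_upwards [(tendsto_natCast_atTop_atTop.atTop_mul_const hs).eventually_ge_atTop 1] with n hn
    rw [ind, if_pos h, min_eq_left hn, max_eq_right (by norm_num)]
  · have : u = 0 ∨ u = 1 := by
      by_contra h'
      push Not at h'
      exact h ⟨hu.1.lt_of_ne' h'.1, hu.2.lt_of_ne h'.2⟩
    rcases this with rfl | rfl <;> simp [ind]

theorem fb_jmp {E : Set X} (hE : MeasurableSet E) (h1 : Mon1 E) (h2 : Mon2 E) (h3 : Mon3 E) {φ : X → ℝ}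
    (hφ : Measurable φ) (hb : ∀ p, |φ p| ≤ 1) (n : ℕ) : jmp E (fun p => fbE n p.1 * φ (fbF p)) =
      2 * ∫ r in sq, fbE n (u1 (dn E) r / 2) * φ (u1 (dn E) r, r.1, r.2) := by
  have m1 := measurable_fl hE
  have m2 := (fbE_cont n).measurable
  have e := integral_fold2 (F := fun r => fbE n (fl E ((1 / 2 : ℝ) • r) / 2) * φ (fl E ((1 / 2 : ℝ) • r), r.1, r.2))
    (by fun_prop) fun r => fbE_mul _ _ (hb _)
  rw [setIntegral_congr_fun (s := sq) (measurableSet_Ioo.prod measurableSet_Ioo)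
    (g := fun r => fbE n (u1 (dn E) r / 2) * φ (u1 (dn E) r, r.1, r.2)) fun r hr => by
      simp only [fb_fl hE h1 hr]] at e
  rw [← e, ← integral_const_mul]
  refine setIntegral_congr_fun measurableSet_cell2 fun q hq => ?_
  have e1 : fl E ((1 / 2 : ℝ) • ((2 * |q.1|, 2 * |q.2|) : Y)) = fl E q := congrArg volume.real
    (Set.ext fun x => and_congr_right' (fb_iff h1 h2 h3 rfl (fb_half hq.1) (fb_half hq.2)))
  have e2 : 2 * tri (fl E q / 2) = fl E q := by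
    rw [div_eq_inv_mul, ← one_div, fb_tri (fl_mem E q).1 (fl_mem E q).2]
    ring
  simp only [e1, fbF, fbE_neg, tri_neg, e2, fb_abs hq.1, fb_abs hq.2]
  ring

theorem fb_tend {E : Set X} (hE : MeasurableSet E) (h1 : Mon1 E) (h2 : Mon2 E) (h3 : Mon3 E) {φ : X → ℝ}
    (hφ : Measurable φ) (hb : ∀ p, |φ p| ≤ 1) : Tendsto (fun n => jmp E fun p => fbE n p.1 * φ (fbF p)) atTop
      (𝓝 (2 * ∫ r in sq, ind (u1 (dn E) r) * φ (u1 (dn E) r, r.1, r.2))) := by
  simp only [fb_jmp hE h1 h2 h3 hφ hb]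
  have m1 := measurable_u1 (fb_dn hE h1 h2 h3).meas
  have : IsFiniteMeasure (volume.restrict sq) := ⟨by simp [sq, Measure.volume_eq_prod]⟩
  refine (tendsto_integral_of_dominated_convergence (fun _ => 1) (fun n => ?_) (integrable_const _)
    (fun n => Eventually.of_forall fun r => fbE_mul _ _ (hb _)) ?_).const_mul 2
  · have m2 := (fbE_cont n).measurable
    exact Measurable.aestronglyMeasurable (by fun_prop)
  · filter_upwards [ae_restrict_mem (measurableSet_Ioo.prod measurableSet_Ioo)] with r hr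
    exact (fbE_lim (fb_fl hE h1 hr ▸ fl_mem E _)).mul_const _

theorem Good.ds {E : Set X} {V P : ℝ} (h : Good E V P) (h1 : Mon1 E) (h2 : Mon2 E) (h3 : Mon3 E) :
    DS (dn E) V (P / 2) := by
  have hD := fb_dn h.meas h1 h2 h3
  refine ⟨hD, ?_, flux_of_continuous hD.meas fun φ₁ φ₂ φ₃ c1 c2 c3 le => ?_⟩
  · have hS : MeasurableSet {p : X | (1 / 2 : ℝ) • p ∈ E} := measurable_const_smul _ h.meas
    have e := integral_fold3 (measurable_one.indicator hS) (fb_ind_le _)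
    rw [fb_ind hS, inter_comm] at e
    rw [← h.vol, ← fb_ind h.meas]
    exact e.symm.trans (setIntegral_congr_fun measurableSet_cell fun p hp => fb_ind_congr (fb_fold h1 h2 h3 hp))
  · have b : ∀ p, |φ₁ p| ≤ 1 ∧ |φ₂ p| ≤ 1 ∧ |φ₃ p| ≤ 1 := fun p => by
      simp only [← sq_le_one_iff_abs_le_one]
      refine ⟨?_, ?_, ?_⟩ <;> nlinarith [le p, sq_nonneg (φ₁ p), sq_nonneg (φ₂ p), sq_nonneg (φ₃ p)]
    have t1 := fb_tend h.meas h1 h2 h3 c1.measurable fun p => (b p).1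
    have t2 := fb_tend h.sw12.meas h2.sw12 h1.sw12 (fun x y => h3 y x)
      (c2.measurable.comp measurableEmbedding_sw12.measurable) fun p => (b _).2.1
    have t3 := fb_tend h.sw13.meas h3.sw13 h2.sw13 h1.sw13
      (c3.measurable.comp measurableEmbedding_sw13.measurable) fun p => (b _).2.2
    have key := le_of_tendsto' ((t1.add t2).add t3) fun n => h.jmp_le h1 h2 h3
      (W₁ := fun p => fbE n p.1 * φ₁ (fbF p)) (W₂ := fun p => fbE n p.2.1 * φ₂ (fbF p))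
      (W₃ := fun p => fbE n p.2.2 * φ₃ (fbF p))
      (((fbE_cont n).comp continuous_fst).mul (c1.comp fbF_cont))
      (((fbE_cont n).comp continuous_snd.fst).mul (c2.comp fbF_cont))
      (((fbE_cont n).comp continuous_snd.snd).mul (c3.comp fbF_cont))
      (fun a b c p => congrArg₂ (· * ·) (fbE_per n _ a) (congrArg φ₁ (fbF_pd a b c p)))
      (fun a b c p => congrArg₂ (· * ·) (fbE_per n _ b) (congrArg φ₂ (fbF_pd a b c p)))
      (fun a b c p => congrArg₂ (· * ·) (fbE_per n _ c) (congrArg φ₃ (fbF_pd a b c p)))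
      fun p => le_trans (add_le_add (add_le_add (fbE_sq _ _ _) (fbE_sq _ _ _)) (fbE_sq _ _ _)) (le (fbF p))
    have e2 : u1 (dn (R214.sw12 ⁻¹' E)) = u2 (dn E) := funext fun q => congrArg volume.real
      (Set.ext fun x => and_congr_left' ⟨fun h => ⟨h.2.1, h.1, h.2.2⟩, fun h => ⟨h.2.1, h.1, h.2.2⟩⟩)
    have e3 : u1 (dn (R214.sw13 ⁻¹' E)) = fun q => u3 (dn E) q.swap := funext fun q => congrArg volume.real
      (Set.ext fun x => and_congr_left' ⟨fun h => ⟨h.2.2, h.2.1, h.1⟩, fun h => ⟨h.2.2, h.2.1, h.1⟩⟩)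
    have e4 := setIntegral_prod_swap (μ := volume) (ν := volume) (Ioo (0 : ℝ) 1) (Ioo (0 : ℝ) 1)
      fun q : Y => ind (u3 (dn E) q) * φ₃ (q.1, q.2, u3 (dn E) q)
    rw [e2, e3] at key
    have e5 : Flux (dn E) φ₁ φ₂ φ₃ = _ := congrArg (_ + ·) e4.symm
    rw [e5, le_div_iff₀' two_pos, mul_add, mul_add]
    exact key

/-- `integral_fold3` for the indicator of the symmetric difference, `ae_of_cell` -/
theorem ae_mdl_of_dn {E : Set X} (hE : MeasurableSet E) (hp : PdS E) (h1 : Mon1 E) (h2 : Mon2 E)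
    (h3 : Mon3 E) {e : X} {r : ℝ} (h : dn E =ᵐ[volume] cmdl e (2 * r)) :
    E =ᵐ[volume] mdl e r 0 := by
  have hS : MeasurableSet {p : X | ¬((1 / 2 : ℝ) • p ∈ E ↔
      e.1 * p.1 ^ 2 + e.2.1 * p.2.1 ^ 2 + e.2.2 * p.2.2 ^ 2 < (2 * r) ^ 2)} :=
    (MeasurableSet.iff (measurable_const_smul _ hE) (measurableSet_lt (by fun_prop) measurable_const)).compl
  have m := (measurable_one (α := ℝ)).indicator hS
  have e1 := integral_fold3 m (fb_ind_le _)
  have hc : MeasurableSet cube := measurableSet_Ioo.prod (measurableSet_Ioo.prod measurableSet_Ioo)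
  rw [setIntegral_eq_zero_of_ae_eq_zero (t := cube) (h.mem_iff.mono fun p hp hc =>
      indicator_of_notMem (not_not.2 ((and_congr_right_iff.1 hp) hc)) _)] at e1
  replace e1 := (setIntegral_eq_zero_iff_of_nonneg_ae
    (Eventually.of_forall fun p => indicator_nonneg (fun _ _ => zero_le_one) _)
    (integrableOn_cell_of_bdd (m.comp (by fun_prop)) fun p => fb_ind_le _ _)).1 e1
  refine eventuallyEq_set.2 (ae_of_cell (fun a b c p => by rw [hp, mdl_per]) ?_)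
  filter_upwards [e1, ae_restrict_mem measurableSet_cell] with p h4 h5
  have h6 := not_not.1 ((indicator_apply_eq_zero.1 h4).mt one_ne_zero)
  rw [fb_fold h1 h2 h3 h5] at h6
  simp only [h6, mdl, mem_ofPred_eq, Prod.fst_zero, Prod.snd_zero, sub_zero, fb_abs h5.1, fb_abs h5.2.1,
    fb_abs h5.2.2]
  constructor <;> intro <;> linarith

end Crest.Agent.R214
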