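import Crest.Agent.R214.JApi

/-!
# R214/KCal

Calibration of the two-phase model. `α s = √(1 - κ (m s)²)`; `α s * Λ s ≥ c₁ + lam * m s` a.e. on `(0,q)`, `≥ c₂ + lam * m s` a.e. on `(q,1)`
(`0 ≤ α`); split `∫_{(0,1)} = ∫_{(0,q)} + ∫_{(q,1)}` (`Ioo_ae_eq_Ioc`, interval integrals, or compare with the step function `if s < q then c₁ else c₂`), `Sl.vol`.
-/

set_option autoImplicit false

open MeasureTheory Set Filter Real
open scoped Topology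

noncomputable section

namespace Crest.Agent.R214

/-- the two-phase model: holes up to time `q` -/
structure Mod (KS : Finset ℝ) (q h A v a b c : ℝ) (m Λ : ℝ → ℝ) : Prop where
  sl : Sl A v a b m Λ
  v0 : 0 < v
  v1 : v ≤ 1 / 2
  q0 : 0 ≤ q
  q1 : q < 1
  bc : b ≤ c
  ca : c ≤ a
  m1 : ∀ s ∈ Ioo 0 q, c ≤ m s
  m2 : ∀ s ∈ Ioo q 1, m s ≤ c
  L1 : ∀ᵐ s ∂(volume.restrict (Ioo (0 : ℝ) q)), Hole h (m s) (Λ s)
  L2 : ∀ᵐ s ∂(volume.restrict (Ioo q 1)), √(π * m s) ≤ Λ s ∨ Hole h (m s) (Λ s) ∨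
      ∀ k ∈ KS, Ek k + k * (m s - h) ≤ Λ s

def C1 (H lam c₁ μ t : ℝ) : Prop := c₁ + lam * μ ≤ √(1 - t ^ 2) * lc (1 - μ) H
def C2 (KS : Finset ℝ) (H h₁ lam c₂ μ t : ℝ) : Prop :=
  c₂ + lam * μ ≤ √(1 - t ^ 2) * √(π * μ) ∧ c₂ + lam * μ ≤ √(1 - t ^ 2) * lc (1 - μ) H ∧
    ∃ k ∈ KS, 0 ≤ Ek k + k * (μ - h₁) ∧ c₂ + lam * μ ≤ √(1 - t ^ 2) * (Ek k + k * (μ - h₁))

theorem kcal_int {f : ℝ → ℝ} {a b : ℝ} (hf : Measurable f) (C : ℝ) (h : ∀ s ∈ Ioo a b, |f s| ≤ C) :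
    IntegrableOn f (Ioo a b) :=
  Measure.integrableOn_of_bounded (M := C) measure_Ioo_lt_top.ne hf.aestronglyMeasurable
    ((ae_restrict_mem measurableSet_Ioo).mono h)

theorem Sl.kcal_m {A v a b : ℝ} {m Λ : ℝ → ℝ} (h : Sl A v a b m Λ) : IntegrableOn m (Ioo (0 : ℝ) 1) :=
  kcal_int h.mm 1 fun s hs =>
    abs_le.2 ⟨by linarith [(h.mem s hs).1, h.b0], (h.mem s hs).2.trans h.a1⟩

theorem kcal_split {f : ℝ → ℝ} {q : ℝ} (h0 : 0 ≤ q) (h1 : q ≤ 1) (hf : IntegrableOn f (Ioo (0 : ℝ) 1)) :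
    ∫ s in Ioo (0 : ℝ) 1, f s = (∫ s in Ioo 0 q, f s) + ∫ s in Ioo q 1, f s := by
  rw [← integral_Ioc_eq_integral_Ioo, ← integral_Ioc_eq_integral_Ioo, ← integral_Ioc_eq_integral_Ioo,
    ← intervalIntegral.integral_of_le h0, ← intervalIntegral.integral_of_le h1,
    ← intervalIntegral.integral_of_le zero_le_one, intervalIntegral.integral_add_adjacent_intervals]
  · exact (intervalIntegrable_iff_integrableOn_Ioo_of_le h0).2 (hf.mono_set (Ioo_subset_Ioo_right h1))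
  · exact (intervalIntegrable_iff_integrableOn_Ioo_of_le h1).2 (hf.mono_set (Ioo_subset_Ioo_left h0))

theorem Mod.calib {KS : Finset ℝ} {q h A v a b c : ℝ} {m Λ : ℝ → ℝ} (hM : Mod KS q h A v a b c m Λ)
    (hK : ∀ k ∈ KS, 0 ≤ k) {H h₁ lam c₁ c₂ : ℝ} (hH : 0 < H) (hH' : 1 - h ≤ H) (hh : h ≤ h₁)
    {κ : ℝ → ℝ} (hκ : Measurable κ) (hb : ∀ μ, κ μ ∈ Icc (0 : ℝ) 1)
    (h1 : ∀ μ ∈ Icc c a, C1 H lam c₁ μ (κ μ)) (h2 : ∀ μ ∈ Icc b c, C2 KS H h₁ lam c₂ μ (κ μ)) :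
    (∫ μ in Ioo b a, κ μ) + q * c₁ + (1 - q) * c₂ + lam * v ≤ A := by
  have hs := hM.sl
  have hα : Measurable fun s => √(1 - κ (m s) ^ 2) :=
    (measurable_const.sub ((hκ.comp hs.mm).pow_const 2)).sqrt
  have hsq : ∀ μ, 0 ≤ 1 - κ μ ^ 2 := fun μ => by nlinarith [(hb μ).1, (hb μ).2]
  have key := hs.model κ _ hκ hα (fun μ => abs_le.2 ⟨by linarith [(hb μ).1], (hb μ).2⟩)
    fun s _ => by rw [Real.sq_sqrt (hsq _)]; linarith
  have iαΛ : IntegrableOn (fun s => √(1 - κ (m s) ^ 2) * Λ s) (Ioo (0 : ℝ) 1) := by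
    refine kcal_int (hα.mul hs.Lm) 2 fun s _ => ?_
    rw [abs_mul, abs_of_nonneg (Real.sqrt_nonneg _)]
    have : √(1 - κ (m s) ^ 2) ≤ 1 := Real.sqrt_le_one.2 (by nlinarith [sq_nonneg (κ (m s))])
    nlinarith [hs.Lb s, abs_nonneg (Λ s), Real.sqrt_nonneg (1 - κ (m s) ^ 2)]
  have s1 : Ioo 0 q ⊆ Ioo (0 : ℝ) 1 := Ioo_subset_Ioo_right hM.q1.le
  have s2 : Ioo q 1 ⊆ Ioo (0 : ℝ) 1 := Ioo_subset_Ioo_left hM.q0
  have piece : ∀ {x y d : ℝ}, x ≤ y → Ioo x y ⊆ Ioo (0 : ℝ) 1 →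
      (∀ᵐ s ∂(volume.restrict (Ioo x y)), d + lam * m s ≤ √(1 - κ (m s) ^ 2) * Λ s) →
      (y - x) * d + lam * ∫ s in Ioo x y, m s ≤ ∫ s in Ioo x y, √(1 - κ (m s) ^ 2) * Λ s := by
    intro x y d hxy hsub hae
    have im := (hs.kcal_m.mono_set hsub).const_mul lam
    have ic : IntegrableOn (fun _ => d) (Ioo x y) := integrableOn_const measure_Ioo_lt_top.ne
    have := integral_mono_ae (ic.add im) (iαΛ.mono_set hsub) hae
    rwa [integral_add' ic im, integral_const_mul, setIntegral_const, Real.volume_real_Ioo_of_le hxy,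
      smul_eq_mul] at this
  have e1 := piece (d := c₁) hM.q0 s1 (by
    filter_upwards [hM.L1, ae_restrict_mem measurableSet_Ioo] with s h3 h4
    exact (h1 _ ⟨hM.m1 s h4, (hs.mem s (s1 h4)).2⟩).trans
      (mul_le_mul_of_nonneg_left (h3 H hH hH') (Real.sqrt_nonneg _)))
  have e2 := piece (d := c₂) hM.q1.le s2 (by
    filter_upwards [hM.L2, ae_restrict_mem measurableSet_Ioo] with s h3 h4
    obtain ⟨a1, a2, k, hk, -, a3⟩ := h2 _ ⟨(hs.mem s (s2 h4)).1, hM.m2 s h4⟩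
    rcases h3 with h3 | h3 | h3
    · exact a1.trans (mul_le_mul_of_nonneg_left h3 (Real.sqrt_nonneg _))
    · exact a2.trans (mul_le_mul_of_nonneg_left (h3 H hH hH') (Real.sqrt_nonneg _))
    · refine a3.trans (mul_le_mul_of_nonneg_left (le_trans ?_ (h3 k hk)) (Real.sqrt_nonneg _))
      nlinarith [mul_le_mul_of_nonneg_left hh (hK k hk)])
  have e3 := kcal_split hM.q0 hM.q1.le iαΛ
  have e4 := kcal_split hM.q0 hM.q1.le hs.kcal_m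
  rw [hs.vol] at e4
  rw [e4]
  linarith

/-- `Hole` with `H = 1` (`sqrt_le_lc`), `Ek_zero`; `(0,1) ⊆ (0,q) ∪ {q} ∪ (q,1)` -/
theorem Mod.min_le {KS : Finset ℝ} {q h A v a b c : ℝ} {m Λ : ℝ → ℝ} (hM : Mod KS q h A v a b c m Λ)
    (h0 : 0 ≤ h) (hK : (0 : ℝ) ∈ KS) :
    ∀ᵐ s ∂(volume.restrict (Ioo (0 : ℝ) 1)), min 1 (min √(π * m s) √(π * (1 - m s))) ≤ Λ s := by
  have hole : ∀ s ∈ Ioo (0 : ℝ) 1, Hole h (m s) (Λ s) →
      min 1 (min √(π * m s) √(π * (1 - m s))) ≤ Λ s := fun s hs h3 =>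
    (min_le_right _ _).trans ((min_le_right _ _).trans ((sqrt_le_lc
      (by linarith [(hM.sl.mem s hs).2, hM.sl.a1]) one_pos).trans (h3 1 one_pos (by linarith))))
  have L1 := (ae_restrict_iff' measurableSet_Ioo).1 hM.L1
  have L2 := (ae_restrict_iff' measurableSet_Ioo).1 hM.L2
  rw [ae_restrict_iff' measurableSet_Ioo]
  filter_upwards [L1, L2, (countable_singleton q).ae_notMem volume] with s h1 h2 h3 hs
  rcases lt_or_gt_of_ne (show s ≠ q from h3) with h4 | h4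
  · exact hole s hs (h1 ⟨hs.1, h4⟩)
  · rcases h2 ⟨h4, hs.2⟩ with h5 | h5 | h5
    · exact (min_le_right _ _).trans ((min_le_left _ _).trans h5)
    · exact hole s hs h5
    · have := h5 0 hK
      rw [Ek_zero, zero_mul, add_zero] at this
      exact (min_le_left _ _).trans this

/-- `b ≤ v` (integrate `b ≤ m s`) -/
theorem Sl.b_le {A v a b : ℝ} {m Λ : ℝ → ℝ} (h : Sl A v a b m Λ) : b ≤ v := by
  have ic : IntegrableOn (fun _ => b) (Ioo (0 : ℝ) 1) := integrableOn_const measure_Ioo_lt_top.ne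
  have := setIntegral_mono_on ic h.kcal_m measurableSet_Ioo fun s hs => (h.mem s hs).1
  rw [h.vol, setIntegral_const, Real.volume_real_Ioo_of_le zero_le_one] at this
  simpa using this

/-- `c = m p` -/
theorem mod_of_M1 {KS : Finset ℝ} {p h A v a b : ℝ} {m Λ : ℝ → ℝ} (hp0 : 0 < p) (hp1 : p < 1)
    (hs : Sl A v a b m Λ) (h0 : 0 < v) (h1 : v ≤ 1 / 2)
    (L1 : ∀ᵐ s ∂(volume.restrict (Ioo (0 : ℝ) p)), Hole h (m s) (Λ s))
    (L2 : ∀ᵐ s ∂(volume.restrict (Ioo p 1)), √(π * m s) ≤ Λ s ∨ Hole h (m s) (Λ s) ∨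
      ∀ k ∈ KS, Ek k + k * (m s - h) ≤ Λ s) : Mod KS p h A v a b (m p) m Λ := by
  have hp : p ∈ Ioo (0 : ℝ) 1 := ⟨hp0, hp1⟩
  exact ⟨hs, h0, h1, hp0.le, hp1, (hs.mem p hp).1, (hs.mem p hp).2,
    fun s h2 => hs.anti ⟨h2.1, h2.2.trans hp1⟩ hp h2.2.le,
    fun s h2 => hs.anti hp ⟨hp0.trans h2.1, h2.2⟩ h2.1.le, L1, L2⟩

/-- `q = 0`, `c = a`. If `√(π (1 - μ)) ≤ L` then either `μ ≤ 1/2` and `√(π μ) ≤ L`, or `1 - μ ≤ 1/2 ≤ π H²/4` for all `H ≥ 1 - p ≥ 7/8`, so `Hole p μ L`. -/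
theorem mod_of_M2 {KS : Finset ℝ} {p A v a b : ℝ} {m Λ : ℝ → ℝ} (hp1 : p ≤ 1 / 8)
    (hs : Sl A v a b m Λ) (h0 : 0 < v) (h1 : v ≤ 1 / 2)
    (L : ∀ᵐ s ∂(volume.restrict (Ioo (0 : ℝ) 1)), √(π * m s) ≤ Λ s ∨ √(π * (1 - m s)) ≤ Λ s ∨
      ∀ k ∈ KS, Ek k + k * (m s - p) ≤ Λ s) : Mod KS 0 p A v a b a m Λ := by
  have hp : (1 / 2 : ℝ) ∈ Ioo (0 : ℝ) 1 := ⟨by norm_num, by norm_num⟩
  refine ⟨hs, h0, h1, le_rfl, one_pos, (hs.mem _ hp).1.trans (hs.mem _ hp).2, le_rfl,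
    fun s h2 => absurd (h2.1.trans h2.2) (lt_irrefl _), fun s h2 => (hs.mem s h2).2, by simp, ?_⟩
  filter_upwards [L] with s h2
  rcases h2 with h2 | h2 | h2
  · exact Or.inl h2
  · by_cases h3 : m s ≤ 1 / 2
    · refine Or.inl (le_trans (Real.sqrt_le_sqrt ?_) h2)
      exact mul_le_mul_of_nonneg_left (by linarith) Real.pi_pos.le
    · refine Or.inr (Or.inl fun H _ h4 => ?_)
      have h5 : (7 / 8 : ℝ) ^ 2 ≤ H ^ 2 := pow_le_pow_left₀ (by norm_num) (by linarith) 2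
      rw [lc, if_pos (by nlinarith [Real.pi_gt_three])]
      exact h2
  · exact Or.inr (Or.inr h2)

end Crest.Agent.R214
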