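import Crest.Agent.R214.JApi

/-!
# R214/KJ

Supporting lines of the profile; concavity.
-/

set_option autoImplicit false

open MeasureTheory Set Filter Real
open scoped Topology

noncomputable section

namespace Crest.Agent.R214

theorem J_le_neg {v lam : ℝ} (h1 : v ≤ 1 / 2) (hl : lam ≤ 0) : J v ≤ 1 - lam / 2 + lam * v := by
  have h : J v ≤ 1 := min_le_right _ _
  nlinarith [mul_nonneg (neg_nonneg.2 hl) (sub_nonneg.2 h1)]
/-- `√(π v) ≤ (1 + π v)/2` -/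
theorem J_le_slab {v lam : ℝ} (h0 : 0 < v) (hl : 0 ≤ lam) (hl' : 2 * lam ≤ π) :
    J v ≤ 1 - lam / π + lam * v := by
  have hp := Real.pi_pos
  rcases le_total (1 / π) v with h | h
  · have h1 : J v ≤ 1 := min_le_right _ _
    have e : lam / π = lam * (1 / π) := by ring
    nlinarith [mul_nonneg hl (sub_nonneg.2 h)]
  · have h1 : J v ≤ √(π * v) := (min_le_left _ _).trans (min_le_right _ _)
    have h2 := sqrt_le_amgm h0.le (w := 2 / π) (by positivity)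
    have e1 : v / (2 / π) + π * (2 / π) / 4 = 1 - π / 2 * (1 / π - v) := by field_simp; ring
    have e : lam / π = lam * (1 / π) := by ring
    rw [e1] at h2
    nlinarith [mul_nonneg (show 0 ≤ π / 2 - lam by linarith) (sub_nonneg.2 h)]
theorem J_le_tube {v lam : ℝ} (h0 : 0 < v) (hl : 0 < lam) : J v ≤ π / (4 * lam) + lam * v := by
  have h1 : J v ≤ √(π * v) := (min_le_left _ _).trans (min_le_right _ _)
  have h2 := sqrt_le_amgm h0.le (w := 1 / lam) (by positivity)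
  have e1 : v / (1 / lam) + π * (1 / lam) / 4 = π / (4 * lam) + lam * v := by field_simp; ring
  linarith
/-- `sph_le_tangent` with `T = 2/lam` -/
theorem J_le_ball {v lam : ℝ} (h0 : 0 < v) (hl : 0 < lam) :
    J v ≤ 2 * π / (3 * lam ^ 2) + lam * v := by
  have hp := Real.pi_pos
  have h1 : J v ≤ sph v := (min_le_left _ _).trans (min_le_left _ _)
  have h2 := (sph_le_tangent h0 (T := 2 / lam) (by positivity)).1
  have e1 : π / 2 * (4 * v / π / (2 / lam) + (2 / lam) ^ 2 / 3) = 2 * π / (3 * lam ^ 2) + lam * v := by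
    field_simp; ring
  linarith
/-- for `v ≥ 4π/81` use `J_le_tube` with `9/4`, otherwise `J_le_ball` with `3` -/
theorem J_le_mid {v lam : ℝ} (h0 : 0 < v) (hl : 9 / 4 ≤ lam) (hl' : lam ≤ 3) :
    J v ≤ 2 * π * (9 - 2 * lam) / 81 + lam * v := by
  rcases le_total (4 * π / 81) v with h | h
  · have h1 := J_le_tube h0 (lam := 9 / 4) (by norm_num)
    nlinarith [mul_nonneg (sub_nonneg.2 hl) (sub_nonneg.2 h)]
  · have h1 := J_le_ball h0 (lam := 3) (by norm_num)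
    nlinarith [mul_nonneg (sub_nonneg.2 hl') (sub_nonneg.2 h)]

/-- for `z > 0`, `lc z H = z/w + π w/4` for some `w ∈ (0, H]`; `lc_le` -/
theorem lc_chord {x y t H : ℝ} (hx : 0 ≤ x) (hy : 0 ≤ y) (hH : 0 < H) (ht : t ∈ Icc (0 : ℝ) 1) :
    (1 - t) * lc x H + t * lc y H ≤ lc ((1 - t) * x + t * y) H := by
  have hp := Real.pi_pos
  have h1 : 0 ≤ 1 - t := sub_nonneg.2 ht.2
  have a1 : 0 ≤ (1 - t) * x := mul_nonneg h1 hx
  have a2 : 0 ≤ t * y := mul_nonneg ht.1 hy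
  rcases (add_nonneg a1 a2).eq_or_lt with hz | hz
  · have b1 : (1 - t) * x = 0 := by linarith
    have b2 : t * y = 0 := by linarith
    have c1 : (1 - t) * lc x H = 0 := by
      rcases mul_eq_zero.1 b1 with h | h
      · rw [h, zero_mul]
      · rw [h, lc_zero, mul_zero]
    have c2 : t * lc y H = 0 := by
      rcases mul_eq_zero.1 b2 with h | h
      · rw [h, zero_mul]
      · rw [h, lc_zero, mul_zero]
    rw [c1, c2, ← hz, lc_zero]; simp
  · set z := (1 - t) * x + t * y with hzdef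
    obtain ⟨w, hw, hwH, hwe⟩ : ∃ w, 0 < w ∧ w ≤ H ∧ lc z H = z / w + π * w / 4 := by
      by_cases hc : z ≤ π * H ^ 2 / 4
      · have hs : 0 < √(π * z) := Real.sqrt_pos.2 (by positivity)
        have hs2 : √(π * z) ^ 2 = π * z := Real.sq_sqrt (by positivity)
        refine ⟨2 * √(π * z) / π, by positivity, ?_, ?_⟩
        · rw [div_le_iff₀ hp]
          have : √(π * z) ≤ H * π / 2 := by
            rw [Real.sqrt_le_left (by positivity)]
            nlinarith [mul_le_mul_of_nonneg_left hc hp.le]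
          linarith
        · rw [lc, if_pos hc]
          generalize √(π * z) = s at hs hs2
          have : z = s ^ 2 / π := by rw [hs2]; field_simp
          rw [this]; field_simp; ring
      · exact ⟨H, hH, le_rfl, by rw [lc, if_neg hc]⟩
    rw [hwe]
    have d1 := mul_le_mul_of_nonneg_left (lc_le hx hw hwH) h1
    have d2 := mul_le_mul_of_nonneg_left (lc_le hy hw hwH) ht.1
    have e : z / w + π * w / 4 = (1 - t) * (x / w + π * w / 4) + t * (y / w + π * w / 4) := by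
      rw [hzdef]; ring
    linarith
theorem sqrt_chord {x y t : ℝ} (hx : 0 ≤ x) (hy : 0 ≤ y) (ht : t ∈ Icc (0 : ℝ) 1) :
    (1 - t) * √(π * x) + t * √(π * y) ≤ √(π * ((1 - t) * x + t * y)) := by
  have hp := Real.pi_pos
  have h1 : √(π * x) ^ 2 = π * x := Real.sq_sqrt (by positivity)
  have h2 : √(π * y) ^ 2 = π * y := Real.sq_sqrt (by positivity)
  refine Real.le_sqrt_of_sq_le ?_
  have e : π * ((1 - t) * x + t * y) = (1 - t) * √(π * x) ^ 2 + t * √(π * y) ^ 2 := by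
    rw [h1, h2]; ring
  rw [e]
  nlinarith [mul_nonneg (mul_nonneg ht.1 (sub_nonneg.2 ht.2)) (sq_nonneg (√(π * x) - √(π * y)))]
theorem lc_nonneg {x H : ℝ} (hx : 0 ≤ x) (hH : 0 < H) : 0 ≤ lc x H := (Real.sqrt_nonneg _).trans (sqrt_le_lc hx hH)
theorem disc_chord {s₀ s₁ k₀ k₁ t : ℝ} (h0 : s₀ ^ 2 + k₀ ^ 2 ≤ 1) (h1 : s₁ ^ 2 + k₁ ^ 2 ≤ 1)
    (ht : t ∈ Icc (0 : ℝ) 1) : (1 - t) * s₀ + t * s₁ ≤ √(1 - ((1 - t) * k₀ + t * k₁) ^ 2) := by
  refine Real.le_sqrt_of_sq_le ?_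
  have h2 : 0 ≤ 1 - t := sub_nonneg.2 ht.2
  nlinarith [mul_nonneg (mul_nonneg ht.1 h2) (sq_nonneg (s₀ - s₁)),
    mul_nonneg (mul_nonneg ht.1 h2) (sq_nonneg (k₀ - k₁)), mul_nonneg h2 (sub_nonneg.2 h0),
    mul_nonneg ht.1 (sub_nonneg.2 h1)]
/-- Bernstein form: the difference is `e₀ (1-t)² + 2 m t (1-t) + e₁ t²` -/
theorem bern_chord {s₀ s₁ L₀ L₁ p₀ p₁ t : ℝ} (h0 : p₀ ≤ s₀ * L₀) (h1 : p₁ ≤ s₁ * L₁)
    (h2 : p₀ + p₁ ≤ s₀ * L₁ + s₁ * L₀ + 2 * min (s₀ * L₀ - p₀) (s₁ * L₁ - p₁)) (ht : t ∈ Icc (0 : ℝ) 1) :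
    (1 - t) * p₀ + t * p₁ ≤ ((1 - t) * s₀ + t * s₁) * ((1 - t) * L₀ + t * L₁) := by
  set m := min (s₀ * L₀ - p₀) (s₁ * L₁ - p₁) with hm
  have m0 : 0 ≤ m := le_min (sub_nonneg.2 h0) (sub_nonneg.2 h1)
  have m1 : m ≤ s₀ * L₀ - p₀ := min_le_left _ _
  have m2 : m ≤ s₁ * L₁ - p₁ := min_le_right _ _
  have h3 : 0 ≤ 1 - t := sub_nonneg.2 ht.2
  nlinarith [mul_nonneg (sq_nonneg (1 - t)) (sub_nonneg.2 m1), mul_nonneg (sq_nonneg t) (sub_nonneg.2 m2),
    mul_nonneg (mul_nonneg ht.1 h3) (sub_nonneg.2 h2), mul_nonneg m0 (sq_nonneg (1 - 2 * t))]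

end Crest.Agent.R214
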