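import Crest.Agent.R214.KSb
import Crest.Agent.R214.KData

/-!
# R214/KMain

The certificate.
-/

set_option autoImplicit false

open MeasureTheory Set Filter Real
open scoped Topology

noncomputable section

namespace Crest.Agent.R214.K

theorem kk_spec {i x : ℕ} (hi : i < 33) (hx : x ≤ M) : r (kk i x) ^ 2 + (i / 32 * r x) ^ 2 ≤ 1 := by
  simp only [kk, force_eq]
  have h1 : (i * x + 31) / 32 ≤ M := by
    have : i * x ≤ 32 * M := Nat.mul_le_mul (by omega) hx
    omega
  have h2 : i * x ≤ 32 * ((i * x + 31) / 32) := by omega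
  have h3 := disc_sq h1
  generalize (i * x + 31) / 32 = s at *
  have h4 : (i : ℝ) * x ≤ 32 * s := by exact_mod_cast h2
  have h5 : i / 32 * r x ≤ r s := by unfold r; linarith
  have h6 : 0 ≤ i / 32 * r x := mul_nonneg (by positivity) (r_nonneg x)
  nlinarith

theorem eLoop_spec {i : ℕ} (hi : i < 33) (j : ℕ) : ∀ x I, x ≤ M →
    r2 I / 2 ≤ ∫ u in (0 : ℝ)..r x, √(1 - ((i : ℝ) / 32) ^ 2 * u ^ 2) → eLoop i j x I = true →
    r (tE i) ≤ Ek (i / 32) := by
  have hc : Continuous fun u : ℝ => √(1 - ((i : ℝ) / 32) ^ 2 * u ^ 2) := by fun_prop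
  induction j with
  | zero =>
    intro x I _ h1 h2
    have h3 : (Nat.beq x M && Nat.ble (tE i * (2 * M)) I) = true := h2
    simp only [Bool.and_eq_true, Nat.beq_eq, Nat.ble_eq] at h3
    have h4 := r2_le.2 h3.2
    rw [mul_left_comm, r2_two, r2_mul, r_M] at h4
    rw [h3.1, r_M] at h1
    unfold Ek; linarith
  | succ j ih =>
    intro x I hx h1 h2
    change force (node 0 M 256 j) (fun y => Nat.ble x y && Nat.ble y M &&
      force (I + (y - x) * (kk i x + kk i y)) fun acc' => eLoop i j y acc') = true at h2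
    simp only [force_eq, Bool.and_eq_true, Nat.ble_eq] at h2
    generalize node 0 M 256 j = y at h2
    refine ih y _ h2.1.2 ?_ h2.2
    rcases h2.1.1.eq_or_lt with rfl | hxy
    · simpa using h1
    have hxy' := r_lt.2 hxy
    rw [← intervalIntegral.integral_add_adjacent_intervals (hc.intervalIntegrable 0 (r x))
      (hc.intervalIntegrable (r x) (r y)), r2_add, add_div, r2_mul, r_sub hxy.le, r_add, ← integral_ch hxy']
    refine add_le_add h1 (intervalIntegral.integral_mono_on hxy'.le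
      (Continuous.intervalIntegrable (by unfold ch; fun_prop) _ _) (hc.intervalIntegrable _ _) fun u hu => ?_)
    have h3 := disc_chord (kk_spec hi hx) (kk_spec hi h2.1.2) (tau_mem hxy' hu)
    have h4 := ch_self hxy' u
    unfold ch at *
    generalize (u - r x) / (r y - r x) = t at *
    refine h3.trans (le_of_eq ?_)
    congr 1; rw [← h4]; ring

theorem eAll_spec (n : ℕ) : eAll n = true → ∀ i < n, eLoop i 256 0 0 = true := by
  induction n with
  | zero => intro _ i hi; omega
  | succ n ih =>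
    intro h i hi
    have h2 : (eLoop n 256 0 0 && eAll n) = true := h
    rw [Bool.and_eq_true] at h2
    rcases Nat.lt_succ_iff_lt_or_eq.1 hi with h3 | rfl
    · exact ih h2.2 i h3
    · exact h2.1

theorem he : HE := fun i hi =>
  eLoop_spec hi 256 0 0 (Nat.zero_le _) (by simp [r2_zero, r_zero]) (eAll_spec 33 eAll_ok i hi)

theorem tE_24 : tE 24 = 15033928 := by decide +kernel

theorem cert : CertStmt := by
  have hp : r 1572864 = 3 / 32 := by norm_num [r]
  refine ⟨3 / 32, 25 / 64, KS, by norm_num, by norm_num, by norm_num, fun k hk => KS_mem hk,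
    fun μ hμ => ?_, fun A v a b m Λ hs h0 h1 ha L => ?_, fun h hh A v a b m Λ hs h0 h1 L1 L2 => ?_⟩
  · have hpi := Real.pi_lt_d4
    rcases le_total μ (3 / 10) with h | h
    · refine ⟨0, by simpa using mem_KS (i := 0) (by norm_num), ?_⟩
      have := sqrt_le_amgm hμ.1 (w := 2 / 3) (by norm_num)
      rw [Ek_zero]; linarith
    · refine ⟨_, mem_KS (i := 24) (by norm_num), ?_⟩
      have h1 := he 24 (by norm_num)
      rw [tE_24] at h1
      have := sqrt_le_amgm hμ.1 (w := 7 / 10) (by norm_num)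
      have h2 := hμ.2
      norm_num [r] at h1 ⊢
      linarith
  · have hM := mod_of_M2 (by norm_num) hs h0 h1 L
    rw [← r_zero] at hM
    have a0 : 0 ≤ a := hs.b0.trans hM.bc
    obtain ⟨B, h2, h3⟩ := clip_spec t2_ok (h := 3 / 32) (a := a) (c := a) (b := b)
      ⟨hp.le, hp.ge, le_trans (by norm_num [r]) ha, r_M ▸ hs.a1, r_zero ▸ a0, r_M ▸ hs.a1,
        r_zero ▸ hs.b0, hs.b_le.trans (h1.trans (by norm_num [r]))⟩ hM.bc le_rfl
    exact chk_spec he hM t2 B h2 h3
  · have hM := mod_of_M1 (by norm_num) (by norm_num) hs h0 h1 L1 L2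
    have c0 : 0 ≤ m (3 / 32) := hs.b0.trans hM.bc
    obtain ⟨B, h2, h3⟩ := clip_spec t1_ok (h := h) (a := a) (c := m (3 / 32)) (b := b)
      ⟨r_zero ▸ hh.1, r_M ▸ hh.2, r_zero ▸ c0.trans hM.ca, r_M ▸ hs.a1, r_zero ▸ c0,
        r_M ▸ hM.ca.trans hs.a1, r_zero ▸ hs.b0, hs.b_le.trans (h1.trans (by norm_num [r]))⟩ hM.bc hM.ca
    generalize m (3 / 32) = c at hM h3
    rw [← hp] at hM
    exact chk_spec he hM t1 B h2 h3

end Crest.Agent.R214.K
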