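import Crest.Agent.R214.JApi

/-!
# R214/KNear

Near the slab. Let `x = 1 - a`, `y = b`, both in `[0, 2⁻¹²]`, `φ μ = min 1 (min √(πμ) √(π(1-μ)))`.
`κ = 1`, `α = 0` gives `a - b ≤ A`. This settles `x = y = 0`, and `v ≤ 3/10` (`J v ≤ √(π v) < 0.98 < a - b`). Let `3/10 < v ≤ 1/2`; we show `1 < A` if `(x, y) ≠ 0`.
Case `y ≤ x`, `δ = √x ∈ (0, 1/64]`: `S μ = (δ/4) μ / φ μ`-like bound: take the step functions `σ μ = if μ < 1 - δ then σ₁ else σ₂`, `σ₁² = δ²/16 + δ/48`, `σ₂² = δ²/16 + 1/48`,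
`α s = σ (m s)`, `κ μ = 1 - σ μ²` (so `σ² + κ² ≤ 1`). For `μ ∈ [b, a]`: `(δ/4) μ ≤ σ μ φ μ` (square; `μ² ≤ μ ≤ πμ`, and `δ²/16 ≤ σ² π (1 - μ)` since `1 - μ ≥ δ`, resp. `≥ δ²`, `π ≥ 3`). Hence
`A ≥ (δ/4) v + (a - b)(1 - σ₁²) - δ/48 ≥ 1 + δ (3/40 - 1/24) - (2 + 1/16) δ² > 1`.
Case `x < y`, `δ = √y`: the same with `μ` replaced by `1 - μ` (gain `(δ/4)(1 - v) ≥ δ/8`). It is best to prove one lemma for an abstract `d μ ∈ {μ, 1 - μ}`.
-/

set_option autoImplicit false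

open MeasureTheory Set Filter Real
open scoped Topology

noncomputable section

namespace Crest.Agent.R214

/-- the square of the step function -/
def knear_τ (δ : ℝ) (S : Set ℝ) (μ : ℝ) : ℝ := δ ^ 2 / 16 + δ / 48 + S.indicator (fun _ => 1 / 48) μ

theorem knear_ind (S : Set ℝ) (μ : ℝ) :
    0 ≤ S.indicator (fun _ => (1 / 48 : ℝ)) μ ∧ S.indicator (fun _ => (1 / 48 : ℝ)) μ ≤ 1 / 48 := by
  by_cases h : μ ∈ S
  · rw [indicator_of_mem h]; norm_num
  · rw [indicator_of_notMem h]; norm_num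

theorem knear_pt {δ d e μ : ℝ} {S : Set ℝ} (hδ : 0 < δ) (hd0 : 0 ≤ d) (hd1 : d ≤ 1) (h1 : δ ^ 2 ≤ e)
    (h2 : μ ∉ S → δ ≤ e) : δ / 4 * d ≤ √(knear_τ δ S μ) * min 1 (min √(π * d) √(π * e)) := by
  have hp := Real.pi_gt_three
  have hi := knear_ind S μ
  have hT : δ ^ 2 / 16 ≤ knear_τ δ S μ := by unfold knear_τ; linarith [hi.1]
  have hT0 : 0 ≤ knear_τ δ S μ := le_trans (by positivity) hT
  have he0 : 0 ≤ e := le_trans (by positivity) h1
  have e1 : δ / 4 ≤ √(knear_τ δ S μ) := Real.le_sqrt_of_sq_le (by linarith)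
  have e2 : δ / 4 * d ≤ δ / 4 := mul_le_of_le_one_right (by positivity) hd1
  have e3 : d ≤ √(π * d) := Real.le_sqrt_of_sq_le (by nlinarith)
  have e4 : δ ^ 2 / 16 ≤ knear_τ δ S μ * (π * e) := by
    have e5 : 3 * e ≤ π * e := by gcongr
    refine le_trans ?_ (mul_le_mul_of_nonneg_left e5 hT0)
    unfold knear_τ
    by_cases h : μ ∈ S
    · rw [indicator_of_mem h]
      nlinarith [mul_nonneg (show 0 ≤ δ ^ 2 / 16 + δ / 48 by positivity) he0]
    · rw [indicator_of_notMem h]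
      nlinarith [mul_nonneg (show 0 ≤ δ ^ 2 / 16 by positivity) he0, mul_le_mul_of_nonneg_left (h2 h) hδ.le]
  rw [mul_min_of_nonneg _ _ (Real.sqrt_nonneg _), mul_min_of_nonneg _ _ (Real.sqrt_nonneg _)]
  refine le_min (by linarith) (le_min (by gcongr) ?_)
  rw [← Real.sqrt_mul hT0]
  exact e2.trans (Real.le_sqrt_of_sq_le (by linarith))

theorem knear_ba {A v a b : ℝ} {m Λ : ℝ → ℝ} (h : Sl A v a b m Λ) : b ≤ a :=
  (h.mem (1 / 2) ⟨by norm_num, by norm_num⟩).1.trans (h.mem (1 / 2) ⟨by norm_num, by norm_num⟩).2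

theorem knear_main {A v a b : ℝ} {m Λ : ℝ → ℝ} (h : Sl A v a b m Λ)
    (hL : ∀ᵐ s ∂(volume.restrict (Ioo (0 : ℝ) 1)), min 1 (min √(π * m s) √(π * (1 - m s))) ≤ Λ s)
    {δ : ℝ} (hδ : 0 < δ) (hδ1 : δ ^ 2 ≤ 1 / 4096) {l c lam : ℝ}
    (hpt : ∀ μ ∈ Icc b a, c + lam * μ ≤ √(knear_τ δ (Icc l (l + δ)) μ) * min 1 (min √(π * μ) √(π * (1 - μ)))) :
    (a - b) * (1 - (δ ^ 2 / 16 + δ / 48)) - δ / 48 + (c + lam * v) ≤ A := by
  set S : Set ℝ := Icc l (l + δ) with hS
  have hSm : MeasurableSet S := measurableSet_Icc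
  have hba := knear_ba h
  have hδ2 : δ ≤ 1 / 64 := by nlinarith
  have hτm : Measurable (knear_τ δ S) := measurable_const.add (measurable_const.indicator hSm)
  have hτ : ∀ μ, 0 ≤ knear_τ δ S μ ∧ knear_τ δ S μ ≤ 1 := fun μ => by
    have hi := knear_ind S μ
    unfold knear_τ
    exact ⟨by linarith [hi.1, sq_nonneg δ], by linarith [hi.2]⟩
  have key := h.model (fun μ => 1 - knear_τ δ S μ) (fun s => √(knear_τ δ S (m s)))
    (measurable_const.sub hτm) (hτm.comp h.mm).sqrt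
    (fun μ => abs_le.2 ⟨by linarith [(hτ μ).2], by linarith [(hτ μ).1]⟩)
    (fun s _ => by rw [Real.sq_sqrt (hτ _).1]; nlinarith [hτ (m s)])
  have i1 : (a - b) * (1 - (δ ^ 2 / 16 + δ / 48)) - δ / 48 ≤ ∫ μ in Ioo b a, (1 - knear_τ δ S μ) := by
    have e : ∀ μ, 1 - knear_τ δ S μ = (1 - (δ ^ 2 / 16 + δ / 48)) - S.indicator (fun _ => 1 / 48) μ := fun μ => by
      unfold knear_τ; ring
    simp_rw [e]
    rw [integral_sub (integrable_const _) ((integrable_const _).indicator hSm), integral_indicator hSm]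
    have e2 : (volume.restrict (Ioo b a)).real S ≤ δ := by
      rw [measureReal_restrict_apply hSm]
      refine (measureReal_mono inter_subset_left measure_Icc_lt_top.ne).trans ?_
      simp [hδ.le]
    simp only [integral_const, MeasurableSet.univ, measureReal_restrict_apply, univ_inter, smul_eq_mul,
      Real.volume_real_Ioo_of_le hba] at e2 ⊢
    linarith
  have im : IntegrableOn m (Ioo (0 : ℝ) 1) := by
    refine Integrable.of_bound h.mm.aestronglyMeasurable 1 ?_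
    filter_upwards [ae_restrict_mem measurableSet_Ioo] with s hs
    rw [Real.norm_eq_abs, abs_le]
    exact ⟨by linarith [(h.mem s hs).1, h.b0], (h.mem s hs).2.trans h.a1⟩
  have i2 : c + lam * v ≤ ∫ s in Ioo (0 : ℝ) 1, √(knear_τ δ S (m s)) * Λ s := by
    have e : ∫ s in Ioo (0 : ℝ) 1, (c + lam * m s) = c + lam * v := by
      rw [integral_add (integrable_const _) (im.const_mul _), integral_const_mul, h.vol]
      simp
    rw [← e]
    refine integral_mono_ae ((integrable_const _).add (im.const_mul _)) ?_ ?_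
    · refine Integrable.of_bound ((hτm.comp h.mm).sqrt.mul h.Lm).aestronglyMeasurable (1 * 2) ?_
      refine ae_of_all _ fun s => ?_
      rw [norm_mul, Real.norm_eq_abs, Real.norm_eq_abs, abs_of_nonneg (Real.sqrt_nonneg _)]
      exact mul_le_mul (Real.sqrt_le_one.2 (hτ _).2) (h.Lb s) (abs_nonneg _) zero_le_one
    · filter_upwards [ae_restrict_mem measurableSet_Ioo, hL] with s hs hs'
      exact (hpt _ (h.mem s hs)).trans (mul_le_mul_of_nonneg_left hs' (Real.sqrt_nonneg _))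
  linarith

theorem Sl.near {A v a b : ℝ} {m Λ : ℝ → ℝ} (h : Sl A v a b m Λ) (h0 : 0 < v) (h1 : v ≤ 1 / 2)
    (ha : 1 - 1 / 4096 ≤ a) (hb : b ≤ 1 / 4096)
    (hL : ∀ᵐ s ∂(volume.restrict (Ioo (0 : ℝ) 1)), min 1 (min √(π * m s) √(π * (1 - m s))) ≤ Λ s) :
    J v ≤ A ∧ (A ≤ J v → a = 1 ∧ b = 0) := by
  have hba : b ≤ a := knear_ba h
  have hb0 := h.b0
  have ha1 := h.a1
  have hA : a - b ≤ A := by
    have := h.model (fun _ => 1) (fun _ => 0) measurable_const measurable_const (fun _ => by simp)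
      (fun _ _ => by simp)
    simpa [hba] using this
  rcases le_or_gt v (3 / 10) with hv | hv
  · have hJ : J v < A := by
      have e1 : J v ≤ √(π * v) := (min_le_left _ _).trans (min_le_right _ _)
      have e2 : √(π * v) ≤ 98 / 100 := by
        rw [Real.sqrt_le_left (by norm_num)]
        nlinarith [Real.pi_lt_d2, Real.pi_pos]
      linarith
    exact ⟨hJ.le, fun h' => absurd h' (not_le.2 hJ)⟩
  have hJ : J v ≤ 1 := min_le_right _ _
  by_cases h01 : a = 1 ∧ b = 0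
  · exact ⟨by linarith [h01.1, h01.2], fun _ => h01⟩
  suffices h1A : 1 < A from ⟨by linarith, fun h' => by linarith⟩
  have fin : ∀ δ g : ℝ, 0 < δ → δ ^ 2 ≤ 1 / 4096 → 1 - 2 * δ ^ 2 ≤ a - b → δ / 4 * (3 / 10) ≤ g →
      (a - b) * (1 - (δ ^ 2 / 16 + δ / 48)) - δ / 48 + g ≤ A → 1 < A := by
    intro δ g hδ hδ1 hab hg hle
    have e1 : δ ≤ 1 / 64 := by nlinarith
    have e2 : (a - b) * (δ ^ 2 / 16 + δ / 48) ≤ 1 * (δ ^ 2 / 16 + δ / 48) := by
      gcongr; linarith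
    nlinarith
  rcases le_or_gt b (1 - a) with hx | hx
  · have hx0 : 0 < 1 - a := by
      by_contra hc
      exact h01 ⟨by linarith, by linarith⟩
    obtain ⟨δ, hδ, e⟩ : ∃ δ : ℝ, 0 < δ ∧ δ ^ 2 = 1 - a :=
      ⟨√(1 - a), Real.sqrt_pos.2 hx0, Real.sq_sqrt hx0.le⟩
    have := knear_main h hL hδ (by linarith) (l := 1 - δ) (c := 0) (lam := δ / 4) fun μ hμ => by
      rw [zero_add]
      refine knear_pt hδ (hb0.trans hμ.1) (hμ.2.trans ha1) (by linarith [hμ.2]) fun hS => ?_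
      by_contra hc
      exact hS ⟨by linarith, by linarith [hμ.2]⟩
    exact fin δ _ hδ (by linarith) (by linarith) (by nlinarith) this
  · have hx0 : 0 < b := by linarith
    obtain ⟨δ, hδ, e⟩ : ∃ δ : ℝ, 0 < δ ∧ δ ^ 2 = b := ⟨√b, Real.sqrt_pos.2 hx0, Real.sq_sqrt hx0.le⟩
    have := knear_main h hL hδ (by linarith) (l := 0) (c := δ / 4) (lam := -(δ / 4)) fun μ hμ => by
      have e1 := knear_pt (d := 1 - μ) (e := μ) (S := Icc 0 (0 + δ)) (μ := μ) hδ (by linarith [hμ.2])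
        (by linarith [hμ.1]) (by linarith [hμ.1]) fun hS => by
          by_contra hc
          exact hS ⟨by linarith [hμ.1], by linarith⟩
      rw [min_comm √(π * (1 - μ))] at e1
      linarith
    exact fin δ _ hδ (by linarith) (by linarith) (by nlinarith) this

end Crest.Agent.R214
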