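import Crest.Agent.R214.KChk
import Crest.Agent.R214.KCal
import Crest.Agent.R214.KJ

/-!
# R214/KSa

Soundness of the checker: arithmetic and one cell.
-/

set_option autoImplicit false

open MeasureTheory Set Filter Real
open scoped Topology

noncomputable section

namespace Crest.Agent.R214.K

/-- real value -/
def r (n : ℕ) : ℝ := n / 16777216

theorem M_eq : (M : ℝ) = 16777216 := by norm_num [M]
theorem O_eq : (O : ℝ) = 64 * 16777216 := by norm_num [O]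
theorem PL_le : (PL : ℝ) ≤ π * 16777216 := by
  have := Real.pi_gt_d20; norm_num [PL]; linarith
theorem le_PH : π * 16777216 ≤ (PH : ℝ) := by
  have := Real.pi_lt_d20; norm_num [PH]; linarith
theorem r_nonneg (n : ℕ) : 0 ≤ r n := by unfold r; positivity
theorem r_M : r M = 1 := by simp [r, M_eq]
theorem r_zero : r 0 = 0 := by simp [r]
theorem r_le {a b : ℕ} : r a ≤ r b ↔ a ≤ b := by
  unfold r; rw [div_le_div_iff_of_pos_right (by norm_num), Nat.cast_le]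
theorem r_lt {a b : ℕ} : r a < r b ↔ a < b := by
  unfold r; rw [div_lt_div_iff_of_pos_right (by norm_num), Nat.cast_lt]
theorem r_le_one {a : ℕ} (h : a ≤ M) : r a ≤ 1 := r_M ▸ r_le.2 h
theorem r_sub {a b : ℕ} (h : b ≤ a) : r (a - b) = r a - r b := by
  unfold r; rw [Nat.cast_sub h, sub_div]
theorem r_add (a b : ℕ) : r (a + b) = r a + r b := by unfold r; push_cast; ring

theorem mn_eq (a b : ℕ) : mn a b = min a b := by
  unfold mn; cases h : Nat.ble a b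
  · have : ¬ a ≤ b := fun h' => by simp [Nat.ble_eq_true_of_le h'] at h
    simp; omega
  · have := Nat.le_of_ble_eq_true h; simp; omega
theorem mx_eq (a b : ℕ) : mx a b = max a b := by
  unfold mx; cases h : Nat.ble a b
  · have : ¬ a ≤ b := fun h' => by simp [Nat.ble_eq_true_of_le h'] at h
    simp; omega
  · have := Nat.le_of_ble_eq_true h; simp; omega

theorem sq_mul (n : ℕ) : sq n * sq n ≤ n := by
  simp only [sq, force_eq, mn_eq]
  exact (Nat.mul_le_mul (min_le_left _ _) (min_le_right _ _)).trans (Nat.mul_div_le _ _)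

theorem r_sq_PL (x : ℕ) : r (sq (PL * x)) ≤ √(π * r x) := by
  apply Real.le_sqrt_of_sq_le
  have h1 : ((sq (PL * x) : ℝ)) * sq (PL * x) ≤ PL * x := by exact_mod_cast sq_mul (PL * x)
  have h2 : (PL : ℝ) * x ≤ π * 16777216 * x := mul_le_mul_of_nonneg_right PL_le (Nat.cast_nonneg x)
  unfold r; rw [div_pow, div_le_iff₀ (by norm_num)]
  nlinarith

theorem lB_le {H x : ℕ} (hH : 0 < H) (hx : x ≤ M) : r (lB H x) ≤ lc (1 - r x) (r H) := by
  have h1 : 1 - r x = r (M - x) := by rw [r_sub hx, r_M]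
  have hH' : 0 < r H := r_zero ▸ r_lt.2 hH
  have hH2 : (0 : ℝ) < H := by exact_mod_cast hH
  rw [h1]
  simp only [lB, force_eq]
  generalize M - x = z
  cases h : Nat.blt (PH * H * H / (4 * M * M)) z
  · exact (r_sq_PL z).trans (sqrt_le_lc (r_nonneg z) hH')
  · have h2 : PH * H * H < z * (4 * M * M) :=
      (Nat.div_lt_iff_lt_mul (by norm_num [M])).1 (Nat.blt_eq.mp h)
    have h3 : (PH : ℝ) * H * H < z * (4 * 16777216 * 16777216) := by
      rw [← M_eq]; exact_mod_cast h2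
    have h4 : ¬ r z ≤ π * r H ^ 2 / 4 := by
      unfold r
      have := mul_le_mul_of_nonneg_right le_PH (mul_pos hH2 hH2).le
      rw [not_le, div_pow]
      rw [div_lt_div_iff₀ (by norm_num) (by norm_num), mul_div_assoc', div_mul_eq_mul_div,
        div_lt_iff₀ (by norm_num)]
      nlinarith
    simp only [cond_true, lc, if_neg h4, r_add]
    apply add_le_add
    · have : ((z * M / H : ℕ) : ℝ) ≤ (z * M : ℕ) / H := Nat.cast_div_le
      unfold r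
      rw [div_le_iff₀ (by norm_num)]
      refine this.trans (le_of_eq ?_)
      push_cast; rw [M_eq]; field_simp
    · have : ((PL * H / (4 * M) : ℕ) : ℝ) ≤ (PL * H : ℕ) / (4 * M : ℕ) := Nat.cast_div_le
      unfold r
      rw [div_le_iff₀ (by norm_num)]
      refine this.trans ?_
      push_cast; rw [M_eq, div_le_iff₀ (by norm_num)]
      have := mul_le_mul_of_nonneg_right PL_le hH2.le
      linarith

def KS : Finset ℝ := (Finset.range 33).image (fun i : ℕ => (i : ℝ) / 32)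

theorem mem_KS {i : ℕ} (h : i < 33) : (i : ℝ) / 32 ∈ KS :=
  Finset.mem_image.2 ⟨i, Finset.mem_range.2 h, rfl⟩

theorem KS_mem {k : ℝ} (h : k ∈ KS) : k ∈ Icc (0 : ℝ) 1 := by
  obtain ⟨i, hi, rfl⟩ := Finset.mem_image.1 h
  have : (i : ℝ) ≤ 32 := by exact_mod_cast Nat.lt_succ_iff.1 (Finset.mem_range.1 hi)
  exact ⟨by positivity, by linarith⟩

/-- the table of `Ek` is valid -/
def HE : Prop := ∀ i < 33, r (tE i) ≤ Ek (i / 32)

theorem idx_spec (h1 x y : ℕ) : idx h1 x y < 33 ∧ (idx h1 x y = 0 ∨ h1 ≤ x) := by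
  unfold idx; cases h : Nat.ble h1 x
  · simp
  · exact ⟨Nat.mod_lt _ (by norm_num), Or.inr (Nat.le_of_ble_eq_true h)⟩

theorem lG_le (hE : HE) {i h1 x : ℕ} (hi : i < 33) (h : i = 0 ∨ h1 ≤ x) :
    r (lG i h1 x) ≤ Ek (i / 32) + i / 32 * (r x - r h1) := by
  unfold lG; rw [r_add]
  refine add_le_add (hE i hi) ?_
  rcases h with rfl | h
  · simp [r_zero]
  · rw [← r_sub h]
    have : ((i * (x - h1) / 32 : ℕ) : ℝ) ≤ (i * (x - h1) : ℕ) / (32 : ℕ) := Nat.cast_div_le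
    unfold r
    rw [div_le_iff₀ (by norm_num)]
    refine this.trans (le_of_eq ?_)
    rw [Nat.cast_mul]; push_cast; ring

theorem l2_le (i H h1 x : ℕ) : l2 i H h1 x ≤ lA x ∧ l2 i H h1 x ≤ lB H x ∧ l2 i H h1 x ≤ lG i h1 x := by
  simp only [l2, force_eq, mn_eq]; omega

theorem sub_ge (a b : ℕ) : (a : ℝ) - b ≤ ((a - b : ℕ) : ℝ) := by
  have : a ≤ a - b + b := by omega
  have : (a : ℝ) ≤ ((a - b : ℕ) : ℝ) + b := by exact_mod_cast this
  linarith

/-- value in units of `1/M²` -/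
def r2 (n : ℕ) : ℝ := n / (16777216 * 16777216)

theorem r2_mul (a b : ℕ) : r2 (a * b) = r a * r b := by unfold r2 r; push_cast; ring
theorem r2_add (a b : ℕ) : r2 (a + b) = r2 a + r2 b := by unfold r2; push_cast; ring
theorem r2_le {a b : ℕ} : r2 a ≤ r2 b ↔ a ≤ b := by
  unfold r2; rw [div_le_div_iff_of_pos_right (by norm_num), Nat.cast_le]
theorem r2_lt {a b : ℕ} : r2 a < r2 b ↔ a < b := by
  unfold r2; rw [div_lt_div_iff_of_pos_right (by norm_num), Nat.cast_lt]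
theorem r2_sub {a b : ℕ} (h : b ≤ a) : r2 (a - b) = r2 a - r2 b := by
  unfold r2; rw [Nat.cast_sub h, sub_div]
theorem r2_two (a : ℕ) : r2 (2 * a) = 2 * r2 a := by unfold r2; push_cast; ring
theorem r2_zero : r2 0 = 0 := by simp [r2]

theorem ell_ge (U W x : ℕ) : r U - 64 + (r W - 64) * r x ≤ r2 (ell U W x) := by
  have := sub_ge (U * M + W * x) (O * (M + x))
  unfold ell r2 r
  rw [le_div_iff₀ (by norm_num)]
  refine le_trans (le_of_eq ?_) this
  push_cast; rw [M_eq, O_eq]; ring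

theorem bern_spec {s0 s1 Lx Ly px py : ℕ} (h : bern s0 s1 Lx Ly px py = true) {t : ℝ}
    (ht : t ∈ Icc (0 : ℝ) 1) :
    (1 - t) * r2 px + t * r2 py ≤ ((1 - t) * r s0 + t * r s1) * ((1 - t) * r Lx + t * r Ly) := by
  simp only [bern, Bool.and_eq_true, Nat.ble_eq, mn_eq] at h
  obtain ⟨⟨h0, h1⟩, h2⟩ := h
  refine bern_chord ?_ ?_ ?_ ht
  · rw [← r2_mul]; exact r2_le.2 h0
  · rw [← r2_mul]; exact r2_le.2 h1
  · have h3 := r2_le.2 h2
    rw [r2_add, r2_add, r2_add, r2_two, r2_mul, r2_mul] at h3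
    refine h3.trans (add_le_add le_rfl (mul_le_mul_of_nonneg_left (le_min ?_ ?_) (by norm_num)))
    · rw [← r2_mul, ← r2_sub h0]; exact r2_le.2 (min_le_left _ _)
    · rw [← r2_mul, ← r2_sub h1]; exact r2_le.2 (min_le_right _ _)

theorem disc_sq {s : ℕ} (h : s ≤ M) : r s ^ 2 + r (sq (M * M - s * s)) ^ 2 ≤ 1 := by
  have h1 := r2_le.2 (sq_mul (M * M - s * s))
  rw [r2_sub (Nat.mul_le_mul h h), r2_mul, r2_mul, r2_mul, r_M] at h1
  nlinarith

theorem fin_spec {cnt : Bool} {w ax ay bx bz p1x p1y p2x p2y s0 s1 : ℕ} (h0 : s0 ≤ M) (h1 : s1 ≤ M)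
    (h : 0 < fin cnt w ax ay bx bz p1x p1y p2x p2y s0 s1) :
    ∃ t0 t1 k0 k1 : ℕ, r t0 ^ 2 + r k0 ^ 2 ≤ 1 ∧ r t1 ^ 2 + r k1 ^ 2 ≤ 1 ∧
      bern t0 t1 ax ay p1x p1y = true ∧ bern t0 t1 bx bz p2x p2y = true ∧
      (fin cnt w ax ay bx bz p1x p1y p2x p2y s0 s1 - 1 = 0 ∨
        cnt = true ∧ fin cnt w ax ay bx bz p1x p1y p2x p2y s0 s1 - 1 = w * (k0 + k1)) := by
  unfold fin at h ⊢
  cases h2 : (cnt && bern s0 s1 ax ay p1x p1y && bern s0 s1 bx bz p2x p2y)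
  · rw [h2] at h
    cases h3 : (bern M M ax ay p1x p1y && bern M M bx bz p2x p2y)
    · simp [h3] at h
    · simp only [Bool.and_eq_true] at h3
      exact ⟨M, M, 0, 0, by simp [r_M, r_zero], by simp [r_M, r_zero], h3.1, h3.2, Or.inl (by simp)⟩
  · simp only [Bool.and_eq_true] at h2
    exact ⟨s0, s1, _, _, disc_sq h0, disc_sq h1, h2.1.2, h2.2, Or.inr ⟨h2.1.1, by simp⟩⟩

/-- the chord -/
def ch (x y k0 k1 μ : ℝ) : ℝ := (1 - (μ - x) / (y - x)) * k0 + (μ - x) / (y - x) * k1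

theorem tau_mem {x y μ : ℝ} (hxy : x < y) (hμ : μ ∈ Icc x y) : (μ - x) / (y - x) ∈ Icc (0 : ℝ) 1 :=
  ⟨div_nonneg (sub_nonneg.2 hμ.1) (sub_pos.2 hxy).le,
    (div_le_one (sub_pos.2 hxy)).2 (by linarith [hμ.2])⟩

theorem ch_self {x y : ℝ} (hxy : x < y) (μ : ℝ) : ch x y x y μ = μ := by
  unfold ch; have := (sub_pos.2 hxy).ne'; field_simp; ring

theorem chord_step {x y μ lam c φ : ℝ} {px py s0 s1 L0 L1 : ℕ} {k0 k1 : ℝ} (hxy : x < y)
    (hμ : μ ∈ Icc x y) (hx : c + lam * x ≤ r2 px) (hy : c + lam * y ≤ r2 py)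
    (hb : bern s0 s1 L0 L1 px py = true) (h0 : r s0 ^ 2 + k0 ^ 2 ≤ 1) (h1 : r s1 ^ 2 + k1 ^ 2 ≤ 1)
    (hφ : ch x y (r L0) (r L1) μ ≤ φ) : c + lam * μ ≤ √(1 - ch x y k0 k1 μ ^ 2) * φ := by
  have ht := tau_mem hxy hμ
  have h2 := bern_spec hb ht
  have h3 := disc_chord h0 h1 ht
  have h4 := ch_self hxy μ
  unfold ch at *
  generalize (μ - x) / (y - x) = t at *
  have h5 : 0 ≤ (1 - t) * r L0 + t * r L1 :=
    add_nonneg (mul_nonneg (sub_nonneg.2 ht.2) (r_nonneg _)) (mul_nonneg ht.1 (r_nonneg _))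
  have h6 := mul_le_mul h3 hφ h5 (sqrt_nonneg _)
  have h7 := mul_le_mul_of_nonneg_left hx (sub_nonneg.2 ht.2)
  have h8 := mul_le_mul_of_nonneg_left hy ht.1
  have h9 : c + lam * μ = (1 - t) * (c + lam * x) + t * (c + lam * y) := by rw [← h4]; ring
  linarith

theorem ch_le {x y μ a b a' b' : ℝ} (hxy : x < y) (hμ : μ ∈ Icc x y) (ha : a ≤ a') (hb : b ≤ b') :
    ch x y a b μ ≤ ch x y a' b' μ := by
  have ht := tau_mem hxy hμ
  exact add_le_add (mul_le_mul_of_nonneg_left ha (sub_nonneg.2 ht.2)) (mul_le_mul_of_nonneg_left hb ht.1)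

theorem ch_const (x y k μ : ℝ) : ch x y k k μ = k := by unfold ch; ring

theorem ch_lc {x y μ H : ℝ} (hxy : x < y) (hμ : μ ∈ Icc x y) (hy : y ≤ 1) (hH : 0 < H) :
    ch x y (lc (1 - x) H) (lc (1 - y) H) μ ≤ lc (1 - μ) H := by
  have h := lc_chord (x := 1 - x) (y := 1 - y) (by linarith) (by linarith) hH (tau_mem hxy hμ)
  have h4 := ch_self hxy μ
  unfold ch at *
  generalize (μ - x) / (y - x) = t at *
  rwa [show (1 - t) * (1 - x) + t * (1 - y) = 1 - μ by rw [← h4]; ring] at h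

theorem ch_sqrt {x y μ : ℝ} (hxy : x < y) (hμ : μ ∈ Icc x y) (hx : 0 ≤ x) :
    ch x y √(π * x) √(π * y) μ ≤ √(π * μ) := by
  have h := sqrt_chord (x := x) (y := y) hx (by linarith) (tau_mem hxy hμ)
  have h4 := ch_self hxy μ
  unfold ch at *
  rwa [h4] at h

theorem ch_lin {x y : ℝ} (hxy : x < y) (μ E k h : ℝ) :
    ch x y (E + k * (x - h)) (E + k * (y - h)) μ = E + k * (μ - h) := by
  have h4 := ch_self hxy μ
  unfold ch at *
  generalize (μ - x) / (y - x) = t at *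
  rw [← h4]; ring

def D1 (P : Pm) (μ t : ℝ) : Prop := C1 (r P.H) (r P.W - 64) (r P.U1 - 64) μ t
def D2 (P : Pm) (μ t : ℝ) : Prop := C2 KS (r P.H) (r P.h1) (r P.W - 64) (r P.U2 - 64) μ t

theorem cell_spec (hE : HE) {P : Pm} {x y : ℕ} (hH : 0 < P.H) (hxy : x < y) (hy : y ≤ M)
    (h : 0 < cell P x y) :
    ∃ k0 k1 : ℝ, k0 ∈ Icc (0 : ℝ) 1 ∧ k1 ∈ Icc (0 : ℝ) 1 ∧
      (P.c0 < y → ∀ μ ∈ Icc (r x) (r y), D1 P μ (ch (r x) (r y) k0 k1 μ)) ∧
      (x < P.c1 → ∀ μ ∈ Icc (r x) (r y), D2 P μ (ch (r x) (r y) k0 k1 μ)) ∧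
      (cell P x y - 1 = 0 ∨ P.b1 ≤ x ∧ y ≤ P.a0 ∧ r2 (cell P x y - 1) = (r y - r x) * (k0 + k1)) := by
  simp only [cell, force_eq] at h ⊢
  obtain ⟨t0, t1, k0, k1, a0, a1, b1, b2, h3⟩ :=
    fin_spec ((mn_eq _ _).le.trans (min_le_left _ _)) ((mn_eq _ _).le.trans (min_le_left _ _)) h
  have hxy' : r x < r y := r_lt.2 hxy
  have hH' : 0 < r P.H := r_zero ▸ r_lt.2 hH
  have hx : x ≤ M := hxy.le.trans hy
  have lB' : ∀ μ ∈ Icc (r x) (r y), ch (r x) (r y) (r (lB P.H x)) (r (lB P.H y)) μ ≤ lc (1 - μ) (r P.H) :=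
    fun μ hμ => (ch_le hxy' hμ (lB_le hH hx) (lB_le hH hy)).trans (ch_lc hxy' hμ (r_le_one hy) hH')
  refine ⟨r k0, r k1, ⟨r_nonneg _, by nlinarith [sq_nonneg (r t0), r_nonneg k0]⟩,
    ⟨r_nonneg _, by nlinarith [sq_nonneg (r t1), r_nonneg k1]⟩, fun hc μ hμ => ?_, fun hc μ hμ => ?_, ?_⟩
  · rw [Nat.blt_eq.mpr hc] at b1
    exact chord_step hxy' hμ (ell_ge _ _ _) (ell_ge _ _ _) b1 a0 a1 (lB' μ hμ)
  · rw [Nat.blt_eq.mpr hc] at b2
    obtain ⟨i1, i2⟩ := idx_spec P.h1 x y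
    generalize idx P.h1 x y = i at *
    have u := l2_le i P.H P.h1 x
    have w := l2_le i P.H P.h1 y
    have e3 : ch (r x) (r y) (r (l2 i P.H P.h1 x)) (r (l2 i P.H P.h1 y)) μ ≤
        Ek (i / 32) + i / 32 * (μ - r P.h1) := by
      rw [← ch_lin hxy']
      exact ch_le hxy' hμ ((r_le.2 u.2.2).trans (lG_le hE i1 i2))
        ((r_le.2 w.2.2).trans (lG_le hE i1 (i2.imp id fun h => h.trans hxy.le)))
    refine ⟨chord_step hxy' hμ (ell_ge _ _ _) (ell_ge _ _ _) b2 a0 a1 ?_,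
      chord_step hxy' hμ (ell_ge _ _ _) (ell_ge _ _ _) b2 a0 a1 ?_, i / 32, mem_KS i1, ?_,
      chord_step hxy' hμ (ell_ge _ _ _) (ell_ge _ _ _) b2 a0 a1 e3⟩
    · exact (ch_le hxy' hμ ((r_le.2 u.1).trans (r_sq_PL x)) ((r_le.2 w.1).trans (r_sq_PL y))).trans
        (ch_sqrt hxy' hμ (r_nonneg x))
    · exact (ch_le hxy' hμ (r_le.2 u.2.1) (r_le.2 w.2.1)).trans (lB' μ hμ)
    · refine le_trans ?_ e3
      rw [← ch_const (r x) (r y) 0 μ]
      exact ch_le hxy' hμ (r_nonneg _) (r_nonneg _)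
  · rcases h3 with h3 | ⟨h3, h4⟩
    · exact Or.inl h3
    · simp only [Bool.and_eq_true, Nat.ble_eq] at h3
      exact Or.inr ⟨h3.1, h3.2, by rw [h4, r2_mul, r_sub hxy.le, r_add]⟩

end Crest.Agent.R214.K
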