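import Crest.Agent.R214.KSa
import Crest.Agent.R214.KNear

/-!
# R214/KSb

Soundness of the checker: loops, leaves, trees.
-/

set_option autoImplicit false

open MeasureTheory Set Filter Real
open scoped Topology

noncomputable section

namespace Crest.Agent.R214.K

def Inv (P : Pm) (b0 a b : ℝ) (z : ℕ) (I : ℕ) : Prop :=
  z ≤ M ∧ ∃ κ : ℝ → ℝ, Measurable κ ∧ (∀ μ, κ μ ∈ Icc (0 : ℝ) 1) ∧
    (∀ μ, r P.c0 < μ → μ ≤ r z → D1 P μ (κ μ)) ∧
    (∀ μ, b0 < μ → μ ≤ r z → μ ≤ r P.c1 → D2 P μ (κ μ)) ∧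
    r2 I / 2 ≤ ∫ μ in Ioo b a ∩ Iic (r z), κ μ

theorem intOn {κ : ℝ → ℝ} (hκ : Measurable κ) (hb : ∀ μ, κ μ ∈ Icc (0 : ℝ) 1) {s : Set ℝ} {a b : ℝ}
    (hs : s ⊆ Ioo b a) : IntegrableOn κ s := by
  refine Measure.integrableOn_of_bounded (M := 1) ((measure_mono hs).trans_lt measure_Ioo_lt_top).ne
    hκ.aestronglyMeasurable (ae_of_all _ fun μ => ?_)
  rw [Real.norm_eq_abs, abs_le]; exact ⟨by linarith [(hb μ).1], (hb μ).2⟩

theorem integral_ch {x y : ℝ} (hxy : x < y) (k0 k1 : ℝ) :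
    ∫ μ in x..y, ch x y k0 k1 μ = (y - x) * (k0 + k1) / 2 := by
  have h := (sub_pos.2 hxy).ne'
  have : ∀ μ, ch x y k0 k1 μ = (k0 - x * (k1 - k0) / (y - x)) + (k1 - k0) / (y - x) * μ := by
    intro μ; unfold ch; field_simp; ring
  simp_rw [this]
  rw [intervalIntegral.integral_add (by simp) (Continuous.intervalIntegrable (by fun_prop) _ _),
    intervalIntegral.integral_const, intervalIntegral.integral_const_mul, integral_id]
  simp only [smul_eq_mul]; field_simp; ring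

theorem measurable_ch (x y k0 k1 : ℝ) : Measurable (ch x y k0 k1) := by unfold ch; fun_prop

theorem Inv.step (hE : HE) {P : Pm} {b0 a b : ℝ} (hb : b ≤ r P.b1) (ha : r P.a0 ≤ a) (hH : 0 < P.H)
    {x y I : ℕ} (h : Inv P b0 a b x I) (hxy : x < y) (hy : y ≤ M) (hc : 0 < cell P x y) :
    Inv P b0 a b y (I + (cell P x y - 1)) := by
  obtain ⟨k0, k1, h0, h1, c1, c2, c3⟩ := cell_spec hE hH hxy hy hc
  obtain ⟨-, κ, m, bd, d1, d2, d3⟩ := h
  have hxy' : r x < r y := r_lt.2 hxy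
  set κ' : ℝ → ℝ := fun μ => if μ ≤ r x then κ μ else if μ ≤ r y then ch (r x) (r y) k0 k1 μ else 0
    with hκ'
  have m' : Measurable κ' := Measurable.ite measurableSet_Iic m
    (Measurable.ite measurableSet_Iic (measurable_ch _ _ _ _) measurable_const)
  have bd' : ∀ μ, κ' μ ∈ Icc (0 : ℝ) 1 := by
    intro μ; simp only [hκ']
    split_ifs with h2 h3
    · exact bd μ
    · have hμ : μ ∈ Icc (r x) (r y) := ⟨(not_le.1 h2).le, h3⟩
      constructor
      · rw [← ch_const (r x) (r y) 0 μ]; exact ch_le hxy' hμ h0.1 h1.1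
      · rw [← ch_const (r x) (r y) 1 μ]; exact ch_le hxy' hμ h0.2 h1.2
    · simp
  refine ⟨hy, κ', m', bd', fun μ e1 e2 => ?_, fun μ e1 e2 e3 => ?_, ?_⟩
  · simp only [hκ']
    split_ifs with h2
    · exact d1 μ e1 h2
    · exact c1 (r_lt.1 (e1.trans_le e2)) μ ⟨(not_le.1 h2).le, e2⟩
  · simp only [hκ']
    split_ifs with h2
    · exact d2 μ e1 h2 e3
    · exact c2 (r_lt.1 ((not_le.1 h2).trans_le e3)) μ ⟨(not_le.1 h2).le, e2⟩
  · have e : Ioo b a ∩ Iic (r y) = (Ioo b a ∩ Iic (r x)) ∪ (Ioo b a ∩ Ioc (r x) (r y)) := by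
      rw [← inter_union_distrib_left, Iic_union_Ioc_eq_Iic hxy'.le]
    rw [e, setIntegral_union (Disjoint.mono inter_subset_right inter_subset_right (Iic_disjoint_Ioc le_rfl))
      (measurableSet_Ioo.inter measurableSet_Ioc) (intOn m' bd' inter_subset_left)
      (intOn m' bd' inter_subset_left), r2_add, add_div]
    apply add_le_add
    · refine d3.trans (le_of_eq (setIntegral_congr_fun (measurableSet_Ioo.inter measurableSet_Iic) ?_))
      intro μ hμ; simp only [hκ']; rw [if_pos (show μ ≤ r x from hμ.2)]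
    · rcases c3 with c3 | ⟨c3, c4, c5⟩
      · rw [c3, r2_zero, zero_div]
        exact setIntegral_nonneg (measurableSet_Ioo.inter measurableSet_Ioc) fun μ _ => (bd' μ).1
      · rw [c5, ← integral_ch hxy', intervalIntegral.integral_of_le hxy'.le, integral_Ioc_eq_integral_Ioo]
        have e2 : ∫ μ in Ioo (r x) (r y), ch (r x) (r y) k0 k1 μ = ∫ μ in Ioo (r x) (r y), κ' μ :=
          setIntegral_congr_fun measurableSet_Ioo fun μ hμ => by
            simp only [hκ']; rw [if_neg (not_le.2 hμ.1), if_pos hμ.2.le]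
        rw [e2]
        refine setIntegral_mono_set (intOn m' bd' inter_subset_left) (ae_of_all _ fun μ => (bd' μ).1)
          (LE.le.eventuallyLE fun μ hμ => ⟨⟨?_, ?_⟩, hμ.1, hμ.2.le⟩)
        · exact (hb.trans (r_le.2 c3)).trans_lt hμ.1
        · exact hμ.2.trans_le ((r_le.2 c4).trans ha)

theorem loop_spec (hE : HE) {P : Pm} {b0 a b : ℝ} (hb : b ≤ r P.b1) (ha : r P.a0 ≤ a) (hH : 0 < P.H)
    (x0 z n : ℕ) (k : ℕ → ℕ → Bool) (j : ℕ) : ∀ x I, Inv P b0 a b x I → loop P x0 z n j x I k = true →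
      ∃ y I', Inv P b0 a b y I' ∧ k y I' = true := by
  induction j with
  | zero => exact fun x I h1 h2 => ⟨x, I, h1, h2⟩
  | succ j ih =>
    intro x I h1 h2
    change force (node x0 z n j) (fun y => cond (Nat.ble y x) (loop P x0 z n j x I k)
      (Nat.ble y M && force (cell P x y) fun r =>
        Nat.blt 0 r && force (I + (r - 1)) fun acc' => loop P x0 z n j y acc' k)) = true at h2
    simp only [force_eq] at h2
    generalize node x0 z n j = y at h2
    cases h3 : Nat.ble y x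
    · simp only [h3, cond_false, Bool.and_eq_true, Nat.ble_eq, Nat.blt_eq] at h2
      have : x < y := not_le.1 fun h4 => by simp [Nat.ble_eq_true_of_le h4] at h3
      exact ih _ _ (h1.step hE hb ha hH this h2.1 h2.2.1) h2.2.2
    · rw [h3] at h2; exact ih _ _ h1 h2

theorem seg_spec (hE : HE) {P : Pm} {b0 a b : ℝ} (hb : b ≤ r P.b1) (ha : r P.a0 ≤ a) (hH : 0 < P.H)
    {D z : ℕ} {k : ℕ → ℕ → Bool} (h : ∃ x I, Inv P b0 a b x I ∧ seg P D z k x I = true) :
    ∃ y I', Inv P b0 a b y I' ∧ k y I' = true := by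
  obtain ⟨x, I, h1, h2⟩ := h
  unfold seg at h2
  cases h3 : Nat.ble z x
  · simp only [h3, cond_false, force_eq] at h2
    exact loop_spec hE hb ha hH _ _ _ _ _ _ _ h1 h2
  · rw [h3] at h2; exact ⟨x, I, h1, h2⟩

theorem run_spec (hE : HE) {P : Pm} {a b : ℝ} (hb : b ≤ r P.b1) (ha : r P.a0 ≤ a) (hH : 0 < P.H)
    {D b0 a1 : ℕ} (h0 : b0 ≤ P.c0) (h1 : P.c0 ≤ M) {k : ℕ → ℕ → Bool} (h : run P D b0 a1 k = true) :
    ∃ y I', Inv P (r b0) a b y I' ∧ k y I' = true := by
  refine seg_spec hE hb ha hH (seg_spec hE hb ha hH (seg_spec hE hb ha hH (seg_spec hE hb ha hH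
    (seg_spec hE hb ha hH ⟨b0, 0, ⟨h0.trans h1, fun _ => 0, measurable_const, fun _ => by simp,
      fun μ e1 e2 => ?_, fun μ e1 e2 => ?_, by simp [r2_zero]⟩, h⟩))))
  · exact absurd (e1.trans_le (e2.trans (r_le.2 h0))) (lt_irrefl _)
  · exact absurd (e1.trans_le e2) (lt_irrefl _)

theorem r_div_succ {a b : ℕ} (hb : 0 < b) : (a : ℝ) / b / 16777216 ≤ r (a / b + 1) := by
  unfold r
  refine div_le_div_of_nonneg_right ?_ (by norm_num)
  have hb' : (0 : ℝ) < b := by exact_mod_cast hb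
  rw [div_le_iff₀ hb']
  have : a < (a / b + 1) * b := by
    have := Nat.lt_div_mul_add (a := a) hb
    rw [add_mul, one_mul]; exact this
  exact_mod_cast this.le

theorem cond_t {α : Type} {b : Bool} (h : b = true) (x y : α) : cond b x y = x := by subst h; rfl
theorem cond_f {α : Type} {b : Bool} (h : b = false) (x y : α) : cond b x y = y := by subst h; rfl

theorem dPos_spec {v : ℝ} (h0 : 0 < v) {l : ℕ} (hl : 0 < l) : J v ≤ r (dPos l) + r l * v := by
  have hl' : (0 : ℝ) < l := by exact_mod_cast hl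
  have hr : 0 < r l := r_zero ▸ r_lt.2 hl
  have hm : ∀ a b : ℕ, J v ≤ r a + r l * v → J v ≤ r b + r l * v → J v ≤ r (mn a b) + r l * v := by
    intro a b h1 h2; rw [mn_eq]
    rcases min_choice a b with h | h <;> rw [h] <;> assumption
  have e1 : J v ≤ r (mn (PH * M / (4 * l) + 1) (2 * PH * M * M / (3 * l * l) + 1)) + r l * v := by
    apply hm
    · refine (J_le_tube h0 hr).trans (add_le_add (le_trans ?_ (r_div_succ (by positivity))) le_rfl)
      have := le_PH
      unfold r; push_cast; rw [M_eq]; field_simp; linarith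
    · refine (J_le_ball h0 hr).trans (add_le_add (le_trans ?_ (r_div_succ (by positivity))) le_rfl)
      have := le_PH
      unfold r; push_cast; rw [M_eq]; field_simp; linarith
  simp only [dPos, force_eq]
  generalize mn (PH * M / (4 * l) + 1) (2 * PH * M * M / (3 * l * l) + 1) = d at e1
  have e2 : J v ≤ r (cond (Nat.ble (2 * l) PL) (mn d (M - l * M / PH)) d) + r l * v := by
    rcases (Bool.eq_false_or_eq_true (Nat.ble (2 * l) PL)).symm with h | h
    · rw [cond_f h]; exact e1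
    · rw [cond_t h]; refine hm _ _ e1 ?_
      have h2 : (2 * l : ℝ) ≤ PL := by exact_mod_cast Nat.le_of_ble_eq_true h
      have h3 := PL_le
      refine (J_le_slab h0 hr.le (by unfold r; linarith)).trans (add_le_add ?_ le_rfl)
      have h4 := sub_ge M (l * M / PH)
      have h5 : ((l * M / PH : ℕ) : ℝ) ≤ (l * M : ℕ) / PH := Nat.cast_div_le
      have h6 : ((l * M : ℕ) : ℝ) / PH ≤ l / π := by
        have := le_PH
        rw [div_le_div_iff₀ (by norm_num [PH]) pi_pos]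
        push_cast; rw [M_eq]; nlinarith
      unfold r
      rw [le_div_iff₀ (by norm_num)]
      rw [M_eq] at h4
      have : (1 - l / 16777216 / π) * 16777216 = 16777216 - l / π := by field_simp
      linarith
  generalize cond (Nat.ble (2 * l) PL) (mn d (M - l * M / PH)) d = d' at e2
  rcases (Bool.eq_false_or_eq_true (Nat.ble (9 * M) (4 * l) && Nat.ble l (3 * M))).symm with h | h
  · rw [cond_f h]; exact e2
  · rw [cond_t h]
    simp only [Bool.and_eq_true, Nat.ble_eq] at h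
    refine hm _ _ e2 ?_
    have h2 : (9 * M : ℝ) ≤ 4 * l := by exact_mod_cast h.1
    have h3 : (l : ℝ) ≤ 3 * M := by exact_mod_cast h.2
    rw [M_eq] at h2 h3
    refine (J_le_mid h0 (by unfold r; linarith) (by unfold r; linarith)).trans
      (add_le_add (le_trans ?_ (r_div_succ (by norm_num [M]))) le_rfl)
    have h4 : 2 * l ≤ 9 * M := by omega
    have := mul_le_mul_of_nonneg_right le_PH (show (0 : ℝ) ≤ 9 * 16777216 - 2 * l by linarith)
    unfold r; push_cast [Nat.cast_sub h4]; rw [M_eq]; field_simp; linarith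

theorem dUp_spec {v : ℝ} (h0 : 0 < v) (h1 : v ≤ 1 / 2) (W : ℕ) : J v ≤ r (dUp W) + (r W - 64) * v := by
  have hO : r O = 64 := by unfold r; rw [O_eq]; norm_num
  unfold dUp
  rcases (Bool.eq_false_or_eq_true (Nat.ble W O)).symm with h | h
  · have h2 : O < W := not_le.1 fun h4 => by simp [Nat.ble_eq_true_of_le h4] at h
    have := dPos_spec h0 (Nat.sub_pos_of_lt h2)
    rw [r_sub h2.le, hO] at this
    rw [cond_f h, force_eq]; exact this
  · have h2 := Nat.le_of_ble_eq_true h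
    refine (J_le_neg h1 (by rw [← hO]; exact sub_nonpos.2 (r_le.2 h2))).trans (add_le_add ?_ le_rfl)
    have h3 := r_div_succ (a := O - W) (b := 2) (by norm_num)
    have h4 := r_sub h2
    rw [cond_t h, add_assoc, r_add, r_M]
    rw [hO] at h4
    have : ((O - W : ℕ) : ℝ) / (2 : ℕ) / 16777216 = r (O - W) / 2 := by unfold r; push_cast; ring
    linarith

structure In (B : Bx) (h a c b : ℝ) : Prop where
  h0 : r B.h0 ≤ h
  h1 : h ≤ r B.h1
  a0 : r B.a0 ≤ a
  a1 : a ≤ r B.a1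
  c0 : r B.c0 ≤ c
  c1 : c ≤ r B.c1
  b0 : r B.b0 ≤ b
  b1 : b ≤ r B.b1

theorem mono0 {x t φ : ℝ} (h0 : 0 ≤ φ) (h : x ≤ √(1 - t ^ 2) * φ) : x ≤ √(1 - 0 ^ 2) * φ :=
  h.trans (mul_le_mul_of_nonneg_right (sqrt_le_sqrt (by nlinarith [sq_nonneg t])) h0)

theorem leaf_spec (hE : HE) {Q : ℕ} {B : Bx} {D W U1 U2 : ℕ} (hl : leaf Q B D W U1 U2 = true)
    {h A v a b c : ℝ} {m Λ : ℝ → ℝ} (hM : Mod KS (r Q) h A v a b c m Λ) (hI : In B h a c b) :
    J v < A := by
  simp only [leaf, force_eq, Bool.and_eq_true, Nat.ble_eq, Nat.blt_eq] at hl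
  obtain ⟨⟨⟨⟨⟨hH, hbc⟩, hcM⟩, p2⟩, p1⟩, hr⟩ := hl
  set P : Pm := ⟨M - B.h0, B.h1, B.c0, B.c1, B.b1, B.a0, W, U1, U2⟩ with hP
  obtain ⟨y, I, ⟨-, κ, mκ, bd, d1, d2, d3⟩, hk⟩ := run_spec hE (P := P) hI.b1 hI.a0 hH hbc hcM hr
  simp only [Bool.and_eq_true, Nat.ble_eq, Nat.blt_eq] at hk
  have hay : a ≤ r y := hI.a1.trans (r_le.2 hk.1)
  have hH' : 0 < r (M - B.h0) := r_zero ▸ r_lt.2 hH
  have hQ : Q ≤ M := r_le.1 (r_M ▸ hM.q1.le)
  set κ' : ℝ → ℝ := fun μ => if μ ∈ ({r B.b0, r B.c0} : Set ℝ) then 0 else κ μ with hκ'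
  have m' : Measurable κ' := Measurable.ite
    (Set.toFinite ({r B.b0, r B.c0} : Set ℝ)).measurableSet measurable_const mκ
  have q1 : D1 P (r B.c0) 0 := by
    have := (ell_ge U1 W B.c0).trans (r2_le.2 p1)
    rw [r2_mul, r_M, one_mul] at this
    simpa [D1, C1, hP] using this.trans (lB_le hH hcM)
  have q2 : D2 P (r B.b0) 0 := by
    have := (ell_ge U2 W B.b0).trans (r2_le.2 p2)
    rw [r2_mul, r_M, one_mul] at this
    obtain ⟨i1, i2⟩ := idx_spec B.h1 B.b0 B.b0
    generalize idx B.h1 B.b0 B.b0 = i at *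
    have u := l2_le i (M - B.h0) B.h1 B.b0
    have e3 := (r_le.2 u.2.2).trans (lG_le hE i1 i2)
    simp only [D2, C2, hP, zero_pow two_ne_zero, sub_zero, sqrt_one, one_mul]
    exact ⟨this.trans ((r_le.2 u.1).trans (r_sq_PL _)),
      this.trans ((r_le.2 u.2.1).trans (lB_le hH (hbc.trans hcM))), i / 32, mem_KS i1,
      (r_nonneg _).trans e3, this.trans e3⟩
  have key := hM.calib (fun k hk => (KS_mem hk).1) (H := r (M - B.h0)) (h₁ := r B.h1)
    (lam := r W - 64) (c₁ := r U1 - 64) (c₂ := r U2 - 64) hH'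
    (by rw [r_sub (Nat.sub_pos_iff_lt.1 hH).le, r_M]; linarith [hI.h0]) hI.h1 m'
    (fun μ => by simp only [hκ']; split_ifs; · simp
                 · exact bd μ)
    (fun μ hμ => by
      have e0 : r B.c0 ≤ μ := hI.c0.trans hμ.1
      rcases e0.eq_or_lt with e | e
      · simp only [hκ']; rw [if_pos (by simp [e]), ← e]; exact q1
      · have : r B.b0 < μ := (r_le.2 hbc).trans_lt e
        simp only [hκ']; rw [if_neg (by simp [e.ne', this.ne'])]
        exact d1 μ e (hμ.2.trans hay))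
    (fun μ hμ => by
      have e0 : r B.b0 ≤ μ := hI.b0.trans hμ.1
      rcases e0.eq_or_lt with e | e
      · simp only [hκ']; rw [if_pos (by simp [e]), ← e]; exact q2
      · have e4 := d2 μ e (hμ.2.trans (hM.ca.trans hay)) (hμ.2.trans hI.c1)
        simp only [hκ']; split_ifs
        · obtain ⟨f1, f2, k, f3, f4, f5⟩ := e4
          exact ⟨mono0 (sqrt_nonneg _) f1,
            mono0 (lc_nonneg (by linarith [hμ.2, hM.ca, hM.sl.a1]) hH') f2, k, f3, f4, mono0 f4 f5⟩
        · exact e4)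
  have e1 : ∫ μ in Ioo b a, κ' μ = ∫ μ in Ioo b a ∩ Iic (r y), κ μ := by
    rw [inter_eq_left.2 (fun μ hμ => hμ.2.le.trans hay)]
    refine integral_congr_ae (ae_restrict_of_ae ?_)
    filter_upwards [((Set.toFinite ({r B.b0, r B.c0} : Set ℝ)).countable.ae_notMem volume)] with μ hμ
    simp only [hκ']; rw [if_neg hμ]
  have e2 := r2_lt.2 hk.2
  have hO : r O = 64 := by unfold r; rw [O_eq]; norm_num
  rw [r2_add, r2_add, mul_assoc, mul_assoc, r2_two, r2_two, r2_two, r2_add, r2_mul, r2_mul, r2_mul, r2_mul,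
    r_M, hO, r_sub hQ, r_M] at e2
  have e3 := dUp_spec hM.v0 hM.v1 W
  rw [e1] at key
  linarith

theorem clip_spec {B : Bx} {k : Bx → Bool} (hc : clip B k = true) {h a c b : ℝ} (hI : In B h a c b)
    (bc : b ≤ c) (ca : c ≤ a) : ∃ B', k B' = true ∧ In B' h a c b := by
  simp only [clip, force_eq, mn_eq, mx_eq] at hc
  have rmax : ∀ (x y : ℕ) (t : ℝ), r x ≤ t → r y ≤ t → r (max x y) ≤ t := fun x y t h1 h2 => by
    rcases max_choice x y with h | h <;> rw [h] <;> assumption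
  have rmin : ∀ (x y : ℕ) (t : ℝ), t ≤ r x → t ≤ r y → t ≤ r (min x y) := fun x y t h1 h2 => by
    rcases min_choice x y with h | h <;> rw [h] <;> assumption
  have c0 := rmax _ _ _ hI.c0 (hI.b0.trans bc)
  have c1 := rmin _ _ _ hI.c1 (ca.trans hI.a1)
  exact ⟨_, hc, hI.h0, hI.h1, rmax _ _ _ hI.a0 (c0.trans ca), hI.a1, c0, c1, hI.b0,
    rmin _ _ _ hI.b1 (bc.trans c1)⟩

theorem split_spec {d : ℕ} {l k : Bx → Bool} {B : Bx} (hc : split d l k B = true) {h a c b : ℝ}
    (hI : In B h a c b) (bc : b ≤ c) (ca : c ≤ a) :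
    ∃ B', (l B' = true ∨ k B' = true) ∧ In B' h a c b := by
  have two : ∀ (B1 B2 : Bx), (clip B1 l && clip B2 k) = true → In B1 h a c b ∨ In B2 h a c b →
      ∃ B', (l B' = true ∨ k B' = true) ∧ In B' h a c b := by
    intro B1 B2 h1 h2
    rw [Bool.and_eq_true] at h1
    rcases h2 with h2 | h2
    · obtain ⟨B', e1, e2⟩ := clip_spec h1.1 h2 bc ca; exact ⟨B', Or.inl e1, e2⟩
    · obtain ⟨B', e1, e2⟩ := clip_spec h1.2 h2 bc ca; exact ⟨B', Or.inr e1, e2⟩
  obtain ⟨h0, h1, a0, a1, c0, c1, b0, b1⟩ := hI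
  simp only [split, force_eq] at hc
  cases e0 : Nat.beq d 0
  · cases e1 : Nat.beq d 1
    · cases e2 : Nat.beq d 2
      · rw [e0, e1, e2] at hc
        exact two _ _ hc ((le_total b _).imp (fun e => ⟨h0, h1, a0, a1, c0, c1, b0, e⟩)
          fun e => ⟨h0, h1, a0, a1, c0, c1, e, b1⟩)
      · rw [e0, e1, e2] at hc
        exact two _ _ hc ((le_total c _).imp (fun e => ⟨h0, h1, a0, a1, c0, e, b0, b1⟩)
          fun e => ⟨h0, h1, a0, a1, e, c1, b0, b1⟩)
    · rw [e0, e1] at hc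
      exact two _ _ hc ((le_total a _).imp (fun e => ⟨h0, h1, a0, e, c0, c1, b0, b1⟩)
        fun e => ⟨h0, h1, e, a1, c0, c1, b0, b1⟩)
  · rw [e0] at hc
    exact two _ _ hc ((le_total h _).imp (fun e => ⟨h0, e, a0, a1, c0, c1, b0, b1⟩)
      fun e => ⟨e, h1, a0, a1, c0, c1, b0, b1⟩)

theorem chk_spec (hE : HE) {Q : ℕ} {h A v a b c : ℝ} {m Λ : ℝ → ℝ} (hM : Mod KS (r Q) h A v a b c m Λ)
    (t : T) : ∀ B, chk Q t B = true → In B h a c b → J v ≤ A ∧ (A ≤ J v → a = 1 ∧ b = 0) := by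
  induction t with
  | e =>
    intro B h1 hI
    have : B.c1 < B.c0 := Nat.blt_eq.mp h1
    exact absurd (hI.c0.trans hI.c1) (not_le.2 (r_lt.2 this))
  | n =>
    intro B h1 hI
    have h2 : (Nat.ble (M - 4096) B.a0 && Nat.ble B.b1 4096) = true := h1
    simp only [Bool.and_eq_true, Nat.ble_eq] at h2
    refine hM.sl.near hM.v0 hM.v1 (le_trans ?_ ((r_le.2 h2.1).trans hI.a0))
      ((hI.b1.trans (r_le.2 h2.2)).trans ?_) (hM.min_le ((r_nonneg _).trans hI.h0) ?_)
    · norm_num [r, M]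
    · norm_num [r]
    · simpa using mem_KS (i := 0) (by norm_num)
  | l D W U1 U2 =>
    intro B h1 hI
    have := leaf_spec hE h1 hM hI
    exact ⟨this.le, fun h2 => absurd h2 (not_le.2 this)⟩
  | s d l k ihl ihk =>
    intro B h1 hI
    obtain ⟨B', h2 | h2, h3⟩ := split_spec h1 hI hM.bc hM.ca
    · exact ihl B' h2 h3
    · exact ihk B' h2 h3

end Crest.Agent.R214.K
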