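import Crest.Agent.R214.Defs

/-!
# R214 / MCal : calibrations of the one-dimensional model, the function `lc`
-/

set_option autoImplicit false

open MeasureTheory Set Filter Real

namespace Crest.Agent.R214

theorem Sl.int_m {A v a b : ℝ} {m Λ : ℝ → ℝ} (h : Sl A v a b m Λ) : IntegrableOn m (Ioo 0 1) := by
  refine Measure.integrableOn_of_bounded (M := 1) (by simp) h.mm.aestronglyMeasurable ?_
  filter_upwards [ae_restrict_mem measurableSet_Ioo] with s hs
  have := h.mem s hs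
  rw [Real.norm_eq_abs, abs_le]
  constructor <;> linarith [h.b0, h.a1]

theorem Sl.ba {A v a b : ℝ} {m Λ : ℝ → ℝ} (h : Sl A v a b m Λ) : b ≤ a := by
  have := h.mem (1 / 2) ⟨by norm_num, by norm_num⟩
  linarith

/-- the calibration inequality -/
theorem Sl.calib {A v a b : ℝ} {m Λ : ℝ → ℝ} (h : Sl A v a b m Λ) (κ : ℝ → ℝ) (hκ : Measurable κ)
    (hκ1 : ∀ μ, |κ μ| ≤ 1) (p c1 c2 l : ℝ) (hp0 : 0 ≤ p) (hp1 : p ≤ 1)
    (h1 : ∀ᵐ s ∂(volume.restrict (Ioo (0 : ℝ) p)), c1 + l * m s ≤ √(1 - κ (m s) ^ 2) * Λ s)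
    (h2 : ∀ᵐ s ∂(volume.restrict (Ioo p 1)), c2 + l * m s ≤ √(1 - κ (m s) ^ 2) * Λ s) :
    (∫ μ in Ioo b a, κ μ) + (c1 * p + c2 * (1 - p) + l * v) ≤ A := by
  have hk2 : ∀ μ, 0 ≤ 1 - κ μ ^ 2 := fun μ => by
    have := sq_le_one_iff_abs_le_one (κ μ) |>.2 (hκ1 μ); linarith
  set α : ℝ → ℝ := fun s => √(1 - κ (m s) ^ 2) with hα
  have hαm : Measurable α := by
    have := h.mm
    fun_prop
  have key := h.model κ α hκ hαm hκ1 (fun s _ => by
    simp only [hα]; rw [Real.sq_sqrt (hk2 _)]; linarith)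
  have hint : IntegrableOn (fun s => α s * Λ s) (Ioo 0 1) := by
    refine Measure.integrableOn_of_bounded (M := 2) (by simp)
      (hαm.mul h.Lm).aestronglyMeasurable (ae_of_all _ fun s => ?_)
    rw [Real.norm_eq_abs, abs_mul]
    have h3 : |α s| ≤ 1 := by
      rw [abs_of_nonneg (Real.sqrt_nonneg _)]
      exact Real.sqrt_le_one.2 (by nlinarith [sq_nonneg (κ (m s))])
    nlinarith [h.Lb s, abs_nonneg (Λ s), abs_nonneg (α s)]
  have split : ∀ f : ℝ → ℝ, IntegrableOn f (Ioo 0 1) →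
      ∫ s in Ioo (0 : ℝ) 1, f s = (∫ s in Ioo (0 : ℝ) p, f s) + ∫ s in Ioo p 1, f s := by
    intro f hf
    have e : ∀ x y : ℝ, x ≤ y → ∫ s in Ioo x y, f s = ∫ s in x..y, f s := fun x y hxy => by
      rw [intervalIntegral.integral_of_le hxy, integral_Ioc_eq_integral_Ioo]
    rw [e _ _ zero_le_one, e _ _ hp0, e _ _ hp1, intervalIntegral.integral_add_adjacent_intervals]
    · exact (intervalIntegrable_iff_integrableOn_Ioo_of_le hp0).2
        (hf.mono_set (Ioo_subset_Ioo le_rfl hp1))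
    · exact (intervalIntegrable_iff_integrableOn_Ioo_of_le hp1).2
        (hf.mono_set (Ioo_subset_Ioo hp0 le_rfl))
  have part : ∀ x y c : ℝ, 0 ≤ x → x ≤ y → y ≤ 1 →
      (∀ᵐ s ∂(volume.restrict (Ioo x y)), c + l * m s ≤ α s * Λ s) →
      c * (y - x) + l * ∫ s in Ioo x y, m s ≤ ∫ s in Ioo x y, α s * Λ s := by
    intro x y c hx hxy hy H
    have hm : IntegrableOn m (Ioo x y) := h.int_m.mono_set (Ioo_subset_Ioo hx hy)
    have hc : IntegrableOn (fun _ : ℝ => c) (Ioo x y) := integrableOn_const (by simp)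
    have := integral_mono_ae (hc.add (hm.const_mul l)) (hint.mono_set (Ioo_subset_Ioo hx hy)) H
    rw [integral_add' hc (hm.const_mul l), integral_const_mul] at this
    simp only [integral_const, MeasurableSet.univ, measureReal_restrict_apply, univ_inter,
      Real.volume_real_Ioo_of_le hxy, smul_eq_mul] at this
    linarith
  have p1 := part 0 p c1 le_rfl hp0 hp1 h1
  have p2 := part p 1 c2 hp0 hp1 le_rfl h2
  have e1 := split _ hint
  have e2 := split _ h.int_m
  rw [h.vol] at e2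
  rw [e2]
  linarith

/-! ## the function `lc` -/

theorem sqrt_pi_le {x w : ℝ} (hx : 0 ≤ x) (hw : 0 < w) : √(π * x) ≤ x / w + π * w / 4 := by
  have hp := pi_pos
  rw [Real.sqrt_le_left (by positivity)]
  have : (x / w + π * w / 4) ^ 2 = π * x + (x / w - π * w / 4) ^ 2 := by field_simp; ring
  rw [this]; nlinarith [sq_nonneg (x / w - π * w / 4)]

theorem m_lc_le {x H w : ℝ} (hx : 0 ≤ x) (hw : 0 < w) (hH : w ≤ H) : lc x H ≤ x / w + π * w / 4 := by
  have hp := pi_pos
  unfold lc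
  split_ifs with h
  · exact sqrt_pi_le hx hw
  · have hH0 : 0 < H := by linarith
    rw [not_le] at h
    have : x / w + π * w / 4 - (x / H + π * H / 4) = (H - w) * (x - π * w * H / 4) / (w * H) := by
      field_simp; ring
    have h2 : 0 ≤ (H - w) * (x - π * w * H / 4) / (w * H) := by
      apply div_nonneg _ (by positivity)
      apply mul_nonneg (by linarith)
      have : π * w * H ≤ π * H * H := by gcongr
      nlinarith
    linarith

theorem lc_eq {x H : ℝ} (hx : 0 < x) (hH : 0 < H) :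
    ∃ w, 0 < w ∧ w ≤ H ∧ lc x H = x / w + π * w / 4 := by
  have hp := pi_pos
  unfold lc
  split_ifs with h
  · have hs : 0 < √(π * x) := Real.sqrt_pos.2 (by positivity)
    have hq : √(π * x) ^ 2 = π * x := Real.sq_sqrt (by positivity)
    refine ⟨2 * √(π * x) / π, by positivity, ?_, ?_⟩
    · rw [div_le_iff₀ hp]
      have : √(π * x) ≤ π * H / 2 := by
        rw [Real.sqrt_le_left (by positivity)]; nlinarith
      linarith
    · field_simp
      nlinarith
  · exact ⟨H, hH, le_rfl, rfl⟩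

theorem m_sqrt_le_lc {x H : ℝ} (hx : 0 ≤ x) (hH : 0 < H) : √(π * x) ≤ lc x H := by
  unfold lc
  split_ifs
  · exact le_rfl
  · exact sqrt_pi_le hx hH

theorem m_lc_nonneg {x H : ℝ} (hx : 0 ≤ x) (hH : 0 < H) : 0 ≤ lc x H :=
  (Real.sqrt_nonneg _).trans (m_sqrt_le_lc hx hH)

theorem lc_two {x : ℝ} (hx : x ≤ 1) : lc x 2 = √(π * x) := by
  unfold lc
  rw [if_pos (by nlinarith [pi_gt_three])]

/-- `lc · H` is concave -/
theorem lc_interp {x0 x x1 H α c l : ℝ} (h0 : 0 ≤ x0) (h1 : x0 ≤ x) (h2 : x ≤ x1) (hH : 0 < H)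
    (hα : 0 ≤ α) (e0 : c + l * x0 ≤ α * lc x0 H) (e1 : c + l * x1 ≤ α * lc x1 H) :
    c + l * x ≤ α * lc x H := by
  rcases eq_or_lt_of_le h1 with rfl | h1'
  · exact e0
  obtain ⟨w, hw, hwH, e⟩ := lc_eq (lt_of_le_of_lt h0 h1') hH
  have f0 := e0.trans (mul_le_mul_of_nonneg_left (m_lc_le h0 hw hwH) hα)
  have f1 := e1.trans (mul_le_mul_of_nonneg_left (m_lc_le (by linarith) hw hwH) hα)
  rw [e]
  have r : ∀ y, α * (y / w + π * w / 4) - (c + l * y) = (α * (π * w / 4) - c) + (α / w - l) * y := by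
    intro y; ring
  have r0 := r x0; have r1 := r x1; have r2 := r x
  rcases le_total 0 (α / w - l) with hs | hs
  · nlinarith [mul_le_mul_of_nonneg_left h1 hs]
  · nlinarith [mul_le_mul_of_nonpos_left h2 hs]

end Crest.Agent.R214
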