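import Crest.Agent.R214.MChk

/-!
# R214 / MNat : what the checker's loop establishes, at the level of integers
-/

set_option autoImplicit false

namespace Crest.Agent.R214

theorem frc_eq' {γ : Type} (n : ℕ) (f : ℕ → γ) : frc n f = f n := (frc_eq n f).trans rfl

theorem cR_ble {γ : Type} (a b : ℕ) (x y : γ) : cR (Nat.ble a b) x y = if a ≤ b then x else y := by
  split_ifs with h
  · rw [Nat.ble_eq_true_of_le h]; rfl
  · rw [Bool.eq_false_iff.2 fun hn => h (Nat.le_of_ble_eq_true hn)]; rfl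

theorem cR_beq {γ : Type} (a b : ℕ) (x y : γ) : cR (Nat.beq a b) x y = if a = b then x else y := by
  split_ifs with h
  · rw [h, Nat.beq_refl]; rfl
  · rw [Bool.eq_false_iff.2 fun hn => h (Nat.eq_of_beq_eq_true hn)]; rfl

theorem mx_eq (a b : ℕ) : mx a b = max a b := by
  show a + (b - a) = max a b
  omega

theorem mn_eq (a b : ℕ) : mn a b = min a b := by
  show a - (a - b) = min a b
  omega

theorem cq_eq (n E : ℕ) : cq n E = n ^ 2 * 16777216 / E + 1 := by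
  show (n ^ 2) <<< 24 / E + 1 = _
  rw [Nat.shiftLeft_eq]

theorem sq1_eq (L : ℕ) : sq1 L = L ^ 2 / 16777216 * 16777216 + 1 := by
  show ((L ^ 2) >>> 24) <<< 24 + 1 = _
  rw [Nat.shiftLeft_eq, Nat.shiftRight_eq_div_pow]

theorem co_eq (x : ℕ) : co x = 215872438272 * x + 1 := rfl

theorem dh_eq (Hn zt hc x : ℕ) : dh Hn zt hc x =
    if zt ≤ 4096 - x then sq1 ((4096 - x) * 16777216 / Hn + hc) else co (4096 - x) := by
  rw [dh, frc_eq, cR_ble]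
  show (if zt ≤ 4096 - x then sq1 ((4096 - x) <<< 24 / Hn + hc) else co (4096 - x)) = _
  rw [Nat.shiftLeft_eq]

theorem ds_eq (E I hs x : ℕ) :
    ds E I hs x = sq1 (et E (it I (x - hs)) + it I (x - hs) * (x - hs) * 128) := by
  show sq1 (et E (it I (x - hs)) + (it I (x - hs) * (x - hs)) <<< 7) = _
  rw [Nat.shiftLeft_eq]

theorem nv_eq (l c x : ℕ) : nv l c x = c + l * x - (8192 + x) * 32768 := by
  show c + l * x - (8192 + x) <<< 15 = _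
  rw [Nat.shiftLeft_eq]

def Fm (E : ℕ) : Prop := ∃ D, E = D * 16777216 + 1

theorem fm_sq1 (L : ℕ) : Fm (sq1 L) := ⟨_, sq1_eq L⟩
theorem fm_co (x : ℕ) : Fm (co x) := ⟨12867 * x, by rw [co_eq]; ring⟩
theorem fm_dh (Hn zt hc x : ℕ) : Fm (dh Hn zt hc x) := by
  rw [dh_eq]; split_ifs; exacts [fm_sq1 _, fm_co _]
theorem fm_ds (E I hs x : ℕ) : Fm (ds E I hs x) := by rw [ds_eq]; exact fm_sq1 _
theorem Fm.mn {a b : ℕ} (ha : Fm a) (hb : Fm b) : Fm (mn a b) := by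
  rw [mn_eq]; rcases min_choice a b with h | h <;> rw [h] <;> assumption

/-- `n² ≤ Q (E - 1) / 2^24` -/
def Nd (n E Q : ℕ) : Prop := n ^ 2 * 16777216 + Q ≤ Q * E

theorem Nd.mono {n E E' Q : ℕ} (h : Nd n E Q) (hE : E ≤ E') : Nd n E' Q :=
  le_trans h (Nat.mul_le_mul_left _ hE)

theorem cq_nd {n E Q : ℕ} (hE : Fm E) (h : cq n E ≤ Q) (hQ : Q ≤ 16777216) : Nd n E Q := by
  obtain ⟨D, rfl⟩ := hE
  rw [cq_eq] at h
  have h1 : n ^ 2 * 16777216 < Q * (D * 16777216 + 1) :=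
    (Nat.div_lt_iff_lt_mul (by omega)).1 (by omega)
  have e : Q * (D * 16777216 + 1) = Q * D * 16777216 + Q := by ring
  unfold Nd
  rw [e] at h1 ⊢
  generalize n ^ 2 = N at *
  generalize Q * D = P at *
  omega

theorem mn_sq (T y : ℕ) : mn y (Nat.div T y) ^ 2 ≤ T := by
  have e : Nat.div T y = T / y := rfl
  rw [mn_eq, e, sq]
  exact (Nat.mul_le_mul (min_le_left _ _) (min_le_right _ _)).trans (Nat.mul_div_le T y)

theorem shl_eq (a : ℕ) : Nat.shiftLeft a (nat_lit 24) = a * 16777216 := Nat.shiftLeft_eq a 24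

theorem nw_spec {Q y acc : ℕ} {k : ℕ → ℕ → Bool} (h : nw Q y acc k = true) (hQ : Q ≤ 16777216) :
    ∃ y' β, Q * 16777216 + β ^ 2 ≤ 16777216 ^ 2 ∧ k y' (acc + β) = true := by
  unfold nw at h
  rw [frc_eq, frc_eq, frc_eq, frc_eq] at h
  refine ⟨_, _, ?_, h⟩
  refine le_trans (Nat.add_le_add_left (mn_sq _ _) _) ?_
  rw [shl_eq]
  have e : Nat.sub (nat_lit 16777216) Q = 16777216 - Q := rfl
  rw [e]
  omega

theorem tl_spec {p2s r1 x x' y acc Q : ℕ} {k : ℕ → ℕ → Bool}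
    (h : tl p2s r1 x x' y acc Q k false = true) :
    Q ≤ 16777216 ∧ ∃ y' β, Q * 16777216 + β ^ 2 ≤ 16777216 ^ 2 ∧ (β ≠ 0 → p2s ≤ x ∧ x' ≤ r1) ∧
      k y' (acc + β) = true := by
  simp only [tl, cR_ble] at h
  split_ifs at h with h1 h2 h3
  · obtain ⟨y', β, a, b⟩ := nw_spec h h1
    exact ⟨h1, y', β, a, fun _ => ⟨h2, h3⟩, b⟩
  · exact ⟨h1, y, 0, by omega, fun hn => absurd rfl hn, h⟩
  · exact ⟨h1, y, 0, by omega, fun hn => absurd rfl hn, h⟩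

theorem sg1_spec {g l c1 q1s x' dr u1 Q : ℕ} {k : ℕ → ℕ → Bool}
    (h : sg1 g l c1 q1s x' dr u1 Q k = true) :
    ∃ v1 Q', k v1 Q' = true ∧ Q ≤ Q' ∧ (q1s ≤ x' + g → cq (nv l c1 x') dr ≤ v1) ∧
      (q1s ≤ x' → u1 ≤ Q' ∧ cq (nv l c1 x') dr ≤ Q') := by
  simp only [sg1, cR_ble, frc_eq, Nat.add_eq] at h
  split_ifs at h with h1 h2
  · refine ⟨_, _, h, ?_, fun _ => le_rfl, fun _ => ?_⟩ <;> simp only [mx_eq] <;> omega
  · exact ⟨_, _, h, le_rfl, fun _ => le_rfl, fun hn => absurd hn h2⟩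
  · exact ⟨_, _, h, le_rfl, fun hn => absurd hn h1, fun hn => absurd (by omega) h1⟩

section loop

variable (E I Hn zt hc hs g l c1 c2 p2s q1s q2 r1 : ℕ)

noncomputable def E2 (x x' : ℕ) : ℕ := mn (mn (dh Hn zt hc x') (co x')) (ds E I hs x)

theorem fm_E2 (x x' : ℕ) : Fm (E2 E I Hn zt hc hs x x') := ((fm_dh ..).mn (fm_co _)).mn (fm_ds ..)

def Cell (x β : ℕ) : Prop :=
  ∃ Q, Q * 16777216 + β ^ 2 ≤ 16777216 ^ 2 ∧
    (x ≤ q2 → (∃ x0 ≤ x, Nd (nv l c2 x) (E2 E I Hn zt hc hs x0 x) Q) ∧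
      Nd (nv l c2 (x + g)) (E2 E I Hn zt hc hs x (x + g)) Q) ∧
    (q1s ≤ x + g → Nd (nv l c1 x) (dh Hn zt hc x) Q ∧ Nd (nv l c1 (x + g)) (dh Hn zt hc (x + g)) Q) ∧
    (β ≠ 0 → p2s ≤ x ∧ x + g ≤ r1)

def Inv (x u1 u2 : ℕ) : Prop :=
  (q1s ≤ x + g → cq (nv l c1 x) (dh Hn zt hc x) ≤ u1) ∧
    (x ≤ q2 → ∃ x0 ≤ x, cq (nv l c2 x) (E2 E I Hn zt hc hs x0 x) ≤ u2)

theorem loop_step (fin : ℕ → Bool) (n x y acc u1 u2 : ℕ)
    (hI : Inv E I Hn zt hc hs g l c1 c2 q1s q2 x u1 u2)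
    (h : loop E I Hn zt hc hs g l c1 c2 p2s q1s q2 r1 fin (n + 1) x y acc u1 u2 = true) :
    ∃ y' β v1 v2, Cell E I Hn zt hc hs g l c1 c2 p2s q1s q2 r1 x β ∧
      Inv E I Hn zt hc hs g l c1 c2 q1s q2 (x + g) v1 v2 ∧
      loop E I Hn zt hc hs g l c1 c2 p2s q1s q2 r1 fin n (x + g) y' (acc + β) v1 v2 = true := by
  have e : loop E I Hn zt hc hs g l c1 c2 p2s q1s q2 r1 fin (n + 1) x y acc u1 u2 =
      cR (Nat.ble x q2)
        (sg1 g l c1 q1s (x + g) (dh Hn zt hc (x + g)) u1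
          (mx u2 (cq (nv l c2 (x + g)) (E2 E I Hn zt hc hs x (x + g)))) fun v1 Q =>
          tl p2s r1 x (x + g) y acc Q (fun y' acc' => loop E I Hn zt hc hs g l c1 c2 p2s q1s q2 r1 fin n
            (x + g) y' acc' v1 (cq (nv l c2 (x + g)) (E2 E I Hn zt hc hs x (x + g)))) false)
        (sg1 g l c1 q1s (x + g) (dh Hn zt hc (x + g)) u1 0 fun v1 Q =>
          tl p2s r1 x (x + g) y acc Q (fun y' acc' => loop E I Hn zt hc hs g l c1 c2 p2s q1s q2 r1 fin n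
            (x + g) y' acc' v1 0) false) := rfl
  rw [e, cR_ble] at h
  split_ifs at h with h2
  · obtain ⟨v1, Q, hk, a1, a2, a3⟩ := sg1_spec h
    obtain ⟨hQ, y', β, b1, b2, b3⟩ := tl_spec hk
    rw [mx_eq] at a1
    obtain ⟨x0, hx0, i2⟩ := hI.2 h2
    refine ⟨y', β, v1, _, ⟨Q, b1, fun _ => ⟨⟨x0, hx0, ?_⟩, ?_⟩, fun hq => ⟨?_, ?_⟩, b2⟩,
      ⟨a2, fun _ => ⟨x, by omega, le_rfl⟩⟩, b3⟩
    · exact cq_nd (fm_E2 ..) (by omega) hQ
    · exact cq_nd (fm_E2 ..) (by omega) hQ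
    · exact cq_nd (fm_dh ..) ((hI.1 hq).trans (a3 hq).1) hQ
    · exact cq_nd (fm_dh ..) (a3 hq).2 hQ
  · obtain ⟨v1, Q, hk, a1, a2, a3⟩ := sg1_spec h
    obtain ⟨hQ, y', β, b1, b2, b3⟩ := tl_spec hk
    refine ⟨y', β, v1, _, ⟨Q, b1, fun hn => absurd hn h2, fun hq => ⟨?_, ?_⟩, b2⟩,
      ⟨a2, fun hn => absurd (by omega) h2⟩, b3⟩
    · exact cq_nd (fm_dh ..) ((hI.1 hq).trans (a3 hq).1) hQ
    · exact cq_nd (fm_dh ..) (a3 hq).2 hQ

theorem loop_spec (fin : ℕ → Bool) (n : ℕ) : ∀ x y acc u1 u2 : ℕ,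
    Inv E I Hn zt hc hs g l c1 c2 q1s q2 x u1 u2 →
    loop E I Hn zt hc hs g l c1 c2 p2s q1s q2 r1 fin n x y acc u1 u2 = true →
    ∃ β : ℕ → ℕ, fin (acc + ∑ j ∈ Finset.range n, β j) = true ∧
      ∀ j < n, Cell E I Hn zt hc hs g l c1 c2 p2s q1s q2 r1 (x + g * j) (β j) := by
  induction n with
  | zero => exact fun x y acc u1 u2 _ h => ⟨fun _ => 0, h, fun j hj => absurd hj (by omega)⟩
  | succ n ih =>
    intro x y acc u1 u2 hI h
    obtain ⟨y', β0, v1, v2, a, b, c⟩ := loop_step E I Hn zt hc hs g l c1 c2 p2s q1s q2 r1 fin n x y acc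
      u1 u2 hI h
    obtain ⟨β, d, f⟩ := ih _ _ _ _ _ b c
    refine ⟨fun j => Nat.casesOn j β0 β, ?_, fun j hj => ?_⟩
    · rw [Finset.sum_range_succ', ← d]
      congr 1
      show acc + (∑ j ∈ Finset.range n, β j + β0) = _
      omega
    · cases j with
      | zero => exact a
      | succ j =>
        have := f j (by omega)
        rwa [show x + g + g * j = x + g * (j + 1) by ring] at this

end loop

theorem leaf_spec {Hn hs pn p1 p2 q1 q2 r1 r2 l c1 c2 md g : ℕ}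
    (h : leaf Hn hs pn p1 p2 q1 q2 r1 r2 l c1 c2 md g = true) :
    1 ≤ g ∧ g * (r2 / g + 1) ≤ 4096 ∧ ∃ β : ℕ → ℕ,
      jup l md + 1099511627777 ≤
        (∑ j ∈ Finset.range (r2 / g + 1 - p1 / g), β j) * g + c1 * pn + c2 * (4096 - pn) ∧
      ∀ j < r2 / g + 1 - p1 / g, Cell ETAB ITAB Hn (12868 * Hn * Hn / 67108864 + 1) (12867 * Hn / 4) hs g l
        c1 c2 (p2 + 1) (q1 + 1) q2 r1 (g * (p1 / g) + g * j) (β j) := by
  have e : leaf Hn hs pn p1 p2 q1 q2 r1 r2 l c1 c2 md g =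
      cR (Nat.ble 1 g) (cR (Nat.ble (g * (r2 / g + 1)) 4096)
        (loop ETAB ITAB Hn (12868 * Hn * Hn / 67108864 + 1) (12867 * Hn / 4) hs g l c1 c2 (p2 + 1) (q1 + 1)
          q2 r1 (fun acc => Nat.ble (jup l md + 1099511627777) (acc * g + c1 * pn + c2 * (4096 - pn)))
          (r2 / g + 1 - p1 / g) (g * (p1 / g)) 16777216 0
          (cq (nv l c1 (g * (p1 / g)))
            (dh Hn (12868 * Hn * Hn / 67108864 + 1) (12867 * Hn / 4) (g * (p1 / g))))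
          (cq (nv l c2 (g * (p1 / g))) (E2 ETAB ITAB Hn (12868 * Hn * Hn / 67108864 + 1) (12867 * Hn / 4) hs
            (g * (p1 / g)) (g * (p1 / g))))) false) false := by
    unfold leaf nd2 E2
    simp only [frc_eq']
  rw [e, cR_ble, cR_ble] at h
  generalize 12868 * Hn * Hn / 67108864 + 1 = zt at *
  generalize 12867 * Hn / 4 = hc at *
  generalize ETAB = E at *
  generalize ITAB = I at *
  split_ifs at h with h1 h2
  obtain ⟨β, a, b⟩ := loop_spec E I Hn zt hc hs g l c1 c2 (p2 + 1) (q1 + 1) q2 r1 _ _ _ _ _ _ _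
    ⟨fun _ => le_rfl, fun _ => ⟨_, le_rfl, le_rfl⟩⟩ h
  refine ⟨h1, h2, β, ?_, b⟩
  rw [Nat.zero_add] at a
  exact Nat.le_of_ble_eq_true a

end Crest.Agent.R214
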