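import Crest.Agent.R214.MJ
import Crest.Agent.R214.MNat

/-!
# R214 / MCell : from the integer inequalities of a cell to the pointwise calibration inequality
-/

set_option autoImplicit false

open MeasureTheory Set Filter Real

namespace Crest.Agent.R214

noncomputable def lamR (l : ℕ) : ℝ := ((l : ℝ) - 32768) / 4096
noncomputable def cR' (c : ℕ) : ℝ := ((c : ℝ) - 268435456) / 16777216

theorem nv_ge (l c x : ℕ) : 16777216 * (cR' c + lamR l * (x / 4096)) ≤ nv l c x := by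
  rw [nv_eq]
  have h : c + l * x ≤ (c + l * x - (8192 + x) * 32768) + (8192 + x) * 32768 := by omega
  have h' : ((c + l * x : ℕ) : ℝ) ≤
      (((c + l * x - (8192 + x) * 32768) + (8192 + x) * 32768 : ℕ) : ℝ) := Nat.cast_le.2 h
  generalize c + l * x - (8192 + x) * 32768 = N at *
  push_cast at h'
  unfold cR' lamR
  linarith

theorem Nd.real {n E Q : ℕ} (h : Nd n E Q) {N α L : ℝ} (hN : 16777216 * N ≤ n) (hα : 0 ≤ α) (hL : 0 ≤ L)
    (hQ : (Q : ℝ) ≤ 16777216 * α ^ 2) (hE : (E : ℝ) ≤ 16777216 ^ 2 * L ^ 2 + 1) : N ≤ α * L := by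
  have h' : ((n ^ 2 * 16777216 + Q : ℕ) : ℝ) ≤ ((Q * E : ℕ) : ℝ) := Nat.cast_le.2 h
  push_cast at h'
  have hQ0 : (0 : ℝ) ≤ Q := Nat.cast_nonneg _
  have h1 : (Q : ℝ) * E ≤ Q * (16777216 ^ 2 * L ^ 2 + 1) := mul_le_mul_of_nonneg_left hE hQ0
  have h2 : (Q : ℝ) * L ^ 2 ≤ 16777216 * α ^ 2 * L ^ 2 := mul_le_mul_of_nonneg_right hQ (sq_nonneg _)
  have h3 : (n : ℝ) ^ 2 ≤ (16777216 * (α * L)) ^ 2 := by nlinarith
  have h4 := (pow_le_pow_iff_left₀ (Nat.cast_nonneg n) (by positivity) two_ne_zero).1 h3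
  linarith

theorem sq1_le' (L : ℕ) : sq1 L ≤ L ^ 2 + 1 :=
  (sq1_eq L).le.trans (Nat.add_le_add_right (Nat.div_mul_le_self _ _) 1)

theorem sq1_le {L : ℕ} {y : ℝ} (h : (L : ℝ) ≤ 16777216 * y) : (sq1 L : ℝ) ≤ 16777216 ^ 2 * y ^ 2 + 1 := by
  have h1 := sq1_le' L
  generalize sq1 L = s at h1
  have h2 : (s : ℝ) ≤ (L : ℝ) ^ 2 + 1 := by exact_mod_cast h1
  have h3 : (L : ℝ) ^ 2 ≤ (16777216 * y) ^ 2 := pow_le_pow_left₀ (Nat.cast_nonneg _) h 2
  rw [mul_pow] at h3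
  linarith

theorem pi_lo : (12867 : ℝ) ≤ 4096 * π := by linarith [pi_gt_d4]
theorem pi_hi : 4096 * π ≤ (12868 : ℝ) := by linarith [pi_lt_d4]

theorem co_le (x : ℕ) {H : ℝ} (hH : 0 < H) : (co x : ℝ) ≤ 16777216 ^ 2 * lc (x / 4096) H ^ 2 + 1 := by
  have hx : (0 : ℝ) ≤ x / 4096 := by positivity
  have h1 := pow_le_pow_left₀ (Real.sqrt_nonneg _) (m_sqrt_le_lc hx hH) 2
  rw [Real.sq_sqrt (by positivity)] at h1
  rw [co_eq]
  push_cast
  have := mul_le_mul_of_nonneg_right pi_lo (Nat.cast_nonneg x : (0 : ℝ) ≤ x)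
  nlinarith

theorem dh_le {Hn x : ℕ} (hH : 0 < Hn) (hx : x ≤ 4096) :
    (dh Hn (12868 * Hn * Hn / 67108864 + 1) (12867 * Hn / 4) x : ℝ) ≤
      16777216 ^ 2 * lc (1 - x / 4096) (Hn / 4096) ^ 2 + 1 := by
  have hH' : (0 : ℝ) < Hn := Nat.cast_pos.2 hH
  have e : (1 : ℝ) - x / 4096 = ((4096 - x : ℕ) : ℝ) / 4096 := by
    rw [Nat.cast_sub hx]; push_cast; ring
  rw [dh_eq, e]
  generalize 4096 - x = z
  split_ifs with h
  · apply sq1_le
    have h1 : 12868 * Hn * Hn < z * 67108864 := (Nat.div_lt_iff_lt_mul (by norm_num)).1 (by omega)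
    have h2 : ((12868 * Hn * Hn : ℕ) : ℝ) < ((z * 67108864 : ℕ) : ℝ) := Nat.cast_lt.2 h1
    push_cast at h2
    have h3 : ¬ ((z : ℝ) / 4096 ≤ π * ((Hn : ℝ) / 4096) ^ 2 / 4) := by
      have := mul_le_mul_of_nonneg_right pi_hi (mul_pos hH' hH').le
      intro hn
      nlinarith
    rw [lc, if_neg h3]
    have a1 : ((z * 16777216 / Hn : ℕ) : ℝ) ≤ ((z * 16777216 : ℕ) : ℝ) / Hn := Nat.cast_div_le
    have a2 : ((12867 * Hn / 4 : ℕ) : ℝ) ≤ ((12867 * Hn : ℕ) : ℝ) / ((4 : ℕ) : ℝ) := Nat.cast_div_le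
    have a3 := mul_le_mul_of_nonneg_right pi_lo hH'.le
    have a4 : (z : ℝ) / 4096 / (Hn / 4096) = z / Hn := by field_simp
    have a5 : (z : ℝ) * 16777216 / Hn = 16777216 * (z / Hn) := by ring
    rw [Nat.cast_add, a4]
    push_cast at a1 a2
    linarith
  · exact co_le z (by positivity)

theorem ds_le {hs x : ℕ} {μ L : ℝ} (hx : (x : ℝ) / 4096 ≤ μ)
    (hL : ∀ i : ℕ, i < 32 → Ek (i / 32) + i / 32 * (μ - hs / 4096) ≤ L) :
    (ds ETAB ITAB hs x : ℝ) ≤ 16777216 ^ 2 * L ^ 2 + 1 := by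
  rw [ds_eq]
  apply sq1_le
  have h1 := hL _ (it_lt ITAB (x - hs))
  have h2 := et_le (it_lt ITAB (x - hs))
  rcases le_total x hs with h | h
  · rw [Nat.sub_eq_zero_of_le h, it_zero] at *
    push_cast at *
    linarith
  · generalize it ITAB (x - hs) = i at *
    have h3 : (i : ℝ) * ((x - hs) / 4096) ≤ i * (μ - hs / 4096) :=
      mul_le_mul_of_nonneg_left (by linarith) (Nat.cast_nonneg _)
    rw [Nat.cast_add, Nat.cast_mul, Nat.cast_mul, Nat.cast_sub h]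
    push_cast
    linarith

theorem E2_le1 (E I Hn zt hc hs x x' : ℕ) : E2 E I Hn zt hc hs x x' ≤ dh Hn zt hc x' := by
  simp only [E2, mn_eq]; omega
theorem E2_le2 (E I Hn zt hc hs x x' : ℕ) : E2 E I Hn zt hc hs x x' ≤ co x' := by
  simp only [E2, mn_eq]; omega
theorem E2_le3 (E I Hn zt hc hs x x' : ℕ) : E2 E I Hn zt hc hs x x' ≤ ds E I hs x := by
  simp only [E2, mn_eq]; omega

section
variable {Hn hs l c x g Q : ℕ} {μ α : ℝ}

theorem cell_hole (hH : 0 < Hn) (hg : x + g ≤ 4096) (h0 : (x : ℝ) ≤ 4096 * μ)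
    (h1 : 4096 * μ ≤ x + g) (hα : 0 ≤ α) (hQ : (Q : ℝ) ≤ 16777216 * α ^ 2)
    (a : Nd (nv l c x) (dh Hn (12868 * Hn * Hn / 67108864 + 1) (12867 * Hn / 4) x) Q)
    (b : Nd (nv l c (x + g)) (dh Hn (12868 * Hn * Hn / 67108864 + 1) (12867 * Hn / 4) (x + g)) Q) :
    cR' c + lamR l * μ ≤ α * lc (1 - μ) (Hn / 4096) := by
  have hH' : (0 : ℝ) < Hn / 4096 := by have : (0 : ℝ) < Hn := Nat.cast_pos.2 hH; positivity
  have hg' : ((x + g : ℕ) : ℝ) ≤ ((4096 : ℕ) : ℝ) := Nat.cast_le.2 hg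
  have hg0 : (0 : ℝ) ≤ g := Nat.cast_nonneg _
  have a' := a.real (nv_ge l c x) hα (m_lc_nonneg (by push_cast at hg'; linarith) hH') hQ
    (dh_le hH (by omega))
  have b' := b.real (nv_ge l c (x + g)) hα (m_lc_nonneg (by push_cast at hg' ⊢; linarith) hH') hQ
    (dh_le hH hg)
  push_cast at hg' b'
  have := lc_interp (x0 := 1 - ((x : ℝ) + g) / 4096) (x := 1 - μ) (x1 := 1 - (x : ℝ) / 4096)
    (c := cR' c + lamR l) (l := -lamR l) (by linarith) (by linarith) (by linarith) hH' hα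
    (by linarith) (by linarith)
  linarith

theorem cell_corner (hμ : μ ≤ 1) (h0 : (x : ℝ) ≤ 4096 * μ)
    (h1 : 4096 * μ ≤ x + g) (hα : 0 ≤ α) (hQ : (Q : ℝ) ≤ 16777216 * α ^ 2)
    (a : Nd (nv l c x) (co x) Q) (b : Nd (nv l c (x + g)) (co (x + g)) Q) :
    cR' c + lamR l * μ ≤ α * √(π * μ) := by
  have a' := a.real (nv_ge l c x) hα (m_lc_nonneg (by positivity) two_pos) hQ (co_le x two_pos)
  have b' := b.real (nv_ge l c (x + g)) hα (m_lc_nonneg (by positivity) two_pos) hQ (co_le _ two_pos)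
  push_cast at b'
  rw [← lc_two hμ]
  exact lc_interp (x0 := (x : ℝ) / 4096) (x1 := ((x : ℝ) + g) / 4096) (by positivity) (by linarith)
    (by linarith) two_pos hα a' b'

theorem cell_strip {x0 : ℕ} {L : ℝ} (hx0 : x0 ≤ x) (h0 : (x : ℝ) ≤ 4096 * μ)
    (h1 : 4096 * μ ≤ x + g) (hα : 0 ≤ α) (hQ : (Q : ℝ) ≤ 16777216 * α ^ 2)
    (hL : ∀ i : ℕ, i < 32 → Ek (i / 32) + i / 32 * (μ - hs / 4096) ≤ L)
    (a : Nd (nv l c x) (ds ETAB ITAB hs x0) Q) (b : Nd (nv l c (x + g)) (ds ETAB ITAB hs x) Q) :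
    cR' c + lamR l * μ ≤ α * L := by
  have hL0 : 0 ≤ L := by
    have := hL 0 (by norm_num)
    simp only [Nat.cast_zero, zero_div, m_Ek_zero] at this
    linarith
  have hx0' : (x0 : ℝ) ≤ x := Nat.cast_le.2 hx0
  have a' := a.real (nv_ge l c x) hα hL0 hQ (ds_le (by linarith) hL)
  have b' := b.real (nv_ge l c (x + g)) hα hL0 hQ (ds_le (by linarith) hL)
  push_cast at b'
  rcases le_total 0 (lamR l) with h | h
  · nlinarith [mul_le_mul_of_nonneg_left h1 h]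
  · nlinarith [mul_le_mul_of_nonpos_left h0 h]

end

/-! ## the bound for `J v - λ v` -/

theorem jaux2 {k : ℝ} (k0 : 0 < k) : π / (4 * (k / 4096)) ≤ 12868 / (4 * k) := by
  rw [div_le_div_iff₀ (by positivity) (by positivity)]
  nlinarith [pi_hi]

theorem jaux4 {k : ℝ} (k0 : 0 < k) : 2 * π / (3 * (k / 4096) ^ 2) ≤ 2 * 12868 * 4096 / (3 * k * k) := by
  rw [div_le_div_iff₀ (by positivity) (by positivity)]
  nlinarith [mul_le_mul_of_nonneg_right pi_hi (mul_pos k0 k0).le]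

theorem jup_le {v : ℝ} (hv0 : 0 < v) (hv : v ≤ 1 / 2) (l md : ℕ) (hl : l < 131072) :
    68719476736 * (J v - lamR l * v) ≤ jup l md := by
  have hp := pi_pos
  have hl' : (l : ℝ) < 131072 := by exact_mod_cast hl
  have hl0 : (0 : ℝ) ≤ l := Nat.cast_nonneg _
  have big : 68719476736 * (J v - lamR l * v) ≤ ((2 ^ 60 : ℕ) : ℝ) := by
    have := m_J_le_one v
    have h8 : -8 ≤ lamR l := by unfold lamR; linarith
    push_cast
    nlinarith
  have pos : ¬ l ≤ 32768 → ∃ k : ℕ, l - 32768 = k ∧ 0 < (k : ℝ) ∧ lamR l = k / 4096 ∧ l = k + 32768 := by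
    intro h
    refine ⟨l - 32768, rfl, Nat.cast_pos.2 (by omega), ?_, by omega⟩
    rw [Nat.cast_sub (by omega)]; rfl
  have dv : ∀ a b : ℕ, 0 < b → (a : ℝ) / b ≤ ((a / b + 1 : ℕ) : ℝ) := by
    intro a b hb
    rw [div_le_iff₀ (Nat.cast_pos.2 hb)]
    have : a ≤ (a / b + 1) * b := by
      rw [Nat.add_mul, Nat.one_mul]
      have := Nat.div_add_mod' a b
      have := Nat.mod_lt a hb
      omega
    exact_mod_cast this
  simp only [jup, cR_ble, cR_beq]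
  split_ifs with h1 h2 h3 h4 h5 h6 h7 h8 h9
  · have h2' : (l : ℝ) ≤ 32768 := by exact_mod_cast h2
    have := Jm0 (l := lamR l) hv (by unfold lamR; linarith)
    rw [Nat.cast_add, Nat.cast_mul, Nat.cast_sub h2]
    push_cast
    unfold lamR at *
    linarith
  · exact big
  · exact big
  · obtain ⟨k, e1, k0, e2, e3⟩ := pos h3
    have hk : k ≤ 6433 := by omega
    have hk' : (k : ℝ) ≤ 6433 := by exact_mod_cast hk
    have := Jm1 (l := lamR l) hv0 (by rw [e2]; positivity) (by rw [e2]; linarith [pi_lo])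
    rw [e1, Nat.cast_sub (by omega)]
    have a1 : ((k * 68719476736 / 12868 : ℕ) : ℝ) ≤ ((k * 68719476736 : ℕ) : ℝ) / ((12868 : ℕ) : ℝ) :=
      Nat.cast_div_le
    have a2 : (k : ℝ) / 12868 ≤ lamR l / π := by
      rw [e2, div_div]
      exact div_le_div_of_nonneg_left k0.le (by positivity) pi_hi
    push_cast at a1 ⊢
    linarith
  · exact big
  · obtain ⟨k, e1, k0, e2, e3⟩ := pos h3
    have := Jm2 (l := lamR l) hv0 (by rw [e2]; positivity)
    rw [e1]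
    refine le_trans ?_ (dv _ _ (by have : 0 < k := Nat.cast_pos.1 k0; omega))
    have a2 : π / (4 * lamR l) ≤ 12868 / (4 * k) := by rw [e2]; exact jaux2 k0
    have a3 : ((68719476736 * 12868 : ℕ) : ℝ) / ((4 * k : ℕ) : ℝ) = 68719476736 * (12868 / (4 * k)) := by
      rw [Nat.cast_mul, Nat.cast_mul, mul_div_assoc]; rfl
    rw [a3]
    linarith
  · obtain ⟨k, e1, k0, e2, e3⟩ := pos h3
    have hk : 9216 ≤ k := by omega
    have hk' : (9216 : ℝ) ≤ k := by exact_mod_cast hk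
    have hk2 : k ≤ 12288 := by omega
    have hk2' : (k : ℝ) ≤ 12288 := by exact_mod_cast hk2
    have := Jm3 (l := lamR l) hv0 (by rw [e2]; linarith) (by rw [e2]; linarith)
    rw [e1]
    refine le_trans ?_ (dv _ _ (by norm_num))
    rw [Nat.cast_mul, Nat.cast_sub (by omega)]
    push_cast
    rw [e2] at this ⊢
    have a2 := mul_le_mul_of_nonneg_right pi_hi (by linarith : (0 : ℝ) ≤ 73728 - 4 * k)
    linarith
  · exact big
  · exact big
  · obtain ⟨k, e1, k0, e2, e3⟩ := pos h3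
    have := Jm4 (l := lamR l) hv0 (by rw [e2]; positivity)
    rw [e1]
    refine le_trans ?_ (dv _ _ (by have : 0 < k := Nat.cast_pos.1 k0; positivity))
    have a2 : 2 * π / (3 * lamR l ^ 2) ≤ 2 * 12868 * 4096 / (3 * k * k) := by rw [e2]; exact jaux4 k0
    have a3 : ((68719476736 * 2 * 12868 * 4096 : ℕ) : ℝ) / ((3 * k * k : ℕ) : ℝ) =
        68719476736 * (2 * 12868 * 4096 / (3 * k * k)) := by
      simp only [Nat.cast_mul, Nat.cast_ofNat]; ring
    rw [a3]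
    linarith

end Crest.Agent.R214
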