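import Crest.Agent.R214.MCal
import Crest.Agent.R214.MChk

/-!
# R214 / MJ : bounds for `J v - λ v` and for `Ek`
-/

set_option autoImplicit false

open MeasureTheory Set Filter Real

namespace Crest.Agent.R214

theorem m_J_le_one (v : ℝ) : J v ≤ 1 := min_le_right _ _
theorem m_J_le_sqrt (v : ℝ) : J v ≤ √(π * v) := (min_le_left _ _).trans (min_le_right _ _)
theorem m_J_le_sph (v : ℝ) : J v ≤ sph v := (min_le_left _ _).trans (min_le_left _ _)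

theorem sph_par {v : ℝ} (hv : 0 < v) : ∃ R, 0 < R ∧ v = π * R ^ 3 / 6 ∧ sph v = π * R ^ 2 / 2 := by
  have hp := pi_pos
  have h6 : 0 < 6 * v / π := by positivity
  have h3 : ((6 * v / π) ^ ((1 : ℝ) / 3)) ^ 3 = 6 * v / π := by
    rw [← Real.rpow_natCast, ← Real.rpow_mul h6.le]; norm_num
  refine ⟨(6 * v / π) ^ ((1 : ℝ) / 3), by positivity, by rw [h3]; field_simp, ?_⟩
  set R := (6 * v / π) ^ ((1 : ℝ) / 3) with hR
  have hR0 : 0 < R := by positivity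
  have hs : 0 ≤ sph v := by unfold sph; positivity
  have e : sph v ^ 3 = (π * R ^ 2 / 2) ^ 3 := by
    have a1 : ((9 * π / 2) ^ ((1 : ℝ) / 3)) ^ 3 = 9 * π / 2 := by
      rw [← Real.rpow_natCast, ← Real.rpow_mul (by positivity)]; norm_num
    have a2 : (v ^ ((2 : ℝ) / 3)) ^ 3 = v ^ 2 := by
      rw [← Real.rpow_natCast, ← Real.rpow_mul hv.le]; norm_num
    have a3 : (π * R ^ 2 / 2) ^ 3 = π ^ 3 * (R ^ 3) ^ 2 / 8 := by ring
    rw [a3, h3, sph, mul_pow, a1, a2]; field_simp; ring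
  exact (pow_left_inj₀ hs (by positivity) (by norm_num)).1 e

theorem sqrt_par {v : ℝ} (hv : 0 < v) : ∃ u, 0 < u ∧ v = u ^ 2 / π ∧ √(π * v) = u := by
  have hp := pi_pos
  refine ⟨√(π * v), Real.sqrt_pos.2 (by positivity), ?_, rfl⟩
  rw [Real.sq_sqrt (by positivity)]; field_simp

theorem Jm0 {v l : ℝ} (hv : v ≤ 1 / 2) (hl : l ≤ 0) : J v - l * v ≤ 1 - l / 2 := by
  nlinarith [m_J_le_one v]

theorem Jm1 {v l : ℝ} (hv : 0 < v) (hl : 0 ≤ l) (hl2 : l ≤ π / 2) : J v - l * v ≤ 1 - l / π := by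
  have hp := pi_pos
  obtain ⟨u, hu, e1, e2⟩ := sqrt_par hv
  have h1 := m_J_le_one v
  have h2 := m_J_le_sqrt v
  rw [e2] at h2
  have hq : l / π ≤ 1 / 2 := by rw [div_le_iff₀ hp]; linarith
  have hq0 : 0 ≤ l / π := by positivity
  have e3 : l * v = l / π * u ^ 2 := by rw [e1]; ring
  rw [e3]
  rcases le_total u 1 with h | h
  · have : l / π * (1 + u) ≤ 1 := by nlinarith
    nlinarith [mul_le_mul_of_nonneg_left this (sub_nonneg.2 h)]
  · have : 1 ≤ u ^ 2 := by nlinarith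
    nlinarith [mul_le_mul_of_nonneg_left this hq0]

theorem Jm2 {v l : ℝ} (hv : 0 < v) (hl : 0 < l) : J v - l * v ≤ π / (4 * l) := by
  have h := sqrt_pi_le hv.le (one_div_pos.2 hl)
  have e : v / (1 / l) + π * (1 / l) / 4 = l * v + π / (4 * l) := by field_simp
  linarith [m_J_le_sqrt v]

theorem Jm3 {v l : ℝ} (hv : 0 < v) (hl : 9 / 4 ≤ l) (hl2 : l ≤ 3) :
    J v - l * v ≤ π * (18 - 4 * l) / 81 := by
  have hp := pi_pos
  rcases le_total v (4 * π / 81) with h | h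
  · obtain ⟨R, hR, e1, e2⟩ := sph_par hv
    have h2 := m_J_le_sph v
    rw [e2] at h2
    have hR3 : R ≤ 2 / 3 := by
      have : R ^ 3 ≤ (2 / 3) ^ 3 := by
        have : π * R ^ 3 ≤ π * (2 / 3) ^ 3 := by linarith
        exact le_of_mul_le_mul_left this hp
      exact (pow_le_pow_iff_left₀ hR.le (by norm_num) (by norm_num)).1 this
    have key : R ^ 2 / 2 - l * R ^ 3 / 6 ≤ (18 - 4 * l) / 81 := by
      have : (18 - 4 * l) / 81 - (R ^ 2 / 2 - l * R ^ 3 / 6) =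
          (2 / 3 - R) * ((2 / 3 + R) / 2 - l * (4 / 9 + 2 / 3 * R + R ^ 2) / 6) := by ring
      have h3 : l * (4 / 9 + 2 / 3 * R + R ^ 2) ≤ 3 * (4 / 9 + 2 / 3 * R + R ^ 2) := by gcongr
      have h4 : 0 ≤ (2 / 3 + R) / 2 - l * (4 / 9 + 2 / 3 * R + R ^ 2) / 6 := by nlinarith
      nlinarith [mul_nonneg (sub_nonneg.2 hR3) h4]
    have := mul_le_mul_of_nonneg_left key hp.le
    have e3 : l * v = π * (l * R ^ 3 / 6) := by rw [e1]; ring
    nlinarith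
  · obtain ⟨u, hu, e1, e2⟩ := sqrt_par hv
    have h2 := m_J_le_sqrt v
    rw [e2] at h2
    obtain ⟨t, rfl⟩ : ∃ t, u = π * t := ⟨u / π, by field_simp⟩
    have ht : 0 < t := by
      by_contra hn; nlinarith
    have e3 : v = π * t ^ 2 := by rw [e1]; field_simp
    have ht2 : 2 / 9 ≤ t := by
      have : (2 / 9 : ℝ) ^ 2 ≤ t ^ 2 := by
        have : π * (2 / 9 : ℝ) ^ 2 ≤ π * t ^ 2 := by linarith
        exact le_of_mul_le_mul_left this hp
      exact (pow_le_pow_iff_left₀ (by norm_num) ht.le (by norm_num)).1 this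
    have key : t - l * t ^ 2 ≤ (18 - 4 * l) / 81 := by
      have : (18 - 4 * l) / 81 - (t - l * t ^ 2) = (t - 2 / 9) * (l * (t + 2 / 9) - 1) := by ring
      have h4 : 0 ≤ l * (t + 2 / 9) - 1 := by nlinarith
      nlinarith [mul_nonneg (sub_nonneg.2 ht2) h4]
    have := mul_le_mul_of_nonneg_left key hp.le
    rw [e3] at h2 ⊢
    nlinarith

theorem Jm4 {v l : ℝ} (hv : 0 < v) (hl : 0 < l) : J v - l * v ≤ 2 * π / (3 * l ^ 2) := by
  have hp := pi_pos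
  obtain ⟨R, hR, e1, e2⟩ := sph_par hv
  have h2 := m_J_le_sph v
  rw [e2] at h2
  have key : R ^ 2 / 2 - l * R ^ 3 / 6 ≤ 2 / (3 * l ^ 2) := by
    have : 2 / (3 * l ^ 2) - (R ^ 2 / 2 - l * R ^ 3 / 6) = (l * R - 2) ^ 2 * (l * R + 1) / (6 * l ^ 2) := by
      field_simp; ring
    have h3 : 0 ≤ (l * R - 2) ^ 2 * (l * R + 1) / (6 * l ^ 2) := by positivity
    linarith
  have := mul_le_mul_of_nonneg_left key hp.le
  have e3 : l * v = π * (l * R ^ 3 / 6) := by rw [e1]; ring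
  have e4 : 2 * π / (3 * l ^ 2) = π * (2 / (3 * l ^ 2)) := by ring
  nlinarith

/-! ## `Ek` -/

theorem sqrt_one_sub_ge {y : ℝ} (h0 : 0 ≤ y) (h1 : y ≤ 1) :
    1 - y / 2 - y ^ 2 / 8 - y ^ 3 / 16 - 5 * y ^ 4 / 128 - 35 * y ^ 5 / 128 ≤ √(1 - y) := by
  have ht0 := Real.sqrt_nonneg (1 - y)
  have ht1 : √(1 - y) ≤ 1 := Real.sqrt_le_one.2 (by linarith)
  have hq : √(1 - y) ^ 2 = 1 - y := Real.sq_sqrt (by linarith)
  generalize √(1 - y) = t at *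
  obtain rfl : y = 1 - t ^ 2 := by linarith
  have : t - (1 - (1 - t ^ 2) / 2 - (1 - t ^ 2) ^ 2 / 8 - (1 - t ^ 2) ^ 3 / 16 - 5 * (1 - t ^ 2) ^ 4 / 128 -
      35 * (1 - t ^ 2) ^ 5 / 128) =
      t * (1 - t) ^ 5 * (128 + 325 * t + 345 * t ^ 2 + 175 * t ^ 3 + 35 * t ^ 4) / 128 := by ring
  have h2 : 0 ≤ t * (1 - t) ^ 5 * (128 + 325 * t + 345 * t ^ 2 + 175 * t ^ 3 + 35 * t ^ 4) / 128 := by
    have : 0 ≤ 1 - t := by linarith
    positivity
  linarith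

noncomputable def Elow (k : ℝ) : ℝ :=
  1 - k ^ 2 / 6 - k ^ 4 / 40 - k ^ 6 / 112 - 5 * k ^ 8 / 1152 - 35 * k ^ 10 / 1408

theorem Elow_le {k : ℝ} (h0 : 0 ≤ k) (h1 : k ≤ 1) : Elow k ≤ Ek k := by
  have e : Elow k = ∫ x in (0 : ℝ)..1, (1 - k ^ 2 / 2 * x ^ 2 - k ^ 4 / 8 * x ^ 4 - k ^ 6 / 16 * x ^ 6 -
      5 * k ^ 8 / 128 * x ^ 8 - 35 * k ^ 10 / 128 * x ^ 10) := by
    have hd : ∀ x ∈ uIcc (0 : ℝ) 1, HasDerivAt (fun x : ℝ => x - k ^ 2 / 6 * x ^ 3 - k ^ 4 / 40 * x ^ 5 -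
        k ^ 6 / 112 * x ^ 7 - 5 * k ^ 8 / 1152 * x ^ 9 - 35 * k ^ 10 / 1408 * x ^ 11)
        (1 - k ^ 2 / 2 * x ^ 2 - k ^ 4 / 8 * x ^ 4 - k ^ 6 / 16 * x ^ 6 -
          5 * k ^ 8 / 128 * x ^ 8 - 35 * k ^ 10 / 128 * x ^ 10) x := by
      intro x _
      have := (((((hasDerivAt_id' x).sub ((hasDerivAt_pow 3 x).const_mul (k ^ 2 / 6))).sub
        ((hasDerivAt_pow 5 x).const_mul (k ^ 4 / 40))).sub
        ((hasDerivAt_pow 7 x).const_mul (k ^ 6 / 112))).sub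
        ((hasDerivAt_pow 9 x).const_mul (5 * k ^ 8 / 1152))).sub
        ((hasDerivAt_pow 11 x).const_mul (35 * k ^ 10 / 1408))
      refine this.congr_deriv ?_
      norm_num; ring
    rw [intervalIntegral.integral_eq_sub_of_hasDerivAt hd (Continuous.intervalIntegrable (by fun_prop) _ _)]
    unfold Elow; ring
  rw [e, Ek]
  refine intervalIntegral.integral_mono_on zero_le_one (Continuous.intervalIntegrable (by fun_prop) _ _)
    (Continuous.intervalIntegrable (by fun_prop) _ _) fun x hx => ?_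
  have hy : k ^ 2 * x ^ 2 ≤ 1 := by
    have a : k ^ 2 ≤ 1 := by nlinarith
    have b : x ^ 2 ≤ 1 := by nlinarith [hx.1, hx.2]
    nlinarith [sq_nonneg k, sq_nonneg x]
  have := sqrt_one_sub_ge (by positivity) hy
  convert this using 1
  ring

theorem m_Ek_zero : Ek 0 = 1 := by simp [Ek]

theorem et_nat : ∀ i < 32, et ETAB i * (6 * 40 * 112 * 1152 * 1408 * 32 ^ 10) +
    16777216 * (40 * 112 * 1152 * 1408 * 32 ^ 8 * i ^ 2 + 6 * 112 * 1152 * 1408 * 32 ^ 6 * i ^ 4 +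
      6 * 40 * 1152 * 1408 * 32 ^ 4 * i ^ 6 + 5 * 6 * 40 * 112 * 1408 * 32 ^ 2 * i ^ 8 +
      35 * 6 * 40 * 112 * 1152 * i ^ 10) ≤ 16777216 * (6 * 40 * 112 * 1152 * 1408 * 32 ^ 10) := by
  decide +kernel

theorem et_le {i : ℕ} (hi : i < 32) : (et ETAB i : ℝ) ≤ 16777216 * Ek (i / 32) := by
  have h : ((et ETAB i * (6 * 40 * 112 * 1152 * 1408 * 32 ^ 10) +
    16777216 * (40 * 112 * 1152 * 1408 * 32 ^ 8 * i ^ 2 + 6 * 112 * 1152 * 1408 * 32 ^ 6 * i ^ 4 +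
      6 * 40 * 1152 * 1408 * 32 ^ 4 * i ^ 6 + 5 * 6 * 40 * 112 * 1408 * 32 ^ 2 * i ^ 8 +
      35 * 6 * 40 * 112 * 1152 * i ^ 10) : ℕ) : ℝ) ≤
      ((16777216 * (6 * 40 * 112 * 1152 * 1408 * 32 ^ 10) : ℕ) : ℝ) := Nat.cast_le.2 (et_nat i hi)
  push_cast at h
  have hi' : (i : ℝ) ≤ 32 := by exact_mod_cast hi.le
  have := Elow_le (k := i / 32) (by positivity) (by linarith)
  unfold Elow at this
  nlinarith

theorem it_lt (I d : ℕ) : it I d < 32 := Nat.mod_lt _ (by decide)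

theorem it_zero : it ITAB 0 = 0 := by decide +kernel

end Crest.Agent.R214
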