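import Crest.Agent.R214.MJ

/-!
# R214 / MSlab : the one-dimensional model near the slab
-/

set_option autoImplicit false

open MeasureTheory Set Filter Real

namespace Crest.Agent.R214

theorem Sl.ab_le {A v a b : ℝ} {m Λ : ℝ → ℝ} (h : Sl A v a b m Λ) : a - b ≤ A := by
  have := h.calib (fun _ => 1) measurable_const (by simp) 0 0 0 0 le_rfl zero_le_one (by simp) (by simp)
  simpa [Real.volume_real_Ioo_of_le h.ba] using this

theorem slab_pt {ε d L : ℝ} (he : 0 < ε) (he1 : π * ε ≤ 1) (hd : ε ≤ d) (hd1 : d ≤ 1)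
    (hL : √(π * d) ≤ L ∨ √(π * (1 - d)) ≤ L ∨ 1 ≤ L) :
    √(π * ε) * (1 - d) ≤ √(1 - (1 - min 1 (max (π * ε) (ε / d))) ^ 2) * L := by
  have hp := pi_pos
  have hd0 : 0 < d := by linarith
  have h1 : ε / d ≤ 1 := (div_le_one hd0).2 hd
  have hq1 : max (π * ε) (ε / d) ≤ 1 := max_le he1 h1
  rw [min_eq_right hq1]
  have qa : π * ε ≤ max (π * ε) (ε / d) := le_max_left _ _
  have qb : ε / d ≤ max (π * ε) (ε / d) := le_max_right _ _
  generalize max (π * ε) (ε / d) = q at *
  have hq0 : 0 < q := lt_of_lt_of_le (by positivity) qa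
  have qc : ε ≤ q * d := (div_le_iff₀ hd0).1 qb
  have key : ∀ y, 0 ≤ y → √y ≤ L → π * ε * (1 - d) ^ 2 ≤ q * y →
      √(π * ε) * (1 - d) ≤ √(1 - (1 - q) ^ 2) * L := by
    intro y hy hyL hk
    have e1 : √(π * ε) * (1 - d) = √(π * ε * (1 - d) ^ 2) := by
      rw [Real.sqrt_mul' _ (sq_nonneg _), Real.sqrt_sq (by linarith)]
    rw [e1]
    refine le_trans ?_ (mul_le_mul_of_nonneg_left hyL (Real.sqrt_nonneg _))
    rw [← Real.sqrt_mul' _ hy]
    refine Real.sqrt_le_sqrt (hk.trans (mul_le_mul_of_nonneg_right ?_ hy))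
    nlinarith
  have s1 : (1 - d) ^ 2 ≤ 1 := by nlinarith
  have s2 : π * ε * (1 - d) ^ 2 ≤ π * ε := by nlinarith [mul_pos hp he]
  rcases hL with hL | hL | hL
  · refine key _ (by positivity) hL (s2.trans ?_)
    nlinarith
  · refine key _ (mul_nonneg hp.le (by linarith)) hL ?_
    have a1 : ε * (1 - d) ≤ q := by nlinarith
    have a2 : 0 ≤ π * (1 - d) := mul_nonneg hp.le (by linarith)
    nlinarith [mul_le_mul_of_nonneg_right a1 a2]
  · exact key 1 zero_le_one (by simpa using hL) (by linarith)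

theorem slab_num {ε : ℝ} (he : 0 < ε) (he1 : ε ≤ 1 / 512) :
    1 < (1 - 2 * ε) * (1 - π * ε) + ε * Real.log ε + 0.315 * √(π * ε) := by
  have hp := pi_pos
  obtain ⟨t, ht, rfl⟩ : ∃ t : ℝ, 0 < t ∧ ε = t ^ 4 := by
    refine ⟨√(√ε), by positivity, ?_⟩
    have : √(√ε) ^ 4 = (√(√ε) ^ 2) ^ 2 := by ring
    rw [this, Real.sq_sqrt (Real.sqrt_nonneg _), Real.sq_sqrt he.le]
  have ht1 : t ≤ 0.2103 := by
    refine le_of_not_gt fun hn => ?_
    have : (0.2103 : ℝ) ^ 4 ≤ t ^ 4 := by gcongr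
    norm_num at this; linarith
  have hl : -Real.log t ≤ 0.368 / t := by
    have := Real.log_le_sub_one_of_pos (x := 1 / (Real.exp 1 * t)) (by positivity)
    rw [Real.log_div one_ne_zero (by positivity), Real.log_mul (by positivity) ht.ne', Real.log_exp,
      Real.log_one] at this
    have h2 : 1 / (Real.exp 1 * t) ≤ 0.368 / t := by
      rw [div_le_div_iff₀ (by positivity) ht]
      nlinarith [Real.exp_one_gt_d9]
    linarith
  have hl2 : -(4 * 0.368 * t ^ 3) ≤ t ^ 4 * Real.log (t ^ 4) := by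
    rw [Real.log_pow]
    have : t ^ 4 * (0.368 / t) = 0.368 * t ^ 3 := by field_simp
    have h3 := mul_le_mul_of_nonneg_left hl (by positivity : 0 ≤ t ^ 4)
    push_cast
    nlinarith
  have hs : 1.772 * t ^ 2 ≤ √(π * t ^ 4) := by
    apply Real.le_sqrt_of_sq_le
    have : (1.772 * t ^ 2) ^ 2 = 1.772 ^ 2 * t ^ 4 := by ring
    rw [this]
    gcongr
    linarith [pi_gt_d4]
  have h4 : π * t ^ 4 ≤ 3.15 * t ^ 4 := by gcongr; linarith [pi_lt_d2]
  have h5 : 0 < t ^ 2 * (0.315 * 1.772 - 4 * 0.368 * t - 5.15 * t ^ 2) := by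
    apply mul_pos (by positivity)
    nlinarith
  have h6 : 0 ≤ t ^ 4 * (π * t ^ 4) := by positivity
  nlinarith

theorem slab_core {A v a b : ℝ} {m Λ : ℝ → ℝ} (h : Sl A v a b m Λ) {ε : ℝ} (he : 0 < ε)
    (he1 : ε ≤ 1 / 512) (hab : 1 - 2 * ε ≤ a - b) (d : ℝ → ℝ) (hd : Measurable d)
    (hd1 : ∀ μ ∈ Icc b a, ε ≤ d μ ∧ d μ ≤ 1) (c l : ℝ) (hcl : ∀ μ, c + l * μ = √(π * ε) * (1 - d μ))
    (hv : d v ≤ 0.685) (hI : IntegrableOn (fun μ => ε / d μ) (Ioo b a))
    (hI2 : ∫ μ in Ioo b a, ε / d μ ≤ -(ε * Real.log ε))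
    (H : ∀ᵐ s ∂(volume.restrict (Ioo (0 : ℝ) 1)),
      √(π * d (m s)) ≤ Λ s ∨ √(π * (1 - d (m s))) ≤ Λ s ∨ 1 ≤ Λ s) : 1 < A := by
  have hp := pi_pos
  have he2 : π * ε ≤ 1 := by nlinarith [pi_lt_four]
  have hκ : Measurable fun μ => 1 - min 1 (max (π * ε) (ε / d μ)) := by fun_prop
  have hκ1 : ∀ μ, |1 - min 1 (max (π * ε) (ε / d μ))| ≤ 1 := fun μ => by
    have a1 : min 1 (max (π * ε) (ε / d μ)) ≤ 1 := min_le_left _ _
    have a2 : 0 ≤ min 1 (max (π * ε) (ε / d μ)) :=
      le_min zero_le_one (le_max_of_le_left (by positivity))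
    rw [abs_le]; constructor <;> linarith
  have key := h.calib _ hκ hκ1 0 0 c l le_rfl zero_le_one (by simp) (by
    filter_upwards [H, ae_restrict_mem measurableSet_Ioo] with s hs hs'
    have := hd1 (m s) (h.mem s hs')
    rw [hcl]
    exact slab_pt he he2 this.1 this.2 hs)
  have hc : IntegrableOn (fun _ : ℝ => 1 - π * ε) (Ioo b a) := integrableOn_const (by simp)
  have hI3 : IntegrableOn (fun μ => 1 - min 1 (max (π * ε) (ε / d μ))) (Ioo b a) :=
    Measure.integrableOn_of_bounded (M := 1) (by simp) hκ.aestronglyMeasurable (ae_of_all _ hκ1)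
  have low := setIntegral_mono_on (hc.sub hI) hI3 measurableSet_Ioo (fun μ hμ => by
    have := hd1 μ (Ioo_subset_Icc_self hμ)
    have a1 : min 1 (max (π * ε) (ε / d μ)) ≤ max (π * ε) (ε / d μ) := min_le_right _ _
    have a0 : 0 ≤ ε / d μ := div_nonneg he.le (by linarith)
    have a2 : max (π * ε) (ε / d μ) ≤ π * ε + ε / d μ := max_le (by linarith) (by nlinarith)
    simp only [Pi.sub_apply]
    linarith)
  rw [integral_sub' hc hI] at low
  simp only [integral_const, MeasurableSet.univ, measureReal_restrict_apply, univ_inter,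
    Real.volume_real_Ioo_of_le h.ba, smul_eq_mul] at low
  have e := hcl v
  have n := slab_num he he1
  have s0 := Real.sqrt_nonneg (π * ε)
  nlinarith [mul_le_mul_of_nonneg_right hab (sub_nonneg.2 he2), mul_le_mul_of_nonneg_left hv s0]

theorem slab {A v a b : ℝ} {m Λ : ℝ → ℝ} (h : Sl A v a b m Λ) (hv : v ≤ 1 / 2)
    (ha : 1 - 1 / 512 ≤ a) (hb : b ≤ 1 / 512)
    (H : ∀ᵐ s ∂(volume.restrict (Ioo (0 : ℝ) 1)),
      √(π * m s) ≤ Λ s ∨ √(π * (1 - m s)) ≤ Λ s ∨ 1 ≤ Λ s) :
    J v ≤ A ∧ (A ≤ J v → a = 1 ∧ b = 0) := by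
  have lt : J v < A → J v ≤ A ∧ (A ≤ J v → a = 1 ∧ b = 0) := fun hh => ⟨hh.le, fun h2 => absurd hh (not_lt.2 h2)⟩
  have h0 := h.ab_le
  have hJ := m_J_le_one v
  have a1 := h.a1
  have b0 := h.b0
  have hba : b ≤ a := h.ba
  rcases le_total v 0.315 with hv2 | hv2
  · apply lt
    have : √(π * v) ≤ 0.9962 := by
      rw [Real.sqrt_le_left (by norm_num)]
      have : π * v ≤ π * 0.315 := by gcongr
      nlinarith [pi_lt_d2]
    have : √(π * v) < 0.996 := by
      rw [Real.sqrt_lt' (by norm_num)]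
      have : π * v ≤ π * 0.315 := by gcongr
      nlinarith [pi_lt_d4]
    linarith [m_J_le_sqrt v]
  by_cases h00 : a = 1 ∧ b = 0
  · exact ⟨by linarith [h00.1, h00.2], fun _ => h00⟩
  apply lt
  refine lt_of_le_of_lt hJ ?_
  have e : ∀ f : ℝ → ℝ, ∫ s in Ioo b a, f s = ∫ s in b..a, f s := fun f => by
    rw [intervalIntegral.integral_of_le hba, integral_Ioc_eq_integral_Ioo]
  rcases le_total b (1 - a) with hc | hc
  · have he : 0 < 1 - a := by
      refine lt_of_le_of_ne (by linarith) fun hn => h00 ⟨by linarith, by linarith⟩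
    have hne : ∀ μ ∈ Icc b a, 1 - μ ≠ 0 := fun μ hμ => by linarith [hμ.2]
    have hco : ContinuousOn (fun μ => (1 - a) / (1 - μ)) (Icc b a) :=
      continuousOn_const.div (by fun_prop) hne
    refine slab_core h he (by linarith) (by linarith) (fun μ => 1 - μ) (by fun_prop)
      (fun μ hμ => ⟨by linarith [hμ.2], by linarith [hμ.1]⟩) 0 (√(π * (1 - a))) (fun μ => by ring)
      (by linarith) (hco.integrableOn_Icc.mono_set Ioo_subset_Icc_self) ?_ ?_
    · have hd : ∀ x ∈ uIcc b a, HasDerivAt (fun μ => -((1 - a) * Real.log (1 - μ))) ((1 - a) / (1 - x)) x := by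
        intro x hx
        rw [uIcc_of_le hba] at hx
        have := ((((hasDerivAt_id' x).const_sub 1).log (hne x hx)).const_mul (1 - a)).neg
        refine this.congr_deriv ?_
        ring
      rw [e, intervalIntegral.integral_eq_sub_of_hasDerivAt hd (hco.intervalIntegrable_of_Icc hba)]
      have : Real.log (1 - b) ≤ 0 := Real.log_nonpos (by linarith) (by linarith)
      nlinarith
    · filter_upwards [H] with s hs
      simp only [sub_sub_cancel]
      tauto
  · have he : 0 < b := by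
      refine lt_of_le_of_ne b0 fun hn => h00 ⟨by linarith, hn.symm⟩
    have hne : ∀ μ ∈ Icc b a, μ ≠ 0 := fun μ hμ => by linarith [hμ.1]
    have hco : ContinuousOn (fun μ => b / μ) (Icc b a) :=
      continuousOn_const.div (by fun_prop) hne
    refine slab_core h he hb (by linarith) (fun μ => μ) (by fun_prop)
      (fun μ hμ => ⟨hμ.1, by linarith [hμ.2]⟩) (√(π * b)) (-√(π * b)) (fun μ => by ring)
      (by linarith) (hco.integrableOn_Icc.mono_set Ioo_subset_Icc_self) ?_ H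
    have hd : ∀ x ∈ uIcc b a, HasDerivAt (fun μ => b * Real.log μ) (b / x) x := by
      intro x hx
      rw [uIcc_of_le hba] at hx
      exact (Real.hasDerivAt_log (hne x hx)).const_mul b
    rw [e, intervalIntegral.integral_eq_sub_of_hasDerivAt hd (hco.intervalIntegrable_of_Icc hba)]
    have : Real.log a ≤ 0 := Real.log_nonpos (by linarith) a1
    nlinarith

end Crest.Agent.R214
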