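import Crest.Agent.R214.MCell
import Crest.Agent.R214.MSlab

/-!
# R214 / MSound : soundness of the checker
-/

set_option autoImplicit false

open MeasureTheory Set Filter Real

namespace Crest.Agent.R214

noncomputable def idx (μ : ℝ) : ℕ := min ⌊4096 * μ⌋₊ 4095

theorem idx_mono {x y : ℝ} (h : x ≤ y) : idx x ≤ idx y :=
  min_le_min (Nat.floor_mono (by linarith)) le_rfl

theorem idx_max (x : ℝ) : idx x ≤ 4095 := min_le_right _ _

theorem idx_le {μ : ℝ} (h : 0 ≤ μ) : (idx μ : ℝ) ≤ 4096 * μ :=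
  (Nat.cast_le.2 (min_le_left _ _)).trans (Nat.floor_le (by positivity))

theorem le_idx {μ : ℝ} (h : μ ≤ 1) : 4096 * μ ≤ idx μ + 1 := by
  unfold idx
  rcases min_choice ⌊4096 * μ⌋₊ 4095 with e | e <;> rw [e]
  · exact (Nat.lt_floor_add_one _).le
  · push_cast; linarith

theorem idx_meas : Measurable idx :=
  (measurable_from_top (f := fun n : ℕ => min n 4095)).comp (measurable_const.mul measurable_id).nat_floor

theorem idx_div {μ : ℝ} {g t : ℕ} (ht : g * t + g ≤ 4095) (h0 : ((g * t : ℕ) : ℝ) < 4096 * μ)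
    (h1 : 4096 * μ < ((g * t + g : ℕ) : ℝ)) : idx μ / g = t := by
  have hμ : 0 ≤ 4096 * μ := (Nat.cast_nonneg _).trans h0.le
  have a : g * t ≤ ⌊4096 * μ⌋₊ := Nat.le_floor h0.le
  have b : ⌊4096 * μ⌋₊ < g * t + g := (Nat.floor_lt hμ).2 h1
  have c : idx μ = ⌊4096 * μ⌋₊ := min_eq_left (by omega)
  rw [c]
  exact Nat.div_eq_of_lt_le (by rw [mul_comm]; exact a) (by rw [Nat.add_mul, mul_comm t, one_mul]; exact b)

/-- the step function of a leaf -/
noncomputable def kap (g t0 n : ℕ) (β : ℕ → ℕ) (μ : ℝ) : ℝ :=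
  ∑ j ∈ Finset.range n, if idx μ / g = t0 + j then (β j : ℝ) / 16777216 else 0

theorem kap_term_meas (g t : ℕ) (c : ℝ) : Measurable fun μ => if idx μ / g = t then c else 0 :=
  (measurable_from_top (f := fun n : ℕ => if n / g = t then c else 0)).comp idx_meas

theorem kap_meas (g t0 n : ℕ) (β : ℕ → ℕ) : Measurable (kap g t0 n β) :=
  Finset.measurable_sum _ fun _ _ => kap_term_meas _ _ _

theorem kap_eq {g t0 n j : ℕ} {β : ℕ → ℕ} {μ : ℝ} (hj : j < n) (h : idx μ / g = t0 + j) :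
    kap g t0 n β μ = (β j : ℝ) / 16777216 := by
  unfold kap
  rw [Finset.sum_eq_single j, if_pos h]
  · intro i _ hi
    rw [if_neg (by omega)]
  · intro hn
    exact absurd (Finset.mem_range.2 hj) hn

theorem kap_abs {g t0 n : ℕ} {β : ℕ → ℕ} (hβ : ∀ j < n, β j ≤ 16777216) (μ : ℝ) : |kap g t0 n β μ| ≤ 1 := by
  by_cases h : ∃ j < n, idx μ / g = t0 + j
  · obtain ⟨j, hj, e⟩ := h
    have : (β j : ℝ) ≤ 16777216 := by exact_mod_cast hβ j hj
    rw [kap_eq hj e, abs_of_nonneg (by positivity)]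
    linarith
  · have : kap g t0 n β μ = 0 :=
      Finset.sum_eq_zero fun j hj => if_neg fun e => h ⟨j, Finset.mem_range.1 hj, e⟩
    rw [this]; simp

theorem kap_int {g t0 n : ℕ} {β : ℕ → ℕ} {a b : ℝ} (hb : b ≤ 1) (ha : 0 ≤ a)
    (h : ∀ j < n, β j ≠ 0 → idx b + 1 ≤ g * (t0 + j) ∧ g * (t0 + j) + g ≤ idx a) :
    (∑ j ∈ Finset.range n, (β j : ℝ)) * g / 68719476736 ≤ ∫ μ in Ioo b a, kap g t0 n β μ := by
  have hi : ∀ j, IntegrableOn (fun μ => if idx μ / g = t0 + j then (β j : ℝ) / 16777216 else 0) (Ioo b a) := by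
    intro j
    refine Measure.integrableOn_of_bounded (M := (β j : ℝ) / 16777216) (by simp)
      (kap_term_meas _ _ _).aestronglyMeasurable (ae_of_all _ fun μ => ?_)
    split_ifs
    · rw [Real.norm_eq_abs, abs_of_nonneg (by positivity)]
    · rw [norm_zero]; positivity
  unfold kap
  rw [integral_finsetSum _ fun j _ => hi j, Finset.sum_mul, Finset.sum_div]
  refine Finset.sum_le_sum fun j hj => ?_
  have nn : ∀ μ, 0 ≤ if idx μ / g = t0 + j then (β j : ℝ) / 16777216 else 0 := fun μ => by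
    split_ifs <;> positivity
  by_cases h0 : β j = 0
  · simp [h0]
  obtain ⟨h1, h2⟩ := h j (Finset.mem_range.1 hj) h0
  have h1' : ((idx b + 1 : ℕ) : ℝ) ≤ ((g * (t0 + j) : ℕ) : ℝ) := Nat.cast_le.2 h1
  have h2' : ((g * (t0 + j) + g : ℕ) : ℝ) ≤ (idx a : ℝ) := Nat.cast_le.2 h2
  have h3 := idx_max a
  have sub : Ioo (((g * (t0 + j) : ℕ) : ℝ) / 4096) (((g * (t0 + j) + g : ℕ) : ℝ) / 4096) ⊆ Ioo b a := by
    refine Ioo_subset_Ioo ?_ ?_
    · have := le_idx hb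
      rw [Nat.cast_add, Nat.cast_one] at h1'
      linarith
    · linarith [idx_le ha]
  refine le_trans (le_of_eq ?_) (setIntegral_mono_set (hi j) (ae_of_all _ nn) sub.eventuallyLE)
  rw [setIntegral_congr_fun measurableSet_Ioo (g := fun _ => (β j : ℝ) / 16777216)
    (fun μ hμ => if_pos (idx_div (by omega) (by linarith [hμ.1]) (by linarith [hμ.2])))]
  have hg0 : (0 : ℝ) ≤ g := Nat.cast_nonneg _
  rw [setIntegral_const, Real.volume_real_Ioo_of_le (by rw [Nat.cast_add]; linarith), Nat.cast_add,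
    smul_eq_mul]
  ring

/-- the common form of the two models -/
structure Gen (H hs p w : ℝ) (m Λ : ℝ → ℝ) : Prop where
  up : ∀ s ∈ Ioo 0 p, w ≤ m s
  dn : ∀ s ∈ Ioo p 1, m s ≤ w
  h1 : ∀ᵐ s ∂(volume.restrict (Ioo (0 : ℝ) p)), lc (1 - m s) H ≤ Λ s
  h2 : ∀ᵐ s ∂(volume.restrict (Ioo p 1)), √(π * m s) ≤ Λ s ∨ lc (1 - m s) H ≤ Λ s ∨
    ∀ i : ℕ, i < 32 → Ek (i / 32) + i / 32 * (m s - hs) ≤ Λ s

theorem leaf_sound {A v a b w : ℝ} {m Λ : ℝ → ℝ} (hS : Sl A v a b m Λ) (hv0 : 0 < v) (hv : v ≤ 1 / 2)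
    {Hn hs pn p1 p2 q1 q2 r1 r2 l c1 c2 md g : ℕ} (hH : 0 < Hn) (hpn : pn ≤ 4096) (hl : l < 131072)
    (G : Gen (Hn / 4096) (hs / 4096) (pn / 4096) w m Λ)
    (b1 : p1 ≤ idx b) (b2 : idx b ≤ p2) (w1 : q1 ≤ idx w) (w2 : idx w ≤ q2) (a1 : r1 ≤ idx a)
    (a2 : idx a ≤ r2) (h : leaf Hn hs pn p1 p2 q1 q2 r1 r2 l c1 c2 md g = true) : J v < A := by
  obtain ⟨hg, hg2, β, hsum, hc⟩ := leaf_spec h
  have hpn' : (pn : ℝ) ≤ 4096 := by exact_mod_cast hpn
  have hp0 : (0 : ℝ) ≤ pn / 4096 := by positivity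
  have hp1 : (pn : ℝ) / 4096 ≤ 1 := by linarith
  have hba := hS.ba
  have hb0 := hS.b0
  have ha1 := hS.a1
  set n := r2 / g + 1 - p1 / g with hn
  set t0 := p1 / g with ht0
  have hβ : ∀ j < n, β j ≤ 16777216 := fun j hj => by
    obtain ⟨Q, h1, -⟩ := hc j hj
    exact (pow_le_pow_iff_left₀ (Nat.zero_le _) (Nat.zero_le _) two_ne_zero).1
      ((Nat.le_add_left _ _).trans h1)
  -- the cell of a point
  have cell : ∀ μ, b ≤ μ → μ ≤ a → ∃ x Q : ℕ, x ≤ idx μ ∧ idx μ + 1 ≤ x + g ∧ x + g ≤ 4096 ∧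
      (x : ℝ) ≤ 4096 * μ ∧ 4096 * μ ≤ x + g ∧ (Q : ℝ) ≤ 16777216 * √(1 - kap g t0 n β μ ^ 2) ^ 2 ∧
      (x ≤ q2 → (∃ x0 ≤ x, Nd (nv l c2 x) (E2 ETAB ITAB Hn (12868 * Hn * Hn / 67108864 + 1)
          (12867 * Hn / 4) hs x0 x) Q) ∧
        Nd (nv l c2 (x + g)) (E2 ETAB ITAB Hn (12868 * Hn * Hn / 67108864 + 1)
          (12867 * Hn / 4) hs x (x + g)) Q) ∧
      (q1 + 1 ≤ x + g → Nd (nv l c1 x) (dh Hn (12868 * Hn * Hn / 67108864 + 1) (12867 * Hn / 4) x) Q ∧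
        Nd (nv l c1 (x + g)) (dh Hn (12868 * Hn * Hn / 67108864 + 1) (12867 * Hn / 4) (x + g)) Q) := by
    intro μ h1 h2
    have i1 : t0 ≤ idx μ / g := Nat.div_le_div_right (b1.trans (idx_mono h1))
    have i2 : idx μ / g ≤ r2 / g := Nat.div_le_div_right ((idx_mono h2).trans a2)
    obtain ⟨j, hj⟩ := Nat.exists_eq_add_of_le i1
    have hjn : j < n := by omega
    obtain ⟨Q, c1, c2, c3, -⟩ := hc j hjn
    rw [← Nat.mul_add, ← hj] at c2 c3
    have x1 : g * (idx μ / g) ≤ idx μ := Nat.mul_div_le _ _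
    have x2 : idx μ + 1 ≤ g * (idx μ / g) + g := by
      have := Nat.div_add_mod (idx μ) g
      have := Nat.mod_lt (idx μ) hg
      omega
    have x3 : g * (idx μ / g) + g ≤ 4096 := by
      refine le_trans ?_ hg2
      rw [← Nat.mul_succ]
      exact Nat.mul_le_mul_left _ (by omega)
    have x1' : ((g * (idx μ / g) : ℕ) : ℝ) ≤ idx μ := Nat.cast_le.2 x1
    have x2' : ((idx μ + 1 : ℕ) : ℝ) ≤ ((g * (idx μ / g) + g : ℕ) : ℝ) := Nat.cast_le.2 x2
    rw [Nat.cast_add, Nat.cast_add, Nat.cast_one] at x2'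
    refine ⟨_, Q, x1, x2, x3, x1'.trans (idx_le (by linarith)), (le_idx (by linarith)).trans x2', ?_, c2, c3⟩
    have c1' : ((Q * 16777216 + β j ^ 2 : ℕ) : ℝ) ≤ ((16777216 ^ 2 : ℕ) : ℝ) := Nat.cast_le.2 c1
    have hQ : (0 : ℝ) ≤ Q := Nat.cast_nonneg _
    rw [kap_eq hjn hj]
    push_cast at c1'
    rw [Real.sq_sqrt (by linarith)]
    linarith
  have key := hS.calib (kap g t0 n β) (kap_meas _ _ _ _) (kap_abs hβ) (pn / 4096) (cR' c1) (cR' c2) (lamR l)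
    hp0 hp1 ?_ ?_
  · have low := kap_int (g := g) (t0 := t0) (n := n) (β := β) (a := a) (b := b) (by linarith)
      (by linarith) (fun j hj h0 => by
        obtain ⟨Q, -, -, -, c4⟩ := hc j hj
        have := c4 h0
        rw [← Nat.mul_add] at this
        omega)
    have hJ := jup_le hv0 hv l md hl
    have hs' : ((jup l md + 1099511627777 : ℕ) : ℝ) ≤
        (((∑ j ∈ Finset.range n, β j) * g + c1 * pn + c2 * (4096 - pn) : ℕ) : ℝ) := Nat.cast_le.2 hsum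
    rw [Nat.cast_add, Nat.cast_add, Nat.cast_add, Nat.cast_mul, Nat.cast_mul, Nat.cast_mul, Nat.cast_sub hpn,
      Nat.cast_sum] at hs'
    push_cast at hs'
    unfold cR' at key
    generalize (∑ j ∈ Finset.range n, (β j : ℝ)) * g = X at *
    nlinarith
  · filter_upwards [G.h1, ae_restrict_mem measurableSet_Ioo] with s h1 hs
    have hm := hS.mem s ⟨hs.1, hs.2.trans_le hp1⟩
    obtain ⟨x, Q, x1, x2, x3, x4, x5, hQ, -, c3⟩ := cell _ hm.1 hm.2
    have := idx_mono (G.up s hs)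
    obtain ⟨d1, d2⟩ := c3 (by omega)
    exact (cell_hole hH x3 x4 x5 (Real.sqrt_nonneg _) hQ d1 d2).trans
      (mul_le_mul_of_nonneg_left h1 (Real.sqrt_nonneg _))
  · filter_upwards [G.h2, ae_restrict_mem measurableSet_Ioo] with s h1 hs
    have hm := hS.mem s ⟨hp0.trans_lt hs.1, hs.2⟩
    obtain ⟨x, Q, x1, x2, x3, x4, x5, hQ, c2, -⟩ := cell _ hm.1 hm.2
    have := idx_mono (G.dn s hs)
    obtain ⟨⟨x0, hx0, d1⟩, d2⟩ := c2 (by omega)
    rcases h1 with h1 | h1 | h1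
    · exact (cell_corner (by linarith) x4 x5 (Real.sqrt_nonneg _) hQ (d1.mono (E2_le2 ..))
        (d2.mono (E2_le2 ..))).trans (mul_le_mul_of_nonneg_left h1 (Real.sqrt_nonneg _))
    · exact (cell_hole hH x3 x4 x5 (Real.sqrt_nonneg _) hQ (d1.mono (E2_le1 ..))
        (d2.mono (E2_le1 ..))).trans (mul_le_mul_of_nonneg_left h1 (Real.sqrt_nonneg _))
    · exact cell_strip hx0 x4 x5 (Real.sqrt_nonneg _) hQ h1 (d1.mono (E2_le3 ..)) (d2.mono (E2_le3 ..))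

end Crest.Agent.R214
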