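import Crest.Agent.R214.MSound

/-!
# R214 / MTree : soundness of the subdivision
-/

set_option autoImplicit false

open MeasureTheory Set Filter Real

namespace Crest.Agent.R214

theorem Gen.plain {A v a b H hs p w : ℝ} {m Λ : ℝ → ℝ} (G : Gen H hs p w m Λ) (hS : Sl A v a b m Λ)
    (hH : 0 < H) : ∀ᵐ s ∂(volume.restrict (Ioo (0 : ℝ) 1)),
      √(π * m s) ≤ Λ s ∨ √(π * (1 - m s)) ≤ Λ s ∨ 1 ≤ Λ s := by
  have h1 := (ae_restrict_iff' measurableSet_Ioo).1 G.h1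
  have h2 := (ae_restrict_iff' measurableSet_Ioo).1 G.h2
  have h3 : ∀ᵐ s : ℝ, s ≠ p := by simp [ae_iff]
  rw [ae_restrict_iff' measurableSet_Ioo]
  filter_upwards [h1, h2, h3] with s a1 a2 a3 hs
  have hm : 0 ≤ 1 - m s := by linarith [(hS.mem s hs).2, hS.a1]
  rcases lt_or_gt_of_ne a3 with h | h
  · exact Or.inr (Or.inl ((m_sqrt_le_lc hm hH).trans (a1 ⟨hs.1, h⟩)))
  · rcases a2 ⟨h, hs.2⟩ with c | c | c
    · exact Or.inl c
    · exact Or.inr (Or.inl ((m_sqrt_le_lc hm hH).trans c))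
    · have := c 0 (by norm_num)
      simp only [Nat.cast_zero, zero_div, m_Ek_zero, zero_mul, add_zero] at this
      exact Or.inr (Or.inr this)

structure Hy (M : Bool) (A v a b w h : ℝ) (m Λ : ℝ → ℝ) : Prop where
  sl : Sl A v a b m Λ
  v0 : 0 < v
  v1 : v ≤ 1 / 2
  bw : b ≤ w
  wa : w ≤ a
  m2 : M = true → w = a
  gen : ∀ h1 h2 : ℕ, h1 ≤ idx h → idx h ≤ h2 → Gen ((cR M 8192 (4096 - h1) : ℕ) / 4096)
    ((cR M 410 (h2 + 1) : ℕ) / 4096) ((cR M 0 410 : ℕ) / 4096) w m Λ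

def Bx.Mem (B : Bx) (b w a h : ℝ) : Prop :=
  (B.p1 ≤ idx b ∧ idx b ≤ B.p2) ∧ (B.q1 ≤ idx w ∧ idx w ≤ B.q2) ∧ (B.r1 ≤ idx a ∧ idx a ≤ B.r2) ∧
    (B.h1 ≤ idx h ∧ idx h ≤ B.h2)

def Ok (M : Bool) (B : Bx) : Prop :=
  ∀ A v a b w h m Λ, Hy M A v a b w h m Λ → B.Mem b w a h → J v ≤ A ∧ (A ≤ J v → a = 1 ∧ b = 0)

theorem ok_split (M : Bool) (B : Bx) (d : ℕ) (hl : Ok M (B.l d)) (hr : Ok M (B.r d)) : Ok M B := by
  intro A v a b w h m Λ H hB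
  suffices (B.l d).Mem b w a h ∨ (B.r d).Mem b w a h from
    this.elim (hl _ _ _ _ _ _ _ _ H) (hr _ _ _ _ _ _ _ _ H)
  obtain ⟨p1, p2, q1, q2, r1, r2, h1, h2⟩ := B
  simp only [Bx.l, Bx.r, cR_beq, frc_eq']
  simp only [Bx.Mem] at hB
  split_ifs <;> simp only [Bx.Mem] <;> omega

theorem Hn_pos (M : Bool) {h1 : ℕ} (h : h1 ≤ 4095) : 0 < (cR M 8192 (4096 - h1) : ℕ) := by
  cases M
  · show 0 < 4096 - h1
    omega
  · show 0 < 8192
    omega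

theorem ok_leaf {M : Bool} {B : Bx} {c : ℕ} (hc : leafB M B c = true) : Ok M B := by
  intro A v a b w h m Λ H hB
  obtain ⟨p1, p2, q1, q2, r1, r2, h1, h2⟩ := B
  obtain ⟨⟨b1, b2⟩, ⟨w1, w2⟩, ⟨a1, a2⟩, ⟨g1, g2⟩⟩ := hB
  simp only [leafB, frc_eq'] at hc
  dsimp only at b1 b2 w1 w2 a1 a2 g1 g2
  have i1 := idx_mono H.bw
  have i2 := idx_mono H.wa
  have w1' : cR M r1 q1 ≤ idx w := by
    cases M
    · exact w1
    · rw [H.m2 rfl]; exact a1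
  have w2' : idx w ≤ cR M r2 q2 := by
    cases M
    · exact w2
    · rw [H.m2 rfl]; exact a2
  have hp : (cR M 0 410 : ℕ) ≤ 4096 := by
    cases M
    · show 410 ≤ 4096
      omega
    · show 0 ≤ 4096
      omega
  have := leaf_sound H.sl H.v0 H.v1 (Hn_pos M (g1.trans (idx_max h))) hp (Nat.mod_lt _ (by norm_num))
    (H.gen h1 h2 g1 g2) b1 ?_ ?_ ?_ ?_ a2 hc
  · exact ⟨this.le, fun hn => absurd this (not_lt.2 hn)⟩
  all_goals simp only [mx_eq, mn_eq]; omega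

theorem ok_of_chk {M : Bool} {t : Tr} : ∀ {B : Bx}, chk M t B = true → Ok M B := by
  induction t with
  | N d a b iha ihb =>
    intro B h
    have e : chk M (.N d a b) B = cR (chk M a (B.l d)) (chk M b (B.r d)) false := rfl
    rw [e] at h
    cases h1 : chk M a (B.l d)
    · rw [h1] at h; exact absurd h Bool.false_ne_true
    · rw [h1] at h; exact ok_split M B d (iha h1) (ihb h)
  | L c => exact fun h => ok_leaf h
  | S =>
    intro B hc A v a b w h m Λ H hB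
    have e : chk M .S B = cR (Nat.ble 4088 B.r1) (Nat.ble B.p2 7) false := rfl
    rw [e, cR_ble] at hc
    split_ifs at hc with h1
    have h2 := Nat.le_of_ble_eq_true hc
    have a1 : ((4088 : ℕ) : ℝ) ≤ idx a := Nat.cast_le.2 (h1.trans hB.2.2.1.1)
    have b1 : (idx b : ℝ) ≤ ((7 : ℕ) : ℝ) := Nat.cast_le.2 (hB.1.2.trans h2)
    have hba := H.sl.ba
    have a2 := idx_le (H.sl.b0.trans hba)
    have b2 := le_idx (hba.trans H.sl.a1)
    push_cast at a1 b1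
    refine slab H.sl H.v1 (by linarith) (by linarith) ((H.gen _ _ le_rfl le_rfl).plain H.sl ?_)
    have : (0 : ℝ) < (cR M 8192 (4096 - idx h) : ℕ) := Nat.cast_pos.2 (Hn_pos M (idx_max h))
    positivity
  | E =>
    intro B hc A v a b w h m Λ H hB
    have e : chk M .E B = cR (Nat.ble B.p1 B.q2) (cR (Nat.ble B.q1 B.r2)
      (cR (Nat.ble B.p1 B.r2) false true) true) true := rfl
    have i1 := idx_mono H.bw
    have i2 := idx_mono H.wa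
    obtain ⟨⟨b1, b2⟩, ⟨w1, w2⟩, ⟨a1, a2⟩, -⟩ := hB
    rw [e, cR_ble, cR_ble, cR_ble, if_pos (by omega), if_pos (by omega), if_pos (by omega)] at hc
    exact absurd hc Bool.false_ne_true

noncomputable def KS0 : Finset ℝ := (Finset.range 32).image fun i : ℕ => (i : ℝ) / 32

theorem mem_KS0 {i : ℕ} (hi : i < 32) : (i : ℝ) / 32 ∈ KS0 :=
  Finset.mem_image.2 ⟨i, Finset.mem_range.2 hi, rfl⟩

theorem m1_of_ok (H : Ok false top1) : M1Stmt (410 / 4096) KS0 := by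
  intro h hh A v a b m Λ hS hv0 hv h1 h2
  have hp : (410 / 4096 : ℝ) ∈ Ioo (0 : ℝ) 1 := ⟨by norm_num, by norm_num⟩
  refine H A v a b (m (410 / 4096)) h m Λ ⟨hS, hv0, hv, (hS.mem _ hp).1, (hS.mem _ hp).2,
    fun hn => absurd hn Bool.false_ne_true, fun k1 k2 e1 e2 => ?_⟩
    ⟨⟨Nat.zero_le _, idx_max _⟩, ⟨Nat.zero_le _, idx_max _⟩, ⟨Nat.zero_le _, idx_max _⟩,
      ⟨Nat.zero_le _, idx_max _⟩⟩
  have k1' : k1 ≤ 4095 := e1.trans (idx_max h)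
  have f1 : ((cR false 8192 (4096 - k1) : ℕ) : ℝ) = 4096 - k1 := by
    show ((4096 - k1 : ℕ) : ℝ) = _
    rw [Nat.cast_sub (by omega)]; rfl
  have f2 : ((cR false 410 (k2 + 1) : ℕ) : ℝ) = k2 + 1 := by
    show ((k2 + 1 : ℕ) : ℝ) = _
    rw [Nat.cast_add, Nat.cast_one]
  have f3 : ((cR false 0 410 : ℕ) : ℝ) = 410 := rfl
  rw [f1, f2, f3]
  have g1 : (k1 : ℝ) ≤ 4095 := by exact_mod_cast k1'
  have g2 : (k1 : ℝ) ≤ 4096 * h := (Nat.cast_le.2 e1).trans (idx_le hh.1)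
  have g3 : 4096 * h ≤ k2 + 1 := (le_idx hh.2).trans (by have : (idx h : ℝ) ≤ k2 := Nat.cast_le.2 e2; linarith)
  have hole : ∀ μ L, Hole h μ L → lc (1 - μ) ((4096 - k1) / 4096) ≤ L := fun μ L hL =>
    hL _ (by linarith) (by linarith)
  refine ⟨fun s hs => hS.anti ⟨hs.1, hs.2.trans hp.2⟩ hp hs.2.le,
    fun s hs => hS.anti hp ⟨hp.1.trans hs.1, hs.2⟩ hs.1.le, h1.mono fun s hs => hole _ _ hs,
    h2.mono fun s hs => hs.imp id (Or.imp (hole _ _) fun c i hi => le_trans ?_ (c _ (mem_KS0 hi)))⟩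
  have : (0 : ℝ) ≤ i / 32 := by positivity
  nlinarith

theorem m2_of_ok (H : Ok true top2) (A v a b : ℝ) (m Λ : ℝ → ℝ) (hS : Sl A v a b m Λ) (hv0 : 0 < v)
    (hv : v ≤ 1 / 2) (ha : 1620 / 4096 ≤ a)
    (h2 : ∀ᵐ s ∂(volume.restrict (Ioo (0 : ℝ) 1)), √(π * m s) ≤ Λ s ∨ √(π * (1 - m s)) ≤ Λ s ∨
      ∀ k ∈ KS0, Ek k + k * (m s - 410 / 4096) ≤ Λ s) : J v ≤ A ∧ (A ≤ J v → a = 1 ∧ b = 0) := by
  have ia : 1620 ≤ idx a := le_min (Nat.le_floor (by push_cast; linarith)) (by norm_num)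
  refine H A v a b a 0 m Λ ⟨hS, hv0, hv, hS.ba, le_rfl, fun _ => rfl, fun k1 k2 _ _ => ?_⟩
    ⟨⟨Nat.zero_le _, idx_max _⟩, ⟨Nat.zero_le _, idx_max _⟩, ⟨ia, idx_max _⟩,
      ⟨Nat.zero_le _, idx_max _⟩⟩
  have f1 : ((cR true 8192 (4096 - k1) : ℕ) : ℝ) / 4096 = 2 := by
    show ((8192 : ℕ) : ℝ) / 4096 = _
    norm_num
  have f2 : ((cR true 410 (k2 + 1) : ℕ) : ℝ) = 410 := rfl
  have f3 : ((cR true 0 410 : ℕ) : ℝ) / 4096 = 0 := by
    show ((0 : ℕ) : ℝ) / 4096 = _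
    norm_num
  rw [f1, f2, f3]
  refine ⟨fun s hs => absurd (hs.1.trans hs.2) (lt_irrefl _), fun s hs => (hS.mem s hs).2, by simp, ?_⟩
  filter_upwards [h2, ae_restrict_mem measurableSet_Ioo] with s hs hs'
  rw [lc_two (by linarith [(hS.mem s hs').1, hS.b0])]
  exact hs.imp id (Or.imp id fun c i hi => c _ (mem_KS0 hi))

theorem KS0_mem : ∀ k ∈ KS0, k ∈ Icc (0 : ℝ) 1 := by
  intro k hk
  obtain ⟨i, hi, rfl⟩ := Finset.mem_image.1 hk
  have : (i : ℝ) ≤ 32 := by exact_mod_cast (Finset.mem_range.1 hi).le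
  exact ⟨by positivity, by linarith⟩

theorem KS0_small : ∀ μ ∈ Icc (0 : ℝ) (1620 / 4096), ∃ k ∈ KS0, √(π * μ) < Ek k + k * (μ - 410 / 4096) := by
  intro μ hμ
  refine ⟨_, mem_KS0 (i := 23) (by norm_num), ?_⟩
  have h1 := sqrt_pi_le hμ.1 (by norm_num : (0 : ℝ) < 71 / 100)
  have h2 := Elow_le (k := ((23 : ℕ) : ℝ) / 32) (by positivity) (by norm_num)
  unfold Elow at h2
  have h3 : μ / (71 / 100) = 100 / 71 * μ := by ring
  have h4 : π < 31416 / 10000 := by linarith [pi_lt_d4]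
  push_cast at h2 ⊢
  norm_num at h2
  linarith [hμ.2]

end Crest.Agent.R214
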