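import Crest.Agent.R214.StB
import Crest.Agent.R214.Moll

/-!
# R214/StC

Steiner symmetrisation does not increase the perimeter.
Let `φ` be admissible, `C` a bound for `|dvg φ|` and `|d1 φ₁|`, `I l = ∫_q ∫_{-l/2}^{l/2} dvg φ`; `∫_{St E ∩ cell} dvg φ = I (fl E)` and
`|I l - I l'| ≤ C ‖l - l'‖₁`. Let `f n` be the mollifications, `l n = av1 (f n)`, `δ n q = ∫_{I0} |f n - 1_E|`, so `|l n - fl E| ≤ δ n`, `∫ δ n → 0`.
With `± = (± l n q/2, q)` put `a = |φ₁⁺ - φ₁⁻|/2`, `ψ j = (φ j⁺ + φ j⁻)/2`; `a² + ψ₂² + ψ₃² ≤ 1` (convexity).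
`Moll.dual` with `V = (a · sign (d1 f), -ψ₂, -ψ₃)` gives `∫ (a tv1 f - ψ₂ dx l - ψ₃ dy l) ≤ P`. By `integral_between`,
`I (l n) ≤ P + ∫ (2a - a tv1 f)`. With `Q = fl (1 - fl)`: `2a ≤ C min (l n) (1 - l n) ≤ C (2Q + δ)` (periodicity of `φ₁`), and
`Q (2 - tv1 f) ≤ 2δ` (`tv_lower`), `a ≤ 1`. Hence for every `η > 0`, `2a - a tv1 f ≤ 2Cη + Cδ + 2δ/η` (cases `Q ≤ η`, `Q > η`).
-/

set_option autoImplicit false

open MeasureTheory Set Filter Real
open scoped Topology

noncomputable section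

namespace Crest.Agent.R214

/-- integral over the symmetric interval of length `t` -/
def stc_F (g : X → ℝ) (t : ℝ) (q : Y) : ℝ := ∫ x in (-(t / 2))..(t / 2), g (x, q)

theorem stc_ii {g : X → ℝ} (hg : Continuous g) (q : Y) (a b : ℝ) :
    IntervalIntegrable (fun x => g (x, q)) volume a b :=
  (hg.comp (by fun_prop)).intervalIntegrable a b

theorem stc_cont {g : X → ℝ} (hg : Continuous g) : Continuous fun p : X => stc_F g p.1 p.2 := by
  have e : (fun p : X => stc_F g p.1 p.2) = fun p : X =>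
      (∫ x in (0 : ℝ)..(p.1 / 2), g (x, p.2)) - ∫ x in (0 : ℝ)..(-(p.1 / 2)), g (x, p.2) := by
    funext p
    rw [stc_F, intervalIntegral.integral_interval_sub_left (stc_ii hg _ _ _) (stc_ii hg _ _ _)]
  rw [e]
  have hc : Continuous (Function.uncurry fun (p : X) (x : ℝ) => g (x, p.2)) := hg.comp (by fun_prop)
  exact (intervalIntegral.continuous_parametric_intervalIntegral_of_continuous hc (by fun_prop)).sub
    (intervalIntegral.continuous_parametric_intervalIntegral_of_continuous hc (by fun_prop))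

theorem stc_lip {g : X → ℝ} (hg : Continuous g) {C : ℝ} (hC : ∀ p, |g p| ≤ C) (t t' : ℝ) (q : Y) :
    |stc_F g t q - stc_F g t' q| ≤ C * |t - t'| := by
  have e : stc_F g t q - stc_F g t' q =
      (∫ x in (-(t / 2))..(-(t' / 2)), g (x, q)) + ∫ x in (t' / 2)..(t / 2), g (x, q) := by
    have h1 := intervalIntegral.integral_add_adjacent_intervals (stc_ii hg q (-(t / 2)) (-(t' / 2)))
      (stc_ii hg q (-(t' / 2)) (t' / 2))
    have h2 := intervalIntegral.integral_add_adjacent_intervals (stc_ii hg q (-(t / 2)) (t' / 2))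
      (stc_ii hg q (t' / 2) (t / 2))
    unfold stc_F
    linarith
  have h1 := intervalIntegral.norm_integral_le_of_norm_le_const (a := -(t / 2)) (b := -(t' / 2))
    (f := fun x => g (x, q)) (C := C) fun x _ => hC _
  have h2 := intervalIntegral.norm_integral_le_of_norm_le_const (a := t' / 2) (b := t / 2)
    (f := fun x => g (x, q)) (C := C) fun x _ => hC _
  have e1 : |t / 2 - t' / 2| = |t - t'| / 2 := by rw [← sub_div, abs_div, abs_two]
  rw [show -(t' / 2) - -(t / 2) = t / 2 - t' / 2 by ring] at h1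
  rw [e1, Real.norm_eq_abs] at h1 h2
  rw [e]
  linarith [abs_add_le (∫ x in (-(t / 2))..(-(t' / 2)), g (x, q)) (∫ x in (t' / 2)..(t / 2), g (x, q))]

theorem stc_int {g : X → ℝ} (hg : Continuous g) {C : ℝ} (hC : ∀ p, |g p| ≤ C) {l : Y → ℝ} (hl : Measurable l)
    (hm : ∀ q, l q ∈ Icc (0 : ℝ) 1) : IntegrableOn (fun q => stc_F g (l q) q) cell2 := by
  refine integrableOn_cell2_of_bdd ((stc_cont hg).measurable.comp (hl.prodMk measurable_id)) (C := C) fun q => ?_
  have h := stc_lip hg hC (l q) 0 q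
  have h0 : stc_F g 0 q = 0 := by simp [stc_F]
  rw [h0, sub_zero, sub_zero, abs_of_nonneg (hm q).1] at h
  exact h.trans (mul_le_of_le_one_right ((abs_nonneg _).trans (hC 0)) (hm q).2)

theorem stc_St {E : Set X} (hE : MeasurableSet E) {g : X → ℝ} (hg : Continuous g) :
    ∫ p in St E ∩ cell, g p = ∫ q in cell2, stc_F g (fl E q) q := by
  rw [inter_comm, ← setIntegral_indicator (St_meas hE),
    integral_cell_prod ((integrableOn_cell_of_cont hg).indicator (St_meas hE))]
  refine integral_congr_ae (Eventually.of_forall fun q => ?_)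
  have hm := fl_mem E q
  have hS : MeasurableSet {x : ℝ | tri x < fl E q / 2} :=
    measurableSet_lt continuous_tri.measurable measurable_const
  have e : I0 ∩ {x : ℝ | tri x < fl E q / 2} = Ioo (-(fl E q / 2)) (fl E q / 2) := by
    ext x
    simp only [I0, mem_inter_iff, mem_Ico, mem_ofPred_eq, mem_Ioo]
    constructor
    · rintro ⟨⟨h1, h2⟩, h3⟩
      rw [tri_of_abs_le (abs_le.2 ⟨by linarith, by linarith⟩)] at h3
      exact abs_lt.1 h3
    · rintro ⟨h1, h2⟩
      refine ⟨⟨by linarith [hm.2], by linarith [hm.2]⟩, ?_⟩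
      rw [tri_of_abs_le (abs_le.2 ⟨by linarith [hm.2], by linarith [hm.2]⟩)]
      exact abs_lt.2 ⟨h1, h2⟩
  change ∫ x in I0, {x : ℝ | tri x < fl E q / 2}.indicator (fun x => g (x, q)) x = stc_F g (fl E q) q
  rw [setIntegral_indicator hS, e, stc_F, intervalIntegral.integral_of_le (by linarith [hm.1]),
    integral_Ioc_eq_integral_Ioo]

/-- the fibrewise `L¹` distance -/
def stc_del (E : Set X) (f : X → ℝ) (q : Y) : ℝ := ∫ x in I0, |f (x, q) - E.indicator 1 (x, q)|

theorem stc_ind_mem (E : Set X) (p : X) : E.indicator (1 : X → ℝ) p ∈ Icc (0 : ℝ) 1 := by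
  by_cases h : p ∈ E <;> simp [h]

theorem stc_abs_le {E : Set X} {f : X → ℝ} (hm : ∀ p, f p ∈ Icc (0 : ℝ) 1) (p : X) :
    |(|f p - E.indicator 1 p|)| ≤ 1 := by
  rw [abs_abs]
  have h1 := hm p
  have h2 := stc_ind_mem E p
  exact abs_le.2 ⟨by linarith [h1.1, h2.2], by linarith [h1.2, h2.1]⟩

theorem stc_meas {E : Set X} (hE : MeasurableSet E) {f : X → ℝ} (hf : Continuous f) :
    Measurable fun p => |f p - E.indicator 1 p| :=
  (hf.measurable.sub (measurable_one.indicator hE)).abs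

theorem stc_del_int {E : Set X} (hE : MeasurableSet E) {f : X → ℝ} (hf : Continuous f)
    (hm : ∀ p, f p ∈ Icc (0 : ℝ) 1) : IntegrableOn (stc_del E f) cell2 := by
  refine integrableOn_cell2_of_bdd (C := 1)
    ((stc_meas hE hf).stronglyMeasurable.integral_prod_left' (μ := volume.restrict I0)).measurable fun q => ?_
  have := norm_integral_le_of_norm_le_const (μ := volume.restrict I0)
    (f := fun x => |f (x, q) - E.indicator 1 (x, q)|) (C := 1) (Eventually.of_forall fun x => stc_abs_le hm _)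
  simpa [Measure.real, volume_I0, stc_del] using this

theorem stc_av_mem {f : X → ℝ} (hf : Continuous f) (hm : ∀ p, f p ∈ Icc (0 : ℝ) 1) (q : Y) :
    av1 f q ∈ Icc (0 : ℝ) 1 := by
  refine ⟨integral_nonneg fun x => (hm _).1, ?_⟩
  have := integral_mono (μ := volume.restrict I0) (f := fun x => f (x, q)) (g := fun _ => (1 : ℝ))
    (integrableOn_I0_of_cont (hf.comp (by fun_prop))) (integrable_const _) fun x => (hm _).2
  simpa [Measure.real, volume_I0, av1] using this

theorem stc_av_sub {E : Set X} (hE : MeasurableSet E) {f : X → ℝ} (hf : Continuous f) (q : Y) :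
    |av1 f q - fl E q| ≤ stc_del E f q := by
  have hA : MeasurableSet {x : ℝ | (x, q) ∈ E} := measurable_prodMk_right hE
  have hi : Integrable (fun x => E.indicator (1 : X → ℝ) (x, q)) (volume.restrict I0) :=
    (integrable_const (1 : ℝ)).indicator hA
  rw [fl_eq hE, av1, ← integral_sub (integrableOn_I0_of_cont (f := fun x => f (x, q)) (by fun_prop)) hi]
  exact abs_integral_le_integral_abs

theorem stc_osc {φ : X → ℝ} (hφ : ContDiff ℝ 1 φ) (hp : Pd φ) {C : ℝ} (hC : ∀ p, |d1 φ p| ≤ C) {l : ℝ}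
    (hl : l ∈ Icc (0 : ℝ) 1) (q : Y) :
    |φ (l / 2, q) - φ (-(l / 2), q)| ≤ C * l ∧ |φ (l / 2, q) - φ (-(l / 2), q)| ≤ C * (1 - l) := by
  have key : ∀ x y : ℝ, |φ (y, q) - φ (x, q)| ≤ C * |y - x| := fun x y =>
    Convex.norm_image_sub_le_of_norm_hasDerivWithin_le (f := fun x => φ (x, q)) (f' := fun x => d1 φ (x, q))
      (s := univ) (fun x _ => (hasDerivAt_d1 (x := x) (y := q.1) (z := q.2)
        (hφ.differentiable one_ne_zero _)).hasDerivWithinAt) (fun x _ => hC _) convex_univ (mem_univ _) (mem_univ _)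
  constructor
  · have := key (-(l / 2)) (l / 2)
    rwa [show l / 2 - -(l / 2) = l by ring, abs_of_nonneg hl.1] at this
  · have := key (-(l / 2) + 1) (l / 2)
    rwa [show φ (-(l / 2) + 1, q) = φ (-(l / 2), q) from hp.periodic1 q _,
      show l / 2 - (-(l / 2) + 1) = -(1 - l) by ring, abs_neg, abs_of_nonneg (sub_nonneg.2 hl.2)] at this

theorem stc_alg {a C l L δ tv η : ℝ} (ha0 : 0 ≤ a) (ha1 : a ≤ 1) (hC : 0 ≤ C) (h1 : 2 * a ≤ C * l)
    (h2 : 2 * a ≤ C * (1 - l)) (hL : L ∈ Icc (0 : ℝ) 1) (hl : |l - L| ≤ δ) (htv : 0 ≤ tv)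
    (h3 : 2 * (L * (1 - L) - δ) ≤ L * (1 - L) * tv) (hη : 0 < η) :
    2 * a ≤ a * tv + (2 * C * η + (C + 2 / η) * δ) := by
  have hδ : 0 ≤ δ := (abs_nonneg _).trans hl
  obtain ⟨l1, l2⟩ := abs_le.1 hl
  have h4 : 2 * a ≤ C * (2 * (L * (1 - L)) + δ) := by
    rcases le_total L (1 / 2) with h | h
    · refine h1.trans (mul_le_mul_of_nonneg_left ?_ hC)
      nlinarith [hL.1]
    · refine h2.trans (mul_le_mul_of_nonneg_left ?_ hC)
      nlinarith [hL.2]
  have h5 : 0 ≤ 2 / η * δ := by positivity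
  have h6 : 0 ≤ a * tv := by positivity
  have h7 : 0 ≤ C * η := by positivity
  have h8 : 0 ≤ C * δ := by positivity
  rcases le_total (L * (1 - L)) η with h | h
  · nlinarith [mul_le_mul_of_nonneg_left h hC]
  · rcases le_total 2 tv with h' | h'
    · nlinarith
    · have h9 : 2 - tv ≤ 2 / η * δ := by
        rw [div_mul_eq_mul_div, le_div_iff₀ hη]
        nlinarith
      nlinarith

theorem stc_step {E : Set X} {P : ℝ} {f : ℕ → X → ℝ} (hE : MeasurableSet E) (hf : Moll E P f) (n : ℕ)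
    {φ₁ φ₂ φ₃ : X → ℝ} (h : Adm φ₁ φ₂ φ₃) {C : ℝ} (hC0 : 0 ≤ C) (hC : ∀ p, |d1 φ₁ p| ≤ C) {η : ℝ} (hη : 0 < η) :
    ∫ q in cell2, stc_F (dvg φ₁ φ₂ φ₃) (av1 (f n) q) q ≤
      P + (2 * C * η + (C + 2 / η) * ∫ q in cell2, stc_del E (f n) q) := by
  have sm := hf.sm n
  have hl := av1_contDiff sm
  have cl := hl.continuous
  have c1 := h.c1.continuous
  have c2 := h.c2.continuous
  have c3 := h.c3.continuous
  have k1 := continuous_d1 sm
  have k2 := continuous_d2 sm
  have k3 := continuous_d3 sm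
  have kx := continuous_dx hl
  have ky := continuous_dy hl
  have kt := continuous_tv1 sm
  unfold stc_F
  rw [integral_between h hl (av1_pd2 (hf.pd n))]
  set l := av1 (f n) with hl'
  set a : Y → ℝ := fun q => |φ₁ (l q / 2, q) - φ₁ (-(l q / 2), q)| / 2 with ha
  set ψ₂ : Y → ℝ := fun q => (φ₂ (l q / 2, q) + φ₂ (-(l q / 2), q)) / 2 with hψ₂
  set ψ₃ : Y → ℝ := fun q => (φ₃ (l q / 2, q) + φ₃ (-(l q / 2), q)) / 2 with hψ₃
  have ca : Continuous a := by fun_prop
  have cψ₂ : Continuous ψ₂ := by fun_prop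
  have cψ₃ : Continuous ψ₃ := by fun_prop
  have hsq : ∀ q, a q ^ 2 + ψ₂ q ^ 2 + ψ₃ q ^ 2 ≤ 1 := fun q => by
    have b1 := h.le (l q / 2, q)
    have b2 := h.le (-(l q / 2), q)
    simp only [ha, hψ₂, hψ₃, div_pow, sq_abs]
    nlinarith [sq_nonneg (φ₁ (l q / 2, q) + φ₁ (-(l q / 2), q)), sq_nonneg (φ₂ (l q / 2, q) - φ₂ (-(l q / 2), q)),
      sq_nonneg (φ₃ (l q / 2, q) - φ₃ (-(l q / 2), q))]
  have hd := hf.dual n (fun p => if 0 ≤ d1 (f n) p then a p.2 else -a p.2) (fun p => -ψ₂ p.2) (fun p => -ψ₃ p.2)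
    (Measurable.ite (measurableSet_le measurable_const k1.measurable) (by fun_prop) (by fun_prop))
    (by fun_prop) (by fun_prop) fun p => by
      split_ifs <;> simpa using hsq p.2
  have e1 : ∫ p in cell, ((if 0 ≤ d1 (f n) p then a p.2 else -a p.2) * d1 (f n) p + -ψ₂ p.2 * d2 (f n) p +
      -ψ₃ p.2 * d3 (f n) p) = ∫ q in cell2, (a q * tv1 (f n) q - ψ₂ q * dx l q - ψ₃ q * dy l q) := by
    have e2 : ∀ p : X, (if 0 ≤ d1 (f n) p then a p.2 else -a p.2) * d1 (f n) p + -ψ₂ p.2 * d2 (f n) p +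
        -ψ₃ p.2 * d3 (f n) p = a p.2 * |d1 (f n) p| - ψ₂ p.2 * d2 (f n) p - ψ₃ p.2 * d3 (f n) p := fun p => by
      split_ifs with h'
      · rw [abs_of_nonneg h']; ring
      · rw [abs_of_neg (not_le.1 h')]; ring
    simp only [e2]
    rw [integral_cell_prod (integrableOn_cell_of_cont (by fun_prop))]
    refine integral_congr_ae (Eventually.of_forall fun q => ?_)
    dsimp only
    rw [integral_sub (integrableOn_I0_of_cont (by fun_prop)) (integrableOn_I0_of_cont (by fun_prop)),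
      integral_sub (integrableOn_I0_of_cont (by fun_prop)) (integrableOn_I0_of_cont (by fun_prop)),
      integral_const_mul, integral_const_mul, integral_const_mul, dx_av1 sm, dy_av1 sm, tv1]
  rw [e1] at hd
  have iδ := stc_del_int hE sm.continuous (hf.mem n)
  have i1 : IntegrableOn (fun q => a q * tv1 (f n) q - ψ₂ q * dx l q - ψ₃ q * dy l q) cell2 :=
    integrableOn_cell2_of_cont (by fun_prop)
  have i2 : IntegrableOn (fun q => 2 * C * η + (C + 2 / η) * stc_del E (f n) q) cell2 :=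
    (integrable_const _).add (iδ.const_mul _)
  have e3 : ∫ q in cell2, (2 * C * η + (C + 2 / η) * stc_del E (f n) q) =
      2 * C * η + (C + 2 / η) * ∫ q in cell2, stc_del E (f n) q := by
    rw [integral_add (integrable_const _) (iδ.const_mul _), integral_const_mul (C + 2 / η)]
    simp [Measure.real, volume_cell2]
  rw [← e3]
  refine le_trans ?_ (add_le_add_left hd _)
  rw [← integral_add i1 i2]
  refine integral_mono (integrableOn_cell2_of_cont (by fun_prop)) (i1.add i2) fun q => ?_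
  obtain ⟨o1, o2⟩ := stc_osc h.c1 h.p1 hC (stc_av_mem sm.continuous (hf.mem n) q) q
  have ha0 : 0 ≤ a q := by positivity
  have ha1 : a q ≤ 1 := by nlinarith [hsq q, sq_nonneg (ψ₂ q), sq_nonneg (ψ₃ q)]
  have e4 : 2 * a q = |φ₁ (l q / 2, q) - φ₁ (-(l q / 2), q)| := by
    rw [ha]; ring
  have htv := tv_lower (g := fun x => f n (x, q)) (g' := fun x => d1 (f n) (x, q))
    (fun x => hasDerivAt_d1 (x := x) (y := q.1) (z := q.2) (sm.differentiable one_ne_zero _)) (by fun_prop)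
    ((hf.pd n).periodic1 q) (A := {x : ℝ | (x, q) ∈ E}) (measurable_prodMk_right hE) (l := fl E q) rfl
  have key := stc_alg (tv := tv1 (f n) q) ha0 ha1 hC0 (e4 ▸ o1) (e4 ▸ o2) (fl_mem E q)
    (stc_av_sub hE sm.continuous q) (integral_nonneg fun x => abs_nonneg _) htv hη
  have := le_abs_self (φ₁ (l q / 2, q) - φ₁ (-(l q / 2), q))
  simp only [hψ₂, hψ₃]
  linarith

theorem Good.St {E : Set X} {V P : ℝ} (h : Good E V P) : Good (St E) V P := by
  have hE := h.meas
  refine ⟨St_meas hE, St_per h.per, ?_, fun φ₁ φ₂ φ₃ hφ => ?_⟩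
  · rw [← integral_fl (St_meas hE), fl_St, integral_fl hE, h.vol]
  obtain ⟨f, hf⟩ := exists_moll h
  obtain ⟨C, hC0, hC⟩ := hφ.p1.d1.exists_bound (continuous_d1 hφ.c1)
  obtain ⟨D, hD0, hD⟩ := hφ.pd_dvg.exists_bound hφ.continuous_dvg
  have hg := hφ.continuous_dvg
  rw [stc_St hE hg]
  have hlim : Tendsto (fun n => ∫ q in cell2, stc_del E (f n) q) atTop (𝓝 0) := by
    refine (hf.l1 hE).congr fun n => ?_
    exact integral_cell_prod (integrableOn_cell_of_bdd (stc_meas hE (hf.sm n).continuous) (stc_abs_le (hf.mem n)))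
  have key : ∀ η : ℝ, 0 < η → ∫ q in cell2, stc_F (dvg φ₁ φ₂ φ₃) (fl E q) q ≤ P + 2 * C * η := by
    intro η hη
    have h1 : Tendsto (fun n => P + 2 * C * η + (D + (C + 2 / η)) * ∫ q in cell2, stc_del E (f n) q) atTop
        (𝓝 (P + 2 * C * η + (D + (C + 2 / η)) * 0)) := (hlim.const_mul _).const_add _
    rw [mul_zero, add_zero] at h1
    refine ge_of_tendsto' h1 fun n => ?_
    have h2 := stc_step hE hf n hφ hC0 hC hη
    have cf := (hf.sm n).continuous
    have iδ := stc_del_int hE cf (hf.mem n)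
    have i1 := stc_int hg hD (continuous_av1 cf).measurable (stc_av_mem cf (hf.mem n))
    have h3 : ∫ q in cell2, stc_F (dvg φ₁ φ₂ φ₃) (fl E q) q ≤
        ∫ q in cell2, (stc_F (dvg φ₁ φ₂ φ₃) (av1 (f n) q) q + D * stc_del E (f n) q) := by
      refine integral_mono (stc_int hg hD (measurable_fl hE) (fl_mem E)) (i1.add (iδ.const_mul _)) fun q => ?_
      have a1 := stc_lip hg hD (av1 (f n) q) (fl E q) q
      have a2 := mul_le_mul_of_nonneg_left (stc_av_sub hE cf q) hD0
      have a3 := neg_abs_le (stc_F (dvg φ₁ φ₂ φ₃) (av1 (f n) q) q - stc_F (dvg φ₁ φ₂ φ₃) (fl E q) q)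
      beta_reduce
      linarith
    rw [integral_add i1 (iδ.const_mul _), integral_const_mul] at h3
    linarith
  refine le_of_forall_pos_le_add fun ε hε => (key (ε / (2 * C + 1)) (by positivity)).trans ?_
  have : 2 * C * (ε / (2 * C + 1)) ≤ ε := by
    rw [← mul_div_assoc, div_le_iff₀ (by positivity)]
    nlinarith
  linarith

end Crest.Agent.R214
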