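import Crest.Agent.R214.Trans
import Crest.Agent.R214.Basic2
import Crest.Agent.R214.JApi

/-!
# R214/TransStd

Standard regions. For `g x i = ε i * x (σ i) + c i` (a bijection) one has `y ∈ g '' F ↔ g⁻¹ y ∈ F` with
`(g⁻¹ y) (σ i) = ε i * (y i - c i)`. `x ∈ periodicBall r ↔ ∑ tri (x i)² < r²` (`tri_le_abs_sub`, take `v i = round (x i)`),
`x ∈ periodicTube r ↔ tri (x 0)² + tri (x 1)² < r²`, and `periodicSlab w` is `{tri (x 0 - w/2) < w/2}` up to the null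
set `{x 0 ∈ ℤ}` (`0 < w ≤ 1/2`). `tri (ε t) = tri t`. A `Bin e` with `nn e = 3, 2, 1` is `(1,1,1)`, or has exactly one zero, or exactly one one; choose `σ`
accordingly, `ε = 1`.
-/

set_option autoImplicit false

open MeasureTheory Set Filter Real
open scoped Topology

noncomputable section

namespace Crest.Agent.R214

open Crest.GeometryTopology.PeriodicPerimeter

/-- the models in `EuclideanSpace` -/
def tstM (e : Fin 3 → ℝ) (r : ℝ) (c : Fin 3 → ℝ) : Set (EuclideanSpace ℝ (Fin 3)) :=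
  {y | ∑ i, e i * tri (y i - c i) ^ 2 < r ^ 2}

theorem tst_io (e : Fin 3 → ℝ) (r : ℝ) (c : Fin 3 → ℝ) :
    io ⁻¹' tstM e r c = mdl (e 0, e 1, e 2) r (c 0, c 1, c 2) := by
  ext p
  simp only [tstM, mem_preimage, mem_ofPred_eq, Fin.sum_univ_three, mdl]
  rfl

/-- `F` is the model away from countably many coordinate planes -/
def tstLike (F : Set (EuclideanSpace ℝ (Fin 3))) (e : Fin 3 → ℝ) (r : ℝ) (c : Fin 3 → ℝ) : Prop :=
  ∀ x : EuclideanSpace ℝ (Fin 3), (∀ j, ∀ a : ℤ, x j ≠ a) → (x ∈ F ↔ x ∈ tstM e r c)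

theorem tst_ae_io {E F : Set (EuclideanSpace ℝ (Fin 3))} :
    E =ᵐ[volume] F ↔ io ⁻¹' E =ᵐ[volume] io ⁻¹' F := by
  refine ⟨fun h => measurePreserving_io.quasiMeasurePreserving.preimage_ae_eq h, fun h => ?_⟩
  have := trans_mp_oi.quasiMeasurePreserving.preimage_ae_eq h
  simpa only [preimage_preimage, io_oi, preimage_id'] using this

theorem tst_tri_sign {ε : ℝ} (h : ε = 1 ∨ ε = -1) (t : ℝ) : tri (ε * t) = tri t := by
  rcases h with rfl | rfl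
  · rw [one_mul]
  · rw [neg_one_mul, tri_neg]

theorem tst_image {F : Set (EuclideanSpace ℝ (Fin 3))} {e : Fin 3 → ℝ} {r : ℝ} {c₀ : Fin 3 → ℝ}
    (hF : tstLike F e r c₀) {g : EuclideanSpace ℝ (Fin 3) → EuclideanSpace ℝ (Fin 3)}
    {σ : Equiv.Perm (Fin 3)} {ε : Fin 3 → ℝ} {c : EuclideanSpace ℝ (Fin 3)}
    (hε : ∀ i, ε i = 1 ∨ ε i = -1) (hg : ∀ x i, g x i = ε i * x (σ i) + c i) :
    g '' F =ᵐ[volume] tstM (fun i => e (σ i)) r fun i => c i + ε i * c₀ (σ i) := by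
  have hsq : ∀ i, ε i * ε i = 1 := fun i => by rcases hε i with h | h <;> rw [h] <;> norm_num
  have h1 : ∀ᵐ y : EuclideanSpace ℝ (Fin 3), ∀ i, ∀ a : ℤ, y i ≠ c i + ε i * a := by
    refine ae_all_iff.2 fun i => ae_all_iff.2 fun a => ?_
    exact (PiLp.volume_preserving_ofLp (Fin 3)).quasiMeasurePreserving.ae
      (Measure.ae_eval_ne (fun _ : Fin 3 => (volume : Measure ℝ)) i (c i + ε i * a))
  refine eventuallyEq_set.2 (h1.mono fun y hy => ?_)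
  let x : EuclideanSpace ℝ (Fin 3) :=
    WithLp.toLp 2 fun j => ε (σ.symm j) * (y (σ.symm j) - c (σ.symm j))
  have hx : ∀ i, x (σ i) = ε i * (y i - c i) := fun i => by simp [x]
  have h2 : y ∈ g '' F ↔ x ∈ F := by
    constructor
    · rintro ⟨z, hz, rfl⟩
      have : x = z := by
        ext j
        obtain ⟨i, rfl⟩ := σ.surjective j
        rw [hx, hg]
        linear_combination z (σ i) * hsq i
      rwa [this]
    · intro h
      refine ⟨x, h, ?_⟩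
      ext i
      rw [hg, hx]
      linear_combination (y i - c i) * hsq i
  rw [h2, hF x fun j a ha => ?_]
  · simp only [tstM, mem_ofPred_eq]
    rw [← Equiv.sum_comp σ]
    refine iff_of_eq (congrArg (· < r ^ 2) (Finset.sum_congr rfl fun i _ => ?_))
    rw [hx, ← tst_tri_sign (hε i) (y i - _)]
    congr 3
    linear_combination c₀ (σ i) * hsq i
  · obtain ⟨i, rfl⟩ := σ.surjective j
    rw [hx] at ha
    refine hy i a ?_
    rw [← ha]
    linear_combination (-(y i - c i)) * hsq i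

theorem tst_cong {F : Set (EuclideanSpace ℝ (Fin 3))} {e : Fin 3 → ℝ} {r : ℝ} {c₀ : Fin 3 → ℝ}
    (hF : tstLike F e r c₀) (E : Set (EuclideanSpace ℝ (Fin 3))) :
    CongruentModNull E F ↔ ∃ (σ : Equiv.Perm (Fin 3)) (c : X),
      io ⁻¹' E =ᵐ[volume] mdl (e (σ 0), e (σ 1), e (σ 2)) r c := by
  constructor
  · rintro ⟨g, ⟨σ, ε, c, hε, hg⟩, h⟩
    have h1 := tst_ae_io.1 ((measure_symmDiff_eq_zero_iff.1 h).trans (tst_image hF hε hg))
    rw [tst_io] at h1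
    exact ⟨σ, _, h1⟩
  · rintro ⟨σ, c, h⟩
    let c' : EuclideanSpace ℝ (Fin 3) := WithLp.toLp 2 fun i => io c i - c₀ (σ i)
    let g : EuclideanSpace ℝ (Fin 3) → EuclideanSpace ℝ (Fin 3) :=
      fun x => WithLp.toLp 2 fun i => 1 * x (σ i) + c' i
    have h1 := tst_image hF (g := g) (σ := σ) (ε := fun _ => 1) (c := c') (fun _ => Or.inl rfl)
      fun _ _ => rfl
    refine ⟨g, ⟨σ, fun _ => 1, c', fun _ => Or.inl rfl, fun _ _ => rfl⟩,
      measure_symmDiff_eq_zero_iff.2 (EventuallyEq.trans (tst_ae_io.2 ?_) h1.symm)⟩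
    rw [tst_io]
    simp only [c', one_mul, sub_add_cancel]
    exact h

theorem tst_tri_sq (t : ℝ) : tri t ^ 2 = (t - round t) ^ 2 := sq_abs _

theorem tst_tri_sq_le (t : ℝ) (a : ℤ) : tri t ^ 2 ≤ (t - a) ^ 2 := by
  rw [← sq_abs (t - a)]
  exact pow_le_pow_left₀ (tri_nonneg t) (tri_le_abs_sub t a) 2

theorem tst_ball {r : ℝ} (hr : 0 < r) : tstLike (periodicBall r) ![1, 1, 1] r 0 := by
  intro x _
  have hd : ∀ v : EuclideanSpace ℝ (Fin 3), dist x v < r ↔ ∑ i, (x i - v i) ^ 2 < r ^ 2 := by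
    intro v
    rw [← sq_lt_sq₀ dist_nonneg hr.le, dist_eq_norm, EuclideanSpace.real_norm_sq_eq]
    rfl
  have he : ∀ i, (![1, 1, 1] : Fin 3 → ℝ) i = 1 := fun i => by fin_cases i <;> rfl
  simp only [periodicBall, tstM, mem_ofPred_eq, hd, he, one_mul, Pi.zero_apply, sub_zero]
  constructor
  · rintro ⟨v, hv, h⟩
    refine lt_of_le_of_lt (Finset.sum_le_sum fun i _ => ?_) h
    obtain ⟨a, ha⟩ := hv i
    rw [ha]
    exact tst_tri_sq_le _ _
  · intro h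
    exact ⟨WithLp.toLp 2 fun i => (round (x i) : ℝ), fun i => ⟨_, rfl⟩, by simpa only [tst_tri_sq] using h⟩

theorem tst_tube (r : ℝ) : tstLike (periodicTube r) ![1, 1, 0] r 0 := by
  intro x _
  simp only [periodicTube, tstM, mem_ofPred_eq, Fin.sum_univ_three, Pi.zero_apply, sub_zero,
    Matrix.cons_val, one_mul, zero_mul, add_zero]
  constructor
  · rintro ⟨a, b, h⟩
    linarith [tst_tri_sq_le (x 0) a, tst_tri_sq_le (x 1) b]
  · intro h
    exact ⟨round (x 0), round (x 1), by simpa only [tst_tri_sq] using h⟩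

theorem tst_slab {w : ℝ} (hw : 0 < w) : tstLike (periodicSlab w) ![1, 0, 0] (w / 2) fun _ => w / 2 := by
  intro x hx
  simp only [periodicSlab, tstM, mem_ofPred_eq, Fin.sum_univ_three, Matrix.cons_val, one_mul, zero_mul,
    add_zero]
  rw [sq_lt_sq₀ (tri_nonneg _) (by positivity)]
  constructor
  · rintro ⟨a, h1, h2⟩
    have h3 := lt_of_le_of_ne h1 (hx 0 a).symm
    exact (tri_le_abs_sub _ a).trans_lt (abs_lt.2 ⟨by linarith, by linarith⟩)
  · intro h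
    have h1 := abs_lt.1 (show |x 0 - w / 2 - round (x 0 - w / 2)| < w / 2 from h)
    exact ⟨round (x 0 - w / 2), by linarith [h1.1], by linarith [h1.2]⟩

theorem tst_bin {e : Fin 3 → ℝ} (h : ∀ i, e i = 0 ∨ e i = 1) (σ : Equiv.Perm (Fin 3)) :
    Bin (e (σ 0), e (σ 1), e (σ 2)) ∧ nn (e (σ 0), e (σ 1), e (σ 2)) = e 0 + e 1 + e 2 := by
  refine ⟨⟨h _, h _, h _⟩, ?_⟩
  have := Equiv.sum_comp σ e
  simp only [Fin.sum_univ_three] at this
  exact this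

theorem tst_perm3 {e : X} (h : Bin e) (hn : nn e = 3) : ∃ σ : Equiv.Perm (Fin 3),
    e = ((![1, 1, 1] : Fin 3 → ℝ) (σ 0), (![1, 1, 1] : Fin 3 → ℝ) (σ 1), (![1, 1, 1] : Fin 3 → ℝ) (σ 2)) := by
  obtain ⟨a, b, c⟩ := e
  obtain ⟨rfl | rfl, rfl | rfl, rfl | rfl⟩ : (a = 0 ∨ a = 1) ∧ (b = 0 ∨ b = 1) ∧ (c = 0 ∨ c = 1) := h <;>
    first
    | (norm_num [nn] at hn; done)
    | exact ⟨1, rfl⟩

theorem tst_perm2 {e : X} (h : Bin e) (hn : nn e = 2) : ∃ σ : Equiv.Perm (Fin 3),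
    e = ((![1, 1, 0] : Fin 3 → ℝ) (σ 0), (![1, 1, 0] : Fin 3 → ℝ) (σ 1), (![1, 1, 0] : Fin 3 → ℝ) (σ 2)) := by
  obtain ⟨a, b, c⟩ := e
  obtain ⟨rfl | rfl, rfl | rfl, rfl | rfl⟩ : (a = 0 ∨ a = 1) ∧ (b = 0 ∨ b = 1) ∧ (c = 0 ∨ c = 1) := h <;>
    first
    | (norm_num [nn] at hn; done)
    | exact ⟨1, rfl⟩
    | exact ⟨Equiv.swap 0 2, rfl⟩
    | exact ⟨Equiv.swap 1 2, rfl⟩

theorem tst_perm1 {e : X} (h : Bin e) (hn : nn e = 1) : ∃ σ : Equiv.Perm (Fin 3),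
    e = ((![1, 0, 0] : Fin 3 → ℝ) (σ 0), (![1, 0, 0] : Fin 3 → ℝ) (σ 1), (![1, 0, 0] : Fin 3 → ℝ) (σ 2)) := by
  obtain ⟨a, b, c⟩ := e
  obtain ⟨rfl | rfl, rfl | rfl, rfl | rfl⟩ : (a = 0 ∨ a = 1) ∧ (b = 0 ∨ b = 1) ∧ (c = 0 ∨ c = 1) := h <;>
    first
    | (norm_num [nn] at hn; done)
    | exact ⟨1, rfl⟩
    | exact ⟨Equiv.swap 0 2, rfl⟩
    | exact ⟨Equiv.swap 0 1, rfl⟩

theorem std_iff {W : ℝ} (h0 : 0 < W) (h1 : W ≤ 1 / 2) (E : Set (EuclideanSpace ℝ (Fin 3))) :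
    IsStandardRegion W E ↔ Std W (io ⁻¹' E) := by
  have hπ := pi_pos
  have hb : 0 < (3 * W / (4 * π)) ^ ((1 : ℝ) / 3) := by positivity
  have ht : 0 < √(W / π) := by positivity
  unfold IsStandardRegion
  rw [tst_cong (tst_ball hb), tst_cong (tst_tube _), tst_cong (tst_slab h0)]
  constructor
  · rintro (⟨hW, σ, c, h⟩ | ⟨hW, hW', σ, c, h⟩ | ⟨hW, σ, c, h⟩)
    · have hB := tst_bin (e := ![1, 1, 1]) (fun i => by fin_cases i <;> simp) σ
      refine ⟨_, _, c, ⟨hB.1, hb, Or.inl ⟨hB.2.trans (by simp; norm_num), hW, ?_⟩⟩, h⟩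
      rw [← rpow_natCast, ← rpow_mul (by positivity)]
      norm_num
      field_simp
    · have hB := tst_bin (e := ![1, 1, 0]) (fun i => by fin_cases i <;> simp) σ
      refine ⟨_, _, c, ⟨hB.1, ht, Or.inr (Or.inl ⟨hB.2.trans (by simp; norm_num), hW, hW', ?_⟩)⟩, h⟩
      rw [sq_sqrt (by positivity)]
      field_simp
    · have hB := tst_bin (e := ![1, 0, 0]) (fun i => by fin_cases i <;> simp) σ
      exact ⟨_, _, c, ⟨hB.1, by positivity,
        Or.inr (Or.inr ⟨hB.2.trans (by simp), hW, by ring⟩)⟩, h⟩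
  · rintro ⟨e, r, c, ⟨hB, hr, ⟨hn, hW, hV⟩ | ⟨hn, hW, hW', hV⟩ | ⟨hn, hW, hV⟩⟩, h⟩
    · obtain ⟨σ, rfl⟩ := tst_perm3 hB hn
      have e : (3 * W / (4 * π)) ^ ((1 : ℝ) / 3) = r := by
        rw [show 3 * W / (4 * π) = r ^ 3 by rw [hV]; field_simp, ← rpow_natCast, ← rpow_mul hr.le]
        norm_num
      exact Or.inl ⟨hW, σ, c, e ▸ h⟩
    · obtain ⟨σ, rfl⟩ := tst_perm2 hB hn
      have e : √(W / π) = r := by
        rw [show W / π = r ^ 2 by rw [hV]; field_simp, sqrt_sq hr.le]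
      exact Or.inr (Or.inl ⟨hW, hW', σ, c, e ▸ h⟩)
    · obtain ⟨σ, rfl⟩ := tst_perm1 hB hn
      have e : W / 2 = r := by linarith
      exact Or.inr (Or.inr ⟨hW, σ, c, e ▸ h⟩)

end Crest.Agent.R214
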