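import Crest.Agent.R214.UndoG

/-!
# R214/UndoH

Undoing one symmetrisation.
-/

set_option autoImplicit false

open MeasureTheory Set Filter Real
open scoped Topology

noncomputable section

namespace Crest.Agent.R214

theorem undoH_per1 {F : Set X} (hp : PdS F) (q : Y) (n : ℤ) (x : ℝ) :
    x + n ∈ {x | (x, q) ∈ F} ↔ x ∈ {x | (x, q) ∈ F} := by
  have := hp n 0 0 (x, q)
  simpa only [mem_ofPred_eq, Int.cast_zero, Prod.mk_add_mk, Prod.mk_zero_zero, add_zero] using this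

theorem undoH_per2 {F : Set X} (hp : PdS F) (a b : ℤ) (q : Y) :
    {x | (x, q + ((a : ℝ), (b : ℝ))) ∈ F} = {x | (x, q) ∈ F} := by
  ext x
  have := hp 0 a b (x, q)
  simpa only [mem_ofPred_eq, Int.cast_zero, Prod.mk_add_mk, add_zero] using this

theorem undoH_fib {e : X} (e1 : e.1 = 1) (r x₀ : ℝ) {q : Y} (hq : q ∈ cell2) :
    {x | (x, q) ∈ mdl e r (x₀, 0)} = {x | tri (x - x₀) < hf e r q} := by
  have k : ∀ y ∈ I0, tri y ^ 2 = y ^ 2 := fun y hy => by rw [tri, cen_of_mem hy, sq_abs]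
  ext x
  simp only [mdl, mem_ofPred_eq, e1, one_mul, Prod.fst_zero, Prod.snd_zero, sub_zero, k _ hq.1, k _ hq.2, hf,
    Real.lt_sqrt (tri_nonneg _), Qf]
  constructor <;> intro h <;> linarith

theorem undoH_real {A : Set ℝ} (hA : MeasurableSet A) :
    volume.real {x | x ∈ I0 ∧ x ∈ A} = ∫ x in I0, A.indicator 1 x := by
  rw [integral_indicator_one hA, measureReal_restrict_apply hA, inter_comm]
  rfl

theorem undoH_len (x₀ : ℝ) {h : ℝ} (h0 : 0 ≤ h) (h1 : h ≤ 1 / 2) :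
    volume.real {x | x ∈ I0 ∧ x ∈ {x | tri (x - x₀) < h}} = 2 * h := by
  have m1 : MeasurableSet {x | tri x < h} := measurableSet_lt continuous_tri.measurable measurable_const
  have m2 : MeasurableSet {x | tri (x - x₀) < h} := (measurable_sub_const x₀) m1
  rw [← volume_arc h0 h1, undoH_real m2]
  refine Eq.trans ?_ ((integral_I0_add (g := {x | tri x < h}.indicator 1) (fun x => ?_) (-x₀)).trans
    (undoH_real m1).symm)
  · simp only [sub_eq_add_neg]
    rfl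
  · have := tri_add_int x 1
    rw [Int.cast_one] at this
    simp only [indicator, mem_ofPred_eq, this, Pi.one_apply]

theorem undoH_null {A : Set ℝ} (pA : ∀ (n : ℤ) (x : ℝ), x + n ∈ A ↔ x ∈ A)
    (h : volume.real {x | x ∈ I0 ∧ x ∈ A} = 0) : ∀ᵐ x, x ∉ A := by
  refine ae_of_I0 (fun n x => not_congr (pA n x)) ((ae_restrict_iff' measurableSet_I0).2 ?_)
  have h1 : volume {x | x ∈ I0 ∧ x ∈ A} ≠ ⊤ :=
    ne_top_of_le_ne_top (by rw [volume_I0]; exact ENNReal.one_ne_top) (measure_mono fun x hx => hx.1)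
  filter_upwards [measure_eq_zero_iff_ae_notMem.1 ((measureReal_eq_zero_iff h1).1 h)] with x hx h1 h2
  exact hx ⟨h1, h2⟩

theorem undoH_full {A : Set ℝ} (hA : MeasurableSet A) (pA : ∀ (n : ℤ) (x : ℝ), x + n ∈ A ↔ x ∈ A)
    (h : volume.real {x | x ∈ I0 ∧ x ∈ A} = 1) : ∀ᵐ x, x ∈ A := by
  have h1 := measureReal_inter_add_sdiff (μ := volume) (s := I0) hA
    (by rw [volume_I0]; exact ENNReal.one_ne_top)
  rw [measureReal_def volume I0, volume_I0, ENNReal.toReal_one] at h1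
  have h2 : volume.real (I0 ∩ A) = 1 := h
  have h3 : volume.real {x | x ∈ I0 ∧ x ∈ Aᶜ} = 0 := by
    change volume.real (I0 \ A) = 0
    linarith
  filter_upwards [undoH_null (fun n x => not_congr (pA n x)) h3] with x hx
  exact not_not.1 hx

theorem undoH_cos {F : Set X} {q : Y} {c l : ℝ} (h0 : 0 < l) (h1 : l < 1)
    (e : {x | (x, q) ∈ F} =ᵐ[volume] {x | tri (x - c) < l / 2}) (φ : ℝ) :
    fc F φ q / sin (π * l) = cos (2 * π * c + φ) / π := by
  have h2 : 0 < sin (π * l) := sin_pos_of_pos_of_lt_pi (by positivity) (mul_lt_of_lt_one_right pi_pos h1)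
  have h3 : fc F φ q = _ := integral_arc_cos h0.le h1.le e φ
  rw [h3]
  field_simp

/-- Fix one rectangle `K₀` with constants `k φ`, `φ ∈ {0, -π/2}`, and a point of `K₀` whose fibre is an arc with centre `x₀`: `cos (2π x₀ + φ)/π = k φ`. All rational rectangles have the same
constants (`const_eq_of_rect`). So for a.e. `q ∈ cell2` with `Q q < r²` the fibre is an arc whose centre `c` has `tri (x - c) = tri (x - x₀)` (`tri_sub_congr`); if `r² ≤ Q q` the
fibre is null. `tri y = |y|` on `I0`; `ae_of_cell2`, `ae_of_I0`, `ae_eq_of_fibres`. -/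
theorem UD.core {F : Set X} {V P r : ℝ} {e : X} {f : ℕ → X → ℝ} (h : UD F V P e r f) :
    ∃ x₀ : ℝ, F =ᵐ[volume] mdl e r (x₀, 0) := by
  have hF := h.good.meas
  obtain ⟨s₀, t₀, hK₀⟩ := exists_rectOK e h.r0
  obtain ⟨k₁, hk₁⟩ := h.const hK₀ 0
  obtain ⟨k₂, hk₂⟩ := h.const hK₀ (-(π / 2))
  have key : ∀ s t, RectOK e r s t → ∀ᵐ q ∂(volume.restrict (rect s t)), ∃ c,
      {x | (x, q) ∈ F} =ᵐ[volume] {x | tri (x - c) < 2 * hf e r q / 2} ∧
        cos (2 * π * c) = π * k₁ ∧ sin (2 * π * c) = π * k₂ := by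
    intro s t hK
    obtain ⟨k₁', l₁⟩ := h.const hK 0
    obtain ⟨k₂', l₂⟩ := h.const hK (-(π / 2))
    rw [const_eq_of_rect hK.1 hK.2.2.1 hK₀.1 hK₀.2.2.1 l₁ hk₁] at l₁
    rw [const_eq_of_rect hK.1 hK.2.2.1 hK₀.1 hK₀.2.2.1 l₂ hk₂] at l₂
    filter_upwards [h.arcs hK, l₁, l₂, ae_restrict_mem (measurableSet_rect s t)] with q ⟨c, hc⟩ m₁ m₂ hq
    obtain ⟨n0, n1⟩ := hK.hf_mem h.bin h.r0
    obtain ⟨-, n2, n3⟩ := n1 q hq
    have n4 : 0 < 2 * hf e r q := by linarith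
    have n5 : 2 * hf e r q < 1 := by linarith [h.r1]
    rw [undoH_cos n4 n5 hc] at m₁ m₂
    rw [add_zero] at m₁
    rw [← sub_eq_add_neg, cos_sub_pi_div_two] at m₂
    exact ⟨c, hc, by rw [← m₁, mul_div_cancel₀ _ pi_ne_zero], by rw [← m₂, mul_div_cancel₀ _ pi_ne_zero]⟩
  obtain ⟨x₀, hx₁, hx₂⟩ : ∃ x₀, cos (2 * π * x₀) = π * k₁ ∧ sin (2 * π * x₀) = π * k₂ := by
    by_contra hn
    exact zero_ne_one (const_eq_of_rect hK₀.1 hK₀.2.2.1 hK₀.1 hK₀.2.2.1 (G := fun _ => 0)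
      (ae_of_all _ fun _ => rfl) ((key _ _ hK₀).mono fun q ⟨c, hc⟩ => (hn ⟨c, hc.2⟩).elim))
  refine ⟨x₀, ae_eq_of_fibres hF (mdl_meas _ _ _) (ae_of_cell2 (fun a b q => ?_) ?_)⟩
  · rw [undoH_per2 h.good.per, undoH_per2 (mdl_per _ _ _)]
  · have k1 : ∀ᵐ q : Y, ∀ s t : ℚ, RectOK e r s t → q ∈ rect s t → ∃ c,
        {x | (x, q) ∈ F} =ᵐ[volume] {x | tri (x - c) < 2 * hf e r q / 2} ∧
          cos (2 * π * c) = π * k₁ ∧ sin (2 * π * c) = π * k₂ :=
      ae_all_iff.2 fun s => ae_all_iff.2 fun t => eventually_imp_distrib_left.2 fun hK =>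
        (ae_restrict_iff' (measurableSet_rect s t)).1 (key s t hK)
    have k2 : ∀ᵐ q : Y, q.1 ≠ -1 / 2 :=
      Measure.quasiMeasurePreserving_fst.ae (Measure.ae_ne volume (-1 / 2 : ℝ))
    have k3 : ∀ᵐ q : Y, q.2 ≠ -1 / 2 :=
      Measure.quasiMeasurePreserving_snd.ae (Measure.ae_ne volume (-1 / 2 : ℝ))
    filter_upwards [ae_restrict_of_ae k1, ae_restrict_of_ae k2, ae_restrict_of_ae k3, h.fl,
      ae_restrict_mem measurableSet_cell2] with q l1 l2 l3 l4 hq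
    rw [undoH_fib h.e1 r x₀ hq]
    by_cases hQ : Qf e q < r ^ 2
    · obtain ⟨s, t, hK, hq'⟩ := exists_rat_rectOK
        (abs_lt.2 ⟨by linarith [lt_of_le_of_ne hq.1.1 l2.symm], hq.1.2⟩)
        (abs_lt.2 ⟨by linarith [lt_of_le_of_ne hq.2.1 l3.symm], hq.2.2⟩) hQ
      obtain ⟨c, m1, m2, m3⟩ := l1 s t hK hq'
      simpa only [tri_sub_congr (m2.trans hx₁.symm) (m3.trans hx₂.symm),
        mul_div_cancel_left₀ _ (two_ne_zero' ℝ)] using m1
    · have m1 : hf e r q = 0 := Real.sqrt_eq_zero'.2 (by linarith [not_lt.1 hQ])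
      rw [m1, mul_zero] at l4
      filter_upwards [undoH_null (undoH_per1 h.good.per q) l4] with x hx
      exact propext ⟨fun k => (hx k).elim, fun k => absurd k (by
        rw [m1]; exact not_lt.2 (tri_nonneg _))⟩

/-- `volume_arc` after a translation -/
theorem fl_mdl_one {e : X} (he : Bin e) (e1 : e.1 = 1) {r : ℝ} (h0 : 0 < r) (h1 : r ≤ 1 / 3) (x₀ : ℝ) {q : Y}
    (hq : q ∈ cell2) : fl (mdl e r (x₀, 0)) q = 2 * hf e r q := by
  have h2 : 0 ≤ Qf e q := by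
    unfold Qf
    rcases he.2.1 with k | k <;> rcases he.2.2 with k' | k' <;> rw [k, k'] <;> positivity
  have h3 : hf e r q ≤ r := Real.sqrt_le_iff.2 ⟨h0.le, by linarith⟩
  rw [← undoH_len x₀ (show 0 ≤ hf e r q from Real.sqrt_nonneg _) (by linarith), ← undoH_fib e1 r x₀ hq]
  rfl

/-- fibres of measure `0` or `1` -/
theorem undo_zero {F : Set X} (hF : MeasurableSet F) (hp : PdS F) {e : X} (e1 : e.1 = 0) {r : ℝ} {c : X}
    (h : fl F =ᵐ[volume] fl (mdl e r c)) : F =ᵐ[volume] mdl e r c := by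
  refine ae_eq_of_fibres hF (mdl_meas _ _ _) ?_
  filter_upwards [h] with q hq
  by_cases hc : e.2.1 * tri (q.1 - c.2.1) ^ 2 + e.2.2 * tri (q.2 - c.2.2) ^ 2 < r ^ 2
  · have k : ∀ x, (x, q) ∈ mdl e r c := fun x => by simpa only [mdl, mem_ofPred_eq, e1, zero_mul, zero_add]
    have k1 : fl (mdl e r c) q = 1 := by
      simp only [fl, k, and_true, ofPred_mem_eq, measureReal_def, volume_I0, ENNReal.toReal_one]
    filter_upwards [undoH_full (measurable_prodMk_right hF) (undoH_per1 hp q) (hq.trans k1)] with x hx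
    exact propext ⟨fun _ => k x, fun _ => hx⟩
  · have k : ∀ x, (x, q) ∉ mdl e r c := fun x => by simpa only [mdl, mem_ofPred_eq, e1, zero_mul, zero_add]
    have k1 : fl (mdl e r c) q = 0 := by
      simp only [fl, k, and_false, ofPred_false, measureReal_empty]
    filter_upwards [undoH_null (undoH_per1 hp q) (hq.trans k1)] with x hx
    exact propext ⟨fun l => (hx l).elim, fun l => (k x l).elim⟩

/-- `fl F = fl (St F) = fl (mdl e r c)` a.e.; translate by `(0, c.2)` (`fl_transl`, `Good.transl`, `mdl_transl`, `ae_eq_transl`) -/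
theorem undo {F : Set X} {V P r : ℝ} {e c : X} (h : Good F V P) (he : Bin e) (h0 : 0 < r) (h1 : r ≤ 1 / 3)
    (hP : P ≤ nn e * V / r) (hS : St F =ᵐ[volume] mdl e r c) :
    ∃ c', F =ᵐ[volume] mdl e r c' := by
  have h2 : fl F =ᵐ[volume] fl (mdl e r c) := by
    rw [← fl_St F]
    exact fl_congr (St_meas h.meas) (mdl_meas _ _ _) hS
  rcases he.1 with e1 | e1
  · exact ⟨c, undo_zero h.meas h.per e1 h2⟩
  · have hG := h.transl ((0 : ℝ), c.2)
    obtain ⟨f, hf⟩ := exists_moll hG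
    have h3 : ∀ᵐ q : Y, fl F (q + c.2) = fl (mdl e r c) (q + c.2) :=
      (measurePreserving_add_right volume c.2).quasiMeasurePreserving.ae h2
    obtain ⟨x₀, hx⟩ := UD.core ⟨hG, hf, he, e1, h0, h1, hP, by
      filter_upwards [ae_restrict_of_ae h3, ae_restrict_mem measurableSet_cell2] with q k1 k2
      rw [fl_transl, k1, ← fl_transl, mdl_transl, ← fl_mdl_one he e1 h0 h1 c.1 k2]
      congr 2
      ext <;> simp⟩
    have h4 := ae_eq_transl hx (-((0 : ℝ), c.2))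
    rw [mdl_transl, preimage_preimage] at h4
    simp only [neg_add_cancel_right, preimage_id'] at h4
    exact ⟨_, h4⟩

end Crest.Agent.R214
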