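import Crest.Agent.R214.Basic2
import Crest.Agent.R214.JApi

/-!
# R214/Upper

Volume and perimeter of the models. On the cell `mdl e r 0` is `{Q < r²}`, `Q p = e₁x² + e₂y² + e₃z²`.
Perimeter: `f = Real.smoothTransition ((r² - Q)/ε)`, `0 ≤ f ≤ 1_{Q < r²}`, `f → 1_{Q<r²}` pointwise. `f φ i` has equal values on opposite faces
(if `e i = 1`, `f = 0` there since `r ≤ 1/3`; if `e i = 0`, `f` does not depend on the coordinate), so `∫ f dvg φ = -∫ ∇f·φ ≤ ∫ |∇f|`. With `G = H'(..)/ε ≥ 0`,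
`∇f = -2G (e₁x, e₂y, e₃z)`, `|∇f| = 2G√Q`, `G = 0` unless `Q ≥ r² - ε`; `∑ e i ∂_i (x_i f) = nn e f - 2GQ` has integral `0`. Hence
`√(r² - ε) ∫|∇f| ≤ ∫ 2GQ = nn e ∫ f ≤ nn e · vol`. Volumes: `EuclideanSpace.volume_ball_fin_three`/`fin_two` or iterated integrals.
-/

set_option autoImplicit false

open MeasureTheory Set Filter Real
open scoped Topology

noncomputable section

namespace Crest.Agent.R214

/-- the quadratic form -/
def up_Q (e p : X) : ℝ := e.1 * p.1 ^ 2 + e.2.1 * p.2.1 ^ 2 + e.2.2 * p.2.2 ^ 2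

theorem up_tri {x : ℝ} (hx : x ∈ I0) : tri x ^ 2 = x ^ 2 := by
  rw [tri_of_abs_le (abs_le.2 ⟨by linarith [hx.1], hx.2.le⟩), sq_abs]

theorem up_inter (e : X) (r : ℝ) : mdl e r 0 ∩ cell = {p | up_Q e p < r ^ 2} ∩ cell := by
  ext p
  refine and_congr_left fun hp => ?_
  simp only [mdl, mem_ofPred_eq, Prod.fst_zero, Prod.snd_zero, sub_zero, up_Q, up_tri hp.1, up_tri hp.2.1,
    up_tri hp.2.2]

theorem up_der {F φ : ℝ → ℝ} {φ' c k ρ x : ℝ} (hF : DifferentiableAt ℝ F (c * x ^ 2 + k)) (hφ : HasDerivAt φ φ' x) :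
    HasDerivAt (fun t => F (c * t ^ 2 + k) * (ρ * φ t - c * t))
      (deriv F (c * x ^ 2 + k) * (2 * c * x) * (ρ * φ x - c * x) + F (c * x ^ 2 + k) * (ρ * φ' - c)) x := by
  have h1 : HasDerivAt (fun t => c * t ^ 2 + k) (2 * c * x) x := by
    have := ((hasDerivAt_pow 2 x).const_mul c).add_const k
    rwa [show c * (((2 : ℕ) : ℝ) * x ^ (2 - 1)) = 2 * c * x by norm_num; ring] at this
  have h2 := HasDerivAt.comp x hF.hasDerivAt h1
  have h3 := (hφ.const_mul ρ).sub ((hasDerivAt_id x).const_mul c)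
  rw [mul_one] at h3
  exact h2.mul h3

theorem up_step {e : X} (he : Bin e) {r ρ : ℝ} (h0 : 0 < r) (h1 : r ≤ 1 / 3) {F : ℝ → ℝ} (hF : ContDiff ℝ 1 F)
    (ha : Antitone F) (hr : ∀ s, r ^ 2 ≤ s → F s = 0) (hρ : ∀ s, s < ρ ^ 2 → deriv F s = 0)
    {φ₁ φ₂ φ₃ : X → ℝ} (h : Adm φ₁ φ₂ φ₃) :
    ρ * ∫ p in cell, F (up_Q e p) * dvg φ₁ φ₂ φ₃ p ≤ nn e * ∫ p in cell, F (up_Q e p) := by
  have hQ : ContDiff ℝ 1 (up_Q e) := by unfold up_Q; fun_prop
  have hf : ContDiff ℝ 1 fun p => F (up_Q e p) := hF.comp hQ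
  have c1 := h.c1
  have c2 := h.c2
  have c3 := h.c3
  have hd := hF.differentiable one_ne_zero
  obtain ⟨b1, b2, b3⟩ := he
  have n1 : 0 ≤ e.1 := by rcases b1 with b | b <;> simp [b]
  have n2 : 0 ≤ e.2.1 := by rcases b2 with b | b <;> simp [b]
  have n3 : 0 ≤ e.2.2 := by rcases b3 with b | b <;> simp [b]
  have hr2 : r ^ 2 ≤ 1 / 4 := by nlinarith
  set W₁ : X → ℝ := fun p => F (up_Q e p) * (ρ * φ₁ p - e.1 * p.1) with hW₁
  set W₂ : X → ℝ := fun p => F (up_Q e p) * (ρ * φ₂ p - e.2.1 * p.2.1) with hW₂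
  set W₃ : X → ℝ := fun p => F (up_Q e p) * (ρ * φ₃ p - e.2.2 * p.2.2) with hW₃
  have w1 : ContDiff ℝ 1 W₁ := by fun_prop
  have w2 : ContDiff ℝ 1 W₂ := by fun_prop
  have w3 : ContDiff ℝ 1 W₃ := by fun_prop
  have z1 : ∫ p in cell, d1 W₁ p = 0 := integral_cell_d1 w1 fun y z => by
    have e1 : φ₁ (1 / 2, y, z) = φ₁ (-1 / 2, y, z) := by
      rw [← h.p1 1 0 0 (-1 / 2, y, z)]; norm_num
    have e2 : up_Q e (-1 / 2, y, z) = up_Q e (1 / 2, y, z) := by simp only [up_Q]; ring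
    simp only [hW₁, e1, e2]
    rcases b1 with b | b
    · rw [b, zero_mul, zero_mul]
    · rw [hr, zero_mul, zero_mul]
      simp only [up_Q, b]
      nlinarith [mul_nonneg n2 (sq_nonneg y), mul_nonneg n3 (sq_nonneg z)]
  have z2 : ∫ p in cell, d2 W₂ p = 0 := integral_cell_d2 w2 fun x z => by
    have e1 : φ₂ (x, 1 / 2, z) = φ₂ (x, -1 / 2, z) := by
      rw [← h.p2 0 1 0 (x, -1 / 2, z)]; norm_num
    have e2 : up_Q e (x, -1 / 2, z) = up_Q e (x, 1 / 2, z) := by simp only [up_Q]; ring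
    simp only [hW₂, e1, e2]
    rcases b2 with b | b
    · rw [b, zero_mul, zero_mul]
    · rw [hr, zero_mul, zero_mul]
      simp only [up_Q, b]
      nlinarith [mul_nonneg n1 (sq_nonneg x), mul_nonneg n3 (sq_nonneg z)]
  have z3 : ∫ p in cell, d3 W₃ p = 0 := integral_cell_d3 w3 fun x y => by
    have e1 : φ₃ (x, y, 1 / 2) = φ₃ (x, y, -1 / 2) := by
      rw [← h.p3 0 0 1 (x, y, -1 / 2)]; norm_num
    have e2 : up_Q e (x, y, -1 / 2) = up_Q e (x, y, 1 / 2) := by simp only [up_Q]; ring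
    simp only [hW₃, e1, e2]
    rcases b3 with b | b
    · rw [b, zero_mul, zero_mul]
    · rw [hr, zero_mul, zero_mul]
      simp only [up_Q, b]
      nlinarith [mul_nonneg n1 (sq_nonneg x), mul_nonneg n2 (sq_nonneg y)]
  have key : ∀ p, ρ * (F (up_Q e p) * dvg φ₁ φ₂ φ₃ p) ≤ nn e * F (up_Q e p) + (d1 W₁ p + d2 W₂ p + d3 W₃ p) := by
    rintro ⟨x, y, z⟩
    have q1 : ∀ t, up_Q e (t, y, z) = e.1 * t ^ 2 + (e.2.1 * y ^ 2 + e.2.2 * z ^ 2) := fun t => by
      simp only [up_Q]; ring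
    have q2 : ∀ t, up_Q e (x, t, z) = e.2.1 * t ^ 2 + (e.1 * x ^ 2 + e.2.2 * z ^ 2) := fun t => by
      simp only [up_Q]; ring
    have q3 : ∀ t, up_Q e (x, y, t) = e.2.2 * t ^ 2 + (e.1 * x ^ 2 + e.2.1 * y ^ 2) := fun t => by
      simp only [up_Q]; ring
    have a1 := up_der (ρ := ρ) (hd (e.1 * x ^ 2 + (e.2.1 * y ^ 2 + e.2.2 * z ^ 2)))
      (hasDerivAt_d1 (c1.differentiable one_ne_zero (x, y, z)))
    have a2 := up_der (ρ := ρ) (hd (e.2.1 * y ^ 2 + (e.1 * x ^ 2 + e.2.2 * z ^ 2)))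
      (hasDerivAt_d2 (c2.differentiable one_ne_zero (x, y, z)))
    have a3 := up_der (ρ := ρ) (hd (e.2.2 * z ^ 2 + (e.1 * x ^ 2 + e.2.1 * y ^ 2)))
      (hasDerivAt_d3 (c3.differentiable one_ne_zero (x, y, z)))
    simp only [← q1] at a1
    simp only [← q2] at a2
    simp only [← q3] at a3
    rw [(hasDerivAt_d1 (w1.differentiable one_ne_zero (x, y, z))).unique a1,
      (hasDerivAt_d2 (w2.differentiable one_ne_zero (x, y, z))).unique a2,
      (hasDerivAt_d3 (w3.differentiable one_ne_zero (x, y, z))).unique a3]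
    have hle := h.le (x, y, z)
    have hg : deriv F (up_Q e (x, y, z)) ≤ 0 := ha.deriv_nonpos
    have hs : deriv F (up_Q e (x, y, z)) * (up_Q e (x, y, z) - ρ * (e.1 * x * φ₁ (x, y, z) +
        e.2.1 * y * φ₂ (x, y, z) + e.2.2 * z * φ₃ (x, y, z))) ≤ 0 := by
      rcases lt_or_ge (up_Q e (x, y, z)) (ρ ^ 2) with h' | h'
      · rw [hρ _ h', zero_mul]
      · refine mul_nonpos_of_nonpos_of_nonneg hg ?_
        have e1 : up_Q e (x, y, z) = (e.1 * x) ^ 2 + (e.2.1 * y) ^ 2 + (e.2.2 * z) ^ 2 := by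
          rcases b1 with b | b <;> rcases b2 with b' | b' <;> rcases b3 with b'' | b'' <;>
            simp [up_Q, b, b', b'']
        rw [e1] at h' ⊢
        nlinarith [sq_nonneg (e.1 * x - ρ * φ₁ (x, y, z)), sq_nonneg (e.2.1 * y - ρ * φ₂ (x, y, z)),
          sq_nonneg (e.2.2 * z - ρ * φ₃ (x, y, z)), mul_le_mul_of_nonneg_left hle (sq_nonneg ρ)]
    have e2 : up_Q e (x, y, z) = e.1 * e.1 * x ^ 2 + e.2.1 * e.2.1 * y ^ 2 + e.2.2 * e.2.2 * z ^ 2 := by
      rcases b1 with b | b <;> rcases b2 with b' | b' <;> rcases b3 with b'' | b'' <;> simp [up_Q, b, b', b'']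
    generalize deriv F (up_Q e (x, y, z)) = g at *
    generalize F (up_Q e (x, y, z)) = f at *
    rw [e2] at hs
    unfold dvg nn
    nlinarith
  have cf := hf.continuous
  have cd := h.continuous_dvg
  have k1 := continuous_d1 w1
  have k2 := continuous_d2 w2
  have k3 := continuous_d3 w3
  rw [← integral_const_mul]
  refine (integral_mono (integrableOn_cell_of_cont (by fun_prop)) (integrableOn_cell_of_cont (by fun_prop))
    key).trans (le_of_eq ?_)
  rw [integral_add (integrableOn_cell_of_cont (by fun_prop)) (integrableOn_cell_of_cont (by fun_prop)),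
    integral_add (integrableOn_cell_of_cont (by fun_prop)) (integrableOn_cell_of_cont (by fun_prop)),
    integral_add (integrableOn_cell_of_cont k1) (integrableOn_cell_of_cont k2), z1, z2, z3, integral_const_mul]
  ring

theorem mdl_perLe {e : X} (he : Bin e) {r : ℝ} (h0 : 0 < r) (h1 : r ≤ 1 / 3) :
    PerLe (mdl e r 0) (nn e * volume.real (mdl e r 0 ∩ cell) / r) := by
  intro φ₁ φ₂ φ₃ h
  have cQ : Continuous (up_Q e) := by unfold up_Q; fun_prop
  have hB : MeasurableSet {p | up_Q e p < r ^ 2} := measurableSet_lt cQ.measurable measurable_const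
  have cd := h.continuous_dvg
  have cs := Real.smoothTransition.continuous
  have hn : 0 ≤ nn e := by
    obtain ⟨b1, b2, b3⟩ := he
    rcases b1 with b | b <;> rcases b2 with b' | b' <;> rcases b3 with b'' | b'' <;> simp [nn, b, b', b''] <;>
      norm_num
  rw [up_inter, le_div_iff₀' h0, inter_comm, ← setIntegral_indicator hB]
  have hlim : Tendsto (fun ρ : ℝ => ∫ p in cell,
      Real.smoothTransition ((r ^ 2 - up_Q e p) / (r ^ 2 - ρ ^ 2)) * dvg φ₁ φ₂ φ₃ p) (𝓝[<] r)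
      (𝓝 (∫ p in cell, {p | up_Q e p < r ^ 2}.indicator (dvg φ₁ φ₂ φ₃) p)) := by
    refine tendsto_integral_filter_of_dominated_convergence (fun p => ‖dvg φ₁ φ₂ φ₃ p‖)
      (Eventually.of_forall fun ρ => Continuous.aestronglyMeasurable (by fun_prop))
      (Eventually.of_forall fun ρ => Eventually.of_forall fun p => ?_) (integrableOn_cell_of_cont cd.norm)
      (Eventually.of_forall fun p => ?_)
    · rw [norm_mul, Real.norm_of_nonneg (Real.smoothTransition.nonneg _)]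
      exact mul_le_of_le_one_left (norm_nonneg _) (Real.smoothTransition.le_one _)
    · refine tendsto_const_nhds.congr' ?_
      by_cases hp : up_Q e p < r ^ 2
      · have ev : ∀ᶠ ρ : ℝ in 𝓝[<] r, up_Q e p < ρ ^ 2 :=
          ((continuous_pow 2).tendsto r).eventually (eventually_gt_nhds hp) |>.filter_mono nhdsWithin_le_nhds
        filter_upwards [ev, Ioo_mem_nhdsLT h0] with ρ h2 h3
        have h4 : 0 < r ^ 2 - ρ ^ 2 := by nlinarith [h3.1, h3.2]
        rw [indicator_of_mem (by exact hp), Real.smoothTransition.one_of_one_le, one_mul]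
        rw [le_div_iff₀ h4]
        linarith
      · filter_upwards [Ioo_mem_nhdsLT h0] with ρ h3
        have h4 : 0 < r ^ 2 - ρ ^ 2 := by nlinarith [h3.1, h3.2]
        rw [indicator_of_notMem (by exact hp), Real.smoothTransition.zero_of_nonpos, zero_mul]
        exact div_nonpos_of_nonpos_of_nonneg (by linarith) h4.le
  refine le_of_tendsto ((tendsto_id.mono_left nhdsWithin_le_nhds).mul hlim) ?_
  filter_upwards [Ioo_mem_nhdsLT h0] with ρ h3
  have h4 : 0 < r ^ 2 - ρ ^ 2 := by nlinarith [h3.1, h3.2]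
  have hz : ∀ s, r ^ 2 ≤ s → Real.smoothTransition ((r ^ 2 - s) / (r ^ 2 - ρ ^ 2)) = 0 := fun s hs =>
    Real.smoothTransition.zero_of_nonpos (div_nonpos_of_nonpos_of_nonneg (by linarith) h4.le)
  refine (up_step he h0 h1 (ρ := ρ) (F := fun s => Real.smoothTransition ((r ^ 2 - s) / (r ^ 2 - ρ ^ 2)))
    (Real.smoothTransition.contDiff.comp (by fun_prop))
    (fun s s' hs => Real.smoothTransition.monotone (by gcongr)) hz (fun s hs => ?_) h).trans ?_
  · have ev : (fun s => Real.smoothTransition ((r ^ 2 - s) / (r ^ 2 - ρ ^ 2))) =ᶠ[𝓝 s] fun _ => 1 := by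
      filter_upwards [eventually_lt_nhds hs] with s' hs'
      refine Real.smoothTransition.one_of_one_le ?_
      rw [le_div_iff₀ h4]
      linarith
    rw [ev.deriv_eq, deriv_const]
  · refine mul_le_mul_of_nonneg_left ?_ hn
    have e1 : volume.real (cell ∩ {p | up_Q e p < r ^ 2}) =
        ∫ p in cell, {p | up_Q e p < r ^ 2}.indicator (fun _ => (1 : ℝ)) p := by
      rw [setIntegral_indicator hB, setIntegral_const, smul_eq_mul, mul_one]
    rw [e1]
    refine integral_mono (integrableOn_cell_of_cont (by fun_prop)) ((integrable_const _).indicator hB) fun p => ?_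
    by_cases hp : up_Q e p < r ^ 2
    · rw [indicator_of_mem (by exact hp)]
      exact Real.smoothTransition.le_one _
    · rw [indicator_of_notMem (by exact hp)]
      exact (hz _ (not_lt.1 hp)).le

theorem up_disc (c : ℝ) : volume {q : Y | q.1 ^ 2 + q.2 ^ 2 < c} = ENNReal.ofReal (π * c) := by
  rcases le_or_gt c 0 with hc | hc
  · have e : {q : Y | q.1 ^ 2 + q.2 ^ 2 < c} = ∅ := eq_empty_of_forall_notMem fun q hq => by
      have : q.1 ^ 2 + q.2 ^ 2 < c := hq
      nlinarith [sq_nonneg q.1, sq_nonneg q.2]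
    rw [ENNReal.ofReal_of_nonpos (mul_nonpos_of_nonneg_of_nonpos Real.pi_pos.le hc), e, measure_empty]
  have hm : MeasurableSet {q : Y | q.1 ^ 2 + q.2 ^ 2 < c} := measurableSet_lt (by fun_prop) measurable_const
  rw [← Complex.volume_preserving_equiv_real_prod.measure_preimage hm.nullMeasurableSet]
  have e : Complex.measurableEquivRealProd ⁻¹' {q : Y | q.1 ^ 2 + q.2 ^ 2 < c} = Metric.ball 0 √c := by
    ext z
    rw [mem_ball_zero_iff, Real.lt_sqrt (norm_nonneg _), Complex.sq_norm, Complex.normSq_apply]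
    simp [pow_two]
  rw [e, Complex.volume_ball, ← ENNReal.ofReal_pow (Real.sqrt_nonneg _), Real.sq_sqrt hc.le,
    ENNReal.ofReal_mul Real.pi_pos.le, mul_comm, ← NNReal.coe_real_pi, ENNReal.ofReal_coe_nnreal]

theorem up_mem {x r : ℝ} (h0 : 0 < r) (h1 : r ≤ 1 / 3) (h : x ^ 2 < r ^ 2) : x ∈ I0 := by
  have := abs_lt.1 (abs_lt_of_sq_lt_sq h h0.le)
  exact ⟨by linarith [this.1], by linarith [this.2]⟩

theorem up_vol1 {r : ℝ} (h0 : 0 < r) (h1 : r ≤ 1 / 3) : volume.real (mdl (1, 0, 0) r 0 ∩ cell) = 2 * r := by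
  have e : mdl (1, 0, 0) r 0 ∩ cell = Ioo (-r) r ×ˢ cell2 := by
    rw [up_inter]
    ext p
    simp only [up_Q, mem_inter_iff, mem_ofPred_eq, one_mul, zero_mul, add_zero, mem_prod, mem_Ioo]
    constructor
    · rintro ⟨a, -, b⟩
      exact ⟨abs_lt.1 (abs_lt_of_sq_lt_sq a h0.le), b⟩
    · rintro ⟨a, b⟩
      have := sq_lt_sq' a.1 a.2
      exact ⟨this, up_mem h0 h1 this, b⟩
  rw [e, Measure.real, Measure.volume_eq_prod, Measure.prod_prod, volume_cell2, Real.volume_Ioo, mul_one,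
    ENNReal.toReal_ofReal (by linarith)]
  ring

theorem up_vol2 {r : ℝ} (h0 : 0 < r) (h1 : r ≤ 1 / 3) : volume.real (mdl (0, 1, 1) r 0 ∩ cell) = π * r ^ 2 := by
  have e : mdl (0, 1, 1) r 0 ∩ cell = I0 ×ˢ {q : Y | q.1 ^ 2 + q.2 ^ 2 < r ^ 2} := by
    rw [up_inter]
    ext p
    simp only [up_Q, mem_inter_iff, mem_ofPred_eq, one_mul, zero_mul, zero_add, mem_prod]
    constructor
    · rintro ⟨a, b, -⟩
      exact ⟨b, a⟩
    · rintro ⟨a, b⟩
      exact ⟨b, a, up_mem h0 h1 (by linarith [sq_nonneg p.2.2]), up_mem h0 h1 (by linarith [sq_nonneg p.2.1])⟩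
  rw [e, Measure.real, Measure.volume_eq_prod, Measure.prod_prod, volume_I0, up_disc, one_mul,
    ENNReal.toReal_ofReal (by positivity)]

theorem up_vol3 {r : ℝ} (h0 : 0 < r) (h1 : r ≤ 1 / 3) :
    volume.real (mdl (1, 1, 1) r 0 ∩ cell) = 4 / 3 * π * r ^ 3 := by
  have e : mdl (1, 1, 1) r 0 ∩ cell = {p : X | p.2.1 ^ 2 + p.2.2 ^ 2 < r ^ 2 - p.1 ^ 2} := by
    rw [up_inter]
    ext p
    simp only [up_Q, mem_inter_iff, mem_ofPred_eq, one_mul]
    constructor
    · rintro ⟨a, -⟩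
      linarith
    · intro a
      have s1 := sq_nonneg p.1
      have s2 := sq_nonneg p.2.1
      have s3 := sq_nonneg p.2.2
      exact ⟨by linarith, up_mem h0 h1 (by linarith), up_mem h0 h1 (by linarith), up_mem h0 h1 (by linarith)⟩
  have hm : MeasurableSet {p : X | p.2.1 ^ 2 + p.2.2 ^ 2 < r ^ 2 - p.1 ^ 2} :=
    measurableSet_lt (by fun_prop) (by fun_prop)
  have e2 : ∀ x : ℝ, volume (Prod.mk x ⁻¹' {p : X | p.2.1 ^ 2 + p.2.2 ^ 2 < r ^ 2 - p.1 ^ 2}) =
      (Ioc (-r) r).indicator (fun x => ENNReal.ofReal (π * (r ^ 2 - x ^ 2))) x := fun x => by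
    refine (up_disc (r ^ 2 - x ^ 2)).trans ?_
    by_cases hx : x ∈ Ioc (-r) r
    · rw [indicator_of_mem hx]
    · rw [indicator_of_notMem hx, ENNReal.ofReal_of_nonpos]
      refine mul_nonpos_of_nonneg_of_nonpos Real.pi_pos.le ?_
      rw [mem_Ioc, not_and_or, not_lt, not_le] at hx
      rcases hx with hx | hx <;> nlinarith
  have hc : Continuous fun x : ℝ => π * (r ^ 2 - x ^ 2) := by fun_prop
  rw [e, Measure.real, Measure.volume_eq_prod, Measure.prod_apply hm]
  simp only [e2]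
  rw [lintegral_indicator measurableSet_Ioc, ← integral_eq_lintegral_of_nonneg_ae _ hc.aestronglyMeasurable,
    ← intervalIntegral.integral_of_le (by linarith), intervalIntegral.integral_const_mul,
    intervalIntegral.integral_sub (by simp) (by simp), integral_pow, intervalIntegral.integral_const]
  · simp only [smul_eq_mul]
    ring
  · filter_upwards [ae_restrict_mem measurableSet_Ioc] with x hx
    exact mul_nonneg Real.pi_pos.le (by nlinarith [hx.1, hx.2])

theorem up_sw12 (e : X) (r : ℝ) : volume.real (mdl (sw12 e) r 0 ∩ cell) = volume.real (mdl e r 0 ∩ cell) := by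
  have := measurePreserving_sw12.measure_preimage ((mdl_meas e r 0).inter measurableSet_cell).nullMeasurableSet
  rw [preimage_inter, mdl_sw12, sw12_cell] at this
  exact congrArg ENNReal.toReal this

theorem up_sw13 (e : X) (r : ℝ) : volume.real (mdl (sw13 e) r 0 ∩ cell) = volume.real (mdl e r 0 ∩ cell) := by
  have := measurePreserving_sw13.measure_preimage ((mdl_meas e r 0).inter measurableSet_cell).nullMeasurableSet
  rw [preimage_inter, mdl_sw13, sw13_cell] at this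
  exact congrArg ENNReal.toReal this

theorem mdl_vol {V r : ℝ} {e : X} (h : Rng V e r) (hV : V ≤ 1 / 2) :
    volume.real (mdl e r 0 ∩ cell) = V := by
  have h1 := h.le_third hV
  obtain ⟨e1, e2, e3⟩ := e
  obtain ⟨⟨b1, b2, b3⟩, h0, h⟩ := h
  have v1 := up_vol1 h0 h1
  have v2 := up_vol2 h0 h1
  have v3 := up_vol3 h0 h1
  simp only [nn] at h b1 b2 b3
  rcases b1 with rfl | rfl <;> rcases b2 with rfl | rfl <;> rcases b3 with rfl | rfl <;>
    rcases h with h | h | h <;> (try (exfalso; linarith [h.1]))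
  · exact ((up_sw13 (1, 0, 0) r).trans v1).trans h.2.2.symm
  · exact ((up_sw12 (1, 0, 0) r).trans v1).trans h.2.2.symm
  · exact v2.trans h.2.2.2.symm
  · exact v1.trans h.2.2.symm
  · exact ((up_sw12 (0, 1, 1) r).trans v2).trans h.2.2.2.symm
  · exact ((up_sw13 (0, 1, 1) r).trans v2).trans h.2.2.2.symm
  · exact v3.trans h.2.2.symm

theorem upperX {V r : ℝ} {e : X} (h : Rng V e r) (hV : V ≤ 1 / 2) (c : X) :
    Good (mdl e r c) V (2 * J V) := by
  have h1 := mdl_perLe h.1 h.2.1 (h.le_third hV)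
  rw [mdl_vol h hV, ← h.J_eq] at h1
  have h2 := Good.transl ⟨mdl_meas e r 0, mdl_per e r 0, mdl_vol h hV, h1⟩ (-c)
  rwa [mdl_transl, zero_sub, neg_neg] at h2

end Crest.Agent.R214
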