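import Crest.Agent.R214.Class
import Crest.Agent.R214.StC
import Crest.Agent.R214.FluxB
import Crest.Agent.R214.UndoH
import Crest.Agent.R214.Upper
import Crest.Agent.R214.TransStd

/-!
# R214/Main

The isoperimetric inequality on the torus with the cases of equality, assuming the certificate.
-/

set_option autoImplicit false

open MeasureTheory Set Filter Real
open scoped Topology

noncomputable section

namespace Crest.Agent.R214

open Crest.GeometryTopology.PeriodicPerimeter

theorem Good.ds3 {E : Set X} {V P : ℝ} (h : Good E V P) :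
    DS (dn (R214.St (R214.sw13 ⁻¹' R214.St (R214.sw12 ⁻¹' R214.St E)))) V (P / 2) :=
  h.St.sw12.St.sw13.St.ds (St_mon1 _) (St_mon1 E).sw12.St.sw13.St (St_mon1 _).sw13.St

theorem lowerX (hC : CertStmt) {E : Set X} {V P : ℝ} (h : Good E V P) (h0 : 0 < V) (h1 : V ≤ 1 / 2) :
    2 * J V ≤ P := by
  have := (classify hC h.ds3 h0 h1).1
  linarith

theorem Std.undo {F : Set X} {V : ℝ} (h : Good F V (2 * J V)) (h1 : V ≤ 1 / 2) (hS : Std V (St F)) :
    Std V F := by
  obtain ⟨e, r, c, h2, h3⟩ := hS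
  obtain ⟨c', h4⟩ := R214.undo h h2.1 h2.2.1 (h2.le_third h1) h2.J_eq.le h3
  exact ⟨e, r, c', h2, h4⟩

theorem Std.of_sw12 {F : Set X} {V : ℝ} (hS : Std V (sw12 ⁻¹' F)) : Std V F := by
  obtain ⟨e, r, c, h2, h3⟩ := hS
  have := ae_eq_sw12 h3
  rw [mdl_sw12] at this
  exact ⟨_, r, _, h2.sw12, this⟩

theorem Std.of_sw13 {F : Set X} {V : ℝ} (hS : Std V (sw13 ⁻¹' F)) : Std V F := by
  obtain ⟨e, r, c, h2, h3⟩ := hS
  have := ae_eq_sw13 h3
  rw [mdl_sw13] at this
  exact ⟨_, r, _, h2.sw13, this⟩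

theorem rigidX (hC : CertStmt) {E : Set X} {V : ℝ} (h : Good E V (2 * J V)) (h0 : 0 < V)
    (h1 : V ≤ 1 / 2) : Std V E := by
  obtain ⟨e, r, h2, h3⟩ := (classify hC h.ds3 h0 h1).2 (by linarith)
  have g3 := h.St.sw12.St.sw13.St
  have h4 := ae_mdl_of_dn g3.meas g3.per (St_mon1 _) (St_mon1 E).sw12.St.sw13.St (St_mon1 _).sw13.St h3
  exact Std.undo h h1 (Std.of_sw12 (Std.undo h.St.sw12 h1 (Std.of_sw13
    (Std.undo h.St.sw12.St.sw13 h1 ⟨e, r, 0, h2, h4⟩))))

theorem lowerX' (hC : CertStmt) {E : Set X} {V P : ℝ} (h : Good E V P) (h0 : 0 < V) (h1 : V < 1) :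
    2 * J (min V (1 - V)) ≤ P := by
  rcases le_total V (1 / 2) with h2 | h2
  · rw [min_eq_left (by linarith)]; exact lowerX hC h h0 h2
  · rw [min_eq_right (by linarith)]; exact lowerX hC h.compl (by linarith) (by linarith)

theorem good_io {E : Set (EuclideanSpace ℝ (Fin 3))} (hE : MeasurableSet E) (hp : IsLatticePeriodic E)
    {V P : ℝ} (hV : periodicVolume E = V) (hP : 0 ≤ P) (h : periodicPerimeter E ≤ ENNReal.ofReal P) :
    Good (io ⁻¹' E) V P :=
  ⟨measurableEmbedding_io.measurable hE, io_per hp, by rw [← io_vol hE hp, hV], (io_perLe hE hp hP).1 h⟩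

theorem lowerE (hC : CertStmt) {V : ℝ} (h0 : 0 < V) (h1 : V < 1) {E : Set (EuclideanSpace ℝ (Fin 3))}
    (hE : MeasurableSet E) (hp : IsLatticePeriodic E) (hV : periodicVolume E = V) :
    ENNReal.ofReal (2 * J (min V (1 - V))) ≤ periodicPerimeter E := by
  rcases eq_or_ne (periodicPerimeter E) ⊤ with h | h
  · rw [h]; exact le_top
  · have h2 := good_io hE hp hV ENNReal.toReal_nonneg (ENNReal.ofReal_toReal h).ge
    exact (ENNReal.ofReal_le_ofReal (lowerX' hC h2 h0 h1)).trans (ENNReal.ofReal_toReal h).le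

theorem eq_of_good (hC : CertStmt) {V : ℝ} (h0 : 0 < V) (h1 : V < 1)
    {E : Set (EuclideanSpace ℝ (Fin 3))} (hE : MeasurableSet E) (hp : IsLatticePeriodic E)
    (h : Good (io ⁻¹' E) V (2 * J (min V (1 - V)))) :
    periodicPerimeter E = ENNReal.ofReal (2 * J (min V (1 - V))) :=
  le_antisymm ((io_perLe hE hp h.le.nonneg).2 h.le)
    (lowerE hC h0 h1 hE hp (by rw [io_vol hE hp, h.vol]))

theorem existsE (hC : CertStmt) {V : ℝ} (h0 : 0 < V) (h1 : V < 1) :
    ∃ E : Set (EuclideanSpace ℝ (Fin 3)), MeasurableSet E ∧ IsLatticePeriodic E ∧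
      periodicVolume E = V ∧ periodicPerimeter E = ENNReal.ofReal (2 * J (min V (1 - V))) := by
  have : ∃ F, Good F V (2 * J (min V (1 - V))) := by
    rcases le_total V (1 / 2) with h2 | h2
    · rw [min_eq_left (by linarith)]
      obtain ⟨e, r, h⟩ := exists_rng h0
      exact ⟨_, upperX h h2 0⟩
    · rw [min_eq_right (by linarith)]
      obtain ⟨e, r, h⟩ := exists_rng (show 0 < 1 - V by linarith)
      have := (upperX h (by linarith) 0).compl
      rw [sub_sub_cancel] at this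
      exact ⟨_, this⟩
  obtain ⟨F, hF⟩ := this
  obtain ⟨E, hE, hp, rfl⟩ := exists_io hF.meas hF.per
  exact ⟨E, hE, hp, by rw [io_vol hE hp, hF.vol], eq_of_good hC h0 h1 hE hp hF⟩

theorem Std.good {F : Set X} {V : ℝ} (h : Std V F) (h1 : V ≤ 1 / 2) (hF : MeasurableSet F)
    (hp : PdS F) : Good F V (2 * J V) := by
  obtain ⟨e, r, c, h2, h3⟩ := h
  exact (upperX h2 h1 c).congr hF hp h3.symm

theorem iffE (hC : CertStmt) {V : ℝ} (h0 : 0 < V) (h1 : V < 1) {E : Set (EuclideanSpace ℝ (Fin 3))}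
    (hE : MeasurableSet E) (hp : IsLatticePeriodic E) (hV : periodicVolume E = V) :
    periodicPerimeter E = ENNReal.ofReal (2 * J (min V (1 - V))) ↔
      ((V ≤ 1 / 2 ∧ IsStandardRegion V E) ∨ (1 / 2 < V ∧ IsStandardRegion (1 - V) Eᶜ)) := by
  have m := measurableEmbedding_io.measurable hE
  constructor
  · intro h
    have h2 := good_io hE hp hV
      (by have := J_pos (lt_min h0 (sub_pos.2 h1)); positivity) h.le
    rcases le_or_gt V (1 / 2) with h3 | h3
    · rw [min_eq_left (by linarith)] at h2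
      exact Or.inl ⟨h3, (std_iff h0 h3 E).2 (rigidX hC h2 h0 h3)⟩
    · rw [min_eq_right (by linarith)] at h2
      exact Or.inr ⟨h3, (std_iff (by linarith) (by linarith) Eᶜ).2
        (rigidX hC h2.compl (by linarith) (by linarith))⟩
  · rintro (⟨h2, h3⟩ | ⟨h2, h3⟩)
    · refine eq_of_good hC h0 h1 hE hp ?_
      rw [min_eq_left (by linarith)]
      exact ((std_iff h0 h2 E).1 h3).good h2 m (io_per hp)
    · refine eq_of_good hC h0 h1 hE hp ?_
      rw [min_eq_right (by linarith)]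
      have := (((std_iff (by linarith) (by linarith) Eᶜ).1 h3).good (by linarith) m.compl
        (fun a b c p => not_congr (io_per hp a b c p))).compl
      rwa [sub_sub_cancel, preimage_compl, compl_compl] at this

end Crest.Agent.R214
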