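import Crest.Agent.R214.Plan

/-!
# R214/PDisc

Planar rigidity. Let `w = wy G`, `m` the area, `g = pg G`. With `t = 0` (`bet w θ 0 y = cl (y/w)` for `y ≥ 0`), `fl_corner` and `eq_of_amgm` give `m = π w²/4`.
For `0 < θ < 1`, `|t| ≤ (1-θ)/2`: by `fl_beta` the flux is `m/w + t N₀ + ∫_{(0,w)} √(1 - bet²)`, `N₀ = |{z ∈ (0, wz) | g z ≤ θ w}|`, and
`√(1 - (β+t)²) ≥ √(1-β²) - t β/√(1-β²) - C t²` for `0 ≤ β ≤ θ`; `∫_0^{θ w} β/√(1-β²) = w (1 - √(1-θ²))`. Letting `t → 0±` (rational):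
`N₀ = w (1 - √(1-θ²))`. So `N y := |{z ∈ (0,1) | y < g z}| = wz - w + √(w² - y²)` for `y = θ w`, hence for all `y ∈ (0, w)` (monotonicity).
As `N = pf G` a.e. (or layer cake), `m = ∫_0^w N = w (wz - w) + π w²/4`, so `wz = w` and `pf G y = √(w² - y²)` on `(0, w)`; compare fibres.
-/

set_option autoImplicit false

open MeasureTheory Set Filter Real
open scoped Topology

noncomputable section

namespace Crest.Agent.R214

def bet (w θ t y : ℝ) : ℝ := max (-1) (min 1 (y / w + if y ≤ θ * w then t else 0))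

theorem abs_bet_le (w θ t y : ℝ) : |bet w θ t y| ≤ 1 := by
  unfold bet
  rw [abs_le]
  exact ⟨le_max_left _ _, max_le (by norm_num) (min_le_left _ _)⟩
theorem measurable_bet {w : ℝ → ℝ} (hw : Measurable w) (θ t : ℝ) :
    Measurable (fun q : Y => bet (w q.1) θ t q.2) := by
  unfold bet
  have h1 : Measurable fun q : Y => w q.1 := hw.comp measurable_fst
  refine measurable_const.max (measurable_const.min ((measurable_snd.div h1).add ?_))
  exact Measurable.ite (measurableSet_le measurable_snd (measurable_const.mul h1))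
    measurable_const measurable_const
/-- second order expansion of `√(1 - x²)` -/
theorem sqrt_expand {θ : ℝ} (h1 : θ < 1) : ∃ C, 0 ≤ C ∧ ∀ β t : ℝ, |β| ≤ θ → |t| ≤ (1 - θ) / 2 →
    √(1 - β ^ 2) - t * (β / √(1 - β ^ 2)) - C * t ^ 2 ≤ √(1 - (β + t) ^ 2) := by
  refine ⟨1 / (2 * √(1 - θ ^ 2)) + 9 / (2 * √(1 - θ ^ 2) ^ 3), by positivity, fun β t hβ ht => ?_⟩
  have hθ : 0 ≤ θ := (abs_nonneg β).trans hβ
  obtain ⟨hβ1, hβ2⟩ := abs_le.1 hβ
  obtain ⟨ht1, ht2⟩ := abs_le.1 ht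
  have hβθ : β ^ 2 ≤ θ ^ 2 := by nlinarith
  have h0 : 0 < 1 - θ ^ 2 := by nlinarith
  set c := √(1 - θ ^ 2) with hc
  set a := √(1 - β ^ 2) with ha
  set b := √(1 - (β + t) ^ 2) with hb
  have hc0 : 0 < c := Real.sqrt_pos.2 h0
  have hca : c ≤ a := Real.sqrt_le_sqrt (by linarith)
  have ha0 : 0 < a := hc0.trans_le hca
  have hb0 : 0 ≤ b := Real.sqrt_nonneg _
  have ha2 : a ^ 2 = 1 - β ^ 2 := Real.sq_sqrt (by linarith)
  have hb2 : b ^ 2 = 1 - (β + t) ^ 2 := Real.sq_sqrt (by nlinarith)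
  have h3 : (2 * β + t) ^ 2 ≤ 9 := by nlinarith
  have h4 : (a - b) ^ 2 * c ^ 2 ≤ 9 * t ^ 2 := by
    calc (a - b) ^ 2 * c ^ 2 ≤ (a - b) ^ 2 * (a + b) ^ 2 :=
          mul_le_mul_of_nonneg_left (pow_le_pow_left₀ hc0.le (by linarith) 2) (sq_nonneg _)
      _ = (a ^ 2 - b ^ 2) ^ 2 := by ring
      _ = (2 * β + t) ^ 2 * t ^ 2 := by rw [ha2, hb2]; ring
      _ ≤ _ := mul_le_mul_of_nonneg_right h3 (sq_nonneg _)
  have h5 : b = a - t * (β / a) - t ^ 2 / (2 * a) - (a - b) ^ 2 / (2 * a) := by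
    field_simp
    nlinarith
  have h6 : t ^ 2 / (2 * a) ≤ 1 / (2 * c) * t ^ 2 := by
    rw [one_div_mul_eq_div]
    exact div_le_div_of_nonneg_left (sq_nonneg _) (by positivity) (by linarith)
  have h7 : (a - b) ^ 2 / (2 * a) ≤ 9 / (2 * c ^ 3) * t ^ 2 := by
    refine (div_le_div_of_nonneg_left (sq_nonneg _) (by positivity : 0 < 2 * c)
      (by linarith)).trans ?_
    rw [div_mul_eq_mul_div, div_le_div_iff₀ (by positivity) (by positivity)]
    nlinarith
  linarith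

theorem pdisc_bet {w θ t y : ℝ} (hw : 0 < w) (hθ : 0 ≤ θ) (ht : |t| ≤ (1 - θ) / 2) (h0 : 0 ≤ y)
    (h1 : y ≤ w) : bet w θ t y = y / w + if y ≤ θ * w then t else 0 := by
  obtain ⟨ht1, ht2⟩ := abs_le.1 ht
  have h2 : 0 ≤ y / w := by positivity
  have h3 : y / w ≤ 1 := (div_le_one hw).2 h1
  unfold bet
  split_ifs with h
  · have h4 : y / w ≤ θ := (div_le_iff₀ hw).2 h
    rw [min_eq_right (by linarith), max_eq_right (by linarith)]
  · rw [min_eq_right (by linarith), max_eq_right (by linarith)]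

theorem pdisc_cl {x : ℝ} (h0 : 0 ≤ x) (h1 : x ≤ 1) : cl x = x := by
  unfold cl
  rw [min_eq_right h1, max_eq_right h0]

theorem pdisc_cont {w θ : ℝ} (hw : 0 < w) (h1 : θ < 1) {y : ℝ} (hy : y ∈ Icc 0 (θ * w)) :
    0 < 1 - (y / w) ^ 2 := by
  have h2 : 0 ≤ y / w := div_nonneg hy.1 hw.le
  have h4 : y / w ≤ θ := (div_le_iff₀ hw).2 hy.2
  nlinarith

theorem pdisc_conton {w θ : ℝ} (hw : 0 < w) (h1 : θ < 1) :
    ContinuousOn (fun y : ℝ => y / w / √(1 - (y / w) ^ 2)) (Icc 0 (θ * w)) :=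
  ContinuousOn.div (by fun_prop) (by fun_prop) fun _ hy =>
    (Real.sqrt_pos.2 (pdisc_cont hw h1 hy)).ne'

theorem pdisc_int {w θ : ℝ} (hw : 0 < w) (h0 : 0 ≤ θ) (h1 : θ < 1) :
    ∫ y in Ioc 0 (θ * w), y / w / √(1 - (y / w) ^ 2) = w * (1 - √(1 - θ ^ 2)) := by
  have hle : 0 ≤ θ * w := by positivity
  rw [← intervalIntegral.integral_of_le hle]
  rw [intervalIntegral.integral_eq_sub_of_hasDerivAt (f := fun y => -w * √(1 - (y / w) ^ 2))]
  · rw [mul_div_assoc, div_self hw.ne']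
    simp
    ring
  · intro y hy
    rw [uIcc_of_le hle] at hy
    have h2 := pdisc_cont hw h1 hy
    have h3 : HasDerivAt (fun y : ℝ => 1 - (y / w) ^ 2) (-(2 * (y / w) * (1 / w))) y := by
      have := (((hasDerivAt_id y).div_const w).pow 2).const_sub 1
      simpa using this
    have h4 := (h3.sqrt h2.ne').const_mul (-w)
    refine h4.congr_deriv ?_
    have := (Real.sqrt_pos.2 h2).ne'
    generalize √(1 - (y / w) ^ 2) = r at this
    field_simp
  · exact ((pdisc_conton hw h1).mono (by rw [uIcc_of_le hle])).intervalIntegrable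

theorem pdisc_lower {w θ C t : ℝ} (hw : 0 < w) (h0 : 0 ≤ θ) (h1 : θ < 1) (hC : 0 ≤ C)
    (ht : |t| ≤ (1 - θ) / 2) (he : ∀ β : ℝ, |β| ≤ θ →
      √(1 - β ^ 2) - t * (β / √(1 - β ^ 2)) - C * t ^ 2 ≤ √(1 - (β + t) ^ 2)) :
    π * w / 4 - t * (w * (1 - √(1 - θ ^ 2))) - C * t ^ 2 * w ≤
      ∫ y in Ioo 0 w, √(1 - bet w θ t y ^ 2) := by
  have hsub : Ioc 0 (θ * w) ⊆ Ioo 0 w := fun y hy => ⟨hy.1, by nlinarith [hy.2]⟩
  have i1 : IntegrableOn (fun y : ℝ => √(1 - (y / w) ^ 2)) (Ioo 0 w) :=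
    (Continuous.integrableOn_Icc (by fun_prop)).mono_set Ioo_subset_Icc_self
  have i2 : IntegrableOn (fun y : ℝ => y / w / √(1 - (y / w) ^ 2)) (Ioc 0 (θ * w)) :=
    ((pdisc_conton hw h1).integrableOn_Icc).mono_set Ioc_subset_Icc_self
  have i3 : IntegrableOn ((Ioc 0 (θ * w)).indicator fun y : ℝ => y / w / √(1 - (y / w) ^ 2))
      (Ioo 0 w) := ((integrable_indicator_iff measurableSet_Ioc).2 i2).integrableOn
  have i4 : IntegrableOn (fun _ : ℝ => C * t ^ 2) (Ioo 0 w) := integrableOn_const (by simp)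
  have i5 : IntegrableOn (fun y : ℝ => √(1 - bet w θ t y ^ 2)) (Ioo 0 w) := by
    have hm : Measurable fun y : ℝ => bet w θ t y :=
      (measurable_bet (w := fun _ => w) measurable_const θ t).comp
        (measurable_const.prodMk measurable_id : Measurable fun y : ℝ => ((0 : ℝ), y))
    refine Measure.integrableOn_of_bounded (M := 1) (by simp)
      (measurable_const.sub (hm.pow_const 2)).sqrt.aestronglyMeasurable
      (Eventually.of_forall fun y => ?_)
    rw [Real.norm_of_nonneg (Real.sqrt_nonneg _), Real.sqrt_le_one]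
    nlinarith [sq_nonneg (bet w θ t y)]
  have e : ∫ y in Ioo 0 w, (√(1 - (y / w) ^ 2) -
      t * (Ioc 0 (θ * w)).indicator (fun y : ℝ => y / w / √(1 - (y / w) ^ 2)) y - C * t ^ 2) =
      π * w / 4 - t * (w * (1 - √(1 - θ ^ 2))) - C * t ^ 2 * w := by
    have i6 : IntegrableOn (fun y => √(1 - (y / w) ^ 2) -
        t * (Ioc 0 (θ * w)).indicator (fun y : ℝ => y / w / √(1 - (y / w) ^ 2)) y) (Ioo 0 w) :=
      i1.sub (i3.const_mul t)
    rw [integral_sub i6 i4, integral_sub i1 (i3.const_mul t),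
      integral_const_mul, integral_quarter hw, setIntegral_indicator measurableSet_Ioc,
      inter_eq_right.2 hsub, pdisc_int hw h0 h1, setIntegral_const]
    simp only [Real.volume_real_Ioo_of_le hw.le, smul_eq_mul, sub_zero]
    ring
  rw [← e]
  refine setIntegral_mono_on ((i1.sub (i3.const_mul t)).sub i4) i5 measurableSet_Ioo
    fun y hy => ?_
  rw [pdisc_bet hw h0 ht hy.1.le hy.2.le]
  split_ifs with h
  · rw [indicator_of_mem (show y ∈ Ioc 0 (θ * w) from ⟨hy.1, h⟩)]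
    refine he _ ?_
    rw [abs_of_nonneg (div_nonneg hy.1.le hw.le)]
    exact (div_le_iff₀ hw).2 h
  · rw [indicator_of_notMem (fun h' => h h'.2), add_zero]
    have : 0 ≤ C * t ^ 2 := by positivity
    linarith

theorem pdisc_zero {x K δ : ℝ} (hδ : 0 < δ) (h : ∀ t : ℚ, |(t : ℝ)| ≤ δ → t * x ≤ K * t ^ 2) :
    x = 0 := by
  have hK : 0 < |K| + 1 := by positivity
  have key : ∀ η : ℝ, 0 < η → |x| ≤ η := by
    intro η hη
    obtain ⟨t, ht0, ht1⟩ := exists_rat_btwn (lt_min hδ (div_pos hη hK))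
    have h2 : (t : ℝ) ≤ δ := (ht1.trans_le (min_le_left _ _)).le
    have h3 : (t : ℝ) * (|K| + 1) ≤ η := (le_div_iff₀ hK).1 (ht1.trans_le (min_le_right _ _)).le
    have h4 := h t (by rwa [abs_of_pos ht0])
    have h5 := h (-t) (by push_cast; rwa [abs_neg, abs_of_pos ht0])
    push_cast at h5
    have h6 : K * t ≤ η := by nlinarith [le_abs_self K]
    rw [abs_le]
    constructor
    · refine le_of_mul_le_mul_left ?_ ht0
      nlinarith
    · refine le_of_mul_le_mul_left ?_ ht0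
      nlinarith
  exact abs_nonpos_iff.1 (le_of_forall_pos_le_add fun η hη => by simpa using key η hη)

theorem pdisc_vol {w : ℝ} (hw : 0 < w) (h1 : w ≤ 1) :
    ENNReal.ofReal (π * w ^ 2 / 4) ≤ volume (qd w) := by
  have i1 : IntegrableOn (fun y : ℝ => w * √(1 - (y / w) ^ 2)) (Ioo 0 w) :=
    (Continuous.integrableOn_Icc (by fun_prop)).mono_set Ioo_subset_Icc_self
  have h2 := volume_regionBetween_eq_integral (μ := volume) (f := fun _ => (0 : ℝ))
    (integrableOn_zero) i1 measurableSet_Ioo (fun y _ => by positivity)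
  simp only [Pi.sub_apply, sub_zero] at h2
  rw [integral_const_mul, integral_quarter hw, ← Measure.volume_eq_prod] at h2
  rw [show π * w ^ 2 / 4 = w * (π * w / 4) by ring, ← h2]
  refine measure_mono ?_
  rintro ⟨y, z⟩ ⟨hy, hz⟩
  obtain ⟨hy0, hy1⟩ : 0 < y ∧ y < w := hy
  obtain ⟨hz0, hz1⟩ : 0 < z ∧ z < w * √(1 - (y / w) ^ 2) := hz
  have h3 : y / w < 1 := (div_lt_one hw).2 hy1
  have h4 : 0 < y / w := by positivity
  have h5 : (w * √(1 - (y / w) ^ 2)) ^ 2 = w ^ 2 - y ^ 2 := by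
    rw [mul_pow, Real.sq_sqrt (by nlinarith)]
    field_simp
  have h6 : z ^ 2 < w ^ 2 - y ^ 2 := by
    rw [← h5]
    exact pow_lt_pow_left₀ hz1 hz0.le (by norm_num)
  refine ⟨⟨⟨hy0, hy1.trans_le h1⟩, hz0, ?_⟩, by simp only; linarith⟩
  by_contra hz
  simp only [not_lt] at hz
  nlinarith

theorem DS2.disc {G : Set Y} (h : DS2 G) (h1 : ty G = 0) (h2 : tz G = 0) (h0 : 0 < volume.real G)
    (H : ∀ θ t : ℚ, Fl G (fun q => bet (wy G) θ t q.1) (fun q => √(1 - bet (wy G) θ t q.1 ^ 2)) ≤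
      √(π * volume.real G)) : G =ᵐ[volume] qd √(4 * volume.real G / π) := by
  obtain ⟨hw, hc⟩ := h.fl_corner h1 h2 h0
  have hw1 : wy G ≤ 1 := h.ext_mem.2.2
  have hW0 : 0 ≤ wz G := measureReal_nonneg
  have hg0 : ∀ z, 0 ≤ pg G z := fun z => measureReal_nonneg
  have hg1 : ∀ z, pg G z ≤ wy G := h.pg_le_wy
  have hgm : Measurable (pg G) := h.swap.measurable_pf
  rw [h.fl_beta (fun y => cl (y / wy G)) (fun y => √(1 - cl (y / wy G) ^ 2)), h1, h2] at hc
  simp only [fun θ t : ℚ => h.fl_beta (fun y => bet (wy G) θ t y)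
    (fun y => √(1 - bet (wy G) θ t y ^ 2)), h1, h2] at H
  set w := wy G with hwdef
  set W := wz G with hWdef
  set m := volume.real G with hmdef
  have e1 : ∫ y in Ioo 0 w, √(1 - cl (y / w) ^ 2) = π * w / 4 := by
    rw [← integral_quarter hw]
    refine setIntegral_congr_fun measurableSet_Ioo fun y hy => ?_
    rw [pdisc_cl (div_nonneg hy.1.le hw.le) ((div_le_one hw).2 hy.2.le)]
  have e2 : ∫ z in Ioo 0 W, pg G z / w = m / w := by
    rw [e1, add_left_inj] at hc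
    rw [← hc]
    refine setIntegral_congr_fun measurableSet_Ioo fun z _ => ?_
    rw [pdisc_cl (div_nonneg (hg0 z) hw.le) ((div_le_one hw).2 (hg1 z))]
  have i1 : IntegrableOn (fun z => pg G z / w) (Ioo 0 W) := by
    refine Measure.integrableOn_of_bounded (M := 1) (by simp)
      (hgm.div_const w).aestronglyMeasurable (Eventually.of_forall fun z => ?_)
    rw [Real.norm_of_nonneg (div_nonneg (hg0 z) hw.le)]
    exact (div_le_one hw).2 (hg1 z)
  have e3 : ∀ θ t : ℝ, 0 ≤ θ → |t| ≤ (1 - θ) / 2 → ∫ z in Ioo 0 W, bet w θ t (pg G z) =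
      m / w + t * volume.real (Ioo 0 W ∩ {z | pg G z ≤ θ * w}) := by
    intro θ t hθ ht
    have hs : MeasurableSet {z | pg G z ≤ θ * w} := measurableSet_le hgm measurable_const
    have i2 : IntegrableOn ({z | pg G z ≤ θ * w}.indicator fun _ => t) (Ioo 0 W) :=
      IntegrableOn.indicator (integrableOn_const (by simp)) hs
    have : ∫ z in Ioo 0 W, bet w θ t (pg G z) =
        ∫ z in Ioo 0 W, (pg G z / w + {z | pg G z ≤ θ * w}.indicator (fun _ => t) z) := by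
      refine setIntegral_congr_fun measurableSet_Ioo fun z _ => ?_
      rw [pdisc_bet hw hθ ht (hg0 z) (hg1 z), indicator_apply]
      rfl
    rw [this, integral_add i1 i2, e2, setIntegral_indicator hs, setIntegral_const, smul_eq_mul,
      mul_comm]
  have key : ∀ θ : ℚ, 0 ≤ (θ : ℝ) → (θ : ℝ) < 1 → ∃ C : ℝ, ∀ t : ℚ, |(t : ℝ)| ≤ (1 - θ) / 2 →
      m / w + π * w / 4 + t * (volume.real (Ioo 0 W ∩ {z | pg G z ≤ θ * w}) -
        w * (1 - √(1 - (θ : ℝ) ^ 2))) - C * t ^ 2 ≤ √(π * m) := by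
    intro θ hθ0 hθ1
    obtain ⟨C, hC, he⟩ := sqrt_expand hθ1
    refine ⟨C * w, fun t ht => ?_⟩
    have h3 := H θ t
    rw [e3 θ t hθ0 ht] at h3
    have h4 := pdisc_lower hw hθ0 hθ1 hC ht fun β hβ => he β t hβ ht
    linarith
  have hm : m = π * w ^ 2 / 4 := by
    obtain ⟨C, hC⟩ := key 0 (by simp) (by simp)
    have := hC 0 (by simp)
    refine eq_of_amgm h0.le hw ?_
    simpa using this
  have hp := Real.pi_pos
  have hs : √(π * m) = m / w + π * w / 4 := by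
    rw [hm, Real.sqrt_eq_iff_mul_self_eq (by positivity) (by positivity)]
    field_simp
    ring
  have hN : ∀ θ : ℚ, 0 ≤ (θ : ℝ) → (θ : ℝ) < 1 →
      volume.real (Ioo 0 W ∩ {z | pg G z ≤ θ * w}) = w * (1 - √(1 - (θ : ℝ) ^ 2)) := by
    intro θ hθ0 hθ1
    obtain ⟨C, hC⟩ := key θ hθ0 hθ1
    refine sub_eq_zero.1 (pdisc_zero (K := C) (δ := (1 - θ) / 2) (by linarith) fun t ht => ?_)
    have := hC t ht
    linarith
  have hfin : ∀ s : Set ℝ, volume (Ioo 0 W ∩ s) ≠ ⊤ := fun s =>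
    ne_top_of_le_ne_top (by simp) (measure_mono inter_subset_left)
  have hrat : ∀ a s : ℝ, 0 ≤ a → 0 < s → a ^ 2 + s ^ 2 < 1 →
      ∃ θ : ℚ, a < θ ∧ (θ : ℝ) < 1 ∧ s < √(1 - (θ : ℝ) ^ 2) := by
    intro a s ha hs0 has
    obtain ⟨θ, hθ1, hθ2⟩ := exists_rat_btwn (Real.lt_sqrt_of_sq_lt (show a ^ 2 < 1 - s ^ 2 by linarith))
    have h5 : (θ : ℝ) ^ 2 < 1 - s ^ 2 := (Real.lt_sqrt (ha.trans hθ1.le)).1 hθ2
    refine ⟨θ, hθ1, by nlinarith, Real.lt_sqrt_of_sq_lt (by linarith)⟩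
  have hWw : w ≤ W := by
    by_contra hlt
    rw [not_le] at hlt
    have hs0 : 0 < (w - W) / w := div_pos (by linarith) hw
    have hs1 : (w - W) / w ≤ 1 := (div_le_one hw).2 (by linarith)
    obtain ⟨θ, hθ1, hθ2⟩ := exists_rat_btwn (show √(1 - ((w - W) / w) ^ 2) < 1 by
      rw [Real.sqrt_lt' one_pos]
      nlinarith)
    have hθ0 : 0 ≤ (θ : ℝ) := (Real.sqrt_nonneg _).trans hθ1.le
    have h3 := hN θ hθ0 hθ2
    have h4 : volume.real (Ioo 0 W ∩ {z | pg G z ≤ θ * w}) ≤ W := by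
      refine (measureReal_mono inter_subset_left (by simp)).trans ?_
      rw [Real.volume_real_Ioo_of_le hW0, sub_zero]
    have h5 : √(1 - (θ : ℝ) ^ 2) < (w - W) / w := by
      rw [Real.sqrt_lt' hs0]
      have := (Real.sqrt_lt' (lt_of_le_of_lt (Real.sqrt_nonneg _) hθ1)).1 hθ1
      linarith
    rw [lt_div_iff₀ hw] at h5
    nlinarith
  have hsq : √(4 * m / π) = w := by
    rw [hm, Real.sqrt_eq_iff_mul_self_eq (by positivity) hw.le]
    field_simp
  rw [hsq]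
  have hsub : qd w ⊆ G := by
    rintro ⟨y, z⟩ ⟨⟨hy, hz⟩, hyz⟩
    obtain ⟨hy0, -⟩ : 0 < y ∧ y < 1 := hy
    obtain ⟨hz0, -⟩ : 0 < z ∧ z < 1 := hz
    simp only at hyz
    obtain ⟨θ, hθ1, hθ2, hθ3⟩ := hrat (y / w) (z / w) (by positivity) (by positivity) (by
      rw [div_pow, div_pow, ← add_div, div_lt_one (by positivity)]
      exact hyz)
    have hθ0 : 0 ≤ (θ : ℝ) := (div_nonneg hy0.le hw.le).trans hθ1.le
    rw [div_lt_iff₀ hw] at hθ1 hθ3
    refine h.swap.mem_of_lt (y := z) (z := y) hy0 (hθ1.trans ?_)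
    by_contra hle
    rw [not_lt] at hle
    have h3 := hN θ hθ0 hθ2
    have hzw : z < w := by nlinarith
    have h4 : volume.real (Ioo z W) ≤ volume.real (Ioo 0 W ∩ {z | pg G z ≤ θ * w}) := by
      refine measureReal_mono (fun z' hz' => ⟨⟨hz0.trans hz'.1, hz'.2⟩, ?_⟩) (hfin _)
      exact (h.swap.pf_anti hz0 (hz0.trans hz'.1) hz'.1.le).trans hle
    rw [Real.volume_real_Ioo_of_le (by linarith)] at h4
    nlinarith
  have hG : volume G ≠ ⊤ := by
    intro ht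
    rw [hmdef, measureReal_def, ht] at h0
    simp at h0
  have hqm : MeasurableSet (qd w) :=
    (measurableSet_Ioo.prod measurableSet_Ioo).inter
      (measurableSet_lt (f := fun q : Y => q.1 ^ 2 + q.2 ^ 2) (by fun_prop) measurable_const)
  refine (ae_eq_of_subset_of_measure_ge hsub ?_ hqm.nullMeasurableSet hG).symm
  refine le_trans (le_of_eq ?_) (pdisc_vol hw hw1)
  rw [← hm, hmdef, ofReal_measureReal hG]

end Crest.Agent.R214
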