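import Crest.Agent.R214.Borel

/-!
# R214/Quant

Quantile lemma. Let `N s = |{q ∈ sq | s < u q}|`, `Q μ = sSup ({0} ∪ {s ∈ [0,1] | μ < N s})` for `μ ∈ (0,1)`; `N` is antitone and right continuous, so
`s < Q μ ↔ μ < N s` for `s ∈ [0,1)`; hence `Q` (antitone, measurable) on `(0,1)` and `u` on `sq` have the same law
(`Measure.ext_of_Ioi`/`ext_of_Iic`). Let `T` = the countable set of atoms `{s | |{u = s}| > 0}`
(`Measure.countable_meas_level_set_pos`), `ψ s = if s ∈ T then 1 else κ (m s)`. For `μ ∈ (b, a)`: `0 < Q μ < 1` and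
`N (Q μ) ≤ μ ≤ |{Q μ ≤ u}|`, so `m (Q μ) = μ` unless `Q μ ∈ T`; thus `κ μ ≤ ψ (Q μ)`. For `μ ∈ (0,1)` outside `[b, a]`, `Q μ ∈ {0, 1}` and `ind = 0`.
-/

set_option autoImplicit false

open MeasureTheory Set Filter Real
open scoped Topology

noncomputable section

namespace Crest.Agent.R214

open ProbabilityTheory in
theorem quant_Q (P : Measure ℝ) [IsProbabilityMeasure P] : ∃ Q : ℝ → ℝ, Measurable Q ∧
    (∀ μ ∈ Ioo (0 : ℝ) 1, ∀ s, s < Q μ ↔ μ < P.real (Ioi s)) ∧
    (volume.restrict (Ioo (0 : ℝ) 1)).map Q = P := by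
  classical
  have hN : ∀ s, P.real (Ioi s) = 1 - cdf P s := fun s => by
    rw [cdf_eq_real, ← compl_Iic, probReal_compl_eq_one_sub measurableSet_Iic]
  set Q : ℝ → ℝ := fun μ => if μ ∈ Ioo (0 : ℝ) 1 then sSup {s | cdf P s < 1 - μ} else 0 with hQ
  have key : ∀ μ ∈ Ioo (0 : ℝ) 1, ∀ s, s < Q μ ↔ μ < P.real (Ioi s) := by
    intro μ hμ s
    have hne : {s | cdf P s < 1 - μ}.Nonempty :=
      ((tendsto_cdf_atBot P).eventually_lt_const (sub_pos.2 hμ.2)).exists
    have hbd : BddAbove {s | cdf P s < 1 - μ} := by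
      obtain ⟨b, hb⟩ := ((tendsto_cdf_atTop P).eventually_const_lt (sub_lt_self 1 hμ.1)).exists
      refine ⟨b, fun s hs => le_of_not_gt fun h => ?_⟩
      exact lt_irrefl _ ((hb.trans_le (monotone_cdf P h.le)).trans hs)
    rw [hN, lt_sub_comm]
    simp only [hQ, if_pos hμ]
    rw [lt_csSup_iff hbd hne]
    constructor
    · rintro ⟨t, ht, hst⟩
      exact (monotone_cdf P hst.le).trans_lt ht
    · intro hs
      have h1 : ∀ᶠ t in 𝓝[>] s, cdf P t < 1 - μ :=
        (((cdf P).right_continuous s).mono Ioi_subset_Ici_self).eventually_lt_const hs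
      obtain ⟨t, h2, h3⟩ := (h1.and self_mem_nhdsWithin).exists
      exact ⟨t, h2, h3⟩
  have hm : Measurable Q := by
    refine measurable_of_Ioi fun s => ?_
    have : Q ⁻¹' Ioi s = (Ioo 0 1 ∩ Iio (P.real (Ioi s))) ∪ ((Ioo 0 1)ᶜ ∩ {_μ | s < 0}) := by
      ext μ
      by_cases hμ : μ ∈ Ioo (0 : ℝ) 1
      · simp only [mem_preimage, mem_Ioi, key μ hμ, mem_union, mem_inter_iff, hμ, true_and, mem_Iio,
          mem_compl_iff, not_true, false_and, or_false]
      · simp only [mem_preimage, mem_Ioi, hQ, if_false, mem_union, mem_inter_iff, hμ, false_and,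
          mem_compl_iff, not_false_iff, true_and, false_or, mem_ofPred_eq]
    rw [this]
    exact (measurableSet_Ioo.inter measurableSet_Iio).union
      (measurableSet_Ioo.compl.inter (MeasurableSet.const _))
  refine ⟨Q, hm, key, ?_⟩
  have : IsProbabilityMeasure (volume.restrict (Ioo (0 : ℝ) 1)) := ⟨by simp⟩
  have := Measure.isProbabilityMeasure_map (μ := volume.restrict (Ioo (0 : ℝ) 1)) hm.aemeasurable
  refine Measure.ext_of_Iic _ _ fun s => ?_
  rw [← compl_Ioi, prob_compl_eq_one_sub measurableSet_Ioi, prob_compl_eq_one_sub measurableSet_Ioi,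
    Measure.map_apply hm measurableSet_Ioi, Measure.restrict_apply' measurableSet_Ioo]
  congr 1
  have : Q ⁻¹' Ioi s ∩ Ioo 0 1 = Ioo 0 (P.real (Ioi s)) := by
    ext μ
    constructor
    · rintro ⟨h1, h2⟩
      exact ⟨h2.1, (key μ h2 s).1 h1⟩
    · rintro ⟨h1, h2⟩
      have h3 : μ ∈ Ioo (0 : ℝ) 1 := ⟨h1, h2.trans_le measureReal_le_one⟩
      exact ⟨(key μ h3 s).2 h2, h3⟩
  rw [this, Real.volume_Ioo, sub_zero, ofReal_measureReal]

theorem quant_Ici (P : Measure ℝ) [IsProbabilityMeasure P] {μ x : ℝ} (h : ∀ s < x, μ ≤ P.real (Ioi s)) :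
    μ ≤ P.real (Ici x) := by
  have h1 : Ici x = ⋂ n : ℕ, Ioi (x - 1 / ((n : ℝ) + 1)) := by
    ext y
    simp only [mem_Ici, mem_iInter, mem_Ioi]
    refine ⟨fun hy n => lt_of_lt_of_le (sub_lt_self _ (by positivity)) hy, fun hy => ?_⟩
    by_contra hlt
    obtain ⟨n, hn⟩ := exists_nat_one_div_lt (sub_pos.2 (not_le.1 hlt))
    linarith [hy n]
  have h2 := tendsto_measure_iInter_atTop (μ := P) (s := fun n : ℕ => Ioi (x - 1 / ((n : ℝ) + 1)))
    (fun n => measurableSet_Ioi.nullMeasurableSet) (fun n k hnk => Ioi_subset_Ioi (by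
      have : (n : ℝ) ≤ k := by exact_mod_cast hnk
      gcongr)) ⟨0, measure_ne_top _ _⟩
  rw [← h1] at h2
  exact ge_of_tendsto' ((ENNReal.tendsto_toReal (measure_ne_top _ _)).comp h2) fun n =>
    h _ (sub_lt_self _ (by positivity))

theorem quant_ind : Measurable ind :=
  Measurable.ite (measurableSet_Ioo (a := (0 : ℝ)) (b := 1)) measurable_const measurable_const

theorem quantile {u : Y → ℝ} (hu : Measurable u) (hr : ∀ q, u q ∈ Icc (0 : ℝ) 1) {m : ℝ → ℝ}
    (hm : Measurable m)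
    (h : ∀ s ∈ Ioo (0 : ℝ) 1, volume.real {q | q ∈ sq ∧ s < u q} ≤ m s ∧
      m s ≤ volume.real {q | q ∈ sq ∧ s ≤ u q})
    {κ : ℝ → ℝ} (hκ : Measurable κ) (hb : ∀ μ, |κ μ| ≤ 1) :
    ∃ ψ : ℝ → ℝ, Measurable ψ ∧ (∀ s, |ψ s| ≤ 1) ∧ (∀ᵐ s, ψ s = κ (m s)) ∧
      ∫ μ in Ioo (volume.real {q | q ∈ sq ∧ 1 ≤ u q}) (volume.real {q | q ∈ sq ∧ 0 < u q}), κ μ ≤
        ∫ q in sq, ind (u q) * ψ (u q) := by
  classical
  have hsq : MeasurableSet sq := measurableSet_Ioo.prod measurableSet_Ioo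
  have : IsProbabilityMeasure (volume.restrict sq) := ⟨by
    rw [Measure.restrict_apply_univ, sq, Measure.volume_eq_prod, Measure.prod_prod]
    simp⟩
  set P : Measure ℝ := (volume.restrict sq).map u with hP
  have : IsProbabilityMeasure P := Measure.isProbabilityMeasure_map hu.aemeasurable
  have hPs : ∀ S : Set ℝ, MeasurableSet S → P.real S = volume.real {q | q ∈ sq ∧ u q ∈ S} := by
    intro S hS
    rw [hP, map_measureReal_apply hu hS, measureReal_restrict_apply' hsq, inter_comm]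
    rfl
  have e1 : ∀ s, volume.real {q | q ∈ sq ∧ s < u q} = P.real (Ioi s) := fun s =>
    (hPs _ measurableSet_Ioi).symm
  have e2 : ∀ s, volume.real {q | q ∈ sq ∧ s ≤ u q} = P.real (Ici s) := fun s =>
    (hPs _ measurableSet_Ici).symm
  simp only [e1, e2] at h ⊢
  obtain ⟨Q, hQm, hQ, hQP⟩ := quant_Q P
  set T : Set ℝ := {s | 0 < P {t | id t = s}} with hT
  have hTc : T.Countable := Measure.countable_meas_level_set_pos measurable_id
  set ψ : ℝ → ℝ := fun s => if s ∈ T then 1 else κ (m s) with hψ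
  have hψm : Measurable ψ := Measurable.ite hTc.measurableSet measurable_const (hκ.comp hm)
  have hψb : ∀ s, |ψ s| ≤ 1 := fun s => by
    simp only [hψ]
    split_ifs
    · simp
    · exact hb _
  refine ⟨ψ, hψm, hψb, ?_, ?_⟩
  · filter_upwards [hTc.ae_notMem volume] with s hs
    exact if_neg hs
  have hF : Measurable fun s => ind s * ψ s := quant_ind.mul hψm
  rw [← integral_map (f := fun s => ind s * ψ s) hu.aemeasurable hF.aestronglyMeasurable, ← hP]
  conv_rhs => rw [← hQP]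
  rw [integral_map hQm.aemeasurable hF.aestronglyMeasurable]
  set a := P.real (Ioi 0) with ha
  set b := P.real (Ici 1) with hbdef
  have hsub : Ioo b a ⊆ Ioo 0 1 := Ioo_subset_Ioo measureReal_nonneg measureReal_le_one
  rw [← inter_eq_right.2 hsub, ← setIntegral_indicator measurableSet_Ioo]
  refine integral_mono_ae ?_ ?_ ?_
  · refine Integrable.indicator ?_ measurableSet_Ioo
    exact Integrable.of_bound hκ.aestronglyMeasurable 1 (Eventually.of_forall hb)
  · refine Integrable.of_bound (hF.comp hQm).aestronglyMeasurable 1 (Eventually.of_forall fun μ => ?_)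
    rw [Real.norm_eq_abs, abs_mul]
    refine mul_le_one₀ ?_ (abs_nonneg _) (hψb _)
    unfold ind
    split_ifs <;> simp
  · filter_upwards [ae_restrict_mem measurableSet_Ioo,
      ae_restrict_of_ae (Measure.ae_ne volume b)] with μ hμ hμb
    have hI : μ ≤ P.real (Ici (Q μ)) := quant_Ici P fun s hs => ((hQ μ hμ s).1 hs).le
    by_cases hab : μ ∈ Ioo b a
    · have h0 : 0 < Q μ := (hQ μ hμ 0).2 hab.2
      have h1 : Q μ < 1 := by
        by_contra h1
        exact absurd (hI.trans (measureReal_mono (Ici_subset_Ici.2 (not_lt.1 h1)))) (not_le.2 hab.1)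
      rw [indicator_of_mem hab, ind, if_pos ⟨h0, h1⟩, one_mul]
      simp only [hψ]
      split_ifs with hs
      · exact (le_abs_self _).trans (hb μ)
      · have h2 : P {Q μ} = 0 := by simpa [hT] using hs
        have h3 : P.real (Ici (Q μ)) = P.real (Ioi (Q μ)) :=
          measureReal_congr (Ioi_ae_eq_Ici' h2).symm
        have h4 : P.real (Ioi (Q μ)) ≤ μ := not_lt.1 fun h5 => lt_irrefl _ ((hQ μ hμ _).2 h5)
        have h5 := h (Q μ) ⟨h0, h1⟩
        rw [show m (Q μ) = μ by linarith [h5.1, h5.2]]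
    · rw [indicator_of_notMem hab, ind, if_neg, zero_mul]
      rintro ⟨h0, h1⟩
      refine hab ⟨lt_of_le_of_ne (not_lt.1 fun h2 => ?_) (Ne.symm hμb), (hQ μ hμ 0).1 h0⟩
      exact lt_irrefl _ ((hQ μ hμ (Q μ)).2 (h2.trans_le (measureReal_mono fun t ht => h1.trans_le ht)))

end Crest.Agent.R214
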