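import Crest.Agent.R214.Quant
import Crest.Agent.R214.Basic2

/-!
# R214/Slice

Slicing a down-set.
-/

set_option autoImplicit false

open MeasureTheory Set Filter Real
open scoped Topology

noncomputable section

namespace Crest.Agent.R214

theorem Slice_restrict : (volume : Measure Y).restrict sq =
    (volume.restrict (Ioo (0 : ℝ) 1)).prod (volume.restrict (Ioo (0 : ℝ) 1)) := by
  rw [Measure.prod_restrict]; rfl
theorem Slice_swap (f : Y → ℝ) : ∫ q in sq, f q.swap = ∫ q in sq, f q := by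
  rw [Slice_restrict]; exact integral_prod_swap f
theorem Slice_vol : volume sq = 1 := by
  rw [sq, Measure.volume_eq_prod, Measure.prod_prod]; simp
theorem Slice_int {f : Y → ℝ} (hf : Measurable f) (hb : ∀ q, |f q| ≤ 1) :
    Integrable f ((volume.restrict (Ioo (0 : ℝ) 1)).prod (volume.restrict (Ioo (0 : ℝ) 1))) :=
  Integrable.of_bound hf.aestronglyMeasurable 1 (.of_forall hb)
theorem Slice_u {g : Y × ℝ → X} (hg : Measurable g) {D : Set X} (h : MeasurableSet D) :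
    Measurable fun q => volume.real {t | g (q, t) ∈ D} :=
  (measurable_measure_prodMk_left (hg h)).ennreal_toReal
theorem Slice_u1 {D : Set X} (h : MeasurableSet D) : Measurable (u1 D) :=
  Slice_u (g := fun p => (p.2, p.1.1, p.1.2)) (by fun_prop) h
theorem Slice_u2 {D : Set X} (h : MeasurableSet D) : Measurable (u2 D) :=
  Slice_u (g := fun p => (p.1.1, p.2, p.1.2)) (by fun_prop) h
theorem Slice_u3 {D : Set X} (h : MeasurableSet D) : Measurable (u3 D) :=
  Slice_u (g := fun p => (p.1.1, p.1.2, p.2)) (by fun_prop) h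
theorem Slice_mind : Measurable ind :=
  Measurable.ite (measurableSet_Ioo (a := (0 : ℝ)) (b := 1)) measurable_const measurable_const
theorem Slice_ind (u : ℝ) : |ind u| ≤ 1 := by
  unfold ind; split_ifs <;> simp
theorem Slice_mul {a b : ℝ} (ha : |a| ≤ 1) (hb : |b| ≤ 1) : |a * b| ≤ 1 := by
  rw [abs_mul]; exact mul_le_one₀ ha (abs_nonneg _) hb
theorem Slice_l {α : Type} {f g : α → ℝ} (h : ∀ p, f p ^ 2 + g p ^ 2 ≤ 1) (p : α) : |f p| ≤ 1 :=
  (sq_le_one_iff_abs_le_one _).1 (by linarith [h p, sq_nonneg (g p)])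
theorem Slice_r {α : Type} {f g : α → ℝ} (h : ∀ p, f p ^ 2 + g p ^ 2 ≤ 1) (p : α) : |g p| ≤ 1 :=
  (sq_le_one_iff_abs_le_one _).1 (by linarith [h p, sq_nonneg (f p)])
theorem Slice_f2 {D : Set X} (h : MeasurableSet D) {σ : X → ℝ} (hσ : Measurable σ) :
    Measurable fun q : Y => ind (u2 D q) * σ (q.1, u2 D q, q.2) :=
  (Slice_mind.comp (Slice_u2 h)).mul
    (hσ.comp (measurable_fst.prodMk ((Slice_u2 h).prodMk measurable_snd)))
theorem Slice_f3 {D : Set X} (h : MeasurableSet D) {σ : X → ℝ} (hσ : Measurable σ) :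
    Measurable fun q : Y => ind (u3 D q) * σ (q.1, q.2, u3 D q) :=
  (Slice_mind.comp (Slice_u3 h)).mul
    (hσ.comp (measurable_fst.prodMk (measurable_snd.prodMk (Slice_u3 h))))

theorem Dn.sw12 {D : Set X} (h : Dn D) : Dn (sw12 ⁻¹' D) := by
  refine ⟨measurableEmbedding_sw12.measurable h.meas, fun p hp => ?_, fun p hp p' hp' hle => ?_⟩
  · obtain ⟨h1, h2, h3⟩ := h.sub hp
    exact ⟨h2, h1, h3⟩
  · exact h.down _ hp _ ⟨hp'.2.1, hp'.1, hp'.2.2⟩ ⟨hle.2.1, hle.1, hle.2.2⟩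
theorem Dn.sw13 {D : Set X} (h : Dn D) : Dn (sw13 ⁻¹' D) := by
  refine ⟨measurableEmbedding_sw13.measurable h.meas, fun p hp => ?_, fun p hp p' hp' hle => ?_⟩
  · obtain ⟨h1, h2, h3⟩ := h.sub hp
    exact ⟨h3, h2, h1⟩
  · exact h.down _ hp _ ⟨hp'.2.2, hp'.2.1, hp'.1⟩ ⟨hle.2.2, hle.2.1, hle.1⟩
/-- `u1 (sw12 ⁻¹' D) = u2 D`, `u3 (sw12 ⁻¹' D) q = u3 D q.swap`, `sq` is symmetric -/
theorem DS.sw12 {D : Set X} {v A : ℝ} (h : DS D v A) : DS (sw12 ⁻¹' D) v A := by
  have hm := measurableEmbedding_sw12.measurable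
  refine ⟨h.dn.sw12, (measurePreserving_sw12.measureReal_preimage
    h.dn.meas.nullMeasurableSet).trans h.vol, fun φ₁ φ₂ φ₃ h1 h2 h3 hle => ?_⟩
  refine le_trans (le_of_eq ?_) (h.flux _ _ _ (h2.comp hm) (h1.comp hm) (h3.comp hm) fun p => by
    simp only [Function.comp_apply]; linarith [hle (R214.sw12 p)])
  unfold Flux
  rw [add_comm (∫ q in sq, ind (u1 D q) * _),
    ← Slice_swap fun q => ind (u3 D q) * (φ₃ ∘ R214.sw12) (q.1, q.2, u3 D q)]
  rfl
theorem DS.sw13 {D : Set X} {v A : ℝ} (h : DS D v A) : DS (sw13 ⁻¹' D) v A := by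
  have hm := measurableEmbedding_sw13.measurable
  refine ⟨h.dn.sw13, (measurePreserving_sw13.measureReal_preimage
    h.dn.meas.nullMeasurableSet).trans h.vol, fun φ₁ φ₂ φ₃ h1 h2 h3 hle => ?_⟩
  refine le_trans (le_of_eq ?_) (h.flux _ _ _ (h3.comp hm) (h2.comp hm) (h1.comp hm) fun p => by
    simp only [Function.comp_apply]; linarith [hle (R214.sw13 p)])
  unfold Flux
  rw [add_comm (∫ q in sq, ind (u1 D q) * _), add_comm (_ + ∫ q in sq, ind (u1 D q) * _),
    ← add_assoc, ← Slice_swap fun q => ind (u3 D q) * (φ₁ ∘ R214.sw13) (q.1, q.2, u3 D q),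
    ← Slice_swap fun q => ind (u2 D q) * (φ₂ ∘ R214.sw13) (q.1, u2 D q, q.2),
    ← Slice_swap fun q => ind (u1 D q) * (φ₃ ∘ R214.sw13) (u1 D q, q.1, q.2)]
  rfl
theorem Dn.sl {D : Set X} (h : Dn D) (s : ℝ) : DS2 (sl D s) := by
  exact ⟨measurable_prodMk_left h.meas, fun q hq => (h.sub hq).2, fun q hq q' hq' hle =>
    h.down _ hq (s, q') ⟨(h.sub hq).1, hq'⟩ ⟨le_rfl, hle⟩⟩
theorem Dn.sl_anti {D : Set X} (h : Dn D) {s s' : ℝ} (h0 : 0 < s) (hs : s ≤ s') :
    R214.sl D s' ⊆ R214.sl D s := by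
  exact fun q hq => h.down _ hq (s, q) ⟨⟨h0, hs.trans_lt (h.sub hq).1.2⟩, (h.sub hq).2⟩ ⟨hs, le_rfl⟩
theorem Dn.measurable_ms {D : Set X} (h : Dn D) : Measurable (ms D) := by
  exact (measurable_measure_prodMk_left h.meas).ennreal_toReal
theorem Dn.measurable_wy {D : Set X} (h : Dn D) : Measurable (fun s => wy (R214.sl D s)) := by
  exact (measurable_measure_prodMk_left
    (measurableSet_lt measurable_const (Slice_u3 h.meas))).ennreal_toReal
theorem Dn.measurable_tz {D : Set X} (h : Dn D) : Measurable (fun s => tz (R214.sl D s)) := by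
  exact (measurable_measure_prodMk_left
    (measurableSet_le measurable_const (Slice_u2 h.meas))).ennreal_toReal
theorem Dn.ae_eq_of_slices {D F : Set X} (h : Dn D) (hF : MeasurableSet F) (hs : F ⊆ cube)
    (e : ∀ᵐ s ∂(volume.restrict (Ioo (0 : ℝ) 1)), R214.sl D s =ᵐ[volume] R214.sl F s) :
    D =ᵐ[volume] F := by
  rw [ae_restrict_iff' measurableSet_Ioo] at e
  rw [Filter.eventuallyEq_set, Measure.volume_eq_prod, Measure.ae_prod_iff_ae_ae
    (h.meas.mem.iff hF.mem).setOf]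
  filter_upwards [e] with s hs'
  by_cases h0 : s ∈ Ioo (0 : ℝ) 1
  · exact Filter.eventuallyEq_set.1 (hs' h0)
  · exact .of_forall fun q => ⟨fun hq => absurd (h.sub hq).1 h0, fun hq => absurd (hs hq).1 h0⟩

theorem Av.measurable {D : Set X} (h : Dn D) {Λ : ℝ → ℝ} (hΛ : Av D Λ) : Measurable Λ := by
  obtain ⟨σ₂, σ₃, h2, h3, -, e⟩ := hΛ
  rw [funext e]
  exact (Slice_f2 h.meas h2).stronglyMeasurable.integral_prod_right'.measurable.add
    (Slice_f3 h.meas h3).stronglyMeasurable.integral_prod_right'.measurable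
theorem Av.abs_le {D : Set X} {Λ : ℝ → ℝ} (hΛ : Av D Λ) (s : ℝ) : |Λ s| ≤ 2 := by
  obtain ⟨σ₂, σ₃, -, -, hle, e⟩ := hΛ
  have key : ∀ f : ℝ → ℝ, (∀ t, |f t| ≤ 1) → |∫ t in Ioo (0 : ℝ) 1, f t| ≤ 1 := fun f hf => by
    simpa using norm_setIntegral_le_of_norm_le_const (μ := volume) (s := Ioo (0 : ℝ) 1) (f := f)
      (C := 1) (by simp) fun t _ => hf t
  rw [e, Fl]
  refine (abs_add_le _ _).trans ?_
  linarith [key _ fun z => Slice_mul (Slice_ind (pg (sl D s) z)) (Slice_l hle (s, pg (sl D s) z, z)),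
    key _ fun y => Slice_mul (Slice_ind (pf (sl D s) y)) (Slice_r hle (s, y, pf (sl D s) y))]
/-- choose the field according to `Λ' p.1 ≤ Λ p.1` -/
theorem Av.max {D : Set X} (h : Dn D) {Λ Λ' : ℝ → ℝ} (h1 : Av D Λ) (h2 : Av D Λ') :
    Av D (fun s => max (Λ s) (Λ' s)) := by
  have hm : MeasurableSet {p : X | Λ' p.1 ≤ Λ p.1} :=
    measurableSet_le ((h2.measurable h).comp measurable_fst) ((h1.measurable h).comp measurable_fst)
  obtain ⟨σ₂, σ₃, m2, m3, hle, e⟩ := h1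
  obtain ⟨σ₂', σ₃', m2', m3', hle', e'⟩ := h2
  refine ⟨fun p => if Λ' p.1 ≤ Λ p.1 then σ₂ p else σ₂' p,
    fun p => if Λ' p.1 ≤ Λ p.1 then σ₃ p else σ₃' p, m2.ite hm m2', m3.ite hm m3', fun p => ?_,
    fun s => ?_⟩
  · dsimp only
    split_ifs
    · exact hle p
    · exact hle' p
  · dsimp only
    by_cases hs : Λ' s ≤ Λ s
    · simp only [if_pos hs]
      rw [max_eq_left hs, e]
    · simp only [if_neg hs]
      rw [max_eq_right (not_le.1 hs).le, e']
theorem av_beta (D : Set X) {β : Y → ℝ} (hβ : Measurable β) (hb : ∀ q, |β q| ≤ 1) :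
    Av D (fun s => Fl (sl D s) (fun q => β (s, q.1)) (fun q => √(1 - β (s, q.1) ^ 2))) := by
  refine ⟨fun p => β (p.1, p.2.1), fun p => √(1 - β (p.1, p.2.1) ^ 2), by fun_prop, by fun_prop,
    fun p => ?_, fun _ => rfl⟩
  rw [Real.sq_sqrt (sub_nonneg.2 ((sq_le_one_iff_abs_le_one _).2 (hb _)))]
  linarith
theorem av_beta' (D : Set X) {β : Y → ℝ} (hβ : Measurable β) (hb : ∀ q, |β q| ≤ 1) :
    Av D (fun s => Fl (sl D s) (fun q => √(1 - β (s, q.2) ^ 2)) (fun q => β (s, q.2))) := by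
  refine ⟨fun p => √(1 - β (p.1, p.2.2) ^ 2), fun p => β (p.1, p.2.2), by fun_prop, by fun_prop,
    fun p => ?_, fun _ => rfl⟩
  rw [Real.sq_sqrt (sub_nonneg.2 ((sq_le_one_iff_abs_le_one _).2 (hb _)))]
  linarith

/-- `model`: `quantile` with `u = u1 D`, `m = ms D` gives `ψ`; let `α' s = α s` if `s ∈ (0,1)` and `ψ s = κ (m s)`, else `0`. Use the field
`(ψ x, α' x σ₂, α' x σ₃)`, `u2 D (s, z) = pg (sl D s) z`, `u3 D (s, y) = pf (sl D s) y` and Fubini on `sq`. -/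
theorem DS.slice {D : Set X} {v A : ℝ} (h : DS D v A) {Λ : ℝ → ℝ} (hΛ : Av D Λ) :
    Sl A v (aD D) (bD D) (ms D) Λ := by
  have hD := h.dn
  have hfin : ∀ {S : Set Y}, S ⊆ sq → volume S ≠ ⊤ := fun hS =>
    ne_top_of_le_ne_top (by rw [Slice_vol]; simp) (measure_mono hS)
  have hI : ∀ {S : Set ℝ}, S ⊆ Ioo 0 1 → volume S ≠ ⊤ := fun hS =>
    ne_top_of_le_ne_top (by simp) (measure_mono hS)
  have k1 : ∀ s ∈ Ioo (0 : ℝ) 1, {q | q ∈ sq ∧ s < u1 D q} ⊆ sl D s := fun s hs q hq => by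
    by_contra hn
    refine absurd hq.2 (not_lt.2 ?_)
    refine (measureReal_mono (s₂ := Ioo 0 s) (fun x hx => ⟨(hD.sub hx).1.1, ?_⟩)
      (by simp)).trans_eq (by simp [hs.1.le])
    by_contra hx'
    exact hn (hD.down _ hx (s, q) ⟨hs, hq.1⟩ ⟨not_lt.1 hx', le_rfl⟩)
  have k2 : ∀ s ∈ Ioo (0 : ℝ) 1, sl D s ⊆ {q | q ∈ sq ∧ s ≤ u1 D q} := fun s hs q hq => by
    refine ⟨(hD.sub hq).2, le_trans (le_of_eq (by simp [hs.1.le]))
      (measureReal_mono (s₁ := Ioo 0 s) (fun x hx => ?_) (hI fun x hx => (hD.sub hx).1))⟩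
    exact hD.sl_anti hx.1 hx.2.le hq
  refine ⟨fun s hs s' _ hle => measureReal_mono (hD.sl_anti hs.1 hle) (hfin (hD.sl s).sub),
    measureReal_nonneg, ?_, fun s hs => ⟨?_, ?_⟩, hD.measurable_ms, ?_, hΛ.measurable hD,
    hΛ.abs_le, fun κ α hκ hα hb hαb => ?_⟩
  · exact (measureReal_mono (fun q hq => hq.1) (hfin subset_rfl)).trans_eq
      (by rw [Measure.real, Slice_vol]; simp)
  · exact measureReal_mono (fun q hq => k1 s hs ⟨hq.1, hs.2.trans_le hq.2⟩) (hfin (hD.sl s).sub)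
  · exact measureReal_mono (fun q hq => ⟨(k2 s hs hq).1, hs.1.trans_le (k2 s hs hq).2⟩)
      (hfin fun q hq => hq.1)
  · rw [setIntegral_eq_integral_of_forall_compl_eq_zero fun s hs => by
      rw [ms, show sl D s = ∅ from eq_empty_of_forall_notMem fun q hq => hs (hD.sub hq).1,
        measureReal_empty], ← h.vol, Measure.real, Measure.volume_eq_prod,
      Measure.prod_apply hD.meas]
    exact integral_toReal (measurable_measure_prodMk_left hD.meas).aemeasurable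
      (.of_forall fun s => (hfin (hD.sl s).sub).lt_top)
  have hu : ∀ q, u1 D q ≤ 1 := fun q => by
    refine le_trans (measureReal_mono (s₂ := Ioo (0 : ℝ) 1) (fun x hx => ?_) (by simp)) (by simp)
    exact (hD.sub hx).1
  obtain ⟨ψ, ψm, ψb, ψe, ψi⟩ := quantile (u := u1 D) (Slice_u1 hD.meas)
    (fun q => ⟨measureReal_nonneg, hu q⟩) hD.measurable_ms
    (fun s hs => ⟨measureReal_mono (k1 s hs) (hfin (hD.sl s).sub),
      measureReal_mono (k2 s hs) (hfin fun q hq => hq.1)⟩) hκ hb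
  obtain ⟨σ₂, σ₃, m2, m3, hle, e⟩ := hΛ
  obtain ⟨β, hβ⟩ : ∃ β : ℝ → ℝ, β = fun s => if s ∈ Ioo (0 : ℝ) 1 ∧ ψ s = κ (ms D s) then α s else 0 :=
    ⟨_, rfl⟩
  have βm : Measurable β := by
    rw [hβ]
    exact hα.ite (measurableSet_Ioo.inter (measurableSet_eq_fun ψm (hκ.comp hD.measurable_ms)))
      measurable_const
  have βb : ∀ s, ψ s ^ 2 + β s ^ 2 ≤ 1 := fun s => by
    rw [hβ]
    dsimp only
    split_ifs with hs
    · rw [hs.2, add_comm]; exact hαb s hs.1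
    · simpa using ψb s
  have βe : ∫ s in Ioo (0 : ℝ) 1, α s * Λ s = ∫ s in Ioo (0 : ℝ) 1, β s * Λ s := by
    refine setIntegral_congr_ae measurableSet_Ioo ?_
    filter_upwards [ψe] with s hs hs'
    rw [hβ]
    simp only [if_pos (⟨hs', hs⟩ : s ∈ Ioo (0 : ℝ) 1 ∧ ψ s = κ (ms D s))]
  have βb' : ∀ p : X, |β p.1| ≤ 1 := fun p => Slice_r βb p.1
  have n2 : Measurable fun p : X => β p.1 * σ₂ p := (βm.comp measurable_fst).mul m2
  have n3 : Measurable fun p : X => β p.1 * σ₃ p := (βm.comp measurable_fst).mul m3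
  have hF := h.flux (fun p => ψ p.1) _ _ (ψm.comp measurable_fst) n2 n3 fun p => by
    nlinarith [βb p.1, hle p, sq_nonneg (β p.1)]
  have i2 := Slice_int (Slice_f2 hD.meas n2) fun q =>
    Slice_mul (Slice_ind _) (Slice_mul (βb' _) (Slice_l hle _))
  have i3 := Slice_int (Slice_f3 hD.meas n3) fun q =>
    Slice_mul (Slice_ind _) (Slice_mul (βb' _) (Slice_r hle _))
  unfold Flux at hF
  rw [add_assoc] at hF
  refine le_trans (add_le_add ψi (le_of_eq ?_)) hF
  rw [βe, Slice_restrict, integral_prod _ i2, integral_prod _ i3,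
    ← integral_add i2.integral_prod_left i3.integral_prod_left]
  refine integral_congr_ae (.of_forall fun s => ?_)
  dsimp only
  rw [e, Fl, mul_add, ← integral_const_mul, ← integral_const_mul]
  congr 1 <;> exact integral_congr_ae (.of_forall fun t => mul_left_comm _ _ _)

end Crest.Agent.R214
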