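import Crest.Agent.R214.Basic2

/-!
# R214/StA

Fibre lengths, fibre averages, the one-dimensional total variation bound.
-/

set_option autoImplicit false

open MeasureTheory Set Filter Real
open scoped Topology

noncomputable section

namespace Crest.Agent.R214

theorem sta_fl (E : Set X) (q : Y) :
    fl E q = (volume.restrict I0).real ((fun x => (x, q)) ⁻¹' E) := by
  rw [fl, Measure.real, Measure.real, Measure.restrict_apply' measurableSet_I0, inter_comm]
  rfl

theorem sta_mono {S T : Set ℝ} (h : S ⊆ T) (hT : T ⊆ I0) : volume.real S ≤ volume.real T :=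
  measureReal_mono h (measure_ne_top_of_subset hT (by rw [volume_I0]; exact ENNReal.one_ne_top))

theorem sta_add (x : ℝ) (q : Y) (a b : ℤ) :
    ((x, q) : X) + (((0 : ℤ) : ℝ), (a : ℝ), (b : ℝ)) = (x, q + ((a : ℝ), (b : ℝ))) := by
  ext <;> simp

theorem measurable_fl {E : Set X} (hE : MeasurableSet E) : Measurable (fl E) := by
  rw [funext (sta_fl E)]
  exact (measurable_measure_prodMk_right hE).ennreal_toReal
theorem fl_mem (E : Set X) (q : Y) : fl E q ∈ Icc (0 : ℝ) 1 := by
  refine ⟨measureReal_nonneg, (sta_mono (fun x hx => hx.1) Subset.rfl).trans_eq ?_⟩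
  rw [Measure.real, volume_I0, ENNReal.toReal_one]
theorem fl_eq {E : Set X} (hE : MeasurableSet E) (q : Y) :
    fl E q = ∫ x in I0, E.indicator (1 : X → ℝ) (x, q) := by
  rw [sta_fl, ← integral_indicator_one (measurable_prodMk_right hE)]
  rfl
theorem fl_pd2 {E : Set X} (hp : PdS E) : Pd2 (fl E) := by
  intro a b q
  unfold fl
  simp only [← sta_add, hp 0 a b]
theorem integral_fl {E : Set X} (hE : MeasurableSet E) :
    ∫ q in cell2, fl E q = volume.real (E ∩ cell) := by
  simp only [fl_eq hE]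
  rw [← integral_cell_prod (f := E.indicator 1) ((integrable_const (1 : ℝ)).indicator hE),
    integral_indicator_one hE,
    measureReal_restrict_apply hE]
theorem fl_congr {E F : Set X} (hE : MeasurableSet E) (hF : MeasurableSet F) (h : E =ᵐ[volume] F) :
    fl E =ᵐ[volume] fl F := by
  have h1 : ∀ᵐ z ∂((volume : Measure Y).prod (volume : Measure ℝ)), z.swap ∈ E ↔ z.swap ∈ F :=
    Measure.measurePreserving_swap.quasiMeasurePreserving.ae (eventuallyEq_set.1 h)
  filter_upwards [Measure.ae_ae_of_ae_prod h1] with q hq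
  refine measureReal_congr (eventuallyEq_set.2 ?_)
  filter_upwards [hq] with x hx
  exact and_congr_right fun _ => hx
theorem ae_eq_of_fibres {E F : Set X} (hE : MeasurableSet E) (hF : MeasurableSet F)
    (h : ∀ᵐ q : Y, {x | (x, q) ∈ E} =ᵐ[volume] {x | (x, q) ∈ F}) : E =ᵐ[volume] F := by
  have hm : MeasurableSet {p : X | p ∈ E ↔ p ∈ F} := measurableSet_setOfPred.2 (hE.mem.iff hF.mem)
  refine eventuallyEq_set.2 ((Measure.ae_prod_iff_ae_ae hm).2 ?_)
  refine (Measure.ae_ae_comm (p := fun (x : ℝ) (q : Y) => (x, q) ∈ E ↔ (x, q) ∈ F) hm).2 ?_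
  filter_upwards [h] with q hq
  exact eventuallyEq_set.1 hq
theorem volume_arc {h : ℝ} (h0 : 0 ≤ h) (h1 : h ≤ 1 / 2) :
    volume.real {x | x ∈ I0 ∧ tri x < h} = 2 * h := by
  have e : {x | x ∈ I0 ∧ tri x < h} = Ioo (-h) h := by
    ext x
    simp only [mem_ofPred_eq, mem_Ioo, ← abs_lt]
    constructor
    · rintro ⟨hx, h2⟩
      rwa [tri, cen_of_mem hx] at h2
    · intro hx
      have h2 := abs_lt.1 hx
      have h3 : x ∈ I0 := ⟨by linarith [h2.1], by linarith [h2.2]⟩
      exact ⟨h3, by rwa [tri, cen_of_mem h3]⟩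
  rw [e, Real.volume_real_Ioo_of_le (by linarith)]
  ring
theorem fl_St (E : Set X) : fl (St E) = fl E := by
  funext q
  have h := fl_mem E q
  have h1 := volume_arc (h := fl E q / 2) (by linarith [h.1]) (by linarith [h.2])
  exact h1.trans (by ring)
theorem St_meas {E : Set X} (hE : MeasurableSet E) : MeasurableSet (St E) := by
  exact measurableSet_lt (continuous_tri.measurable.comp measurable_fst)
    (((measurable_fl hE).comp measurable_snd).div_const 2)
theorem St_per {E : Set X} (hp : PdS E) : PdS (St E) := by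
  intro a b c p
  show tri (p.1 + a) < fl E (p.2 + ((b : ℝ), (c : ℝ))) / 2 ↔ tri p.1 < fl E p.2 / 2
  rw [tri_add_int, fl_pd2 hp]
theorem St_mon1 (E : Set X) : Mon1 (St E) := by
  exact fun x x' y z h1 h2 => lt_of_le_of_lt h1 h2
theorem Mon2.St {E : Set X} (h : Mon2 E) : Mon2 (St E) := by
  intro x y y' z h1 h2
  have h3 : fl E (y, z) ≤ fl E (y', z) :=
    sta_mono (fun t ht => ⟨ht.1, h t y y' z h1 ht.2⟩) fun t ht => ht.1
  exact lt_of_lt_of_le h2 (div_le_div_of_nonneg_right h3 zero_le_two)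
theorem Mon3.St {E : Set X} (h : Mon3 E) : Mon3 (St E) := by
  intro x y z z' h1 h2
  have h3 : fl E (y, z) ≤ fl E (y, z') :=
    sta_mono (fun t ht => ⟨ht.1, h t y z z' h1 ht.2⟩) fun t ht => ht.1
  exact lt_of_lt_of_le h2 (div_le_div_of_nonneg_right h3 zero_le_two)
theorem fl_transl (E : Set X) (c q : Y) : fl ((fun p => p + ((0 : ℝ), c)) ⁻¹' E) q = fl E (q + c) := by
  unfold fl
  simp only [mem_preimage, Prod.mk_add_mk, add_zero]
/-- fibre of a set that is monotone in the first direction -/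
theorem Mon1.fibre {E : Set X} (h : Mon1 E) (q : Y) (x : ℝ) :
    (tri x < fl E q / 2 → (x, q) ∈ E) ∧ ((x, q) ∈ E → tri x ≤ fl E q / 2) := by
  have h0 := volume_arc (tri_nonneg x) (tri_le_half x)
  constructor
  · intro h1
    by_contra h2
    have h3 : fl E q ≤ volume.real {t | t ∈ I0 ∧ tri t < tri x} :=
      sta_mono (fun t ht => ⟨ht.1, lt_of_not_ge fun h4 => h2 (h t x q.1 q.2 h4 ht.2)⟩) fun t ht => ht.1
    linarith
  · intro h1
    have h3 : volume.real {t | t ∈ I0 ∧ tri t < tri x} ≤ fl E q :=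
      sta_mono (fun t ht => ⟨ht.1, h x t q.1 q.2 ht.2.le h1⟩) fun t ht => ht.1
    linarith

theorem sta_cont {F : Type*} [NormedAddCommGroup F] [NormedSpace ℝ F] {f : X → F}
    (hf : Continuous f) : Continuous fun q : Y => ∫ x in I0, f (x, q) := by
  simp only [I0, ← integral_Icc_eq_integral_Ico]
  exact continuous_parametric_integral_of_continuous (f := fun (q : Y) (x : ℝ) => f (x, q))
    (hf.comp continuous_swap) isCompact_Icc

theorem sta_intOn {F : Type*} [NormedAddCommGroup F] {f : ℝ → F} (hf : Continuous f) :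
    IntegrableOn f I0 :=
  (hf.continuousOn.integrableOn_compact isCompact_Icc).mono_set Ico_subset_Icc_self

theorem sta_cont' {f : X → ℝ} (hf : ContDiff ℝ 1 f) :
    Continuous fun p : X => (fderiv ℝ f p).comp (ContinuousLinearMap.inr ℝ ℝ Y) :=
  (hf.continuous_fderiv one_ne_zero).clm_comp continuous_const

theorem sta_hasFDerivAt {f : X → ℝ} (hf : ContDiff ℝ 1 f) (q : Y) : HasFDerivAt (av1 f)
    (∫ x in I0, (fderiv ℝ f (x, q)).comp (ContinuousLinearMap.inr ℝ ℝ Y)) q := by
  obtain ⟨C, hC⟩ := ((isCompact_Icc (a := (-1 / 2 : ℝ)) (b := 1 / 2)).prod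
    (isCompact_closedBall q 1)).exists_bound_of_continuousOn (sta_cont' hf).continuousOn
  refine hasFDerivAt_integral_of_dominated_of_fderiv_le (F := fun (q : Y) (x : ℝ) => f (x, q))
    (F' := fun (q : Y) (x : ℝ) => (fderiv ℝ f (x, q)).comp (ContinuousLinearMap.inr ℝ ℝ Y))
    (bound := fun _ => C) (Metric.closedBall_mem_nhds q one_pos)
    (Eventually.of_forall fun q' => (hf.continuous.comp (Continuous.prodMk_left q')).aestronglyMeasurable)
    (sta_intOn (hf.continuous.comp (Continuous.prodMk_left q)))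
    ((sta_cont' hf).comp (Continuous.prodMk_left q)).aestronglyMeasurable ?_ (integrable_const C)
    (Eventually.of_forall fun x q' _ => ?_)
  · filter_upwards [ae_restrict_mem measurableSet_I0] with x hx q' hq'
    exact hC (x, q') ⟨Ico_subset_Icc_self hx, hq'⟩
  · exact (hf.differentiable one_ne_zero (x, q')).hasFDerivAt.comp q' (hasFDerivAt_prodMk_right x q')

theorem sta_fderiv {f : X → ℝ} (hf : ContDiff ℝ 1 f) (q v : Y) :
    fderiv ℝ (av1 f) q v = ∫ x in I0, fderiv ℝ f (x, q) (0, v) := by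
  rw [(sta_hasFDerivAt hf q).fderiv]
  exact ContinuousLinearMap.integral_apply
    (sta_intOn ((sta_cont' hf).comp (Continuous.prodMk_left q))) v

/-- differentiation under the integral sign (`hasFDerivAt_integral_of_dominated_of_fderiv_le`, or
`contDiff_one_iff_fderiv`) -/
theorem av1_contDiff {f : X → ℝ} (hf : ContDiff ℝ 1 f) : ContDiff ℝ 1 (av1 f) := by
  refine contDiff_one_iff_fderiv.2 ⟨fun q => (sta_hasFDerivAt hf q).differentiableAt, ?_⟩
  rw [funext fun q => (sta_hasFDerivAt hf q).fderiv]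
  exact sta_cont (sta_cont' hf)
theorem dx_av1 {f : X → ℝ} (hf : ContDiff ℝ 1 f) (q : Y) : dx (av1 f) q = ∫ x in I0, d2 f (x, q) := by
  exact sta_fderiv hf q (1, 0)
theorem dy_av1 {f : X → ℝ} (hf : ContDiff ℝ 1 f) (q : Y) : dy (av1 f) q = ∫ x in I0, d3 f (x, q) := by
  exact sta_fderiv hf q (0, 1)
theorem av1_pd2 {f : X → ℝ} (hp : Pd f) : Pd2 (av1 f) := by
  intro a b q
  unfold av1
  simp only [← sta_add, hp 0 a b]
theorem continuous_av1 {f : X → ℝ} (hf : Continuous f) : Continuous (av1 f) := by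
  exact sta_cont hf
theorem continuous_tv1 {f : X → ℝ} (hf : ContDiff ℝ 1 f) : Continuous (tv1 f) := by
  exact sta_cont (f := fun p => |d1 f p|) (continuous_d1 hf).abs

/-- for periodic `g`, `2 (g x - g x') ≤ ∫ |g'|` (both arcs between `x` and `x'`) -/
theorem two_osc_le {g g' : ℝ → ℝ} (hg : ∀ x, HasDerivAt g (g' x) x) (hc : Continuous g')
    (hp : Function.Periodic g 1) (x x' : ℝ) : 2 * (g x - g x') ≤ ∫ t in I0, |g' t| := by
  have hp' : Function.Periodic (fun t => |g' t|) 1 := fun t => by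
    have h1 := (hg (t + 1)).comp_add_const t 1
    rw [show (fun x => g (x + 1)) = g from funext hp] at h1
    simp only [h1.unique (hg t)]
  obtain ⟨y, hy, e⟩ := hp.exists_mem_Ico one_pos x' x
  have hi : ∀ a b, IntervalIntegrable g' volume a b := fun a b => hc.intervalIntegrable a b
  have h1 := hp'.intervalIntegral_add_eq (-1 / 2) x
  rw [show (-1 / 2 : ℝ) + 1 = 1 / 2 by norm_num] at h1
  rw [integral_I0, h1, ← intervalIntegral.integral_add_adjacent_intervals (b := y) (hi _ _).abs
    (hi _ _).abs, e]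
  have h2 := intervalIntegral.abs_integral_le_integral_abs (f := g') (μ := volume) hy.1
  have h3 := intervalIntegral.abs_integral_le_integral_abs (f := g') (μ := volume) hy.2.le
  rw [intervalIntegral.integral_eq_sub_of_hasDerivAt (fun t _ => hg t) (hi _ _)] at h2 h3
  rw [hp x] at h3
  linarith [neg_abs_le (g y - g x), le_abs_self (g x - g y)]
theorem sta_int_le {μ : Measure ℝ} [IsFiniteMeasure μ] {g : ℝ → ℝ} (hg : Integrable g μ) (S : Set ℝ)
    {a b : ℝ} (h : ∀ x, a * g x ≤ b) : a * ∫ x in S, g x ∂μ ≤ b * μ.real S := by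
  rw [← integral_const_mul, mul_comm b, ← smul_eq_mul, ← setIntegral_const]
  exact integral_mono (hg.integrableOn.const_mul a) (integrable_const b) h

/-- integrate `two_osc_le` over `x ∈ A`, `x' ∈ I0 \ A` -/
theorem tv_lower {g g' : ℝ → ℝ} (hg : ∀ x, HasDerivAt g (g' x) x) (hc : Continuous g')
    (hp : Function.Periodic g 1) {A : Set ℝ} (hA : MeasurableSet A) {l : ℝ}
    (hl : volume.real {x | x ∈ I0 ∧ x ∈ A} = l) :
    2 * (l * (1 - l) - ∫ t in I0, |g t - A.indicator 1 t|) ≤ l * (1 - l) * ∫ t in I0, |g' t| := by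
  have hgc : Continuous g := continuous_iff_continuousAt.2 fun x => (hg x).continuousAt
  obtain ⟨μ, hμ⟩ : ∃ μ : Measure ℝ, μ = volume.restrict I0 := ⟨_, rfl⟩
  have hfin : IsFiniteMeasure μ := hμ ▸ inferInstance
  have hi : Integrable g μ := hμ ▸ sta_intOn hgc
  have hA1 : μ.real A = l := by
    rw [hμ, measureReal_restrict_apply hA, inter_comm]
    exact hl
  have hu : μ.real univ = 1 := by
    rw [hμ, measureReal_restrict_apply MeasurableSet.univ, univ_inter, Measure.real, volume_I0,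
      ENNReal.toReal_one]
  have hA2 : μ.real Aᶜ = 1 - l := by rw [measureReal_compl hA, hu, hA1]
  have hl0 : 0 ≤ l := hA1 ▸ measureReal_nonneg
  have hl1 : 0 ≤ 1 - l := hA2 ▸ measureReal_nonneg
  have h0 := two_osc_le hg hc hp
  rw [← hμ] at h0 ⊢
  obtain ⟨T, hT⟩ : ∃ T, T = ∫ t, |g' t| ∂μ := ⟨_, rfl⟩
  rw [← hT] at h0 ⊢
  have h1 : ∀ x', 2 * ∫ x in A, g x ∂μ ≤ (T + 2 * g x') * l := fun x' =>
    hA1 ▸ sta_int_le hi A fun x => by linarith [h0 x x']
  have h2 : (-2 * l) * ∫ x in Aᶜ, g x ∂μ ≤ (T * l - 2 * ∫ x in A, g x ∂μ) * (1 - l) :=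
    hA2 ▸ sta_int_le hi Aᶜ fun x => by linarith [h1 x]
  have hi2 : Integrable (fun t => |g t - A.indicator 1 t|) μ :=
    (hi.sub ((integrable_const (1 : ℝ)).indicator hA)).abs
  have h3 : l - ∫ x in A, g x ∂μ ≤ ∫ t in A, |g t - A.indicator 1 t| ∂μ := by
    have e : ∫ x in A, (1 - g x) ∂μ = l - ∫ x in A, g x ∂μ := by
      rw [integral_sub (integrable_const _) hi.integrableOn, setIntegral_const, hA1, smul_eq_mul,
        mul_one]
    rw [← e]
    refine setIntegral_mono_on ((integrable_const _).sub hi).integrableOn hi2.integrableOn hA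
      fun x hx => ?_
    rw [indicator_of_mem hx, abs_sub_comm]
    exact le_abs_self _
  have h4 : ∫ x in Aᶜ, g x ∂μ ≤ ∫ t in Aᶜ, |g t - A.indicator 1 t| ∂μ := by
    refine setIntegral_mono_on hi.integrableOn hi2.integrableOn hA.compl fun x hx => ?_
    rw [indicator_of_notMem hx, sub_zero]
    exact le_abs_self _
  have h5 : 0 ≤ ∫ t in A, |g t - A.indicator 1 t| ∂μ := integral_nonneg fun _ => abs_nonneg _
  have h6 : 0 ≤ ∫ t in Aᶜ, |g t - A.indicator 1 t| ∂μ := integral_nonneg fun _ => abs_nonneg _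
  rw [← integral_add_compl hA hi2]
  nlinarith [mul_le_mul_of_nonneg_left h3 hl1, mul_le_mul_of_nonneg_left h4 hl0,
    mul_nonneg hl0 h5, mul_nonneg hl1 h6]

end Crest.Agent.R214
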