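import Crest.Agent.R214.StA

/-!
# R214/StB

The divergence theorem for the region between the graphs of `± l/2`.
For `j = 2`: `Φ q = ∫ x in -(l q/2)..(l q/2), φ₂ (x, q)` is `C¹` and periodic, with
`dx Φ q = ∫ d2 φ₂ + (φ₂ (l/2, q) + φ₂ (-l/2, q))/2 * dx l q` (e.g. `Φ q = l q * ∫ τ in I0, φ₂ (l q * τ, q)`, i.e.
`l * av1 (fun p => φ₂ (l p.2 * p.1, p.2))`, then `dx_av1` and an integration by parts in `τ`). Use `integral_cell2_dx`.
-/

set_option autoImplicit false

open MeasureTheory Set Filter Real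
open scoped Topology

noncomputable section

namespace Crest.Agent.R214

/-- the integral over the fibre -/
def stb_Phi (φ : X → ℝ) (l : Y → ℝ) (q : Y) : ℝ := l q * av1 (fun p => φ (l p.2 * p.1, p.2)) q

theorem stb_cd {φ : X → ℝ} (hφ : ContDiff ℝ 1 φ) {l : Y → ℝ} (hl : ContDiff ℝ 1 l) :
    ContDiff ℝ 1 fun p : X => φ (l p.2 * p.1, p.2) := by
  fun_prop

theorem stb_contDiff {φ : X → ℝ} (hφ : ContDiff ℝ 1 φ) {l : Y → ℝ} (hl : ContDiff ℝ 1 l) :
    ContDiff ℝ 1 (stb_Phi φ l) := hl.mul (av1_contDiff (stb_cd hφ hl))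

theorem stb_pd {φ : X → ℝ} (hφ : Pd φ) {l : Y → ℝ} (hl : Pd2 l) : Pd2 (stb_Phi φ l) := by
  intro a b q
  unfold stb_Phi av1
  simp only [hl a b q]
  congr 2
  funext x
  rw [← hφ 0 a b (l q * x, q)]
  simp

theorem stb_fderiv {φ : X → ℝ} (hφ : ContDiff ℝ 1 φ) {l : Y → ℝ} (hl : ContDiff ℝ 1 l) (v : Y) (τ : ℝ) (q : Y) :
    fderiv ℝ (fun p : X => φ (l p.2 * p.1, p.2)) (τ, q) (0, v) =
      τ * fderiv ℝ l q v * d1 φ (l q * τ, q) + fderiv ℝ φ (l q * τ, q) (0, v) := by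
  have h1 : HasFDerivAt (fun p : X => l p.2) ((fderiv ℝ l q).comp (ContinuousLinearMap.snd ℝ ℝ Y)) (τ, q) :=
    HasFDerivAt.comp (τ, q) (hl.differentiable one_ne_zero q).hasFDerivAt hasFDerivAt_snd
  have h2 := (h1.mul (hasFDerivAt_fst (𝕜 := ℝ) (p := (τ, q)))).prodMk (hasFDerivAt_snd (𝕜 := ℝ) (p := (τ, q)))
  have h3 := HasFDerivAt.comp (τ, q) (hφ.differentiable one_ne_zero (l q * τ, q)).hasFDerivAt h2
  have h4 : fderiv ℝ (fun p : X => φ (l p.2 * p.1, p.2)) (τ, q) = _ := h3.fderiv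
  rw [h4, d1, ← smul_eq_mul _ (fderiv ℝ φ _ _), ← map_smul, ← map_add, ContinuousLinearMap.comp_apply]
  congr 1
  simp

theorem stb_dir {φ : X → ℝ} (hφ : ContDiff ℝ 1 φ) {l : Y → ℝ} (hl : ContDiff ℝ 1 l) (v : Y)
    (hv : ∀ f : X → ℝ, ContDiff ℝ 1 f → ∀ q, fderiv ℝ (av1 f) q v = ∫ x in I0, fderiv ℝ f (x, q) (0, v)) (q : Y) :
    fderiv ℝ (stb_Phi φ l) q v = (∫ x in (-(l q / 2))..(l q / 2), fderiv ℝ φ (x, q) (0, v)) +
      (φ (l q / 2, q) + φ (-(l q / 2), q)) / 2 * fderiv ℝ l q v := by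
  have hG := stb_cd hφ hl
  have h1 : fderiv ℝ (stb_Phi φ l) q = _ :=
    fderiv_fun_mul (hl.differentiable one_ne_zero q) ((av1_contDiff hG).differentiable one_ne_zero q)
  have c0 := hφ.continuous
  have c1 := continuous_d1 hφ
  have c2 : Continuous fun p => fderiv ℝ φ p (0, v) :=
    (hφ.continuous_fderiv one_ne_zero).clm_apply continuous_const
  have h2 : ∫ τ in (-1 / 2 : ℝ)..(1 / 2), (φ (l q * τ, q) + τ * (d1 φ (l q * τ, q) * l q)) =
      (φ (l q / 2, q) + φ (-(l q / 2), q)) / 2 := by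
    rw [intervalIntegral.integral_eq_sub_of_hasDerivAt (f := fun τ => τ * φ (l q * τ, q))]
    · rw [show l q * (1 / 2) = l q / 2 by ring, show l q * (-1 / 2) = -(l q / 2) by ring]
      ring
    · intro τ _
      have a1 : HasDerivAt (fun t => φ (t, q)) (d1 φ (l q * τ, q)) (l q * τ) :=
        hasDerivAt_d1 (x := l q * τ) (y := q.1) (z := q.2) (hφ.differentiable one_ne_zero _)
      have a2 := a1.comp τ ((hasDerivAt_id τ).const_mul (l q))
      have a3 := (hasDerivAt_id τ).mul a2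
      rw [one_mul, mul_one] at a3
      exact a3
    · exact Continuous.intervalIntegrable (by fun_prop) _ _
  have h3 := intervalIntegral.smul_integral_comp_mul_left (a := -1 / 2) (b := 1 / 2)
    (fun x => fderiv ℝ φ (x, q) (0, v)) (l q)
  rw [show l q * (1 / 2) = l q / 2 by ring, show l q * (-1 / 2) = -(l q / 2) by ring] at h3
  rw [h1, ← h2, ← h3]
  simp only [_root_.add_apply, _root_.smul_apply, smul_eq_mul]
  rw [hv _ hG, av1, integral_I0, integral_I0]
  simp only [stb_fderiv hφ hl]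
  simp only [← intervalIntegral.integral_const_mul, ← intervalIntegral.integral_mul_const]
  rw [← intervalIntegral.integral_add (Continuous.intervalIntegrable (by fun_prop) _ _)
      (Continuous.intervalIntegrable (by fun_prop) _ _),
    ← intervalIntegral.integral_add (Continuous.intervalIntegrable (by fun_prop) _ _)
      (Continuous.intervalIntegrable (by fun_prop) _ _)]
  congr 1
  funext τ
  ring

theorem integral_between {φ₁ φ₂ φ₃ : X → ℝ} (h : Adm φ₁ φ₂ φ₃) {l : Y → ℝ} (hl : ContDiff ℝ 1 l)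
    (hp : Pd2 l) :
    ∫ q in cell2, ∫ x in (-(l q / 2))..(l q / 2), dvg φ₁ φ₂ φ₃ (x, q) =
      ∫ q in cell2, (φ₁ (l q / 2, q) - φ₁ (-(l q / 2), q)
        - (φ₂ (l q / 2, q) + φ₂ (-(l q / 2), q)) / 2 * dx l q
        - (φ₃ (l q / 2, q) + φ₃ (-(l q / 2), q)) / 2 * dy l q) := by
  have c1 := h.c1.continuous
  have c2 := h.c2.continuous
  have c3 := h.c3.continuous
  have k1 := continuous_d1 h.c1
  have k2 := continuous_d2 h.c2
  have k3 := continuous_d3 h.c3
  have cl := hl.continuous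
  have kx := continuous_dx hl
  have ky := continuous_dy hl
  have g2 := stb_contDiff h.c2 hl
  have g3 := stb_contDiff h.c3 hl
  have z2 : ∫ q in cell2, dx (stb_Phi φ₂ l) q = 0 := integral_cell2_dx g2 fun z => by
    rw [← stb_pd h.p2 hp 1 0 (-1 / 2, z)]
    norm_num
  have z3 : ∫ q in cell2, dy (stb_Phi φ₃ l) q = 0 := integral_cell2_dy g3 fun y => by
    rw [← stb_pd h.p3 hp 0 1 (y, -1 / 2)]
    norm_num
  have e : ∀ q, ∫ x in (-(l q / 2))..(l q / 2), dvg φ₁ φ₂ φ₃ (x, q) =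
      (φ₁ (l q / 2, q) - φ₁ (-(l q / 2), q)
        - (φ₂ (l q / 2, q) + φ₂ (-(l q / 2), q)) / 2 * dx l q
        - (φ₃ (l q / 2, q) + φ₃ (-(l q / 2), q)) / 2 * dy l q) +
        (dx (stb_Phi φ₂ l) q + dy (stb_Phi φ₃ l) q) := by
    intro q
    have a1 : ∫ x in (-(l q / 2))..(l q / 2), d1 φ₁ (x, q) = φ₁ (l q / 2, q) - φ₁ (-(l q / 2), q) :=
      intervalIntegral.integral_eq_sub_of_hasDerivAt (f := fun x => φ₁ (x, q))
        (fun x _ => hasDerivAt_d1 (x := x) (y := q.1) (z := q.2) (h.c1.differentiable one_ne_zero _))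
        (Continuous.intervalIntegrable (by fun_prop) _ _)
    have a2 : dx (stb_Phi φ₂ l) q = (∫ x in (-(l q / 2))..(l q / 2), d2 φ₂ (x, q)) +
        (φ₂ (l q / 2, q) + φ₂ (-(l q / 2), q)) / 2 * dx l q :=
      stb_dir h.c2 hl (1, 0) (fun f hf q => dx_av1 hf q) q
    have a3 : dy (stb_Phi φ₃ l) q = (∫ x in (-(l q / 2))..(l q / 2), d3 φ₃ (x, q)) +
        (φ₃ (l q / 2, q) + φ₃ (-(l q / 2), q)) / 2 * dy l q :=
      stb_dir h.c3 hl (0, 1) (fun f hf q => dy_av1 hf q) q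
    unfold dvg
    rw [intervalIntegral.integral_add (Continuous.intervalIntegrable (by fun_prop) _ _)
        (Continuous.intervalIntegrable (by fun_prop) _ _),
      intervalIntegral.integral_add (Continuous.intervalIntegrable (by fun_prop) _ _)
        (Continuous.intervalIntegrable (by fun_prop) _ _), a1, a2, a3]
    ring
  have i2 := integrableOn_cell2_of_cont (continuous_dx g2)
  have i3 := integrableOn_cell2_of_cont (continuous_dy g3)
  simp only [e]
  have i4 : IntegrableOn (fun q => dx (stb_Phi φ₂ l) q + dy (stb_Phi φ₃ l) q) cell2 := i2.add i3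
  rw [integral_add (integrableOn_cell2_of_cont (by fun_prop)) i4, integral_add i2 i3, z2, z3, add_zero, add_zero]

end Crest.Agent.R214
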