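import Crest.Agent.R214.Basic1

/-!
# R214/Trans

Transfer between `EuclideanSpace ℝ (Fin 3)` and `X`.
-/

set_option autoImplicit false

open MeasureTheory Set Filter Real
open scoped Topology

noncomputable section

namespace Crest.Agent.R214

open Crest.GeometryTopology.PeriodicPerimeter

def io (p : X) : EuclideanSpace ℝ (Fin 3) := !₂[p.1, p.2.1, p.2.2]
def oi (x : EuclideanSpace ℝ (Fin 3)) : X := (x 0, x 1, x 2)

theorem oi_io (p : X) : oi (io p) = p := rfl
theorem io_oi (x : EuclideanSpace ℝ (Fin 3)) : io (oi x) = x := by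
  ext i
  fin_cases i <;> rfl
theorem trans_io_add (p q : X) : io (p + q) = io p + io q := by
  ext i
  fin_cases i <;> rfl

/-- `io` as a continuous linear equivalence -/
def transL : X ≃L[ℝ] EuclideanSpace ℝ (Fin 3) :=
  LinearEquiv.toContinuousLinearEquiv
    { toFun := io
      invFun := oi
      map_add' := trans_io_add
      map_smul' := fun c p => by
        ext i
        fin_cases i <;> rfl
      left_inv := oi_io
      right_inv := io_oi }

theorem trans_mp_oi : MeasurePreserving oi volume volume := by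
  have h1 := volume_preserving_piFinSuccAbove (fun _ : Fin 3 => ℝ) 0
  have h2 : MeasurePreserving (Prod.map (id : ℝ → ℝ) (MeasurableEquiv.finTwoArrow (α := ℝ)))
      volume volume := (MeasurePreserving.id _).prod (volume_preserving_finTwoArrow ℝ)
  exact h2.comp (h1.comp (PiLp.volume_preserving_ofLp (Fin 3)))

/-- `PiLp.volume_preserving_toLp`, `volume_preserving_piFinSuccAbove`, `volume_preserving_finTwoArrow` -/
theorem measurePreserving_io : MeasurePreserving io volume volume := by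
  exact MeasurePreserving.symm transL.toHomeomorph.toMeasurableEquiv.symm trans_mp_oi
theorem measurableEmbedding_io : MeasurableEmbedding io := by
  exact transL.toHomeomorph.measurableEmbedding
theorem trans_int (a b c : ℤ) : HasIntegerCoords (io ((a : ℝ), (b : ℝ), (c : ℝ))) := by
  intro i
  fin_cases i
  exacts [⟨a, rfl⟩, ⟨b, rfl⟩, ⟨c, rfl⟩]

theorem trans_oi_int {v : EuclideanSpace ℝ (Fin 3)} (hv : HasIntegerCoords v) :
    ∃ a b c : ℤ, ∀ x, oi (x + v) = oi x + ((a : ℝ), (b : ℝ), (c : ℝ)) := by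
  obtain ⟨a, ha⟩ := hv 0
  obtain ⟨b, hb⟩ := hv 1
  obtain ⟨c, hc⟩ := hv 2
  refine ⟨a, b, c, fun x => ?_⟩
  rw [← ha, ← hb, ← hc]
  rfl

theorem io_per {E : Set (EuclideanSpace ℝ (Fin 3))} (h : IsLatticePeriodic E) : PdS (io ⁻¹' E) := by
  intro a b c p
  rw [mem_preimage, trans_io_add]
  exact h _ (trans_int a b c) _
theorem exists_io {F : Set X} (hF : MeasurableSet F) (hp : PdS F) :
    ∃ E : Set (EuclideanSpace ℝ (Fin 3)), MeasurableSet E ∧ IsLatticePeriodic E ∧ io ⁻¹' E = F := by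
  refine ⟨oi ⁻¹' F, trans_mp_oi.measurable hF, fun v hv x => ?_, rfl⟩
  obtain ⟨a, b, c, h⟩ := trans_oi_int hv
  rw [mem_preimage, h]
  exact hp a b c _
/-- `io ⁻¹' unitCell 3 = cell + (1/2,1/2,1/2)`, `integral_cell_add` -/
theorem integral_unitCell {g : EuclideanSpace ℝ (Fin 3) → ℝ} (hg : Pd (fun p => g (io p))) :
    ∫ x in unitCell 3, g x = ∫ p in cell, g (io p) := by
  have h1 : (volume : Measure Y).IsAddRightInvariant := Measure.prod.instIsAddRightInvariant
  have h2 : (volume : Measure X).IsAddRightInvariant := Measure.prod.instIsAddRightInvariant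
  have e : (fun p : X => p + (1 / 2, 1 / 2, 1 / 2)) ⁻¹' (io ⁻¹' unitCell 3) = cell := by
    ext p
    simp only [mem_preimage, unitCell, mem_ofPred_eq, Fin.forall_fin_succ, IsEmpty.forall_iff, and_true,
      cell, I0, mem_prod, mem_Ico]
    change (0 ≤ p.1 + 1 / 2 ∧ p.1 + 1 / 2 < 1) ∧ (0 ≤ p.2.1 + 1 / 2 ∧ p.2.1 + 1 / 2 < 1) ∧
      (0 ≤ p.2.2 + 1 / 2 ∧ p.2.2 + 1 / 2 < 1) ↔ _
    constructor <;> rintro ⟨⟨a, b⟩, ⟨c, d⟩, e, f⟩ <;>
      exact ⟨⟨by linarith, by linarith⟩, ⟨by linarith, by linarith⟩, by linarith, by linarith⟩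
  rw [← measurePreserving_io.setIntegral_preimage_emb measurableEmbedding_io,
    ← (measurePreserving_add_right volume ((1 / 2, 1 / 2, 1 / 2) : X)).setIntegral_preimage_emb
      (measurableEmbedding_addRight _), e]
  exact integral_cell_add hg _
theorem trans_set {E : Set (EuclideanSpace ℝ (Fin 3))} (hE : MeasurableSet E) (h : IsLatticePeriodic E)
    {g : EuclideanSpace ℝ (Fin 3) → ℝ} (hg : Pd (fun p => g (io p))) :
    ∫ x in E ∩ unitCell 3, g x = ∫ p in io ⁻¹' E ∩ cell, g (io p) := by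
  classical
  have h1 : Pd fun p => E.indicator g (io p) := fun a b c p => by
    have h2 : io (p + ((a : ℝ), (b : ℝ), (c : ℝ))) ∈ E ↔ io p ∈ E := io_per h a b c p
    have h3 : g (io (p + ((a : ℝ), (b : ℝ), (c : ℝ)))) = g (io p) := hg a b c p
    simp only [indicator_apply, h2, h3]
  rw [inter_comm, inter_comm (io ⁻¹' E), ← setIntegral_indicator hE,
    ← setIntegral_indicator (measurableEmbedding_io.measurable hE), integral_unitCell h1]
  rfl

theorem io_vol {E : Set (EuclideanSpace ℝ (Fin 3))} (hE : MeasurableSet E) (h : IsLatticePeriodic E) :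
    periodicVolume E = volume.real (io ⁻¹' E ∩ cell) := by
  have := trans_set hE h (g := fun _ => 1) fun _ _ _ _ => rfl
  simp only [integral_const, measureReal_restrict_apply_univ, smul_eq_mul, mul_one] at this
  exact this
theorem trans_cd {φ : EuclideanSpace ℝ (Fin 3) → EuclideanSpace ℝ (Fin 3)} (hφ : ContDiff ℝ 1 φ)
    (i : Fin 3) : ContDiff ℝ 1 fun p => φ (io p) i :=
  (EuclideanSpace.proj (𝕜 := ℝ) i).contDiff.comp (hφ.comp transL.contDiff)

theorem trans_fderiv {φ : EuclideanSpace ℝ (Fin 3) → EuclideanSpace ℝ (Fin 3)} (hφ : ContDiff ℝ 1 φ)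
    (i : Fin 3) (p v : X) : fderiv ℝ (fun p => φ (io p) i) p v = fderiv ℝ φ (io p) (io v) i := by
  have h1 : HasFDerivAt (fun p => φ (io p) i) ((EuclideanSpace.proj (𝕜 := ℝ) i).comp
      ((fderiv ℝ φ (io p)).comp (transL : X →L[ℝ] EuclideanSpace ℝ (Fin 3)))) p :=
    (EuclideanSpace.proj (𝕜 := ℝ) i).hasFDerivAt.comp p
      ((hφ.differentiable one_ne_zero (io p)).hasFDerivAt.comp p transL.hasFDerivAt)
  rw [h1.fderiv]
  rfl

theorem trans_div {φ : EuclideanSpace ℝ (Fin 3) → EuclideanSpace ℝ (Fin 3)} (hφ : ContDiff ℝ 1 φ)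
    (p : X) : divergence φ (io p) =
      dvg (fun p => φ (io p) 0) (fun p => φ (io p) 1) (fun p => φ (io p) 2) p := by
  have e0 : io (1, 0, 0) = EuclideanSpace.single 0 1 := by
    ext i
    fin_cases i <;> simp [io]
  have e1 : io (0, 1, 0) = EuclideanSpace.single 1 1 := by
    ext i
    fin_cases i <;> simp [io]
  have e2 : io (0, 0, 1) = EuclideanSpace.single 2 1 := by
    ext i
    fin_cases i <;> simp [io]
  simp only [divergence, Fin.sum_univ_three, dvg, d1, d2, d3, trans_fderiv hφ, e0, e1, e2]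

theorem trans_norm (x : EuclideanSpace ℝ (Fin 3)) : ‖x‖ ≤ 1 ↔ x 0 ^ 2 + x 1 ^ 2 + x 2 ^ 2 ≤ 1 := by
  rw [← sq_le_one_iff₀ (norm_nonneg x), EuclideanSpace.real_norm_sq_eq, Fin.sum_univ_three]

theorem trans_adm {φ : EuclideanSpace ℝ (Fin 3) → EuclideanSpace ℝ (Fin 3)} (hφ : IsAdmissibleField φ) :
    Adm (fun p => φ (io p) 0) (fun p => φ (io p) 1) (fun p => φ (io p) 2) := by
  have h : ∀ i, Pd fun p => φ (io p) i := fun i a b c p => by
    simp only [trans_io_add, hφ.2.1 _ (trans_int a b c)]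
  exact ⟨trans_cd hφ.1 0, trans_cd hφ.1 1, trans_cd hφ.1 2, h 0, h 1, h 2,
    fun p => (trans_norm _).1 (hφ.2.2 _)⟩

theorem trans_adm' {φ₁ φ₂ φ₃ : X → ℝ} (h : Adm φ₁ φ₂ φ₃) :
    IsAdmissibleField fun x => io (φ₁ (oi x), φ₂ (oi x), φ₃ (oi x)) := by
  refine ⟨transL.contDiff.comp ((h.c1.prodMk (h.c2.prodMk h.c3)).comp transL.symm.contDiff),
    fun v hv x => ?_, fun x => (trans_norm _).2 (h.le _)⟩
  obtain ⟨a, b, c, e⟩ := trans_oi_int hv
  simp only [e, h.p1 a b c, h.p2 a b c, h.p3 a b c]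

theorem trans_int_div {E : Set (EuclideanSpace ℝ (Fin 3))} (hE : MeasurableSet E)
    (h : IsLatticePeriodic E) {φ : EuclideanSpace ℝ (Fin 3) → EuclideanSpace ℝ (Fin 3)}
    (hφ : IsAdmissibleField φ) : ∫ x in E ∩ unitCell 3, divergence φ x = ∫ p in io ⁻¹' E ∩ cell,
      dvg (fun p => φ (io p) 0) (fun p => φ (io p) 1) (fun p => φ (io p) 2) p := by
  have hA := trans_adm hφ
  rw [trans_set hE h]
  · simp only [trans_div hφ.1]
  · intro a b c p
    simp only [trans_div hφ.1, dvg]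
    rw [hA.p1.d1 a b c p, hA.p2.d2 a b c p, hA.p3.d3 a b c p]

/-- Admissible fields correspond: `φ ↦ (φ (io p) 0, φ (io p) 1, φ (io p) 2)` and
`(φ₁, φ₂, φ₃) ↦ fun x => !₂[φ₁ (oi x), φ₂ (oi x), φ₃ (oi x)]`; `io`, `oi` are continuous linear maps, the
divergences agree by the chain rule. -/
theorem io_perLe {E : Set (EuclideanSpace ℝ (Fin 3))} (hE : MeasurableSet E) (h : IsLatticePeriodic E)
    {P : ℝ} (hP : 0 ≤ P) : periodicPerimeter E ≤ ENNReal.ofReal P ↔ PerLe (io ⁻¹' E) P := by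
  simp only [periodicPerimeter, iSup_le_iff, ENNReal.ofReal_le_ofReal_iff hP]
  constructor
  · intro H φ₁ φ₂ φ₃ hφ
    have := H ⟨_, trans_adm' hφ⟩
    rw [trans_int_div hE h (trans_adm' hφ)] at this
    exact this
  · intro H φ
    rw [trans_int_div hE h φ.2]
    exact H _ _ _ (trans_adm φ.2)

end Crest.Agent.R214
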