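import Crest.Agent.R214.StA

/-!
# R214/UndoA

One-dimensional facts: a periodic set which is a limit of functions of total variation `≤ 3` is an arc.
-/

set_option autoImplicit false

open MeasureTheory Set Filter Real
open scoped Topology

noncomputable section

namespace Crest.Agent.R214

theorem UndoA_I0 {F : ℝ → ℝ} (hp : Function.Periodic F 1) (a : ℝ) : ∫ t in I0, F t = ∫ t in a..a + 1, F t := by
  rw [integral_I0, ← hp.intervalIntegral_add_eq (-1 / 2) a]
  norm_num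

/-- four points: `∫_{I0} |g'| = ∫_{x₀}^{x₀+1} |g'|` (`Function.Periodic.intervalIntegral_add_eq`), split at `x₁, x₂, x₃` -/
theorem four_le_tv {g g' : ℝ → ℝ} (hg : ∀ x, HasDerivAt g (g' x) x) (hc : Continuous g')
    (hp : Function.Periodic g 1) {x₀ x₁ x₂ x₃ : ℝ} (h01 : x₀ ≤ x₁) (h12 : x₁ ≤ x₂) (h23 : x₂ ≤ x₃)
    (h3 : x₃ ≤ x₀ + 1) : 2 * (g x₁ + g x₃ - g x₀ - g x₂) ≤ ∫ t in I0, |g' t| := by
  have hp' : Function.Periodic (fun t => |g' t|) 1 := fun x => by
    have h1 : HasDerivAt (fun y => g (y + 1)) (g' (x + 1)) x := (hg (x + 1)).comp_add_const x 1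
    rw [show (fun y => g (y + 1)) = g from funext hp] at h1
    simp only [h1.unique (hg x)]
  have hi : ∀ a b, IntervalIntegrable (fun t => |g' t|) volume a b := fun a b => hc.abs.intervalIntegrable a b
  have key : ∀ a b, a ≤ b → |g b - g a| ≤ ∫ t in a..b, |g' t| := fun a b hab => by
    rw [← intervalIntegral.integral_eq_sub_of_hasDerivAt (fun x _ => hg x) (hc.intervalIntegrable a b)]
    exact intervalIntegral.abs_integral_le_integral_abs hab
  rw [UndoA_I0 hp' x₀, ← intervalIntegral.integral_add_adjacent_intervals (hi x₀ x₃) (hi x₃ _),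
    ← intervalIntegral.integral_add_adjacent_intervals (hi x₀ x₂) (hi x₂ _),
    ← intervalIntegral.integral_add_adjacent_intervals (hi x₀ x₁) (hi x₁ _)]
  have a1 := (abs_le.1 (key _ _ h01)).2
  have a2 := (abs_le.1 (key _ _ h12)).1
  have a3 := (abs_le.1 (key _ _ h23)).2
  have a4 := (abs_le.1 (key _ _ h3)).1
  rw [hp x₀] at a4
  linarith

theorem UndoA_vol {A : Set ℝ} (hA : MeasurableSet A) (pA : ∀ (n : ℤ) (x : ℝ), x + n ∈ A ↔ x ∈ A) (a : ℝ) :
    volume.real {x | x ∈ I0 ∧ x ∈ A} = volume.real (A ∩ Ioo a (a + 1)) := by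
  have hp : Function.Periodic (A.indicator (1 : ℝ → ℝ)) 1 := fun x => by
    have := pA 1 x
    rw [Int.cast_one] at this
    by_cases h : x ∈ A
    · rw [indicator_of_mem h, indicator_of_mem (this.2 h)]; rfl
    · rw [indicator_of_notMem h, indicator_of_notMem fun h' => h (this.1 h')]
  have h1 := UndoA_I0 hp a
  rw [intervalIntegral.integral_of_le (by linarith), integral_Ioc_eq_integral_Ioo, integral_indicator_one hA,
    integral_indicator_one hA, measureReal_restrict_apply hA, measureReal_restrict_apply hA] at h1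
  rw [← h1, inter_comm]
  rfl

theorem UndoA_ae {Q : ℝ → Prop} (hQ : ∀ (n : ℤ) x, Q (x + n) ↔ Q x) {a : ℝ}
    (h : ∀ᵐ x, x ∈ Ioo a (a + 1) → Q x) : ∀ᵐ x, Q x := by
  have h1 : ∀ᵐ x : ℝ, ∀ n : ℤ, x + n ∈ Ioo a (a + 1) → Q (x + n) := ae_all_iff.2 fun n =>
    (measurePreserving_add_right volume (n : ℝ)).quasiMeasurePreserving.ae h
  have h2 : ∀ᵐ x : ℝ, ∀ n : ℤ, x ≠ a + n := ae_all_iff.2 fun n => Measure.ae_ne _ _
  filter_upwards [h1, h2] with x h1 h2
  refine (hQ (-⌊x - a⌋) x).1 (h1 _ ⟨?_, ?_⟩)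
  · have := Int.floor_le (x - a)
    have h3 := h2 ⌊x - a⌋
    push_cast
    exact lt_of_le_of_ne (by linarith) fun e => h3 (by linarith)
  · have := Int.lt_floor_add_one (x - a)
    push_cast
    linarith

theorem UndoA_tri {a u w x : ℝ} (hu : a ≤ u) (hw : w ≤ a + 1) (hx : x ∈ Ioo a (a + 1)) :
    tri (x - (u + w) / 2) < (w - u) / 2 ↔ x ∈ Ioo u w := by
  constructor
  · intro h
    have h1 := abs_lt.1 (show |x - (u + w) / 2 - round (x - (u + w) / 2)| < (w - u) / 2 from h)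
    generalize round (x - (u + w) / 2) = n at h1
    have h2 : (n : ℝ) < 1 := by linarith [hx.2]
    have h3 : (-1 : ℝ) < n := by linarith [hx.1]
    have h4 : n = 0 := by
      have h2' : n < 1 := by exact_mod_cast h2
      have h3' : -1 < n := by exact_mod_cast h3
      omega
    rw [h4, Int.cast_zero] at h1
    exact ⟨by linarith, by linarith⟩
  · intro h
    refine (tri_le_abs_sub _ 0).trans_lt ?_
    rw [Int.cast_zero, sub_zero]
    exact abs_lt.2 ⟨by linarith [h.1], by linarith [h.2]⟩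

/-- Let `G` be the set of points of convergence (full measure). Pick `x₀ ∈ G \ A` (`l < 1`); `S = A ∩ G ∩ (x₀, x₀ + 1)` is nonempty (`0 < l`), `u = sInf S`, `w = sSup S`.
By `four_le_tv`, `G ∩ (u, w) ⊆ A`. So `A` agrees a.e. with `(u, w)` on `(x₀, x₀+1)`, `w - u = l` (`integral_I0_add`), `c = (u + w)/2`;
both sides are periodic (`ae_of_I0` after a translation), and `tri (x - c) < l/2 ↔ u < x < w` for `x ∈ (x₀, x₀+1)`. -/
theorem arc_of_tv {A : Set ℝ} (hA : MeasurableSet A) (pA : ∀ (n : ℤ) (x : ℝ), x + n ∈ A ↔ x ∈ A)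
    {g g' : ℕ → ℝ → ℝ} (hg : ∀ n x, HasDerivAt (g n) (g' n x) x) (hc : ∀ n, Continuous (g' n))
    (hp : ∀ n, Function.Periodic (g n) 1)
    (lim : ∀ᵐ x, Tendsto (fun n => g n x) atTop (𝓝 (A.indicator 1 x)))
    (tv : ∃ᶠ n in atTop, ∫ t in I0, |g' n t| ≤ 3) {l : ℝ}
    (hl : volume.real {x | x ∈ I0 ∧ x ∈ A} = l) (h0 : 0 < l) (h1 : l < 1) :
    ∃ c, A =ᵐ[volume] {x | tri (x - c) < l / 2} := by
  let Gd : Set ℝ := {x | Tendsto (fun n => g n x) atTop (𝓝 (A.indicator 1 x))}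
  have four : ∀ x₀ x₁ x₂ x₃, x₀ ≤ x₁ → x₁ ≤ x₂ → x₂ ≤ x₃ → x₃ ≤ x₀ + 1 → x₀ ∈ Gd → x₁ ∈ Gd → x₂ ∈ Gd → x₃ ∈ Gd →
      x₀ ∉ A → x₁ ∈ A → x₂ ∉ A → x₃ ∈ A → False := by
    intro x₀ x₁ x₂ x₃ a1 a2 a3 a4 g0 g1 g2 g3 m0 m1 m2 m3
    have T := (((g1.add g3).sub g0).sub g2).const_mul 2
    rw [indicator_of_mem m1, indicator_of_mem m3, indicator_of_notMem m0, indicator_of_notMem m2] at T
    have := T.eventually (lt_mem_nhds (show (3 : ℝ) < _ by norm_num))
    obtain ⟨n, b1, b2⟩ := (tv.and_eventually this).exists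
    have := four_le_tv (hg n) (hc n) (hp n) a1 a2 a3 a4
    linarith
  obtain ⟨a, ga, ma⟩ : ∃ a, a ∈ Gd ∧ a ∉ A := by
    by_contra hc
    push Not at hc
    have e : ({x | x ∈ I0 ∧ x ∈ A} : Set ℝ) =ᵐ[volume] I0 := by
      filter_upwards [lim] with x hx
      exact propext ⟨fun h => h.1, fun h => ⟨h, hc x hx⟩⟩
    rw [measureReal_congr e, Measure.real, volume_I0] at hl
    simp at hl
    linarith
  rw [UndoA_vol hA pA a] at hl
  let S : Set ℝ := A ∩ Gd ∩ Ioo a (a + 1)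
  have hS : S.Nonempty := by
    by_contra hS
    have e : (A ∩ Ioo a (a + 1) : Set ℝ) =ᵐ[volume] (∅ : Set ℝ) := by
      filter_upwards [lim] with x hx
      exact propext ⟨fun h => hS ⟨x, ⟨h.1, hx⟩, h.2⟩, fun h => h.elim⟩
    rw [measureReal_congr e, measureReal_empty] at hl
    linarith
  have b1 : BddBelow S := ⟨a, fun x hx => hx.2.1.le⟩
  have b2 : BddAbove S := ⟨a + 1, fun x hx => hx.2.2.le⟩
  have hu : a ≤ sInf S := le_csInf hS fun x hx => hx.2.1.le
  have hw : sSup S ≤ a + 1 := csSup_le hS fun x hx => hx.2.2.le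
  have huw : sInf S ≤ sSup S := csInf_le_csSup hS b1 b2
  have key : ∀ᵐ x, x ∈ Ioo a (a + 1) → (x ∈ A ↔ x ∈ Ioo (sInf S) (sSup S)) := by
    filter_upwards [lim, Measure.ae_ne volume (sInf S), Measure.ae_ne volume (sSup S)] with x hx n1 n2 hI
    constructor
    · intro h
      have hxS : x ∈ S := ⟨⟨h, hx⟩, hI⟩
      exact ⟨lt_of_le_of_ne (csInf_le b1 hxS) n1.symm, lt_of_le_of_ne (le_csSup b2 hxS) n2⟩
    · intro h
      obtain ⟨x₁, s1, l1⟩ := exists_lt_of_csInf_lt hS h.1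
      obtain ⟨x₃, s3, l3⟩ := exists_lt_of_lt_csSup hS h.2
      by_contra hn
      exact four a x₁ x x₃ s1.2.1.le l1.le l3.le s3.2.2.le ga s1.1.2 hx s3.1.2 ma s1.1.1 hn s3.1.1
  have e : (A ∩ Ioo a (a + 1) : Set ℝ) =ᵐ[volume] Ioo (sInf S) (sSup S) := by
    filter_upwards [key] with x hx
    refine propext ⟨fun h => (hx h.2).1 h.1, fun h => ?_⟩
    have hI : x ∈ Ioo a (a + 1) := ⟨hu.trans_lt h.1, h.2.trans_le hw⟩
    exact ⟨(hx hI).2 h, hI⟩
  rw [measureReal_congr e, Real.volume_real_Ioo_of_le huw] at hl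
  subst hl
  refine ⟨(sInf S + sSup S) / 2, ?_⟩
  have := UndoA_ae (Q := fun x => x ∈ A ↔ tri (x - (sInf S + sSup S) / 2) < (sSup S - sInf S) / 2) (a := a)
    (fun n x => by rw [pA, add_sub_right_comm, tri_add_int])
    (key.mono fun x hx hI => by rw [hx hI, UndoA_tri hu hw hI])
  exact this.mono fun x hx => propext hx

/-- `integral_I0_add` (shift by `c`), `tri x = |x|` on `I0` -/
theorem integral_arc {A : Set ℝ} {c l : ℝ} (h0 : 0 ≤ l) (h1 : l ≤ 1)
    (e : A =ᵐ[volume] {x | tri (x - c) < l / 2}) {w : ℝ → ℝ} (hw : Continuous w)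
    (pw : Function.Periodic w 1) :
    ∫ x in I0, A.indicator 1 x * w x = ∫ x in (c - l / 2)..(c + l / 2), w x := by
  have e1 : ∫ x in I0, A.indicator 1 x * w x = ∫ x in I0, {x | tri (x - c) < l / 2}.indicator 1 x * w x := by
    refine integral_congr_ae (ae_restrict_of_ae ?_)
    filter_upwards [indicator_ae_eq_of_ae_eq_set (f := (1 : ℝ → ℝ)) e] with x hx
    rw [hx]
  have hp : Function.Periodic (fun x => {x | tri (x - c) < l / 2}.indicator (1 : ℝ → ℝ) x * w x) 1 := fun x => by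
    have := tri_add_int (x - c) 1
    rw [Int.cast_one, ← add_sub_right_comm] at this
    simp only [indicator, mem_ofPred_eq, this, pw x, Pi.one_apply]
  have e2 : ∫ x in I0, {x | tri (x - c) < l / 2}.indicator (1 : ℝ → ℝ) (x + c) * w (x + c) =
      ∫ x in I0, (Ioo (-(l / 2)) (l / 2)).indicator (fun x => w (x + c)) x := by
    refine setIntegral_congr_fun measurableSet_I0 fun x hx => ?_
    have h2 : tri x = |x| := tri_of_abs_le (abs_le.2 ⟨by linarith [hx.1], hx.2.le⟩)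
    simp only [indicator, mem_ofPred_eq, add_sub_cancel_right, h2, abs_lt, mem_Ioo, Pi.one_apply]
    split_ifs <;> simp
  have e3 : I0 ∩ Ioo (-(l / 2)) (l / 2) = Ioo (-(l / 2)) (l / 2) :=
    inter_eq_right.2 fun x hx => ⟨by linarith [hx.1], by linarith [hx.2]⟩
  rw [e1, ← integral_I0_add hp c, e2, setIntegral_indicator measurableSet_Ioo, e3, ← integral_Ioc_eq_integral_Ioo,
    ← intervalIntegral.integral_of_le (by linarith), intervalIntegral.integral_comp_add_right (fun x => w x)]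
  congr 1 <;> ring

theorem integral_arc_cos {A : Set ℝ} {c l : ℝ} (h0 : 0 ≤ l) (h1 : l ≤ 1)
    (e : A =ᵐ[volume] {x | tri (x - c) < l / 2}) (φ : ℝ) :
    ∫ x in I0, A.indicator 1 x * cos (2 * π * x + φ) = cos (2 * π * c + φ) * sin (π * l) / π := by
  have hπ := pi_pos
  rw [integral_arc h0 h1 e (w := fun x => cos (2 * π * x + φ)) (by fun_prop) fun x => by
    beta_reduce
    rw [show 2 * π * (x + 1) + φ = 2 * π * x + φ + 2 * π by ring, cos_add_two_pi]]
  have hd : ∀ x, HasDerivAt (fun x => sin (2 * π * x + φ) / (2 * π)) (cos (2 * π * x + φ)) x := fun x => by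
    have := ((((hasDerivAt_id x).const_mul (2 * π)).add_const φ).sin).div_const (2 * π)
    refine this.congr_deriv ?_
    simp only [id]
    field_simp
  rw [intervalIntegral.integral_eq_sub_of_hasDerivAt (fun x _ => hd x)
    (Continuous.intervalIntegrable (by fun_prop) _ _),
    show 2 * π * (c + l / 2) + φ = 2 * π * c + φ + π * l by ring,
    show 2 * π * (c - l / 2) + φ = 2 * π * c + φ - π * l by ring, sin_add (2 * π * c + φ), sin_sub]
  field_simp
  ring

theorem tri_sub_congr {c c' : ℝ} (h1 : cos (2 * π * c) = cos (2 * π * c'))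
    (h2 : sin (2 * π * c) = sin (2 * π * c')) (x : ℝ) : tri (x - c) = tri (x - c') := by
  have h : cos (2 * π * c - 2 * π * c') = 1 := by
    rw [cos_sub, h1, h2]
    nlinarith [sin_sq_add_cos_sq (2 * π * c')]
  obtain ⟨n, hn⟩ := (cos_eq_one_iff _).1 h
  have hπ := pi_pos
  have : (n : ℝ) = c - c' := mul_right_cancel₀ (show 2 * π ≠ 0 by positivity) (by rw [hn]; ring)
  rw [← tri_add_int (x - c) n, this]
  congr 1
  ring

end Crest.Agent.R214
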