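import Crest.Agent.R214.UndoA

/-!
# R214/UndoB

Weighted total variation near an arc. Let `s x = -sin (π/2 * sin (2π(x - c)) / sin (π l))`: periodic, `|s| ≤ 1`, `|s'| ≤ π²/sin (π l)`,
`s (c - l/2) = 1`, `s (c + l/2) = -1`. For periodic `C¹` `u`: `∫_{I0} u g' = -∫_{I0} u' g = u (c - l/2) - u (c + l/2) + O(sup |u'| δ)` (`integral_arc`, FTC).
Use it for `u = s` and `u = w s`, and `|∫ |g'| w - ∫ w s g'| ≤ ∫ (|g'| - s g')`. The constant is `2π² + 2π ≤ 30`.
-/

set_option autoImplicit false

open MeasureTheory Set Filter Real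
open scoped Topology

noncomputable section

namespace Crest.Agent.R214

theorem parts_arc {g g' u u' : ℝ → ℝ} (hg : ∀ x, HasDerivAt g (g' x) x) (hc : Continuous g')
    (hp : Function.Periodic g 1) (hu : ∀ x, HasDerivAt u (u' x) x) (cu : Continuous u')
    (pu : Function.Periodic u 1) {M : ℝ} (bu : ∀ x, |u' x| ≤ M) {A : Set ℝ} (hA : MeasurableSet A)
    {c l : ℝ} (h0 : 0 ≤ l) (h1 : l ≤ 1) (e : A =ᵐ[volume] {x | tri (x - c) < l / 2}) :
    |(∫ x in I0, u x * g' x) - (u (c - l / 2) - u (c + l / 2))| ≤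
      M * ∫ x in I0, |g x - A.indicator 1 x| := by
  have cg : Continuous g := continuous_iff_continuousAt.2 fun x => (hg x).continuousAt
  have cu0 : Continuous u := continuous_iff_continuousAt.2 fun x => (hu x).continuousAt
  have pu' : Function.Periodic u' 1 := fun x => by
    have h2 := (hu (x + 1)).comp_add_const x 1
    rw [pu.funext] at h2
    exact h2.unique (hu x)
  have e1 : ∫ x in I0, u x * g' x = -∫ x in I0, u' x * g x := by
    rw [integral_I0, integral_I0, intervalIntegral.integral_mul_deriv_eq_deriv_mul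
      (fun x _ => hu x) (fun x _ => hg x) (cu.intervalIntegrable _ _) (hc.intervalIntegrable _ _),
      show (1 / 2 : ℝ) = -1 / 2 + 1 by norm_num, pu, hp, sub_self, zero_sub]
  have e2 : ∫ x in I0, A.indicator 1 x * u' x = u (c + l / 2) - u (c - l / 2) := by
    rw [integral_arc h0 h1 e cu pu', intervalIntegral.integral_eq_sub_of_hasDerivAt
      (fun x _ => hu x) (cu.intervalIntegrable _ _)]
  have i0 : IntegrableOn (A.indicator (1 : ℝ → ℝ)) I0 := (integrable_const (1 : ℝ)).indicator hA
  have i1 : IntegrableOn (fun x => A.indicator 1 x * u' x) I0 :=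
    i0.mul_bdd cu.aestronglyMeasurable (ae_of_all _ bu)
  have i2 : IntegrableOn (fun x => u' x * g x) I0 := integrableOn_I0_of_cont (cu.mul cg)
  rw [e1, ← neg_sub (u (c + l / 2)), ← e2, neg_sub_neg, ← integral_sub i1 i2, ← integral_const_mul]
  refine abs_integral_le_integral_abs.trans (integral_mono (i1.sub i2).abs
    (((integrableOn_I0_of_cont cg).sub i0).abs.const_mul M) fun x => ?_)
  simp only
  rw [mul_comm (u' x), ← sub_mul, abs_mul, abs_sub_comm, mul_comm]
  exact mul_le_mul_of_nonneg_right (bu x) (abs_nonneg _)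

theorem tv_weight {g g' w w' : ℝ → ℝ} (hg : ∀ x, HasDerivAt g (g' x) x) (hc : Continuous g')
    (hp : Function.Periodic g 1) (hw : ∀ x, HasDerivAt w (w' x) x) (cw : Continuous w')
    (pw : Function.Periodic w 1) (bw : ∀ x, |w x| ≤ 1) (bw' : ∀ x, |w' x| ≤ 2 * π) {A : Set ℝ}
    (hA : MeasurableSet A) {c l : ℝ} (h0 : 0 < l) (h1 : l < 1)
    (e : A =ᵐ[volume] {x | tri (x - c) < l / 2}) :
    |(∫ x in I0, |g' x| * w x) - (w (c - l / 2) + w (c + l / 2))| ≤
      |(∫ x in I0, |g' x|) - 2| + 30 / sin (π * l) * ∫ x in I0, |g x - A.indicator 1 x| := by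
  have hπ := Real.pi_pos
  have hσ : 0 < sin (π * l) := sin_pos_of_pos_of_lt_pi (by positivity) (by nlinarith)
  have hσ1 := sin_le_one (π * l)
  set σ := sin (π * l) with hσd
  set s : ℝ → ℝ := fun x => -sin (π / 2 * sin (2 * π * (x - c)) / σ) with hs
  set s' : ℝ → ℝ := fun x => -(cos (π / 2 * sin (2 * π * (x - c)) / σ) *
    (π / 2 * (cos (2 * π * (x - c)) * (2 * π * 1)) / σ)) with hs'
  have ds : ∀ x, HasDerivAt s (s' x) x := fun x =>
    ((((((hasDerivAt_id x).sub_const c).const_mul (2 * π)).sin.const_mul (π / 2)).div_const σ).sin).neg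
  have cs' : Continuous s' := by rw [hs']; fun_prop
  have cs : Continuous s := by rw [hs]; fun_prop
  have cw0 : Continuous w := continuous_iff_continuousAt.2 fun x => (hw x).continuousAt
  have ps : Function.Periodic s 1 := fun x => by
    simp only [hs]
    rw [show 2 * π * (x + 1 - c) = 2 * π * (x - c) + 2 * π by ring, sin_add_two_pi]
  have bs : ∀ x, |s x| ≤ 1 := fun x => by rw [hs, abs_neg]; exact abs_sin_le_one _
  have bs' : ∀ x, |s' x| ≤ π ^ 2 / σ := fun x => by
    simp only [hs', abs_neg, abs_mul, abs_div, abs_of_pos hπ, abs_of_pos hσ, abs_two, abs_one]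
    calc _ ≤ 1 * (π / 2 * (1 * (2 * π * 1)) / σ) := by
          gcongr <;> exact abs_cos_le_one _
      _ = _ := by ring
  have s1 : s (c - l / 2) = 1 := by
    simp only [hs]
    rw [show 2 * π * (c - l / 2 - c) = -(π * l) by ring, sin_neg, ← hσd,
      show π / 2 * -σ / σ = -(π / 2) by field_simp, sin_neg, sin_pi_div_two, neg_neg]
  have s2 : s (c + l / 2) = -1 := by
    simp only [hs]
    rw [show 2 * π * (c + l / 2 - c) = π * l by ring, ← hσd,
      show π / 2 * σ / σ = π / 2 by field_simp, sin_pi_div_two]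
  have A1 := parts_arc hg hc hp ds cs' ps bs' hA h0.le h1.le e
  have A2 := parts_arc (u := fun x => w x * s x) (u' := fun x => w' x * s x + w x * s' x)
    (M := (2 * π + π ^ 2) / σ) hg hc hp (fun x => (hw x).mul (ds x))
    ((cw.mul cs).add (cw0.mul cs')) (pw.mul ps) (fun x => by
      refine (abs_add_le _ _).trans ?_
      rw [abs_mul, abs_mul, add_div]
      have h2 : 2 * π ≤ 2 * π / σ := le_div_self (by positivity) hσ hσ1
      calc _ ≤ 2 * π * 1 + 1 * (π ^ 2 / σ) := by gcongr <;> apply_assumption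
        _ ≤ _ := by linarith) hA h0.le h1.le e
  simp only [s1, s2] at A1 A2
  have i1 : IntegrableOn (fun x => |g' x| * w x) I0 := integrableOn_I0_of_cont (hc.abs.mul cw0)
  have i2 : IntegrableOn (fun x => w x * s x * g' x) I0 :=
    integrableOn_I0_of_cont ((cw0.mul cs).mul hc)
  have i3 : IntegrableOn (fun x => |g' x|) I0 := integrableOn_I0_of_cont hc.abs
  have i4 : IntegrableOn (fun x => s x * g' x) I0 := integrableOn_I0_of_cont (cs.mul hc)
  have A3 : |(∫ x in I0, |g' x| * w x) - ∫ x in I0, w x * s x * g' x| ≤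
      (∫ x in I0, |g' x|) - ∫ x in I0, s x * g' x := by
    rw [← integral_sub i1 i2, ← integral_sub i3 i4]
    refine abs_integral_le_integral_abs.trans (integral_mono (i1.sub i2).abs (i3.sub i4) fun x => ?_)
    have h2 : 0 ≤ |g' x| - s x * g' x := by
      have := le_abs_self (s x * g' x)
      rw [abs_mul] at this
      nlinarith [bs x, abs_nonneg (g' x)]
    simp only
    rw [show |g' x| * w x - w x * s x * g' x = w x * (|g' x| - s x * g' x) by ring, abs_mul,
      abs_of_nonneg h2]
    exact mul_le_of_le_one_left h2 (bw x)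
  have hδ : 0 ≤ ∫ x in I0, |g x - A.indicator 1 x| := integral_nonneg fun x => abs_nonneg _
  generalize ∫ x in I0, |g x - A.indicator 1 x| = δ at *
  have h30 : π ^ 2 / σ * δ + (2 * π + π ^ 2) / σ * δ ≤ 30 / σ * δ := by
    rw [← add_mul, ← add_div]
    gcongr
    nlinarith [Real.pi_lt_d2]
  have := le_abs_self ((∫ x in I0, |g' x|) - 2)
  rw [abs_le] at A1 A2 A3 ⊢
  constructor <;> linarith [A1.1, A1.2, A2.1, A2.2, A3.1, A3.2]

/-- `cos (a - b) + cos (a + b) = 2 cos a cos b` -/
theorem tv_weight_cos {g g' : ℝ → ℝ} (hg : ∀ x, HasDerivAt g (g' x) x) (hc : Continuous g')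
    (hp : Function.Periodic g 1) {A : Set ℝ} (hA : MeasurableSet A) {c l : ℝ} (h0 : 0 < l) (h1 : l < 1)
    (e : A =ᵐ[volume] {x | tri (x - c) < l / 2}) (φ : ℝ) :
    |(∫ x in I0, |g' x| * cos (2 * π * x + φ)) - 2 * cos (2 * π * c + φ) * cos (π * l)| ≤
      |(∫ x in I0, |g' x|) - 2| + 30 / sin (π * l) * ∫ x in I0, |g x - A.indicator 1 x| := by
  have hπ := Real.pi_pos
  have := tv_weight (w := fun x => cos (2 * π * x + φ)) (w' := fun x => -sin (2 * π * x + φ) * (2 * π * 1))
    hg hc hp (fun x => (((hasDerivAt_id x).const_mul (2 * π)).add_const φ).cos) (by fun_prop)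
    (fun x => by
      simp only
      rw [show 2 * π * (x + 1) + φ = 2 * π * x + φ + 2 * π by ring, cos_add_two_pi])
    (fun x => abs_cos_le_one _) (fun x => by
      rw [abs_mul, abs_neg, mul_one, abs_of_pos (by positivity : 0 < 2 * π)]
      exact mul_le_of_le_one_left (by positivity) (abs_sin_le_one _)) hA h0 h1 e
  rwa [show 2 * π * (c - l / 2) + φ = 2 * π * c + φ - π * l by ring,
    show 2 * π * (c + l / 2) + φ = 2 * π * c + φ + π * l by ring, cos_sub, cos_add (2 * π * c + φ),
    show ∀ a b : ℝ, a + b + (a - b) = 2 * a from fun a b => by ring, ← mul_assoc] at this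

end Crest.Agent.R214
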