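import Crest.Agent.R214.UndoDefs

/-!
# R214/UndoC

Constancy on a rectangle. For `q, q' ∈ K`: `|H n q - H n q'| ≤ ∫_{-s}^{s} |A n (·, q.2)| + ∫_{-t}^{t} |B n (q'.1, ·)|` (FTC via the point `(q'.1, q.2)`).
Integrate over `K × K`: `∫∫ |H n q - H n q'| ≤ |K| (2s ∫_K |A n| + 2t ∫_K |B n|)`. Hence `∫∫ |G q - G q'| = 0`
(triangle inequality), so for a.e. `q'`, `G q = G q'` for a.e. `q`.
-/

set_option autoImplicit false

open MeasureTheory Set Filter Real
open scoped Topology

noncomputable section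

namespace Crest.Agent.R214

theorem measurableSet_rect (s t : ℝ) : MeasurableSet (rect s t) := measurableSet_Icc.prod measurableSet_Icc
theorem isCompact_rect (s t : ℝ) : IsCompact (rect s t) := isCompact_Icc.prod isCompact_Icc

theorem undoC_ne_zero {s t : ℝ} (hs : 0 < s) (ht : 0 < t) : volume.restrict (rect s t) ≠ 0 := by
  rw [Ne, Measure.restrict_eq_zero, rect, Measure.volume_eq_prod, Measure.prod_prod, mul_eq_zero,
    Real.volume_Icc, Real.volume_Icc, ENNReal.ofReal_eq_zero, ENNReal.ofReal_eq_zero]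
  rintro (h | h) <;> linarith

theorem undoC_abs_const {α : Type*} [MeasurableSpace α] {μ : Measure α} {c : ℝ} :
    |∫ _, c ∂μ| = ∫ _, |c| ∂μ := by
  simp [abs_mul]

theorem undoC_ftc {s : ℝ} {f f' : ℝ → ℝ} (hf : ∀ x ∈ Icc (-s) s, HasDerivAt f (f' x) x)
    (hc : ContinuousOn f' (Icc (-s) s)) {x y : ℝ} (hx : x ∈ Icc (-s) s) (hy : y ∈ Icc (-s) s) :
    |f x - f y| ≤ ∫ z in Icc (-s) s, |f' z| := by
  have hsub := uIcc_subset_Icc hy hx
  rw [← intervalIntegral.integral_eq_sub_of_hasDerivAt (fun z hz => hf z (hsub hz))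
    (hc.mono hsub).intervalIntegrable]
  exact (intervalIntegral.norm_integral_le_integral_norm_uIoc (f := f')).trans
    (setIntegral_mono_set hc.integrableOn_Icc.norm (ae_of_all _ fun z => norm_nonneg _)
    (uIoc_subset_uIcc.trans hsub).eventuallyLE)

theorem undoC_one {s t : ℝ} (hs : 0 < s) (ht : 0 < t) {H A B : Y → ℝ}
    (cH : ContinuousOn H (rect s t)) (cA : ContinuousOn A (rect s t))
    (cB : ContinuousOn B (rect s t))
    (hA : ∀ q ∈ rect s t, HasDerivAt (fun y => H (y, q.2)) (A q) q.1)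
    (hB : ∀ q ∈ rect s t, HasDerivAt (fun z => H (q.1, z)) (B q) q.2) :
    ∃ c, ∫ q in rect s t, |H q - c| ≤
      2 * s * (∫ q in rect s t, |A q|) + 2 * t * ∫ q in rect s t, |B q| := by
  have iH : IntegrableOn H (rect s t) := cH.integrableOn_compact (isCompact_rect s t)
  have iA : Integrable (fun q => |A q|) (volume.restrict (rect s t)) :=
    (cA.integrableOn_compact (isCompact_rect s t)).abs
  have iB : Integrable (fun q => |B q|) (volume.restrict (rect s t)) :=
    (cB.integrableOn_compact (isCompact_rect s t)).abs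
  have e : volume.restrict (rect s t) =
      (volume.restrict (Icc (-s) s)).prod (volume.restrict (Icc (-t) t)) := by
    rw [Measure.prod_restrict]; rfl
  have key : ∀ y ∈ Icc (-s) s, ∀ q ∈ rect s t, |H q - H (y, 0)| ≤
      (∫ x in Icc (-s) s, |A (x, q.2)|) + ∫ z in Icc (-t) t, |B (y, z)| := fun y hy q hq =>
    (abs_sub_le _ (H (y, q.2)) _).trans (add_le_add
      (undoC_ftc (f := fun x => H (x, q.2)) (fun x hx => hA (x, q.2) ⟨hx, hq.2⟩)
        (cA.comp (by fun_prop) fun x hx => ⟨hx, hq.2⟩) hq.1 hy)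
      (undoC_ftc (f := fun z => H (y, z)) (fun z hz => hB (y, z) ⟨hy, hz⟩)
        (cB.comp (by fun_prop) fun z hz => ⟨hy, hz⟩) hq.2 ⟨by linarith, ht.le⟩))
  unfold IntegrableOn at iH
  rw [e] at iH iA iB
  obtain ⟨y, hy, h⟩ := exists_le_setAverage (μ := volume) (s := Icc (-s) s)
    (by simpa using hs) (by simp) iB.integral_prod_left
  refine ⟨H (y, 0), ?_⟩
  have i1 := iA.integral_prod_right.comp_snd (volume.restrict (Icc (-s) s))
  have h1 := integral_mono_ae (iH.sub (integrable_const (H (y, 0)))).abs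
    (i1.add (integrable_const (∫ z in Icc (-t) t, |B (y, z)|))) (by
      rw [← e]
      exact ae_restrict_of_forall_mem (measurableSet_rect s t) (key y hy))
  rw [e]
  refine h1.trans ?_
  rw [integral_add' i1 (integrable_const _), integral_prod_symm _ iA, integral_prod _ iB,
    integral_fun_snd (fun z => ∫ x in Icc (-s) s, |A (x, z)|), integral_const]
  rw [setAverage_eq] at h
  simp only [Measure.real, ← Set.univ_prod_univ, Measure.prod_prod, Measure.restrict_apply_univ,
    Real.volume_Icc, ENNReal.toReal_mul, smul_eq_mul] at h ⊢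
  rw [ENNReal.toReal_ofReal (by linarith)] at h
  rw [ENNReal.toReal_ofReal (by linarith), ENNReal.toReal_ofReal (by linarith)]
  rw [inv_mul_eq_div, le_div_iff₀ (by linarith)] at h
  nlinarith

theorem ae_const_of_deriv {s t : ℝ} (hs : 0 < s) (ht : 0 < t) {H A B : ℕ → Y → ℝ} {G : Y → ℝ}
    (cH : ∀ n, ContinuousOn (H n) (rect s t)) (cA : ∀ n, ContinuousOn (A n) (rect s t))
    (cB : ∀ n, ContinuousOn (B n) (rect s t))
    (hA : ∀ n, ∀ q ∈ rect s t, HasDerivAt (fun y => H n (y, q.2)) (A n q) q.1)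
    (hB : ∀ n, ∀ q ∈ rect s t, HasDerivAt (fun z => H n (q.1, z)) (B n q) q.2)
    (iG : IntegrableOn G (rect s t))
    (lH : Tendsto (fun n => ∫ q in rect s t, |H n q - G q|) atTop (𝓝 0))
    (lA : Tendsto (fun n => ∫ q in rect s t, |A n q|) atTop (𝓝 0))
    (lB : Tendsto (fun n => ∫ q in rect s t, |B n q|) atTop (𝓝 0)) :
    ∃ k, ∀ᵐ q ∂(volume.restrict (rect s t)), G q = k := by
  have : IsFiniteMeasure (volume.restrict (rect s t)) :=
    isFiniteMeasure_restrict.2 (isCompact_rect s t).measure_lt_top.ne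
  have : NeZero (volume.restrict (rect s t)) := ⟨undoC_ne_zero hs ht⟩
  set k := ⨍ q in rect s t, G q with hk
  have iGk : ∀ c : ℝ, IntegrableOn (fun q => G q - c) (rect s t) := fun c =>
    iG.sub (integrable_const c)
  have h1 : ∀ c : ℝ, ∫ q in rect s t, |G q - k| ≤ 2 * ∫ q in rect s t, |G q - c| := fun c => by
    have h2 : ∫ _ in rect s t, |c - k| ≤ ∫ q in rect s t, |G q - c| := by
      rw [abs_sub_comm, ← undoC_abs_const, integral_sub (integrable_const _)
        (integrable_const _), hk, integral_average,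
        ← integral_sub iG (integrable_const _)]
      exact abs_integral_le_integral_abs
    calc _ ≤ ∫ q in rect s t, (|G q - c| + |c - k|) :=
          integral_mono (iGk k).abs ((iGk c).abs.add (integrable_const _)) fun q => abs_sub_le _ _ _
      _ ≤ _ := by rw [integral_add (iGk c).abs (integrable_const _)]; linarith
  have h2 : ∀ n, ∫ q in rect s t, |G q - k| ≤ 2 * ((∫ q in rect s t, |H n q - G q|) +
      (2 * s * (∫ q in rect s t, |A n q|) + 2 * t * ∫ q in rect s t, |B n q|)) := fun n => by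
    obtain ⟨c, hc⟩ := undoC_one hs ht (cH n) (cA n) (cB n) (hA n) (hB n)
    have iH : IntegrableOn (H n) (rect s t) := (cH n).integrableOn_compact (isCompact_rect s t)
    have h3 : ∫ q in rect s t, |G q - c| ≤ ∫ q in rect s t, (|H n q - G q| + |H n q - c|) :=
      integral_mono (iGk c).abs ((iH.sub iG).abs.add (iH.sub (integrable_const c)).abs) fun q =>
        (abs_sub_le _ (H n q) _).trans_eq (by rw [abs_sub_comm])
    have h4 := h3.trans_eq (integral_add (iH.sub iG).abs (iH.sub (integrable_const c)).abs)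
    change _ ≤ (∫ q in rect s t, |H n q - G q|) + ∫ q in rect s t, |H n q - c| at h4
    linarith [h1 c]
  have h3 := ge_of_tendsto' ((lH.add ((lA.const_mul (2 * s)).add (lB.const_mul (2 * t)))).const_mul 2)
    h2
  simp only [mul_zero, add_zero] at h3
  have h4 := (integral_eq_zero_iff_of_nonneg (fun q => abs_nonneg _) (iGk k).abs).1
    (le_antisymm h3 (integral_nonneg fun q => abs_nonneg _))
  exact ⟨k, h4.mono fun q hq => sub_eq_zero.1 (abs_eq_zero.1 hq)⟩

theorem undoC_rat {e : X} {r : ℝ} {q : Y} (h1 : |q.1| < 1 / 2) (h2 : |q.2| < 1 / 2)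
    (h : Qf e q < r ^ 2) : ∃ s t : ℚ, RectOK e r s t ∧ q ∈ rect s t := by
  have hQ : Qf e (|q.1|, |q.2|) < r ^ 2 := by simpa [Qf] using h
  have cQ : Continuous (Qf e) := by unfold Qf; fun_prop
  have ho : {x : Y | x.1 < 1 / 2 ∧ x.2 < 1 / 2 ∧ Qf e x < r ^ 2} ∈ 𝓝 (|q.1|, |q.2|) :=
    ((isOpen_lt continuous_fst continuous_const).inter ((isOpen_lt continuous_snd
      continuous_const).inter (isOpen_lt cQ continuous_const))).mem_nhds ⟨h1, h2, hQ⟩
  obtain ⟨ε, hε, hb⟩ := Metric.mem_nhds_iff.1 ho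
  obtain ⟨s, s1, s2⟩ := exists_rat_btwn (lt_add_of_pos_right |q.1| hε)
  obtain ⟨t, t1, t2⟩ := exists_rat_btwn (lt_add_of_pos_right |q.2| hε)
  obtain ⟨a, b, c⟩ := hb (a := ((s : ℝ), (t : ℝ))) (by
    rw [Metric.mem_ball, Prod.dist_eq, max_lt_iff, Real.dist_eq, Real.dist_eq, abs_lt, abs_lt]
    exact ⟨⟨by linarith, by linarith⟩, by linarith, by linarith⟩)
  exact ⟨s, t, ⟨(abs_nonneg _).trans_lt s1, a, (abs_nonneg _).trans_lt t1, b, c⟩,
    abs_le.1 s1.le, abs_le.1 t1.le⟩

theorem undoC_le_one {g : ℝ → ℝ} (h : ∀ x, |g x| ≤ 1) : |∫ x in I0, g x| ≤ 1 := by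
  simpa [Measure.real, volume_I0] using
    norm_integral_le_of_norm_le_const (μ := volume.restrict I0) (f := g) (C := 1) (ae_of_all _ h)

theorem RectOK.sub {e : X} {r s t : ℝ} (h : RectOK e r s t) : rect s t ⊆ cell2 := by
  obtain ⟨-, h1, -, h2, -⟩ := h
  exact fun q hq => ⟨⟨by linarith [hq.1.1], hq.1.2.trans_lt h1⟩,
    ⟨by linarith [hq.2.1], hq.2.2.trans_lt h2⟩⟩
/-- `hf e r (s, t) ≤ hf e r q ≤ r` on the rectangle -/
theorem RectOK.hf_mem {e : X} (he : Bin e) {r s t : ℝ} (hr : 0 < r) (h : RectOK e r s t) :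
    0 < hf e r (s, t) ∧ ∀ q ∈ rect s t, Qf e q < r ^ 2 ∧ hf e r (s, t) ≤ hf e r q ∧ hf e r q ≤ r := by
  obtain ⟨-, -, -, -, h⟩ := h
  have e1 : 0 ≤ e.2.1 := by rcases he.2.1 with h | h <;> simp [h]
  have e2 : 0 ≤ e.2.2 := by rcases he.2.2 with h | h <;> simp [h]
  refine ⟨Real.sqrt_pos.2 (sub_pos.2 h), fun q hq => ?_⟩
  have h1 : Qf e q ≤ Qf e (s, t) := add_le_add
    (mul_le_mul_of_nonneg_left (sq_le_sq' hq.1.1 hq.1.2) e1)
    (mul_le_mul_of_nonneg_left (sq_le_sq' hq.2.1 hq.2.2) e2)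
  have h2 : 0 ≤ Qf e q := by unfold Qf; positivity
  exact ⟨h1.trans_lt h, Real.sqrt_le_sqrt (by linarith), Real.sqrt_le_iff.2 ⟨hr.le, by linarith⟩⟩
theorem continuous_Qf (e : X) : Continuous (Qf e) := by
  unfold Qf
  fun_prop
theorem continuous_hf (e : X) (r : ℝ) : Continuous (hf e r) := by
  exact (continuous_const.sub (continuous_Qf e)).sqrt
theorem exists_rectOK (e : X) {r : ℝ} (hr : 0 < r) : ∃ s t, RectOK e r s t := by
  obtain ⟨s, t, h, -⟩ := undoC_rat (e := e) (r := r) (q := 0) (by simp) (by simp)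
    (by simp [Qf, hr])
  exact ⟨s, t, h⟩
/-- the open set `{(s, t) | |y| < s < 1/2, |z| < t < 1/2, Q (s, t) < r²}` is nonempty, so it contains a rational point -/
theorem exists_rat_rectOK {e : X} {r : ℝ} {q : Y} (h1 : |q.1| < 1 / 2) (h2 : |q.2| < 1 / 2)
    (h : Qf e q < r ^ 2) : ∃ s t : ℚ, RectOK e r s t ∧ q ∈ rect s t := by
  exact undoC_rat h1 h2 h
/-- two centred rectangles meet in a set of positive measure -/
theorem const_eq_of_rect {s t s' t' : ℝ} (hs : 0 < s) (ht : 0 < t) (hs' : 0 < s') (ht' : 0 < t')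
    {G : Y → ℝ} {k k' : ℝ} (h : ∀ᵐ q ∂(volume.restrict (rect s t)), G q = k)
    (h' : ∀ᵐ q ∂(volume.restrict (rect s' t')), G q = k') : k = k' := by
  have : NeZero (volume.restrict (rect (min s s') (min t t'))) :=
    ⟨undoC_ne_zero (lt_min hs hs') (lt_min ht ht')⟩
  have sub : ∀ {a b a' b' : ℝ}, a ≤ a' → b ≤ b' → rect a b ⊆ rect a' b' := fun ha hb =>
    prod_mono (Icc_subset_Icc (neg_le_neg ha) ha) (Icc_subset_Icc (neg_le_neg hb) hb)
  obtain ⟨q, h1, h2⟩ := ((ae_restrict_of_ae_restrict_of_subset (sub (min_le_left s s')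
    (min_le_left t t')) h).and (ae_restrict_of_ae_restrict_of_subset (sub (min_le_right s s')
    (min_le_right t t')) h')).exists
  rw [← h1, h2]
theorem measurable_dl {F : Set X} (hF : MeasurableSet F) {f : X → ℝ} (hf : Continuous f) :
    Measurable (dl F f) := by
  have h : Measurable fun p : X => |f p - F.indicator 1 p| :=
    (hf.measurable.sub (measurable_one.indicator hF)).abs
  exact (h.stronglyMeasurable.integral_prod_left' (μ := volume.restrict I0)).measurable
theorem dl_mem (F : Set X) {f : X → ℝ} (hf : ∀ p, f p ∈ Icc (0 : ℝ) 1) (q : Y) :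
    dl F f q ∈ Icc (0 : ℝ) 1 := by
  refine ⟨integral_nonneg fun x => abs_nonneg _, (le_abs_self _).trans (undoC_le_one fun x => ?_)⟩
  have := hf (x, q)
  rw [abs_abs, abs_le]
  by_cases h : (x, q) ∈ F <;> simp only [h, indicator_of_mem, indicator_of_notMem, not_false_iff,
    Pi.one_apply] <;> constructor <;> linarith [this.1, this.2]
/-- `Moll.l1`, `integral_cell_prod` -/
theorem Moll.dl_tendsto {F : Set X} {P : ℝ} {f : ℕ → X → ℝ} (h : Moll F P f) (hF : MeasurableSet F) :
    Tendsto (fun n => ∫ q in cell2, dl F (f n) q) atTop (𝓝 0) := by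
  refine (h.l1 hF).congr fun n => integral_cell_prod (Integrable.abs ?_)
  exact (integrableOn_cell_of_cont (h.sm n).continuous).sub
    ((integrable_const (1 : ℝ)).indicator hF)
theorem measurable_fc {F : Set X} (hF : MeasurableSet F) (φ : ℝ) : Measurable (fc F φ) := by
  have h : Measurable fun p : X => F.indicator 1 p * cos (2 * π * p.1 + φ) :=
    (measurable_one.indicator hF).mul (by fun_prop)
  exact (h.stronglyMeasurable.integral_prod_left' (μ := volume.restrict I0)).measurable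
theorem abs_fc_le (F : Set X) (φ : ℝ) (q : Y) : |fc F φ q| ≤ 1 := by
  refine undoC_le_one fun x => ?_
  by_cases h : (x, q) ∈ F
  · simpa [h] using abs_cos_le_one _
  · simp [h]

end Crest.Agent.R214
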