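import Crest.Agent.R214.UndoC

/-!
# R214/UndoD

The master inequality. `Ω = {Q < r²}`, `a = hf/r`, `P' = nn e V / r`.
-/

set_option autoImplicit false

open MeasureTheory Set Filter Real
open scoped Topology

noncomputable section

namespace Crest.Agent.R214

theorem undoD_Q_nonneg {e : X} (he : Bin e) (q : Y) : 0 ≤ Qf e q := by
  obtain ⟨-, h2, h3⟩ := he
  unfold Qf
  rcases h2 with h2 | h2 <;> rcases h3 with h3 | h3 <;> rw [h2, h3] <;> positivity

theorem undoD_hf_nonneg (e : X) (r : ℝ) (q : Y) : 0 ≤ hf e r q := sqrt_nonneg _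

theorem undoD_hf_le {e : X} (he : Bin e) {r : ℝ} (hr : 0 < r) (q : Y) : hf e r q ≤ r := by
  unfold hf
  rw [sqrt_le_left hr.le]
  linarith [undoD_Q_nonneg he q]

theorem undoD_hf_zero {e : X} {r : ℝ} {q : Y} (h : r ^ 2 ≤ Qf e q) : hf e r q = 0 :=
  sqrt_eq_zero_of_nonpos (by linarith)

theorem undoD_av_sub {E : Set X} (hE : MeasurableSet E) {f : X → ℝ} (hf : Continuous f) (q : Y) :
    |av1 f q - fl E q| ≤ dl E f q := by
  have hA : MeasurableSet {x : ℝ | (x, q) ∈ E} := measurable_prodMk_right hE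
  have hi : Integrable (fun x => E.indicator (1 : X → ℝ) (x, q)) (volume.restrict I0) :=
    (integrable_const (1 : ℝ)).indicator hA
  rw [fl_eq hE, av1, ← integral_sub (integrableOn_I0_of_cont (f := fun x => f (x, q)) (by fun_prop)) hi]
  exact abs_integral_le_integral_abs

theorem undoD_dl_int {E : Set X} (hE : MeasurableSet E) {f : X → ℝ} (hf : Continuous f)
    (hm : ∀ p, f p ∈ Icc (0 : ℝ) 1) : IntegrableOn (dl E f) cell2 :=
  integrableOn_cell2_of_bdd (measurable_dl hE hf) (C := 1) fun q => by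
    have := dl_mem E hm q
    rw [abs_of_nonneg this.1]
    exact this.2

theorem undoD_fl_int {E : Set X} (hE : MeasurableSet E) : IntegrableOn (fl E) cell2 :=
  integrableOn_cell2_of_bdd (measurable_fl hE) (C := 1) fun q => by
    have := fl_mem E q
    rw [abs_of_nonneg this.1]
    exact this.2

theorem undoD_bound {D : Y → ℝ} (hD : Continuous D) : ∃ C, 0 ≤ C ∧ ∀ q ∈ cell2, |D q| ≤ C := by
  obtain ⟨C, hC⟩ := (isCompact_rect 1 1).exists_bound_of_continuousOn hD.continuousOn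
  refine ⟨max C 0, le_max_right _ _, fun q hq => le_trans (hC q ?_) (le_max_left _ _)⟩
  obtain ⟨⟨h1, h2⟩, h3, h4⟩ := hq
  exact ⟨⟨by linarith, by linarith⟩, by linarith, by linarith⟩

theorem undoD_dx_mul {g l : Y → ℝ} (hg : ContDiff ℝ 1 g) (hl : ContDiff ℝ 1 l) (q : Y) :
    dx (fun q => g q * l q) q = dx g q * l q + g q * dx l q := by
  have h1 := hasDerivAt_dx (y := q.1) (z := q.2) ((hg.mul hl).differentiable one_ne_zero _)
  have h2 := (hasDerivAt_dx (y := q.1) (z := q.2) (hg.differentiable one_ne_zero _)).mul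
    (hasDerivAt_dx (y := q.1) (z := q.2) (hl.differentiable one_ne_zero _))
  exact h1.unique h2

theorem undoD_dy_mul {g l : Y → ℝ} (hg : ContDiff ℝ 1 g) (hl : ContDiff ℝ 1 l) (q : Y) :
    dy (fun q => g q * l q) q = dy g q * l q + g q * dy l q := by
  have h1 := hasDerivAt_dy (y := q.1) (z := q.2) ((hg.mul hl).differentiable one_ne_zero _)
  have h2 := (hasDerivAt_dy (y := q.1) (z := q.2) (hg.differentiable one_ne_zero _)).mul
    (hasDerivAt_dy (y := q.1) (z := q.2) (hl.differentiable one_ne_zero _))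
  exact h1.unique h2

/-- integration by parts against a field that does not depend on the first variable -/
theorem undoD_parts {V₂ V₃ : Y → ℝ} (c2 : ContDiff ℝ 1 V₂) (c3 : ContDiff ℝ 1 V₃)
    (b2 : ∀ z, V₂ (1 / 2, z) = 0 ∧ V₂ (-1 / 2, z) = 0) (b3 : ∀ y, V₃ (y, 1 / 2) = 0 ∧ V₃ (y, -1 / 2) = 0)
    {f : X → ℝ} (sm : ContDiff ℝ 1 f) :
    ∫ p in cell, (V₂ p.2 * d2 f p + V₃ p.2 * d3 f p) = ∫ q in cell2, -(dx V₂ q + dy V₃ q) * av1 f q := by
  have hl := av1_contDiff sm
  have cl := hl.continuous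
  have k2 := continuous_d2 sm
  have k3 := continuous_d3 sm
  have kx := continuous_dx hl
  have ky := continuous_dy hl
  have j2 := continuous_dx c2
  have j3 := continuous_dy c3
  have c2' := c2.continuous
  have c3' := c3.continuous
  have e1 : ∫ p in cell, (V₂ p.2 * d2 f p + V₃ p.2 * d3 f p) =
      ∫ q in cell2, (V₂ q * dx (av1 f) q + V₃ q * dy (av1 f) q) := by
    rw [integral_cell_prod (integrableOn_cell_of_cont (by fun_prop))]
    refine integral_congr_ae (Eventually.of_forall fun q => ?_)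
    dsimp only
    rw [integral_add (integrableOn_I0_of_cont (by fun_prop)) (integrableOn_I0_of_cont (by fun_prop)),
      integral_const_mul, integral_const_mul, dx_av1 sm, dy_av1 sm]
  have e2 := integral_cell2_dx (c2.mul hl) fun z => by rw [(b2 z).1, (b2 z).2, zero_mul, zero_mul]
  have e3 := integral_cell2_dy (c3.mul hl) fun y => by rw [(b3 y).1, (b3 y).2, zero_mul, zero_mul]
  simp only [undoD_dx_mul c2 hl] at e2
  simp only [undoD_dy_mul c3 hl] at e3
  have e4 : ∫ q in cell2, (V₂ q * dx (av1 f) q + V₃ q * dy (av1 f) q) =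
      ∫ q in cell2, (-(dx V₂ q + dy V₃ q) * av1 f q + ((dx V₂ q * av1 f q + V₂ q * dx (av1 f) q) +
        (dy V₃ q * av1 f q + V₃ q * dy (av1 f) q))) :=
    integral_congr_ae (Eventually.of_forall fun q => by dsimp only; ring)
  rw [e1, e4, integral_add (integrableOn_cell2_of_cont (by fun_prop)) (integrableOn_cell2_of_cont (by fun_prop)),
    integral_add (integrableOn_cell2_of_cont (by fun_prop)) (integrableOn_cell2_of_cont (by fun_prop)), e2, e3]
  simp

theorem undoD_lim {F : Set X} {P : ℝ} {f : ℕ → X → ℝ} (h : Moll F P f) (hF : MeasurableSet F) {D : Y → ℝ}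
    (hD : Continuous D) :
    Tendsto (fun n => ∫ q in cell2, D q * av1 (f n) q) atTop (𝓝 (∫ q in cell2, D q * fl F q)) := by
  obtain ⟨C, hC0, hC⟩ := undoD_bound hD
  have hl := (h.dl_tendsto hF).const_mul C
  rw [mul_zero] at hl
  rw [tendsto_iff_norm_sub_tendsto_zero]
  refine squeeze_zero (fun n => norm_nonneg _) (fun n => ?_) hl
  have cf := (h.sm n).continuous
  have ca := continuous_av1 cf
  have i1 : IntegrableOn (fun q => D q * av1 (f n) q) cell2 := integrableOn_cell2_of_cont (by fun_prop)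
  have i2 : IntegrableOn (fun q => D q * fl F q) cell2 :=
    (undoD_fl_int hF).bdd_mul (c := C) hD.aestronglyMeasurable
      ((ae_restrict_mem measurableSet_cell2).mono fun q hq => hC q hq)
  rw [← integral_sub i1 i2, ← integral_const_mul]
  refine norm_integral_le_of_norm_le ((undoD_dl_int hF cf (h.mem n)).const_mul C)
    ((ae_restrict_mem measurableSet_cell2).mono fun q hq => ?_)
  rw [← mul_sub, Real.norm_eq_abs, abs_mul]
  exact mul_le_mul (hC q hq) (undoD_av_sub hF cf q) (abs_nonneg _) hC0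

/-- `integral_fl` -/
theorem UD.integral_hf {F : Set X} {V P r : ℝ} {e : X} {f : ℕ → X → ℝ} (h : UD F V P e r f) :
    ∫ q in cell2, hf e r q = V / 2 := by
  have h1 := integral_fl h.good.meas
  rw [h.good.vol, integral_congr_ae h.fl, integral_const_mul] at h1
  linarith

/-- `tv_lower` with `l = 2 hf ≤ 2/3`: `hf * (2 - tv1) ≤ 3 dl` -/
theorem UD.tv_neg {F : Set X} {V P r : ℝ} {e : X} {f : ℕ → X → ℝ} (h : UD F V P e r f) :
    Tendsto (fun n => ∫ q in cell2, hf e r q * max (2 - tv1 (f n) q) 0) atTop (𝓝 0) := by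
  have hF := h.good.meas
  have hl := (h.moll.dl_tendsto hF).const_mul 3
  rw [mul_zero] at hl
  refine squeeze_zero (fun n => integral_nonneg fun q => mul_nonneg (undoD_hf_nonneg e r q) (le_max_right _ _))
    (fun n => ?_) hl
  have sm := h.moll.sm n
  have k1 := continuous_d1 sm
  have kt := continuous_tv1 sm
  have ch := continuous_hf e r
  rw [← integral_const_mul]
  refine integral_mono_ae (integrableOn_cell2_of_cont (by fun_prop))
    ((undoD_dl_int hF sm.continuous (h.moll.mem n)).const_mul 3) (h.fl.mono fun q hq => ?_)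
  have htv := tv_lower (g := fun x => f n (x, q)) (g' := fun x => d1 (f n) (x, q))
    (fun x => hasDerivAt_d1 (x := x) (y := q.1) (z := q.2) (sm.differentiable one_ne_zero _)) (by fun_prop)
    ((h.moll.pd n).periodic1 q) (A := {x : ℝ | (x, q) ∈ F}) (measurable_prodMk_right hF) (l := R214.fl F q) rfl
  change 2 * (R214.fl F q * (1 - R214.fl F q) - dl F (f n) q) ≤
    R214.fl F q * (1 - R214.fl F q) * tv1 (f n) q at htv
  rw [hq] at htv
  have a0 := undoD_hf_nonneg e r q
  have a1 := (undoD_hf_le h.bin h.r0 q).trans h.r1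
  have d0 := (dl_mem F (h.moll.mem n) q).1
  dsimp only
  rcases le_total (2 - tv1 (f n) q) 0 with h' | h'
  · rw [max_eq_right h']
    linarith
  · rw [max_eq_left h']
    have := mul_nonneg (mul_nonneg a0 h') (sub_nonneg.2 a1)
    nlinarith

/-- `ρ = min (r/θ) (2/5) > r`, `G q = θ * Real.smoothTransition ((ρ² - Q q)/(ρ² - r²))`, `V₂ = -G e₂ y / r`, `V₃ = -G e₃ z / r` (smooth). `V₂² + V₃² = G² Q / r² ≤ 1`
(`e j² = e j`; `G = 0` if `Q ≥ ρ²`). With `l n = av1 (f n)`: `∫_cell V₂ d2 f = ∫_{cell2} V₂ dx l = -∫ dx V₂ * l` (`dx_av1`, `integral_cell2_dx` for `V₂ * l`: if `e₂ = 0` it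
vanishes, if `e₂ = 1` then `G = 0` at `y = ±1/2`), `|l n - fl F| ≤ dl`, and `-(dx V₂ + dy V₃) * fl F = θ (e₂ + e₃)/r * fl F` a.e.
(`G = θ` on the open set `Ω`, `fl F = 0` off `Ω`). -/
theorem UD.field {F : Set X} {V P r : ℝ} {e : X} {f : ℕ → X → ℝ} (h : UD F V P e r f) {θ : ℝ}
    (h0 : 0 < θ) (h1 : θ < 1) :
    ∃ V₂ V₃ : Y → ℝ, Continuous V₂ ∧ Continuous V₃ ∧ (∀ q, V₂ q ^ 2 + V₃ q ^ 2 ≤ 1) ∧
      (∀ q, Qf e q < r ^ 2 → V₂ q = -(θ * e.2.1 * q.1 / r) ∧ V₃ q = -(θ * e.2.2 * q.2 / r)) ∧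
      Tendsto (fun n => ∫ p in cell, (V₂ p.2 * d2 (f n) p + V₃ p.2 * d3 (f n) p)) atTop
        (𝓝 (θ * (e.2.1 + e.2.2) * V / r)) := by
  have hF := h.good.meas
  have r0 := h.r0
  have r1 := h.r1
  obtain ⟨ρ, hρ1, hρ2, hρ3⟩ : ∃ ρ : ℝ, r < ρ ∧ ρ ≤ 2 / 5 ∧ θ * ρ ≤ r := by
    refine ⟨min (r / θ) (2 / 5), lt_min ?_ (by linarith), min_le_right _ _, ?_⟩
    · rw [lt_div_iff₀ h0]
      nlinarith
    · have := min_le_left (r / θ) (2 / 5)
      rw [le_div_iff₀ h0] at this
      linarith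
  have hd : 0 < ρ ^ 2 - r ^ 2 := by nlinarith
  set G : Y → ℝ := fun q => θ * Real.smoothTransition ((ρ ^ 2 - Qf e q) / (ρ ^ 2 - r ^ 2)) with hG
  have cQ : ContDiff ℝ 1 (Qf e) := by
    unfold Qf
    fun_prop
  have cG : ContDiff ℝ 1 G :=
    contDiff_const.mul (Real.smoothTransition.contDiff.comp ((contDiff_const.sub cQ).div_const _))
  have G0 : ∀ q, ρ ^ 2 ≤ Qf e q → G q = 0 := fun q hq => by
    simp only [hG]
    rw [Real.smoothTransition.zero_of_nonpos (div_nonpos_of_nonpos_of_nonneg (by linarith) hd.le), mul_zero]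
  have G1 : ∀ q, Qf e q < r ^ 2 → G q = θ := fun q hq => by
    simp only [hG]
    rw [Real.smoothTransition.one_of_one_le ((one_le_div hd).2 (by linarith)), mul_one]
  have Gm : ∀ q, 0 ≤ G q ∧ G q ≤ θ := fun q =>
    ⟨mul_nonneg h0.le (Real.smoothTransition.nonneg _),
      mul_le_of_le_one_right h0.le (Real.smoothTransition.le_one _)⟩
  have c2 : ContDiff ℝ 1 fun q : Y => -(G q * e.2.1 * q.1 / r) :=
    (((cG.mul contDiff_const).mul contDiff_fst).div_const r).neg
  have c3 : ContDiff ℝ 1 fun q : Y => -(G q * e.2.2 * q.2 / r) :=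
    (((cG.mul contDiff_const).mul contDiff_snd).div_const r).neg
  obtain ⟨-, he2, he3⟩ := h.bin
  have e2n : 0 ≤ e.2.1 := by rcases he2 with h' | h' <;> rw [h'] <;> norm_num
  have e3n : 0 ≤ e.2.2 := by rcases he3 with h' | h' <;> rw [h'] <;> norm_num
  have e2s : e.2.1 ^ 2 = e.2.1 := by rcases he2 with h' | h' <;> rw [h'] <;> norm_num
  have e3s : e.2.2 ^ 2 = e.2.2 := by rcases he3 with h' | h' <;> rw [h'] <;> norm_num
  have hρ : ρ ^ 2 ≤ 1 / 4 := by nlinarith
  refine ⟨fun q => -(G q * e.2.1 * q.1 / r), fun q => -(G q * e.2.2 * q.2 / r), c2.continuous, c3.continuous,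
    fun q => ?_, fun q hq => by simp only [G1 q hq, and_self], ?_⟩
  · have e1 : (-(G q * e.2.1 * q.1 / r)) ^ 2 + (-(G q * e.2.2 * q.2 / r)) ^ 2 = G q ^ 2 * Qf e q / r ^ 2 := by
      unfold Qf
      generalize G q = g
      rw [neg_sq, neg_sq, div_pow, div_pow, mul_pow, mul_pow, mul_pow, mul_pow, e2s, e3s]
      ring
    rw [e1, div_le_one (by positivity)]
    rcases le_total (ρ ^ 2) (Qf e q) with hq | hq
    · rw [G0 q hq]
      nlinarith
    · have a1 : G q ^ 2 ≤ θ ^ 2 := pow_le_pow_left₀ (Gm q).1 (Gm q).2 2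
      have a2 : (θ * ρ) ^ 2 ≤ r ^ 2 := pow_le_pow_left₀ (by nlinarith) hρ3 2
      calc G q ^ 2 * Qf e q ≤ θ ^ 2 * ρ ^ 2 := mul_le_mul a1 hq (undoD_Q_nonneg h.bin q) (sq_nonneg _)
        _ = (θ * ρ) ^ 2 := by ring
        _ ≤ r ^ 2 := a2
  · have b2 : ∀ y z : ℝ, y ^ 2 = 1 / 4 → -(G (y, z) * e.2.1 * y / r) = 0 := fun y z hy => by
      rcases he2 with h' | h'
      · rw [h']; simp
      · rw [G0 (y, z)]
        · simp
        · unfold Qf
          rw [h']
          dsimp only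
          nlinarith [mul_nonneg e3n (sq_nonneg z)]
    have b3 : ∀ y z : ℝ, z ^ 2 = 1 / 4 → -(G (y, z) * e.2.2 * z / r) = 0 := fun y z hz => by
      rcases he3 with h' | h'
      · rw [h']; simp
      · rw [G0 (y, z)]
        · simp
        · unfold Qf
          rw [h']
          dsimp only
          nlinarith [mul_nonneg e2n (sq_nonneg y)]
    have key := undoD_lim h.moll hF (D := fun q => -(dx (fun q : Y => -(G q * e.2.1 * q.1 / r)) q +
      dy (fun q : Y => -(G q * e.2.2 * q.2 / r)) q)) ((continuous_dx c2).add (continuous_dy c3)).neg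
    have e5 : ∫ q in cell2, -(dx (fun q : Y => -(G q * e.2.1 * q.1 / r)) q +
        dy (fun q : Y => -(G q * e.2.2 * q.2 / r)) q) * R214.fl F q = θ * (e.2.1 + e.2.2) * V / r := by
      have : θ * (e.2.1 + e.2.2) * V / r = ∫ q in cell2, θ * (e.2.1 + e.2.2) / r * R214.fl F q := by
        rw [integral_const_mul, integral_fl hF, h.good.vol]
        ring
      rw [this]
      refine integral_congr_ae (h.fl.mono fun q hq => ?_)
      dsimp only
      rcases le_or_gt (r ^ 2) (Qf e q) with hq' | hq'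
      · rw [hq, undoD_hf_zero hq']
        simp
      · have hn : ∀ᶠ q' in 𝓝 q, Qf e q' < r ^ 2 :=
          (isOpen_lt cQ.continuous continuous_const).mem_nhds hq'
        have x1 : dx (fun q : Y => -(G q * e.2.1 * q.1 / r)) q = -(θ * e.2.1 / r) := by
          have a1 := hasDerivAt_dx (y := q.1) (z := q.2) (c2.differentiable one_ne_zero _)
          have a2 : HasDerivAt (fun t : ℝ => -(θ * e.2.1 * t / r)) (-(θ * e.2.1 * 1 / r)) q.1 :=
            (((hasDerivAt_id q.1).const_mul (θ * e.2.1)).div_const r).neg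
          have a3 : ∀ᶠ t in 𝓝 q.1, Qf e (t, q.2) < r ^ 2 :=
            (Continuous.tendsto (f := fun t : ℝ => (t, q.2)) (by fun_prop) q.1).eventually hn
          have a4 := a2.congr_of_eventuallyEq (f₁ := fun t : ℝ => -(G (t, q.2) * e.2.1 * t / r))
            (a3.mono fun t ht => by simp only [G1 _ ht])
          rw [mul_one] at a4
          exact a1.unique a4
        have x2 : dy (fun q : Y => -(G q * e.2.2 * q.2 / r)) q = -(θ * e.2.2 / r) := by
          have a1 := hasDerivAt_dy (y := q.1) (z := q.2) (c3.differentiable one_ne_zero _)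
          have a2 : HasDerivAt (fun t : ℝ => -(θ * e.2.2 * t / r)) (-(θ * e.2.2 * 1 / r)) q.2 :=
            (((hasDerivAt_id q.2).const_mul (θ * e.2.2)).div_const r).neg
          have a3 : ∀ᶠ t in 𝓝 q.2, Qf e (q.1, t) < r ^ 2 :=
            (Continuous.tendsto (f := fun t : ℝ => (q.1, t)) (by fun_prop) q.2).eventually hn
          have a4 := a2.congr_of_eventuallyEq (f₁ := fun t : ℝ => -(G (q.1, t) * e.2.2 * t / r))
            (a3.mono fun t ht => by simp only [G1 _ ht])
          rw [mul_one] at a4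
          exact a1.unique a4
        rw [x1, x2]
        ring
    rw [e5] at key
    refine key.congr fun n => ?_
    exact (undoD_parts c2 c3 (fun z => ⟨b2 _ z (by norm_num), b2 _ z (by norm_num)⟩)
      (fun y => ⟨b3 y _ (by norm_num), b3 y _ (by norm_num)⟩) (h.moll.sm n)).symm

/-- `Moll.dual` for `(θ a σ + W₁, V₂ + W₂, V₃ + W₃)`, `σ p = if 0 ≤ d1 f p then 1 else -1`; `∫_cell a σ d1 f = ∫ a tv1 f`. -/
theorem UD.master {F : Set X} {V P r : ℝ} {e : X} {f : ℕ → X → ℝ} (h : UD F V P e r f) {θ : ℝ}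
    (h0 : 0 < θ) (h1 : θ < 1) {W₁ W₂ W₃ : ℕ → X → ℝ} (m1 : ∀ n, Measurable (W₁ n))
    (m2 : ∀ n, Measurable (W₂ n)) (m3 : ∀ n, Measurable (W₃ n))
    (z : ∀ n p, r ^ 2 ≤ Qf e p.2 → W₁ n p = 0 ∧ W₂ n p = 0 ∧ W₃ n p = 0)
    (le : ∀ n p, Qf e p.2 < r ^ 2 →
      (θ * (hf e r p.2 / r) * (if 0 ≤ d1 (f n) p then 1 else -1) + W₁ n p) ^ 2 +
        (-(θ * e.2.1 * p.2.1 / r) + W₂ n p) ^ 2 + (-(θ * e.2.2 * p.2.2 / r) + W₃ n p) ^ 2 ≤ 1)
    {ε : ℝ} (hε : 0 < ε) :
    ∀ᶠ n in atTop, θ / r * (∫ q in cell2, hf e r q * (tv1 (f n) q - 2)) +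
      ∫ p in cell, (W₁ n p * d1 (f n) p + W₂ n p * d2 (f n) p + W₃ n p * d3 (f n) p) ≤
        (1 - θ) * (nn e * V / r) + ε := by
  obtain ⟨V₂, V₃, c2, c3, hV, hΩ, hlim⟩ := h.field h0 h1
  filter_upwards [hlim.eventually (lt_mem_nhds (show θ * (e.2.1 + e.2.2) * V / r - ε <
    θ * (e.2.1 + e.2.2) * V / r by linarith))] with n hn
  have sm := h.moll.sm n
  have k1 := continuous_d1 sm
  have k2 := continuous_d2 sm
  have k3 := continuous_d3 sm
  have kt := continuous_tv1 sm
  have ch := continuous_hf e r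
  set U₁ : X → ℝ := fun p => θ * (hf e r p.2 / r) * (if 0 ≤ d1 (f n) p then 1 else -1) + W₁ n p with hU₁
  set U₂ : X → ℝ := fun p => V₂ p.2 + W₂ n p with hU₂
  set U₃ : X → ℝ := fun p => V₃ p.2 + W₃ n p with hU₃
  have mσ : Measurable fun p : X => if 0 ≤ d1 (f n) p then (1 : ℝ) else -1 :=
    Measurable.ite (measurableSet_le measurable_const k1.measurable) measurable_const measurable_const
  have u1 : Measurable U₁ :=
    ((by fun_prop : Continuous fun p : X => θ * (hf e r p.2 / r)).measurable.mul mσ).add (m1 n)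
  have u2 : Measurable U₂ := (by fun_prop : Continuous fun p : X => V₂ p.2).measurable.add (m2 n)
  have u3 : Measurable U₃ := (by fun_prop : Continuous fun p : X => V₃ p.2).measurable.add (m3 n)
  have hU : ∀ p, U₁ p ^ 2 + U₂ p ^ 2 + U₃ p ^ 2 ≤ 1 := fun p => by
    simp only [hU₁, hU₂, hU₃]
    rcases le_or_gt (r ^ 2) (Qf e p.2) with hq | hq
    · obtain ⟨z1, z2, z3⟩ := z n p hq
      rw [z1, z2, z3, undoD_hf_zero hq]
      simpa using hV p.2
    · rw [(hΩ _ hq).1, (hΩ _ hq).2]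
      exact le n p hq
  have hd := (h.moll.dual n U₁ U₂ U₃ u1 u2 u3 hU).trans h.le
  have bd : ∀ {U g : X → ℝ}, Measurable U → (∀ p, U p ^ 2 ≤ 1) → Continuous g →
      IntegrableOn (fun p => U p * g p) cell := fun {U g} hm hb hg =>
    (integrableOn_cell_of_cont hg).bdd_mul (c := 1) hm.aestronglyMeasurable
      (Eventually.of_forall fun p => by
        rw [Real.norm_eq_abs]
        exact sq_le_one_iff_abs_le_one _ |>.1 (hb p))
  have iU : IntegrableOn (fun p => U₁ p * d1 (f n) p + U₂ p * d2 (f n) p + U₃ p * d3 (f n) p) cell :=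
    ((bd u1 (fun p => by nlinarith [hU p, sq_nonneg (U₂ p), sq_nonneg (U₃ p)]) k1).add
      (bd u2 (fun p => by nlinarith [hU p, sq_nonneg (U₁ p), sq_nonneg (U₃ p)]) k2)).add
      (bd u3 (fun p => by nlinarith [hU p, sq_nonneg (U₁ p), sq_nonneg (U₂ p)]) k3)
  have i1 : IntegrableOn (fun p : X => θ / r * (hf e r p.2 * |d1 (f n) p|)) cell :=
    integrableOn_cell_of_cont (by fun_prop)
  have i2 : IntegrableOn (fun p : X => V₂ p.2 * d2 (f n) p + V₃ p.2 * d3 (f n) p) cell :=
    integrableOn_cell_of_cont (by fun_prop)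
  have e1 : ∫ p in cell, (W₁ n p * d1 (f n) p + W₂ n p * d2 (f n) p + W₃ n p * d3 (f n) p) =
      ∫ p in cell, ((U₁ p * d1 (f n) p + U₂ p * d2 (f n) p + U₃ p * d3 (f n) p) -
        θ / r * (hf e r p.2 * |d1 (f n) p|) - (V₂ p.2 * d2 (f n) p + V₃ p.2 * d3 (f n) p)) := by
    refine integral_congr_ae (Eventually.of_forall fun p => ?_)
    simp only [hU₁, hU₂, hU₃]
    split_ifs with h'
    · rw [abs_of_nonneg h']; ring
    · rw [abs_of_neg (not_le.1 h')]; ring
  have e2 : ∫ p in cell, hf e r p.2 * |d1 (f n) p| = ∫ q in cell2, hf e r q * tv1 (f n) q := by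
    rw [integral_cell_prod (integrableOn_cell_of_cont (by fun_prop))]
    refine integral_congr_ae (Eventually.of_forall fun q => ?_)
    dsimp only
    rw [integral_const_mul, tv1]
  have e3 : ∫ q in cell2, hf e r q * (tv1 (f n) q - 2) = (∫ q in cell2, hf e r q * tv1 (f n) q) - V := by
    have : V = ∫ q in cell2, 2 * hf e r q := by
      rw [integral_const_mul, h.integral_hf]
      ring
    rw [this, ← integral_sub (integrableOn_cell2_of_cont (by fun_prop)) (integrableOn_cell2_of_cont (by fun_prop))]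
    exact integral_congr_ae (Eventually.of_forall fun q => by dsimp only; ring)
  have i3 : IntegrableOn (fun p => (U₁ p * d1 (f n) p + U₂ p * d2 (f n) p + U₃ p * d3 (f n) p) -
      θ / r * (hf e r p.2 * |d1 (f n) p|)) cell := iU.sub i1
  rw [e1, integral_sub i3 i2, integral_sub iU i1, integral_const_mul, e2, e3]
  have e4 : (1 - θ) * (nn e * V / r) = nn e * V / r - θ / r * V - θ * (e.2.1 + e.2.2) * V / r := by
    unfold nn
    rw [h.e1]
    ring
  rw [e4]
  linarith

end Crest.Agent.R214
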