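import Crest.Agent.R214.StA
import Crest.Agent.R214.Moll

/-!
# R214/UndoDefs

Undoing a Steiner symmetrisation whose result is a model with `e.1 = 1`: definitions.
`F` has fibre length `2 √(r² - Q q)` and perimeter at most that of the model. Then (`UndoD`, `UndoE`) the gradient of the mollifications is asymptotically parallel to the normal of the model,
so a.e. fibre is an arc (`UndoA`, `UndoF`) and the centre of the arc is constant (`UndoB`, `UndoC`, `UndoG`, `UndoH`).
-/

set_option autoImplicit false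

open MeasureTheory Set Filter Real
open scoped Topology

noncomputable section

namespace Crest.Agent.R214

def Qf (e : X) (q : Y) : ℝ := e.2.1 * q.1 ^ 2 + e.2.2 * q.2 ^ 2
/-- half of the fibre length of the model -/
def hf (e : X) (r : ℝ) (q : Y) : ℝ := √(r ^ 2 - Qf e q)
def rect (s t : ℝ) : Set Y := Icc (-s) s ×ˢ Icc (-t) t
/-- the rectangle lies in the cell and in `{Q < r²}` -/
def RectOK (e : X) (r s t : ℝ) : Prop := 0 < s ∧ s < 1 / 2 ∧ 0 < t ∧ t < 1 / 2 ∧ Qf e (s, t) < r ^ 2
/-- fibrewise `L¹` distance -/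
def dl (F : Set X) (f : X → ℝ) (q : Y) : ℝ := ∫ x in I0, |f (x, q) - F.indicator 1 (x, q)|
/-- first Fourier coefficient of the fibre -/
def fc (F : Set X) (φ : ℝ) (q : Y) : ℝ := ∫ x in I0, F.indicator 1 (x, q) * cos (2 * π * x + φ)

structure UD (F : Set X) (V P : ℝ) (e : X) (r : ℝ) (f : ℕ → X → ℝ) : Prop where
  good : Good F V P
  moll : Moll F P f
  bin : Bin e
  e1 : e.1 = 1
  r0 : 0 < r
  r1 : r ≤ 1 / 3
  le : P ≤ nn e * V / r
  fl : ∀ᵐ q ∂(volume.restrict cell2), fl F q = 2 * hf e r q

end Crest.Agent.R214
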