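import Crest.Agent.R214.UndoD

/-!
# R214/UndoE

Consequences of the master inequality. `|x| = x + 2 max (-x) 0`, so `∫ hf |tv1 - 2| = ∫ hf (tv1 - 2) + 2 ∫ hf max (2 - tv1) 0`.
For the second and third statements put `b q = -e₂ y / hf q`, `g = d2 f - b |d1 f|`, `χ = 1_{q ∈ rect} sign g`, `W = τ (-b χ σ, χ, 0)`; `W` is orthogonal to
`(a σ, -e₂ y/r, -e₃ z/r)`, which has length one on `Ω`, `|W|² ≤ τ² M²`, `M² = 1 + 1/hf (s,t)²`, and `W · ∇f = τ 1_rect |g|`. Take `θ = √(1 - τ² M²)`; then `1 - θ ≤ τ² M²` and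
`limsup τ ∫ |g| ≤ τ² M² P'` for all small `τ > 0` (use `tv_neg` to bound the first term of `master` from below).
-/

set_option autoImplicit false

open MeasureTheory Set Filter Real
open scoped Topology

noncomputable section

namespace Crest.Agent.R214

theorem undoe_lim {a : ℕ → ℝ} (h0 : ∀ n, 0 ≤ a n) (h : ∀ δ > 0, ∀ᶠ n in atTop, a n ≤ δ) :
    Tendsto a atTop (𝓝 0) :=
  tendsto_order.2 ⟨fun _ hb => Eventually.of_forall fun n => hb.trans_le (h0 n),
    fun b hb => (h (b / 2) (half_pos hb)).mono fun _ hn => hn.trans_lt (half_lt_self hb)⟩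

theorem undoe_small {φ : ℝ → ℝ} (hφ : Continuous φ) (h0 : φ 0 = 0) {δ : ℝ} (hδ : 0 < δ) :
    ∀ᶠ τ in 𝓝[>] (0 : ℝ), φ τ < δ :=
  nhdsWithin_le_nhds (hφ.continuousAt.eventually_lt continuousAt_const (h0.trans_lt hδ))

theorem undoe_unit {e : X} (he : Bin e) {r : ℝ} (hr : 0 < r) {q : Y} (hq : Qf e q < r ^ 2) :
    (hf e r q / r) ^ 2 + (e.2.1 * q.1 / r) ^ 2 + (e.2.2 * q.2 / r) ^ 2 = 1 := by
  have h1 : hf e r q ^ 2 = r ^ 2 - Qf e q := Real.sq_sqrt (by linarith)
  have h2 : e.2.1 ^ 2 = e.2.1 := by rcases he.2.1 with h | h <;> simp [h]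
  have h3 : e.2.2 ^ 2 = e.2.2 := by rcases he.2.2 with h | h <;> simp [h]
  rw [div_pow, div_pow, div_pow, mul_pow, mul_pow, h1, h2, h3, Qf]
  field_simp
  ring

theorem undoe_alg {θ H r σ w β e2 e3 y z c2 c3 : ℝ} (hσ : σ ^ 2 = 1)
    (h1 : (H / r) ^ 2 + (e2 * y / r) ^ 2 + (e3 * z / r) ^ 2 = 1)
    (ho : w * (H * β) = w * (c2 * e2 * y + c3 * e3 * z)) :
    (θ * (H / r) * σ + w * (β * σ)) ^ 2 + (-(θ * e2 * y / r) + w * c2) ^ 2 + (-(θ * e3 * z / r) + w * c3) ^ 2 =
      θ ^ 2 + w ^ 2 * (β ^ 2 + c2 ^ 2 + c3 ^ 2) := by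
  linear_combination (θ * (H / r) + w * β) ^ 2 * hσ + θ ^ 2 * h1 + 2 * θ / r * ho

theorem undoe_sign (x : ℝ) : (if 0 ≤ x then (1 : ℝ) else -1) ^ 2 = 1 := by
  split_ifs <;> norm_num

theorem undoe_sign_mul (x : ℝ) : (if 0 ≤ x then (1 : ℝ) else -1) * x = |x| := by
  split_ifs with h
  · rw [one_mul, abs_of_nonneg h]
  · rw [neg_one_mul, abs_of_neg (not_le.1 h)]

theorem undoe_split {F : Set X} {V P r : ℝ} {e : X} {f : ℕ → X → ℝ} (h : UD F V P e r f) (n : ℕ) :
    (∫ q in cell2, hf e r q * |tv1 (f n) q - 2|) = (∫ q in cell2, hf e r q * (tv1 (f n) q - 2)) +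
        2 * ∫ q in cell2, hf e r q * max (2 - tv1 (f n) q) 0 ∧
      -(∫ q in cell2, hf e r q * max (2 - tv1 (f n) q) 0) ≤ ∫ q in cell2, hf e r q * (tv1 (f n) q - 2) := by
  have c1 := continuous_hf e r
  have c2 := continuous_tv1 (h.moll.sm n)
  have i1 : IntegrableOn (fun q => hf e r q * (tv1 (f n) q - 2)) cell2 := integrableOn_cell2_of_cont (by fun_prop)
  have i2 : IntegrableOn (fun q => hf e r q * max (2 - tv1 (f n) q) 0) cell2 :=
    integrableOn_cell2_of_cont (by fun_prop)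
  constructor
  · rw [← integral_const_mul, ← integral_add i1 (i2.const_mul 2)]
    refine integral_congr_ae (Eventually.of_forall fun q => ?_)
    beta_reduce
    rcases le_total (tv1 (f n) q) 2 with d | d
    · rw [abs_of_nonpos (by linarith), max_eq_left (by linarith)]
      ring
    · rw [abs_of_nonneg (by linarith), max_eq_right (by linarith)]
      ring
  · rw [← integral_neg]
    refine integral_mono i2.neg i1 fun q => ?_
    have h1 := mul_le_mul_of_nonneg_left (le_max_left (2 - tv1 (f n) q) 0) (Real.sqrt_nonneg (r ^ 2 - Qf e q))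
    beta_reduce
    unfold hf
    linarith

theorem undoe_par {F : Set X} {V P r : ℝ} {e : X} {f : ℕ → X → ℝ} (h : UD F V P e r f) {s t : ℝ}
    (hK : RectOK e r s t) {c2 c3 : ℝ} (hc : c2 ^ 2 + c3 ^ 2 = 1) :
    Tendsto (fun n => ∫ q in rect s t, ∫ x in I0, |c2 * d2 (f n) (x, q) + c3 * d3 (f n) (x, q) +
      (c2 * e.2.1 * q.1 + c3 * e.2.2 * q.2) / hf e r q * abs (d1 (f n) (x, q))|) atTop (𝓝 0) := by
  classical
  refine undoe_lim (fun n => integral_nonneg fun q => integral_nonneg fun x => abs_nonneg _) fun δ hδ => ?_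
  obtain ⟨h0, hm⟩ := hK.hf_mem h.bin h.r0
  have hr := h.r0
  obtain ⟨β, hβ⟩ : ∃ β : Y → ℝ, ∀ q, β q = (c2 * e.2.1 * q.1 + c3 * e.2.2 * q.2) / hf e r q := ⟨_, fun _ => rfl⟩
  have mβ : Measurable β := by
    have := (continuous_hf e r).measurable
    rw [show β = _ from funext hβ]
    fun_prop
  have bβ : ∀ q ∈ rect s t, |β q| ≤ 1 / hf e r (s, t) := by
    intro q hq
    have a1 : |c2| ≤ 1 := abs_le_one_iff_mul_self_le_one.2 (by nlinarith [sq_nonneg c3])
    have a2 : |c3| ≤ 1 := abs_le_one_iff_mul_self_le_one.2 (by nlinarith [sq_nonneg c2])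
    have a3 : |e.2.1| ≤ 1 := by rcases h.bin.2.1 with d | d <;> simp [d]
    have a4 : |e.2.2| ≤ 1 := by rcases h.bin.2.2 with d | d <;> simp [d]
    have a5 : |q.1| ≤ 1 / 2 := (abs_le.2 hq.1).trans hK.2.1.le
    have a6 : |q.2| ≤ 1 / 2 := (abs_le.2 hq.2).trans hK.2.2.2.1.le
    rw [hβ, abs_div, abs_of_pos (h0.trans_le (hm q hq).2.1)]
    refine div_le_div₀ zero_le_one ((abs_add_le _ _).trans ?_) h0 (hm q hq).2.1
    rw [abs_mul, abs_mul, abs_mul, abs_mul]
    calc _ ≤ 1 * 1 * (1 / 2 : ℝ) + 1 * 1 * (1 / 2) := by gcongr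
      _ = 1 := by norm_num
  obtain ⟨K, hK'⟩ : ∃ K : ℝ, K = (1 / hf e r (s, t)) ^ 2 + 1 := ⟨_, rfl⟩
  have hK0 : 0 < K := by rw [hK']; positivity
  have hP : 0 ≤ nn e * V / r := h.good.le.nonneg.trans h.le
  obtain ⟨τ, ⟨t1, t2⟩, t0⟩ := (((undoe_small (φ := fun τ => τ ^ 2 * K) (by fun_prop) (by simp) one_pos).and
    (undoe_small (φ := fun τ => τ * K * (nn e * V / r)) (by fun_prop) (by simp)
      (show 0 < δ / 3 by positivity))).and self_mem_nhdsWithin).exists
  have t0' : 0 < τ := t0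
  have t3 : 0 < τ ^ 2 * K := by positivity
  set θ := √(1 - τ ^ 2 * K) with hθ
  have θ0 : 0 < θ := Real.sqrt_pos.2 (by linarith)
  have θ2 : θ ^ 2 = 1 - τ ^ 2 * K := Real.sq_sqrt (by linarith)
  have θ1 : θ < 1 := by nlinarith
  have θ3 : 1 - θ ≤ τ ^ 2 * K := by nlinarith
  obtain ⟨g, hg⟩ : ∃ g : ℕ → X → ℝ, ∀ n p,
      g n p = c2 * d2 (f n) p + c3 * d3 (f n) p + β p.2 * |d1 (f n) p| := ⟨_, fun _ _ => rfl⟩
  have mg : ∀ n, Measurable (g n) := fun n => by
    have a1 := (continuous_d1 (h.moll.sm n)).measurable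
    have a2 := (continuous_d2 (h.moll.sm n)).measurable
    have a3 := (continuous_d3 (h.moll.sm n)).measurable
    rw [show g n = _ from funext (hg n)]
    fun_prop
  have mR : MeasurableSet {p : X | p.2 ∈ rect s t} := measurable_snd (measurableSet_rect s t)
  obtain ⟨w, hw⟩ : ∃ w : ℕ → X → ℝ, ∀ n p,
      w n p = if p.2 ∈ rect s t then τ * (if 0 ≤ g n p then 1 else -1) else 0 := ⟨_, fun _ _ => rfl⟩
  have mw : ∀ n, Measurable (w n) := fun n => by
    rw [show w n = _ from funext (hw n)]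
    exact Measurable.ite mR ((Measurable.ite (measurableSet_le measurable_const (mg n)) measurable_const
      measurable_const).const_mul τ) measurable_const
  have hmas := h.master θ0 θ1 (W₁ := fun n p => w n p * (β p.2 * if 0 ≤ d1 (f n) p then 1 else -1))
    (W₂ := fun n p => w n p * c2) (W₃ := fun n p => w n p * c3)
    (fun n => (mw n).mul ((mβ.comp measurable_snd).mul (Measurable.ite
      (measurableSet_le measurable_const (continuous_d1 (h.moll.sm n)).measurable) measurable_const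
      measurable_const)))
    (fun n => (mw n).mul_const _) (fun n => (mw n).mul_const _)
    (fun n p hp => by
      have : w n p = 0 := by rw [hw, if_neg fun hq => (hm _ hq).1.not_ge hp]
      simp [this])
    (fun n p hp => by
      rw [undoe_alg (undoe_sign _) (undoe_unit h.bin hr hp), hw]
      · split_ifs with hq
        · have a1 := pow_le_pow_left₀ (abs_nonneg _) (bβ _ hq) 2
          rw [sq_abs] at a1
          have a2 := mul_le_mul_of_nonneg_left (show β p.2 ^ 2 + c2 ^ 2 + c3 ^ 2 ≤ K by linarith) (sq_nonneg τ)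
          linarith
        · have a1 := pow_le_pow_left₀ (abs_nonneg _) (bβ _ hq) 2
          rw [sq_abs] at a1
          have a2 := mul_le_mul_of_nonneg_left (show β p.2 ^ 2 + c2 ^ 2 + c3 ^ 2 ≤ K by linarith) (sq_nonneg τ)
          linarith
        · linarith
      · by_cases hq : p.2 ∈ rect s t
        · rw [hβ, mul_div_cancel₀ _ (h0.trans_le (hm _ hq).2.1).ne']
        · rw [hw, if_neg hq, zero_mul, zero_mul])
    (show 0 < τ * δ / 3 by positivity)
  filter_upwards [hmas, h.tv_neg.eventually_le_const (show 0 < r * (τ * δ / 3) by positivity)] with n h1 h2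
  have e1 : ∀ p, w n p * (β p.2 * if 0 ≤ d1 (f n) p then 1 else -1) * d1 (f n) p + w n p * c2 * d2 (f n) p +
      w n p * c3 * d3 (f n) p = τ * if p.2 ∈ rect s t then |g n p| else 0 := fun p => by
    have a1 : w n p * g n p = τ * if p.2 ∈ rect s t then |g n p| else 0 := by
      rw [hw]
      by_cases hq : p.2 ∈ rect s t
      · rw [if_pos hq, if_pos hq, mul_assoc, undoe_sign_mul]
      · rw [if_neg hq, if_neg hq, zero_mul, mul_zero]
    rw [← a1, hg, ← undoe_sign_mul (d1 (f n) p)]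
    ring
  have i1 : IntegrableOn (fun p : X => if p.2 ∈ rect s t then |g n p| else 0) cell := by
    obtain ⟨C1, -, b1⟩ := (h.moll.pd n).d1.exists_bound (continuous_d1 (h.moll.sm n))
    obtain ⟨C2, p2, b2⟩ := (h.moll.pd n).d2.exists_bound (continuous_d2 (h.moll.sm n))
    obtain ⟨C3, p3, b3⟩ := (h.moll.pd n).d3.exists_bound (continuous_d3 (h.moll.sm n))
    have p1 : 0 ≤ C1 := (abs_nonneg _).trans (b1 0)
    refine integrableOn_cell_of_bdd (Measurable.ite mR (mg n).abs measurable_const)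
      (C := |c2| * C2 + |c3| * C3 + 1 / hf e r (s, t) * C1) fun p => ?_
    split_ifs with hq
    · rw [abs_abs, hg]
      refine (abs_add_three _ _ _).trans ?_
      rw [abs_mul, abs_mul, abs_mul, abs_abs]
      have := bβ _ hq
      gcongr
      exacts [b2 p, b3 p, b1 p]
    · rw [abs_zero]
      positivity
  have e2 : (∫ p in cell, if p.2 ∈ rect s t then |g n p| else 0) = ∫ q in rect s t, ∫ x in I0, |g n (x, q)| := by
    rw [integral_cell_prod i1, ← inter_eq_right.2 hK.sub, ← setIntegral_indicator (measurableSet_rect s t),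
      inter_eq_right.2 hK.sub]
    refine integral_congr_ae (Eventually.of_forall fun q => ?_)
    by_cases hq : q ∈ rect s t
    · simp only [hq, if_true, indicator_of_mem]
    · simp only [hq, if_false, integral_zero, not_false_eq_true, indicator_of_notMem]
  simp only [e1] at h1
  rw [integral_const_mul, e2] at h1
  simp only [hg, hβ] at h1
  refine le_of_mul_le_mul_left ?_ t0'
  have a1 := mul_le_mul_of_nonneg_left ((neg_le_neg h2).trans (undoe_split h n).2) (div_pos θ0 hr).le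
  have a2 : θ / r * -(r * (τ * δ / 3)) = -(θ * (τ * δ / 3)) := by field_simp
  have a3 := mul_le_mul_of_nonneg_right θ1.le (show 0 ≤ τ * δ / 3 by positivity)
  have a4 := mul_le_mul_of_nonneg_right θ3 hP
  have a5 := mul_le_mul_of_nonneg_left t2.le t0'.le
  linarith

theorem UD.tv {F : Set X} {V P r : ℝ} {e : X} {f : ℕ → X → ℝ} (h : UD F V P e r f) {s t : ℝ}
    (hK : RectOK e r s t) :
    Tendsto (fun n => ∫ q in rect s t, |tv1 (f n) q - 2|) atTop (𝓝 0) := by
  refine undoe_lim (fun n => integral_nonneg fun q => abs_nonneg _) fun δ hδ => ?_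
  obtain ⟨h0, hm⟩ := hK.hf_mem h.bin h.r0
  have hr := h.r0
  obtain ⟨η, hη⟩ : ∃ η, η = hf e r (s, t) * δ / (4 * r + 2) := ⟨_, rfl⟩
  have η0 : 0 < η := by rw [hη]; positivity
  obtain ⟨κ, ⟨t1, t2⟩, t0⟩ := (((undoe_small (φ := fun κ => κ) (by fun_prop) rfl one_half_pos).and
    (undoe_small (φ := fun κ => κ * (nn e * V / r)) (by fun_prop) (by simp) η0)).and self_mem_nhdsWithin).exists
  have t0' : 0 < κ := t0
  have hmas := h.master (θ := 1 - κ) (by linarith) (by linarith) (W₁ := fun _ _ => 0) (W₂ := fun _ _ => 0)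
    (W₃ := fun _ _ => 0) (fun _ => measurable_const) (fun _ => measurable_const) (fun _ => measurable_const)
    (fun _ _ _ => ⟨rfl, rfl, rfl⟩) (fun n p hp => by
      have a1 := undoe_alg (θ := 1 - κ) (w := 0) (β := 0) (c2 := 0) (c3 := 0) (undoe_sign (d1 (f n) p))
        (undoe_unit h.bin hr hp) (by simp)
      simp only [zero_mul] at a1
      rw [a1]
      nlinarith) η0
  filter_upwards [hmas, h.tv_neg.eventually_le_const η0] with n h1 h2
  simp only [zero_mul, add_zero, integral_zero, sub_sub_cancel] at h1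
  have c1 := continuous_hf e r
  have c2 := continuous_tv1 (h.moll.sm n)
  have i1 : IntegrableOn (fun q => hf e r q * |tv1 (f n) q - 2|) cell2 := integrableOn_cell2_of_cont (by fun_prop)
  have i2 : IntegrableOn (fun q => hf e r (s, t) * |tv1 (f n) q - 2|) cell2 :=
    integrableOn_cell2_of_cont (by fun_prop)
  have a1 : hf e r (s, t) * ∫ q in rect s t, |tv1 (f n) q - 2| ≤ ∫ q in cell2, hf e r q * |tv1 (f n) q - 2| := by
    rw [← integral_const_mul]
    refine (setIntegral_mono_on (i2.mono_set hK.sub) (i1.mono_set hK.sub) (measurableSet_rect s t) fun q hq =>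
      mul_le_mul_of_nonneg_right (hm q hq).2.1 (abs_nonneg _)).trans
      (setIntegral_mono_set i1 (Eventually.of_forall fun q => mul_nonneg (Real.sqrt_nonneg _) (abs_nonneg _))
        hK.sub.eventuallyLE)
  rw [(undoe_split h n).1] at a1
  have a2 : ∫ q in cell2, hf e r q * (tv1 (f n) q - 2) ≤ 4 * r * η := by
    rw [div_mul_eq_mul_div, ← sub_nonneg] at h1
    by_contra a3
    have a4 := mul_lt_mul_of_pos_left (not_le.1 a3) (show 0 < 1 - κ by linarith)
    have a5 := (div_lt_div_iff_of_pos_right hr).2 a4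
    have a6 : (1 - κ) * (4 * r * η) / r = 4 * η - 4 * (κ * η) := by field_simp
    have a7 := mul_le_mul_of_nonneg_right t1.le η0.le
    linarith
  refine le_of_mul_le_mul_left (a1.trans ?_) h0
  have a3 : hf e r (s, t) * δ = (4 * r + 2) * η := by rw [hη]; field_simp
  linarith

theorem UD.par2 {F : Set X} {V P r : ℝ} {e : X} {f : ℕ → X → ℝ} (h : UD F V P e r f) {s t : ℝ}
    (hK : RectOK e r s t) :
    Tendsto (fun n => ∫ q in rect s t, ∫ x in I0,
      |d2 (f n) (x, q) + e.2.1 * q.1 / hf e r q * abs (d1 (f n) (x, q))|) atTop (𝓝 0) := by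
  simpa only [one_mul, zero_mul, add_zero] using undoe_par h hK (c2 := 1) (c3 := 0) (by norm_num)

theorem UD.par3 {F : Set X} {V P r : ℝ} {e : X} {f : ℕ → X → ℝ} (h : UD F V P e r f) {s t : ℝ}
    (hK : RectOK e r s t) :
    Tendsto (fun n => ∫ q in rect s t, ∫ x in I0,
      |d3 (f n) (x, q) + e.2.2 * q.2 / hf e r q * abs (d1 (f n) (x, q))|) atTop (𝓝 0) := by
  simpa only [one_mul, zero_mul, zero_add] using undoe_par h hK (c2 := 0) (c3 := 1) (by norm_num)

end Crest.Agent.R214
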