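import Crest.Agent.R214.UndoE
import Crest.Agent.R214.UndoB

/-!
# R214/UndoF

A.e. fibre is an arc; the pointwise bound for the derivative of the Fourier coefficient.
-/

set_option autoImplicit false

open MeasureTheory Set Filter Real
open scoped Topology

noncomputable section

namespace Crest.Agent.R214

theorem undoF_freq {μ : Measure Y} {u : ℕ → Y → ℝ} (hm : ∀ n, Measurable (u n)) (h0 : ∀ n q, 0 ≤ u n q)
    (hi : ∀ n, Integrable (u n) μ) (hl : Tendsto (fun n => ∫ q, u n q ∂μ) atTop (𝓝 0)) :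
    ∀ᵐ q ∂μ, ∃ᶠ n in atTop, u n q ≤ 1 := by
  have h1 := lintegral_liminf_le (μ := μ) (u := atTop) (f := fun n q => ENNReal.ofReal (u n q))
    fun n => (hm n).ennreal_ofReal
  have h2 : Tendsto (fun n => ∫⁻ q, ENNReal.ofReal (u n q) ∂μ) atTop (𝓝 0) := by
    have := ENNReal.tendsto_ofReal hl
    rw [ENNReal.ofReal_zero] at this
    refine this.congr fun n => ?_
    exact ofReal_integral_eq_lintegral_ofReal (hi n) (Eventually.of_forall (h0 n))
  rw [h2.liminf_eq, nonpos_iff_eq_zero,
    lintegral_eq_zero_iff (Measurable.liminf fun n => (hm n).ennreal_ofReal)] at h1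
  filter_upwards [h1] with q hq
  by_contra hn
  rw [not_frequently] at hn
  have : (1 : ENNReal) ≤ liminf (fun n => ENNReal.ofReal (u n q)) atTop :=
    le_liminf_of_le (h := hn.mono fun n h => ENNReal.one_le_ofReal.2 (not_le.1 h).le)
  rw [hq] at this
  simp at this

theorem undoF_ae {Q : X → Prop} (h : ∀ᵐ p : X, Q p) : ∀ᵐ q : Y, ∀ᵐ x : ℝ, Q (x, q) :=
  Measure.ae_ae_of_ae_prod
    ((Measure.measurePreserving_swap (μ := (volume : Measure Y))
      (ν := (volume : Measure ℝ))).quasiMeasurePreserving.ae h)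

theorem undoF_deriv {f : X → ℝ} (hf : ContDiff ℝ 1 f) (q : Y) (x : ℝ) :
    HasDerivAt (fun t => f (t, q)) (d1 f (x, q)) x :=
  hasDerivAt_d1 (y := q.1) (z := q.2) (hf.differentiable one_ne_zero _)

theorem undoF_cont {f : X → ℝ} (hf : ContDiff ℝ 1 f) (q : Y) : Continuous fun x => d1 f (x, q) :=
  (continuous_d1 hf).comp (Continuous.prodMk_left q)

/-- If `∫_K u n → 0` with `u n ≥ 0` measurable and integrable, then a.e. `u n ≤ 1` frequently (Fatou `lintegral_liminf_le`, or
`tendstoInMeasure_of_tendsto_eLpNorm` and a subsequence). `Moll.lim` holds on a.e. fibre (`Measure.ae_ae_of_ae_prod` after swapping). `arc_of_tv`. -/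
theorem UD.arcs {F : Set X} {V P r : ℝ} {e : X} {f : ℕ → X → ℝ} (h : UD F V P e r f) {s t : ℝ}
    (hK : RectOK e r s t) :
    ∀ᵐ q ∂(volume.restrict (rect s t)), ∃ c,
      {x | (x, q) ∈ F} =ᵐ[volume] {x | tri (x - c) < 2 * hf e r q / 2} := by
  have c : ∀ n, Continuous fun q => |tv1 (f n) q - 2| := fun n =>
    ((continuous_tv1 (h.moll.sm n)).sub continuous_const).abs
  have h1 := undoF_freq (μ := volume.restrict (rect s t)) (fun n => (c n).measurable)
    (fun n q => abs_nonneg _) (fun n => (c n).continuousOn.integrableOn_compact (isCompact_rect s t)) (h.tv hK)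
  obtain ⟨h2, h3⟩ := hK.hf_mem h.bin h.r0
  filter_upwards [h1, ae_restrict_of_ae (undoF_ae h.moll.lim), ae_restrict_of_ae_restrict_of_subset hK.sub h.fl,
    ae_restrict_mem (measurableSet_rect s t)] with q a1 a2 a3 a4
  obtain ⟨-, b1, b2⟩ := h3 q a4
  refine arc_of_tv (A := {x | (x, q) ∈ F}) (measurable_prodMk_right h.good.meas) (fun n x => ?_)
    (g := fun n x => f n (x, q)) (g' := fun n x => d1 (f n) (x, q)) (fun n => undoF_deriv (h.moll.sm n) q)
    (fun n => undoF_cont (h.moll.sm n) q) (fun n => (h.moll.pd n).periodic1 q) a2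
    (a1.mono fun n hn => ?_) a3 (by linarith) (by linarith [h.r1])
  · have := h.good.per n 0 0 (x, q)
    simpa [Prod.mk_zero_zero] using this
  · have := (abs_le.1 hn).2
    rw [tv1] at this
    linarith

/-- For an arc of length `l`, `fc = cos (2πc + φ) sin (π l)/π` (`integral_arc_cos`); `∫ D w = ∫ (D - b |g'|) w + b ∫ |g'| w`, `tv_weight_cos`. -/
theorem fourier_bound {F : Set X} (hF : MeasurableSet F) {f : X → ℝ} (hf : ContDiff ℝ 1 f) (pf' : Pd f)
    {q : Y} {c l : ℝ} (h0 : 0 < l) (h1 : l < 1)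
    (e : {x | (x, q) ∈ F} =ᵐ[volume] {x | tri (x - c) < l / 2}) {D : ℝ → ℝ} (hD : Continuous D)
    (b φ : ℝ) :
    |(∫ x in I0, D x * cos (2 * π * x + φ)) * sin (π * l) - fc F φ q * (π * cos (π * l) * (2 * b))| ≤
      (∫ x in I0, |D x - b * abs (d1 f (x, q))|) + |b| * (|tv1 f q - 2| + 30 / sin (π * l) * dl F f q) := by
  have hA : MeasurableSet {x | (x, q) ∈ F} := measurable_prodMk_right hF
  have e1 : fc F φ q = cos (2 * π * c + φ) * sin (π * l) / π := integral_arc_cos h0.le h1.le e φ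
  have e2 : |(∫ x in I0, |d1 f (x, q)| * cos (2 * π * x + φ)) - 2 * cos (2 * π * c + φ) * cos (π * l)| ≤
      |tv1 f q - 2| + 30 / sin (π * l) * dl F f q :=
    tv_weight_cos (undoF_deriv hf q) (undoF_cont hf q) (pf'.periodic1 q) hA h0 h1 e φ
  have cw : Continuous fun x : ℝ => cos (2 * π * x + φ) := by fun_prop
  have cg := (undoF_cont hf q).abs
  have cD : Continuous fun x => D x - b * |d1 f (x, q)| := hD.sub (continuous_const.mul cg)
  have e3 : ∫ x in I0, D x * cos (2 * π * x + φ) =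
      (∫ x in I0, (D x - b * |d1 f (x, q)|) * cos (2 * π * x + φ)) +
        b * ∫ x in I0, |d1 f (x, q)| * cos (2 * π * x + φ) := by
    rw [← integral_const_mul, ← integral_add (integrableOn_I0_of_cont (cD.fun_mul cw))
      (integrableOn_I0_of_cont (continuous_const.fun_mul (cg.fun_mul cw)))]
    congr 1
    funext x
    ring
  have e4 : |∫ x in I0, (D x - b * |d1 f (x, q)|) * cos (2 * π * x + φ)| ≤
      ∫ x in I0, |D x - b * abs (d1 f (x, q))| := by
    refine abs_integral_le_integral_abs.trans (integral_mono (integrableOn_I0_of_cont (cD.mul cw).abs)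
      (integrableOn_I0_of_cont cD.abs) fun x => ?_)
    simp only [abs_mul]
    exact mul_le_of_le_one_right (abs_nonneg _) (abs_cos_le_one _)
  rw [e1, e3]
  obtain ⟨U, hU⟩ : ∃ U, U = ∫ x in I0, (D x - b * |d1 f (x, q)|) * cos (2 * π * x + φ) := ⟨_, rfl⟩
  obtain ⟨W, hW⟩ : ∃ W, W = ∫ x in I0, |d1 f (x, q)| * cos (2 * π * x + φ) := ⟨_, rfl⟩
  rw [← hU] at e4 ⊢
  rw [← hW] at e2 ⊢
  have e5 : (U + b * W) * sin (π * l) - cos (2 * π * c + φ) * sin (π * l) / π * (π * cos (π * l) * (2 * b)) =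
      (U + b * (W - 2 * cos (2 * π * c + φ) * cos (π * l))) * sin (π * l) := by
    field_simp
    ring
  rw [e5, abs_mul]
  refine (mul_le_of_le_one_right (abs_nonneg _) (abs_sin_le_one _)).trans ((abs_add_le _ _).trans ?_)
  rw [abs_mul]
  exact add_le_add e4 (mul_le_mul_of_nonneg_left e2 (abs_nonneg _))

theorem abs_av1_sub_fc {F : Set X} (hF : MeasurableSet F) {f : X → ℝ} (hf : Continuous f) (φ : ℝ) (q : Y) :
    |av1 (fun p => f p * cos (2 * π * p.1 + φ)) q - fc F φ q| ≤ dl F f q := by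
  have cw : Continuous fun x : ℝ => cos (2 * π * x + φ) := by fun_prop
  have cf : Continuous fun x : ℝ => f (x, q) := hf.comp (Continuous.prodMk_left q)
  have i1 : IntegrableOn (fun x : ℝ => F.indicator (1 : X → ℝ) (x, q)) I0 :=
    (integrable_const (1 : ℝ)).indicator (s := {x | (x, q) ∈ F}) (measurable_prodMk_right hF)
  have i2 : IntegrableOn (fun x : ℝ => F.indicator (1 : X → ℝ) (x, q) * cos (2 * π * x + φ)) I0 :=
    i1.mul_bdd (c := 1) cw.aestronglyMeasurable (Eventually.of_forall fun x => abs_cos_le_one _)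
  have i3 := integrableOn_I0_of_cont (cf.fun_mul cw)
  rw [av1, fc, dl, ← integral_sub i3 i2]
  refine abs_integral_le_integral_abs.trans (integral_mono (i3.sub i2).abs
    ((integrableOn_I0_of_cont cf).sub i1).abs fun x => ?_)
  simp only [← sub_mul, abs_mul]
  exact mul_le_of_le_one_right (abs_nonneg _) (abs_cos_le_one _)

end Crest.Agent.R214
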