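import Crest.Agent.R214.UndoF

/-!
# R214/UndoG

The normalised Fourier coefficient is constant. `Φ n = av1 (fun p => f n p * cos (2π p.1 + φ))` is `C¹` with `dx (Φ n) q = ∫ d2 (f n) (x, q) cos (2πx + φ)` (`dx_av1`),
`l = 2 hf`, `∂_y l = 2b`, `b = -e₂ y / hf`, `S = sin (π l) ≥ S₀ > 0` on the rectangle (`0 < l ≤ 2/3`, compactness), `H n = Φ n / S`,
`A n = (dx (Φ n) S - Φ n π cos (π l) 2b)/S²`. By `fourier_bound`, `abs_av1_sub_fc`: `|A n| ≤ C (∫|d2 f - b|d1 f|| + |tv1 - 2| + dl)` a.e. on the rectangle.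
Conclude with `ae_const_of_deriv`, `G = fc / S`.
-/

set_option autoImplicit false

open MeasureTheory Set Filter Real
open scoped Topology

noncomputable section

namespace Crest.Agent.R214

theorem UndoG_S {F : Set X} {V P r : ℝ} {e : X} {f : ℕ → X → ℝ} (h : UD F V P e r f) {s t : ℝ}
    (hK : RectOK e r s t) : ∃ S0 > 0, ∀ q ∈ rect s t, (0 < 2 * hf e r q ∧ 2 * hf e r q < 1) ∧
      S0 ≤ sin (π * (2 * hf e r q)) := by
  obtain ⟨h0, h1⟩ := hK.hf_mem h.bin h.r0
  have hl : ∀ q ∈ rect s t, 0 < 2 * hf e r q ∧ 2 * hf e r q < 1 := fun q hq => by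
    have := h1 q hq
    constructor <;> linarith [h.r1, this.2.1, this.2.2]
  have hc := continuous_hf e r
  obtain ⟨S0, h2, h3⟩ := (isCompact_rect s t).exists_forall_le' (f := fun q => sin (π * (2 * hf e r q)))
    (by fun_prop) (a := 0) fun q hq => sin_pos_of_pos_of_lt_pi (mul_pos pi_pos (hl q hq).1)
      (by simpa using mul_lt_mul_of_pos_left (hl q hq).2 pi_pos)
  exact ⟨S0, h2, fun q hq => ⟨hl q hq, h3 q hq⟩⟩

theorem UndoG_dl {F : Set X} {V P r : ℝ} {e : X} {f : ℕ → X → ℝ} (h : UD F V P e r f) {s t : ℝ}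
    (hK : RectOK e r s t) : (∀ n, IntegrableOn (dl F (f n)) (rect s t)) ∧
      Tendsto (fun n => ∫ q in rect s t, dl F (f n) q) atTop (𝓝 0) := by
  have hi : ∀ n, IntegrableOn (dl F (f n)) cell2 := fun n =>
    integrableOn_cell2_of_bdd (measurable_dl h.good.meas (h.moll.sm n).continuous) (C := 1) fun q => by
      have := dl_mem F (h.moll.mem n) q
      rw [abs_of_nonneg this.1]; exact this.2
  refine ⟨fun n => (hi n).mono_set hK.sub, squeeze_zero (fun n => integral_nonneg fun q =>
    (dl_mem F (h.moll.mem n) q).1) (fun n => ?_) (h.moll.dl_tendsto h.good.meas)⟩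
  exact setIntegral_mono_set (hi n) (Eventually.of_forall fun q => (dl_mem F (h.moll.mem n) q).1)
    hK.sub.eventuallyLE

theorem UndoG_lim {F : Set X} {V P r : ℝ} {e : X} {f : ℕ → X → ℝ} (h : UD F V P e r f) {s t : ℝ}
    (hK : RectOK e r s t) (φ : ℝ) {D : ℕ → X → ℝ} (cD : ∀ n, Continuous (D n)) {b : Y → ℝ}
    (cb : Continuous b)
    (lim : Tendsto (fun n => ∫ q in rect s t, ∫ x in I0, |D n (x, q) - b q * abs (d1 (f n) (x, q))|)
      atTop (𝓝 0)) :
    Tendsto (fun n => ∫ q in rect s t,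
      |(av1 (fun p => D n p * cos (2 * π * p.1 + φ)) q * sin (π * (2 * hf e r q)) -
        av1 (fun p => f n p * cos (2 * π * p.1 + φ)) q * (π * cos (π * (2 * hf e r q)) * (2 * b q))) /
          sin (π * (2 * hf e r q)) ^ 2|) atTop (𝓝 0) := by
  obtain ⟨S0, hS0, hS⟩ := UndoG_S h hK
  obtain ⟨M, hM⟩ := (isCompact_rect s t).exists_bound_of_continuousOn cb.continuousOn
  obtain ⟨i3, l3⟩ := UndoG_dl h hK
  have i1 : ∀ n, IntegrableOn (fun q => ∫ x in I0, |D n (x, q) - b q * abs (d1 (f n) (x, q))|) (rect s t) :=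
    fun n => by
      have := continuous_d1 (h.moll.sm n)
      have := cD n
      exact (continuous_av1 (f := fun p => |D n p - b p.2 * abs (d1 (f n) p)|)
        (by fun_prop)).continuousOn.integrableOn_compact (isCompact_rect s t)
  have i2 : ∀ n, IntegrableOn (fun q => |tv1 (f n) q - 2|) (rect s t) := fun n =>
    ((continuous_tv1 (h.moll.sm n)).sub continuous_const).abs.continuousOn.integrableOn_compact
      (isCompact_rect s t)
  have L := ((lim.add ((h.tv hK).const_mul M)).add (l3.const_mul (M * (30 / S0 + 2 * π)))).div_const (S0 ^ 2)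
  simp only [mul_zero, add_zero, zero_div] at L
  refine squeeze_zero (fun n => integral_nonneg fun q => abs_nonneg _) (fun n => ?_) L
  have j1 : IntegrableOn (fun q => (∫ x in I0, |D n (x, q) - b q * abs (d1 (f n) (x, q))|) +
      M * |tv1 (f n) q - 2|) (rect s t) := (i1 n).add ((i2 n).const_mul M)
  rw [← integral_const_mul, ← integral_const_mul, ← integral_add (i1 n) ((i2 n).const_mul M),
    ← integral_add j1 ((i3 n).const_mul _), ← integral_div]
  refine integral_mono_of_nonneg (Eventually.of_forall fun q => abs_nonneg _)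
    ((j1.add ((i3 n).const_mul _)).div_const _) ?_
  filter_upwards [h.arcs hK, ae_restrict_mem (measurableSet_rect s t)] with q ⟨c, hc⟩ hq
  obtain ⟨⟨l0, l1⟩, hSq⟩ := hS q hq
  have a1 := fourier_bound h.good.meas (h.moll.sm n) (h.moll.pd n) l0 l1 hc
    (D := fun x => D n (x, q)) ((cD n).comp (by fun_prop)) (b q) φ
  have a2 := abs_av1_sub_fc h.good.meas (h.moll.sm n).continuous φ q
  have a3 : |b q| ≤ M := hM q hq
  have a4 := (dl_mem F (h.moll.mem n) q).1
  have a5 : |π * cos (π * (2 * hf e r q)) * (2 * b q)| ≤ π * 1 * (2 * M) := by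
    rw [abs_mul, abs_mul, abs_mul, abs_of_pos pi_pos, abs_two]
    gcongr
    exact abs_cos_le_one _
  have a6 : |b q| * (|tv1 (f n) q - 2| + 30 / sin (π * (2 * hf e r q)) * dl F (f n) q) ≤
      M * (|tv1 (f n) q - 2| + 30 / S0 * dl F (f n) q) := by
    have : 0 < sin (π * (2 * hf e r q)) := hS0.trans_le hSq
    have : 0 ≤ M := (abs_nonneg _).trans a3
    gcongr
  rw [abs_div, abs_of_nonneg (sq_nonneg (sin _))]
  refine div_le_div₀ (by have := (abs_nonneg _).trans a3; positivity) ?_ (by positivity)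
    (pow_le_pow_left₀ hS0.le hSq 2)
  have a7 := abs_sub_le (av1 (fun p => D n p * cos (2 * π * p.1 + φ)) q * sin (π * (2 * hf e r q)))
    (fc F φ q * (π * cos (π * (2 * hf e r q)) * (2 * b q)))
    (av1 (fun p => f n p * cos (2 * π * p.1 + φ)) q * (π * cos (π * (2 * hf e r q)) * (2 * b q)))
  rw [← sub_mul, abs_mul, abs_sub_comm (fc F φ q)] at a7
  have a8 := mul_le_mul a2 a5 (abs_nonneg _) a4
  refine a7.trans ?_
  simp only [av1] at a1 a8 ⊢
  linarith

theorem UD.const {F : Set X} {V P r : ℝ} {e : X} {f : ℕ → X → ℝ} (h : UD F V P e r f) {s t : ℝ}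
    (hK : RectOK e r s t) (φ : ℝ) :
    ∃ k, ∀ᵐ q ∂(volume.restrict (rect s t)), fc F φ q / sin (π * (2 * hf e r q)) = k := by
  obtain ⟨S0, hS0, hS⟩ := UndoG_S h hK
  obtain ⟨i3, l3⟩ := UndoG_dl h hK
  obtain ⟨h0, h1⟩ := hK.hf_mem h.bin h.r0
  have hc := continuous_hf e r
  set η := hf e r (s, t) with hη
  have hne : ∀ q, max (hf e r q) η ≠ 0 := fun q => (h0.trans_le (le_max_right _ _)).ne'
  have hS' : ∀ q ∈ rect s t, sin (π * (2 * hf e r q)) ≠ 0 := fun q hq => (hS0.trans_le (hS q hq).2).ne'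
  have cb2 : Continuous fun q : Y => -(e.2.1 * q.1 / max (hf e r q) η) :=
    (Continuous.div (by fun_prop) (by fun_prop) hne).neg
  have cb3 : Continuous fun q : Y => -(e.2.2 * q.2 / max (hf e r q) η) :=
    (Continuous.div (by fun_prop) (by fun_prop) hne).neg
  have hg : ∀ n, ContDiff ℝ 1 fun p : X => f n p * cos (2 * π * p.1 + φ) := fun n =>
    (h.moll.sm n).mul (by fun_prop)
  have hΦ := fun n => av1_contDiff (hg n)
  have cA : ∀ {D : X → ℝ} {b : Y → ℝ}, Continuous D → Continuous b → ∀ n, ContinuousOn (fun q =>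
      (av1 (fun p => D p * cos (2 * π * p.1 + φ)) q * sin (π * (2 * hf e r q)) -
        av1 (fun p => f n p * cos (2 * π * p.1 + φ)) q * (π * cos (π * (2 * hf e r q)) * (2 * b q))) /
          sin (π * (2 * hf e r q)) ^ 2) (rect s t) := by
    intro D b hD hb n
    have c1 := continuous_av1 (f := fun p => D p * cos (2 * π * p.1 + φ)) (by fun_prop)
    have c2 := (hΦ n).continuous
    exact ContinuousOn.div (by fun_prop) (by fun_prop) fun q hq => pow_ne_zero 2 (hS' q hq)
  refine ae_const_of_deriv hK.1 hK.2.2.1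
    (H := fun n q => av1 (fun p => f n p * cos (2 * π * p.1 + φ)) q / sin (π * (2 * hf e r q)))
    (fun n => (hΦ n).continuous.continuousOn.div (by fun_prop) hS')
    (fun n => cA (continuous_d2 (h.moll.sm n)) cb2 n) (fun n => cA (continuous_d3 (h.moll.sm n)) cb3 n)
    ?_ ?_ ?_ ?_ (UndoG_lim h hK φ (fun n => continuous_d2 (h.moll.sm n)) cb2 ?_)
    (UndoG_lim h hK φ (fun n => continuous_d3 (h.moll.sm n)) cb3 ?_)
  · rintro n ⟨y, z⟩ hq
    have e1 : dx (av1 fun p => f n p * cos (2 * π * p.1 + φ)) (y, z) =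
        av1 (fun p => d2 (f n) p * cos (2 * π * p.1 + φ)) (y, z) := by
      rw [dx_av1 (hg n)]
      refine integral_congr_ae (Eventually.of_forall fun x => ?_)
      exact (hasDerivAt_d2 ((hg n).differentiable one_ne_zero _)).unique
        ((hasDerivAt_d2 ((h.moll.sm n).differentiable one_ne_zero (x, y, z))).mul_const (cos (2 * π * x + φ)))
    have d1 := hasDerivAt_dx ((hΦ n).differentiable one_ne_zero (y, z))
    have d2 : HasDerivAt (fun y => r ^ 2 - Qf e (y, z)) (-(e.2.1 * (2 * y))) y := by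
      have := ((((hasDerivAt_pow 2 y).const_mul e.2.1).add_const (e.2.2 * z ^ 2)).const_sub (r ^ 2))
      simpa [Qf] using this
    have d3 := (((d2.sqrt (sub_pos.2 (h1 _ hq).1).ne').const_mul 2).const_mul π).sin
    rw [e1] at d1
    refine (d1.div d3 (hS' _ hq)).congr_deriv ?_
    rw [max_eq_left (h1 _ hq).2.1]
    simp only [hf]; ring
  · rintro n ⟨y, z⟩ hq
    have e1 : dy (av1 fun p => f n p * cos (2 * π * p.1 + φ)) (y, z) =
        av1 (fun p => d3 (f n) p * cos (2 * π * p.1 + φ)) (y, z) := by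
      rw [dy_av1 (hg n)]
      refine integral_congr_ae (Eventually.of_forall fun x => ?_)
      exact (hasDerivAt_d3 ((hg n).differentiable one_ne_zero _)).unique
        ((hasDerivAt_d3 ((h.moll.sm n).differentiable one_ne_zero (x, y, z))).mul_const (cos (2 * π * x + φ)))
    have d1 := hasDerivAt_dy ((hΦ n).differentiable one_ne_zero (y, z))
    have d2 : HasDerivAt (fun z => r ^ 2 - Qf e (y, z)) (-(e.2.2 * (2 * z))) z := by
      have := ((((hasDerivAt_pow 2 z).const_mul e.2.2).const_add (e.2.1 * y ^ 2)).const_sub (r ^ 2))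
      simpa [Qf] using this
    have d3 := (((d2.sqrt (sub_pos.2 (h1 _ hq).1).ne').const_mul 2).const_mul π).sin
    rw [e1] at d1
    refine (d1.div d3 (hS' _ hq)).congr_deriv ?_
    rw [max_eq_left (h1 _ hq).2.1]
    simp only [hf]; ring
  · refine Measure.integrableOn_of_bounded (isCompact_rect s t).measure_lt_top.ne
      ((measurable_fc h.good.meas φ).div (by fun_prop)).aestronglyMeasurable (M := 1 / S0) ?_
    filter_upwards [ae_restrict_mem (measurableSet_rect s t)] with q hq
    rw [Real.norm_eq_abs, abs_div, abs_of_pos (hS0.trans_le (hS q hq).2)]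
    exact div_le_div₀ zero_le_one (abs_fc_le F φ q) hS0 (hS q hq).2
  · have L := l3.div_const S0
    rw [zero_div] at L
    refine squeeze_zero (fun n => integral_nonneg fun q => abs_nonneg _) (fun n => ?_) L
    rw [← integral_div]
    refine integral_mono_of_nonneg (Eventually.of_forall fun q => abs_nonneg _) ((i3 n).div_const _) ?_
    filter_upwards [ae_restrict_mem (measurableSet_rect s t)] with q hq
    rw [← sub_div, abs_div, abs_of_pos (hS0.trans_le (hS q hq).2)]
    exact div_le_div₀ (dl_mem F (h.moll.mem n) q).1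
      (abs_av1_sub_fc h.good.meas (h.moll.sm n).continuous φ q) hS0 (hS q hq).2
  · refine (h.par2 hK).congr fun n => setIntegral_congr_fun (measurableSet_rect s t) fun q hq => ?_
    simp only [max_eq_left (h1 _ hq).2.1, neg_mul, sub_neg_eq_add]
  · refine (h.par3 hK).congr fun n => setIntegral_congr_fun (measurableSet_rect s t) fun q hq => ?_
    simp only [max_eq_left (h1 _ hq).2.1, neg_mul, sub_neg_eq_add]

end Crest.Agent.R214
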